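import Mathlib

/-!
# R191 piece WALK: norm of the sum of the generators of a free group
-/

set_option autoImplicit false

namespace Crest.Agent.R191

open scoped Classical

/-- an equivariant map to the group, for a free action -/
theorem walk_cocycle {Ω G : Type} [Group G] [MulAction G Ω]
    (hfree : ∀ (f : G) (ω : Ω), f • ω = ω → f = 1) :
    ∃ F : Ω → G, ∀ (f : G) (ω : Ω), F (f • ω) = f * F ω := by
  let hS : Setoid Ω := MulAction.orbitRel G Ω
  let r : Ω → Ω := fun ω => Quotient.out (s := MulAction.orbitRel G Ω) (Quotient.mk _ ω)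
  have hr : ∀ ω, ∃ f : G, f • r ω = ω := by
    intro ω
    have h := Quotient.mk_out (s := MulAction.orbitRel G Ω) ω
    have h2 : (MulAction.orbitRel G Ω) ω (r ω) := Setoid.symm h
    rw [MulAction.orbitRel_apply] at h2
    exact h2
  have hr2 : ∀ (f : G) (ω : Ω), r (f • ω) = r ω := by
    intro f ω
    have : (Quotient.mk (MulAction.orbitRel G Ω) (f • ω)) = Quotient.mk _ ω := by
      apply Quotient.sound
      show (MulAction.orbitRel G Ω) (f • ω) ω
      rw [MulAction.orbitRel_apply]
      exact ⟨f, rfl⟩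
    show Quotient.out (s := MulAction.orbitRel G Ω) (Quotient.mk _ (f • ω)) = _
    rw [this]
  choose F hF using hr
  refine ⟨F, fun f ω => ?_⟩
  have h1 : F (f • ω) • r ω = (f * F ω) • r ω := by
    rw [mul_smul, hF ω, ← hr2 f ω, hF]
  have h2 : ((f * F ω)⁻¹ * F (f • ω)) • r ω = r ω := by
    rw [mul_smul, h1, inv_smul_smul]
  have h3 := hfree _ _ h2
  exact (inv_mul_eq_one.mp h3).symm

/-- first letters in a free group -/
theorem walk_first {g : ℕ} (i : Fin g) (f : FreeGroup (Fin g)) :
    ((FreeGroup.of i * f).toWord).head? = some (i, true) ∨ (f.toWord).head? = some (i, false) := by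
  have h : (FreeGroup.of i * f).toWord = FreeGroup.reduce ((i, true) :: f.toWord) := by
    conv_lhs => rw [← FreeGroup.mk_toWord (x := f)]
    rw [FreeGroup.of, FreeGroup.mul_mk, FreeGroup.toWord_mk]
    rfl
  rw [h, FreeGroup.reduce.cons, FreeGroup.reduce_toWord]
  cases hw : f.toWord with
  | nil => left; rfl
  | cons hd tl =>
    by_cases hc : i = hd.1 ∧ true = !hd.2
    · right
      obtain ⟨h1, h2⟩ := hc
      have h3 : hd.2 = false := by
        cases hh : hd.2 with
        | false => rfl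
        | true => rw [hh] at h2; simp at h2
      have : hd = (i, false) := by
        ext
        · rw [h1]
        · simp [h3]
      simp [this]
    · left
      simp only
      rw [if_neg hc]
      rfl

theorem walk_sum_le {Ω α : Type} (b : Ω →₀ ℝ) (T : Finset α) (f : α → Ω)
    (hf : Set.InjOn f T) : ∑ t ∈ T, (b (f t)) ^ 2 ≤ b.sum fun _ r => r ^ 2 := by
  have h1 : ∑ t ∈ T, (b (f t)) ^ 2 = ∑ ω ∈ T.image f, (b ω) ^ 2 := by
    rw [Finset.sum_image]
    intro x hx y hy hxy
    exact hf hx hy hxy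
  rw [h1, Finsupp.sum]
  have h2 : ∑ ω ∈ T.image f, (b ω) ^ 2 = ∑ ω ∈ (T.image f).filter (fun ω => ω ∈ b.support), (b ω) ^ 2 := by
    rw [Finset.sum_filter]
    apply Finset.sum_congr rfl
    intro ω _
    by_cases h : ω ∈ b.support
    · rw [if_pos h]
    · rw [if_neg h]
      rw [Finsupp.notMem_support_iff] at h
      rw [h]; simp
  rw [h2]
  apply Finset.sum_le_sum_of_subset_of_nonneg
  · intro ω hω
    exact (Finset.mem_filter.mp hω).2
  · intro ω _ _
    positivity

theorem walk_main {Ω : Type} {g : ℕ} [MulAction (FreeGroup (Fin g)) Ω]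
    (hfree : ∀ (f : FreeGroup (Fin g)) (ω : Ω), f • ω = ω → f = 1) (a b : Ω →₀ ℝ) :
    |∑ i : Fin g, a.sum fun ω r => r * b (FreeGroup.of i • ω)| ≤
      2 * Real.sqrt g * Real.sqrt (a.sum fun _ r => r ^ 2) *
        Real.sqrt (b.sum fun _ r => r ^ 2) := by
  obtain ⟨F, hF⟩ := walk_cocycle hfree
  set A : ℝ := a.sum fun _ r => r ^ 2 with hA
  set B : ℝ := b.sum fun _ r => r ^ 2 with hB
  have hA0 : 0 ≤ A := Finset.sum_nonneg fun _ _ => by positivity
  have hB0 : 0 ≤ B := Finset.sum_nonneg fun _ _ => by positivity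
  let S : Finset (Ω × Fin g) := a.support ×ˢ Finset.univ
  let P : Ω × Fin g → Prop := fun p =>
    ((F (FreeGroup.of p.2 • p.1)).toWord).head? = some (p.2, true)
  have hsum : ∑ i : Fin g, a.sum (fun ω r => r * b (FreeGroup.of i • ω)) =
      ∑ p ∈ S.filter P, a p.1 * b (FreeGroup.of p.2 • p.1) +
      ∑ p ∈ S.filter (fun p => ¬ P p), a p.1 * b (FreeGroup.of p.2 • p.1) := by
    rw [Finset.sum_filter_add_sum_filter_not]
    rw [Finset.sum_product_right]
    rfl
  -- the full sums
  have hSa : ∑ p ∈ S, (a p.1) ^ 2 = g * A := by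
    rw [Finset.sum_product_right]
    simp only [Finset.sum_const, Finset.card_univ, Fintype.card_fin, nsmul_eq_mul]
    rfl
  have hSb : ∑ p ∈ S, (b (FreeGroup.of p.2 • p.1)) ^ 2 ≤ g * B := by
    rw [Finset.sum_product_right]
    calc ∑ i : Fin g, ∑ ω ∈ a.support, (b (FreeGroup.of i • ω)) ^ 2
        ≤ ∑ i : Fin g, B := by
          apply Finset.sum_le_sum
          intro i _
          exact walk_sum_le b _ _ (fun x _ y _ hxy => by simpa using hxy)
      _ = g * B := by simp
  -- the positive part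
  have h1b : ∑ p ∈ S.filter P, (b (FreeGroup.of p.2 • p.1)) ^ 2 ≤ B := by
    apply walk_sum_le b _ (fun p : Ω × Fin g => FreeGroup.of p.2 • p.1)
    intro p hp q hq hpq
    have hp' : P p := (Finset.mem_filter.mp hp).2
    have hq' : P q := (Finset.mem_filter.mp hq).2
    simp only at hpq
    simp only [P] at hp' hq'
    rw [hpq, hq'] at hp'
    have h2 : p.2 = q.2 := by
      have := Option.some_injective _ hp'
      exact (Prod.ext_iff.mp this).1.symm
    rw [h2] at hpq
    have h1 : p.1 = q.1 := by simpa using hpq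
    exact Prod.ext h1 h2
  have h1a : ∑ p ∈ S.filter P, (a p.1) ^ 2 ≤ g * A := by
    rw [← hSa]
    apply Finset.sum_le_sum_of_subset_of_nonneg (Finset.filter_subset _ _)
    intro p _ _
    positivity
  have h2b : ∑ p ∈ S.filter (fun p => ¬ P p), (b (FreeGroup.of p.2 • p.1)) ^ 2 ≤ g * B := by
    refine le_trans ?_ hSb
    apply Finset.sum_le_sum_of_subset_of_nonneg (Finset.filter_subset _ _)
    intro p _ _
    positivity
  have h2a : ∑ p ∈ S.filter (fun p => ¬ P p), (a p.1) ^ 2 ≤ A := by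
    apply walk_sum_le a _ (fun p : Ω × Fin g => p.1)
    intro p hp q hq hpq
    have hp' : ¬ P p := (Finset.mem_filter.mp hp).2
    have hq' : ¬ P q := (Finset.mem_filter.mp hq).2
    simp only at hpq
    simp only [P, hF] at hp' hq'
    have hp2 := (walk_first p.2 (F p.1)).resolve_left hp'
    have hq2 := (walk_first q.2 (F q.1)).resolve_left hq'
    rw [hpq, hq2] at hp2
    have h2 : p.2 = q.2 := by
      have := Option.some_injective _ hp2
      exact (Prod.ext_iff.mp this).1.symm
    exact Prod.ext hpq h2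
  have cs : ∀ T : Finset (Ω × Fin g), ∀ x y : ℝ, ∑ p ∈ T, (a p.1) ^ 2 ≤ x →
      ∑ p ∈ T, (b (FreeGroup.of p.2 • p.1)) ^ 2 ≤ y →
      |∑ p ∈ T, a p.1 * b (FreeGroup.of p.2 • p.1)| ≤ Real.sqrt x * Real.sqrt y := by
    intro T x y hx hy
    have h := Finset.sum_mul_sq_le_sq_mul_sq T (fun p => a p.1)
      (fun p => b (FreeGroup.of p.2 • p.1))
    have hx0 : 0 ≤ ∑ p ∈ T, (a p.1) ^ 2 := Finset.sum_nonneg fun _ _ => by positivity
    have hy0 : 0 ≤ ∑ p ∈ T, (b (FreeGroup.of p.2 • p.1)) ^ 2 :=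
      Finset.sum_nonneg fun _ _ => by positivity
    rw [← Real.sqrt_mul (le_trans hx0 hx)]
    apply Real.abs_le_sqrt
    exact le_trans h (mul_le_mul hx hy hy0 (le_trans hx0 hx))
  rw [hsum]
  have e1 := cs _ _ _ h1a h1b
  have e2 := cs _ _ _ h2a h2b
  refine le_trans (abs_add_le _ _) (le_trans (add_le_add e1 e2) (le_of_eq ?_))
  rw [Real.sqrt_mul (Nat.cast_nonneg g), Real.sqrt_mul (Nat.cast_nonneg g)]
  ring

end Crest.Agent.R191
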