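import Crest.Agent.R191.Defs
import Crest.Agent.R191.Walk

/-!
# R191 pieces BERN, WALK, SGCYL, SGB: the Bernoulli shift
-/

set_option autoImplicit false

namespace Crest.Agent.R191

open MeasureTheory
open scoped ENNReal

/-- the fair coin -/
noncomputable def coin : Measure Bool :=
  (1 / 2 : ℝ≥0∞) • Measure.dirac true + (1 / 2 : ℝ≥0∞) • Measure.dirac false

instance coin_prob : IsProbabilityMeasure coin := by
  refine ⟨?_⟩
  simp [coin, ENNReal.inv_two_add_inv_two]

/-- the Bernoulli space -/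
def Bern (Γ : Type) : Type := Γ → Bool

variable (Γ : Type)

instance : MeasurableSpace (Bern Γ) := inferInstanceAs (MeasurableSpace (Γ → Bool))

instance [Countable Γ] : StandardBorelSpace (Bern Γ) :=
  inferInstanceAs (StandardBorelSpace (Γ → Bool))

/-- the Bernoulli measure -/
noncomputable def bernM : Measure (Bern Γ) := Measure.infinitePi fun _ : Γ => coin

instance : IsProbabilityMeasure (bernM Γ) :=
  inferInstanceAs (IsProbabilityMeasure (Measure.infinitePi fun _ : Γ => coin))

/-- the shift `(γ • x) h = x (γ⁻¹ h)` -/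
instance [Group Γ] : MulAction Γ (Bern Γ) where
  smul γ x := fun h => x (γ⁻¹ * h)
  one_smul x := by
    funext h
    show x (1⁻¹ * h) = x h
    simp
  mul_smul γ γ' x := by
    funext h
    show x ((γ * γ')⁻¹ * h) = x (γ'⁻¹ * (γ⁻¹ * h))
    simp [mul_assoc]

theorem bern_smul [Group Γ] (γ : Γ) (x : Bern Γ) (h : Γ) : (γ • x) h = x (γ⁻¹ * h) := rfl

variable {Γ}

theorem coin_singleton (b : Bool) : coin {b} = 1 / 2 := by
  cases b <;> simp [coin]

theorem bern_mp [Group Γ] (γ : Γ) :
    MeasurePreserving (fun x : Bern Γ => γ • x) (bernM Γ) (bernM Γ) := by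
  have h := Measure.infinitePi_map_piCongrLeft (X := fun _ : Γ => Bool) (μ := fun _ : Γ => coin)
    (Equiv.mulLeft γ)
  have e : (fun x : Bern Γ => γ • x) =
      ⇑(MeasurableEquiv.piCongrLeft (fun _ : Γ => Bool) (Equiv.mulLeft γ)) := by
    funext x h
    obtain ⟨k, rfl⟩ := (Equiv.mulLeft γ).surjective h
    have h2 := Equiv.piCongrLeft_apply_apply (fun _ : Γ => Bool) (Equiv.mulLeft γ) x k
    exact (congrArg (x : Γ → Bool) (inv_mul_cancel_left γ k)).trans h2.symm
  refine ⟨?_, ?_⟩
  · rw [e]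
    exact (MeasurableEquiv.piCongrLeft (fun _ : Γ => Bool) (Equiv.mulLeft γ)).measurable
  · rw [e]
    exact h

theorem bern_exists_sep [Group Γ] [Infinite Γ] [DecidableEq Γ] {γ : Γ} (hγ : γ ≠ 1) (k : ℕ) :
    ∃ S : Finset Γ, S.card = k ∧ Disjoint S (S.image fun h => γ⁻¹ * h) := by
  induction k with
  | zero => exact ⟨∅, rfl, by simp⟩
  | succ k ih =>
    obtain ⟨S, hS, hd⟩ := ih
    obtain ⟨h, hh⟩ := Infinite.exists_notMem_finset
      (S ∪ (S.image fun h => γ⁻¹ * h) ∪ (S.image fun h => γ * h))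
    simp only [Finset.mem_union, Finset.mem_image, not_or, not_exists, not_and] at hh
    obtain ⟨⟨h1, h2⟩, h3⟩ := hh
    refine ⟨insert h S, by rw [Finset.card_insert_of_notMem h1, hS], ?_⟩
    rw [Finset.disjoint_left] at hd ⊢
    intro a ha ha'
    rw [Finset.mem_image] at ha'
    obtain ⟨b, hb, hba⟩ := ha'
    rw [Finset.mem_insert] at ha hb
    rcases ha with rfl | ha
    · rcases hb with rfl | hb
      · apply hγ
        have : γ⁻¹ = 1 := by
          have := mul_right_cancel (b := b) (a := γ⁻¹) (c := 1) (by rw [one_mul]; exact hba)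
          exact this
        simpa using this
      · exact h2 b hb hba
    · rcases hb with rfl | hb
      · exact h3 a ha (by rw [← hba, mul_inv_cancel_left])
      · exact hd ha (Finset.mem_image.2 ⟨b, hb, hba⟩)

theorem bern_fix_le [Group Γ] {γ : Γ} [DecidableEq Γ] (S : Finset Γ)
    (hS : Disjoint S (S.image fun h => γ⁻¹ * h)) :
    bernM Γ {x : Bern Γ | γ • x = x} ≤ (1 / 2 : ℝ≥0∞) ^ S.card := by
  let t : (S → Bool) → Γ → Set Bool := fun b k =>
    if hk : k ∈ S then {b ⟨k, hk⟩} else if hk' : γ * k ∈ S then {b ⟨γ * k, hk'⟩} else Set.univ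
  let box : (S → Bool) → Set (Bern Γ) := fun b =>
    {x | ∀ k ∈ (S ∪ S.image fun h => γ⁻¹ * h), x k ∈ t b k}
  have hsub : {x : Bern Γ | γ • x = x} ⊆ ⋃ b : S → Bool, box b := by
    intro x hx
    rw [Set.mem_iUnion]
    refine ⟨fun k => x k.1, ?_⟩
    intro k hk
    have hx' : ∀ h, x (γ⁻¹ * h) = x h := fun h => congrFun hx h
    rw [Finset.mem_union] at hk
    by_cases h1 : k ∈ S
    · simp [t, h1]
    · have h2 := hk.resolve_left h1
      obtain ⟨h, hh, rfl⟩ := Finset.mem_image.1 h2
      have h3 : γ * (γ⁻¹ * h) ∈ S := by rw [mul_inv_cancel_left]; exact hh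
      simp only [t, h1, h3, dif_neg, dif_pos, not_false_iff, Set.mem_singleton_iff]
      rw [hx' h, mul_inv_cancel_left]
  have hbox : ∀ b : S → Bool, bernM Γ (box b) = (1 / 2 : ℝ≥0∞) ^ (2 * S.card) := by
    intro b
    have h0 : bernM Γ (box b) = ∏ k ∈ (S ∪ S.image fun h => γ⁻¹ * h), coin (t b k) :=
      Measure.infinitePi_pi (fun _ : Γ => coin) (s := S ∪ S.image fun h => γ⁻¹ * h) (t := t b)
        (fun k _ => MeasurableSet.of_discrete)
    rw [h0]
    have hc : ∀ k ∈ (S ∪ S.image fun h => γ⁻¹ * h), coin (t b k) = 1 / 2 := by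
      intro k hk
      rw [Finset.mem_union] at hk
      by_cases h1 : k ∈ S
      · simp only [t, h1, dif_pos]
        exact coin_singleton _
      · have h2 := hk.resolve_left h1
        obtain ⟨h, hh, rfl⟩ := Finset.mem_image.1 h2
        have h3 : γ * (γ⁻¹ * h) ∈ S := by rw [mul_inv_cancel_left]; exact hh
        simp only [t, h1, h3, dif_neg, dif_pos, not_false_iff]
        exact coin_singleton _
    rw [Finset.prod_congr rfl hc, Finset.prod_const, Finset.card_union_of_disjoint hS,
      Finset.card_image_of_injective _ (mul_right_injective γ⁻¹), two_mul]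
  calc bernM Γ {x : Bern Γ | γ • x = x}
      ≤ bernM Γ (⋃ b : S → Bool, box b) := measure_mono hsub
    _ ≤ ∑' b : S → Bool, bernM Γ (box b) := measure_iUnion_le _
    _ = (2 : ℝ≥0∞) ^ S.card * (1 / 2 : ℝ≥0∞) ^ (2 * S.card) := by
        rw [tsum_fintype, Finset.sum_congr rfl fun b _ => hbox b, Finset.sum_const,
          Finset.card_univ, Fintype.card_fun, Fintype.card_bool, Fintype.card_coe, nsmul_eq_mul]
        push_cast
        rfl
    _ = (1 / 2 : ℝ≥0∞) ^ S.card := by
        rw [two_mul, pow_add, ← mul_assoc, ← mul_pow]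
        have : (2 : ℝ≥0∞) * (1 / 2) = 1 := by
          rw [one_div]
          exact ENNReal.mul_inv_cancel (by norm_num) (by norm_num)
        rw [this, one_pow, one_mul]

/-- BERN1: the shift is a free pmp action (`eq_infinitePi` / `infinitePi_map_piCongrLeft`; for
`γ ≠ 1` choose infinitely many disjoint pairs `{h, γ⁻¹ h}`, on each of which `x` must be constant:
`{x | γ • x = x}` has measure `≤ 2^{-k}`). -/
theorem bern_free [Group Γ] [Countable Γ] [Infinite Γ] :
    Crest.Dynamics.IsFreePMPAction Γ (Bern Γ) (bernM Γ) := by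
  classical
  refine ⟨bern_mp, fun γ hγ => ?_⟩
  have h : ∀ k : ℕ, bernM Γ {x : Bern Γ | γ • x = x} ≤ (1 / 2 : ℝ≥0∞) ^ k := by
    intro k
    obtain ⟨S, hS, hd⟩ := bern_exists_sep hγ k
    rw [← hS]
    exact bern_fix_le S hd
  refine le_antisymm (ge_of_tendsto' (ENNReal.tendsto_pow_atTop_nhds_zero_of_lt_one ?_) h)
    bot_le
  rw [one_div]
  exact ENNReal.inv_lt_one.2 (by norm_num)

/-- BERN2: marker sets. `A = {x | x (t^j) = true for 0 ≤ j < k}`, `μ A = 2^{-k}`; the events
`t^{-mk} • x ∈ A`, `m = 0, 1, …`, depend on disjoint blocks of coordinates, so a.s. one of them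
occurs. -/
theorem bern_marker [Group Γ] [Countable Γ] (t : Γ) (ht : ∀ n : ℕ, 0 < n → t ^ n ≠ 1)
    (ε : ℝ≥0∞) (hε : 0 < ε) :
    ∃ A : Set (Bern Γ), MeasurableSet A ∧ bernM Γ A ≤ ε ∧
      ∀ᵐ x ∂(bernM Γ), ∃ n : ℤ, t ^ n • x ∈ A := by
  classical
  have hmc : ∀ S : Finset Γ, MeasurableSet {x : Bern Γ | ∀ h ∈ S, x h = true} := by
    intro S
    have : {x : Bern Γ | ∀ h ∈ S, x h = true} = ⋂ h ∈ S, (fun x : Bern Γ => x h) ⁻¹' {true} := by
      ext x; simp
    rw [this]
    exact Finset.measurableSet_biInter _ fun h _ =>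
      (measurable_pi_apply (X := fun _ : Γ => Bool) h) (MeasurableSet.singleton _)
  have hcoin : coin {true} = 1 / 2 := by simp [coin]
  have hcyl : ∀ S : Finset Γ, bernM Γ {x : Bern Γ | ∀ h ∈ S, x h = true} = (1 / 2) ^ S.card := by
    intro S
    have h1 := Measure.infinitePi_pi (μ := fun _ : Γ => coin) (s := S) (t := fun _ => {true})
      (fun _ _ => MeasurableSet.singleton _)
    rw [Finset.prod_congr rfl (fun i _ => hcoin), Finset.prod_const] at h1
    rw [← h1]
    rfl
  have hinj : Function.Injective fun n : ℕ => t ^ n := by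
    intro n m hnm
    by_contra hne
    rcases lt_or_gt_of_ne hne with h | h
    · refine ht (m - n) (Nat.sub_pos_of_lt h) ?_
      have h1 : t ^ n * t ^ (m - n) = t ^ n * 1 := by
        rw [← pow_add, Nat.add_sub_cancel' h.le, mul_one]; exact hnm.symm
      exact mul_left_cancel h1
    · refine ht (n - m) (Nat.sub_pos_of_lt h) ?_
      have h1 : t ^ m * t ^ (n - m) = t ^ m * 1 := by
        rw [← pow_add, Nat.add_sub_cancel' h.le, mul_one]; exact hnm
      exact mul_left_cancel h1
  obtain ⟨k, hk⟩ : ∃ k : ℕ, (1 / 2 : ℝ≥0∞) ^ k ≤ ε := by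
    have h1 := ENNReal.tendsto_pow_atTop_nhds_zero_of_lt_one (r := (1 / 2 : ℝ≥0∞))
      (by rw [one_div]; exact ENNReal.one_half_lt_one)
    exact (h1.eventually_le_const hε).exists
  let blk : ℕ → Finset Γ := fun m => (Finset.range k).image fun j => t ^ (m * k + j)
  have hblk : ∀ m, (blk m).card = k := by
    intro m
    rw [Finset.card_image_of_injOn, Finset.card_range]
    intro a _ b _ hab
    have := hinj hab
    simpa using this
  let B : ℕ → Set (Bern Γ) := fun m => {x | ∀ h ∈ blk m, x h = true}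
  have hBm : ∀ m, MeasurableSet (B m) := fun m => hmc _
  have hBμ : ∀ m, bernM Γ (B m) = (1 / 2) ^ k := by
    intro m
    rw [hcyl, hblk]
  have hdis : ∀ S : Finset ℕ, ((S : Set ℕ)).PairwiseDisjoint blk := by
    intro S m _ m' _ hmm
    show Disjoint (blk m) (blk m')
    rw [Finset.disjoint_left]
    intro h h1 h2
    obtain ⟨j, hj, rfl⟩ := Finset.mem_image.1 h1
    obtain ⟨j', hj', h3⟩ := Finset.mem_image.1 h2
    have h4 : m' * k + j' = m * k + j := hinj h3
    rw [Finset.mem_range] at hj hj'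
    apply hmm
    have h5 : (m' * k + j') / k = m' := by
      rw [mul_comm, Nat.mul_add_div (by omega), Nat.div_eq_of_lt hj', add_zero]
    have h6 : (m * k + j) / k = m := by
      rw [mul_comm, Nat.mul_add_div (by omega), Nat.div_eq_of_lt hj, add_zero]
    rw [← h6, ← h4, h5]
  have hind : ProbabilityTheory.iIndepSet B (bernM Γ) := by
    rw [ProbabilityTheory.iIndepSet_iff_meas_biInter hBm]
    intro S
    have h1 : (⋂ m ∈ S, B m) = {x : Bern Γ | ∀ h ∈ S.biUnion blk, x h = true} := by
      ext x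
      simp only [B, Set.mem_iInter, Set.mem_ofPred_eq, Finset.mem_biUnion]
      constructor
      · rintro h y ⟨m, hm, hy⟩
        exact h m hm y hy
      · intro h m hm y hy
        exact h y ⟨m, hm, hy⟩
    rw [h1, hcyl, Finset.card_biUnion (fun a ha b hb hab => hdis S ha hb hab),
      Finset.sum_congr rfl (fun m _ => hblk m), Finset.prod_congr rfl (fun m _ => hBμ m),
      Finset.sum_const, Finset.prod_const, smul_eq_mul, mul_comm, pow_mul]
  have hsum : ∑' m, bernM Γ (B m) = ⊤ := by
    simp_rw [hBμ]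
    refine ENNReal.tsum_const_eq_top_of_ne_zero ?_
    exact pow_ne_zero _ (by simp)
  have hlim := ProbabilityTheory.measure_limsup_eq_one hBm hind hsum
  have hae : ∀ᵐ x ∂(bernM Γ), x ∈ Filter.limsup B Filter.atTop := by
    rw [← prob_compl_eq_zero_iff₀] at hlim
    · exact hlim
    · exact (MeasurableSet.measurableSet_limsup hBm).nullMeasurableSet
  refine ⟨B 0, hBm 0, by rw [hBμ]; exact hk, ?_⟩
  filter_upwards [hae] with x hx
  rw [Filter.mem_limsup_iff_frequently_mem] at hx
  obtain ⟨m, hm⟩ := hx.exists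
  refine ⟨-((m * k : ℕ) : ℤ), ?_⟩
  intro h hh
  obtain ⟨j, hj, rfl⟩ := Finset.mem_image.1 hh
  rw [bern_smul]
  have h2 : (t ^ (-((m * k : ℕ) : ℤ)))⁻¹ * t ^ (0 * k + j) = t ^ (m * k + j) := by
    rw [zpow_neg, inv_inv, zpow_natCast, ← pow_add, zero_mul, zero_add]
  show x ((t ^ (-((m * k : ℕ) : ℤ)))⁻¹ * t ^ (0 * k + j)) = true
  rw [h2]
  exact hm _ (Finset.mem_image.2 ⟨j, hj, rfl⟩)

/-- BERN3: partitions into small sets (cylinders) -/
theorem bern_small [Infinite Γ] (ε : ℝ) (hε : 0 < ε) :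
    ∃ (N : ℕ) (P : Fin N → Set (Bern Γ)), (∀ j, MeasurableSet (P j)) ∧
      (⋃ j, P j) = Set.univ ∧ ∀ j, bernM Γ (P j) ≤ ENNReal.ofReal ε := by
  classical
  obtain ⟨k, hk⟩ : ∃ k : ℕ, (1 / 2 : ℝ≥0∞) ^ k ≤ ENNReal.ofReal ε := by
    have h1 := ENNReal.tendsto_pow_atTop_nhds_zero_of_lt_one (r := (1 / 2 : ℝ≥0∞))
      (by rw [one_div]; exact ENNReal.one_half_lt_one)
    exact (h1.eventually_le_const (ENNReal.ofReal_pos.2 hε)).exists
  obtain ⟨S, hS⟩ := Infinite.exists_subset_card_eq Γ k
  let e := (Fintype.equivFin (S → Bool)).symm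
  have hcoin : ∀ b : Bool, coin {b} = 1 / 2 := by
    intro b; cases b <;> simp [coin]
  refine ⟨Fintype.card (S → Bool), fun j => {x | ∀ h : S, x h = e j h}, ?_, ?_, ?_⟩
  · intro j
    have : {x : Bern Γ | ∀ h : S, x h = e j h} =
        ⋂ h : S, (fun x : Bern Γ => x h) ⁻¹' {e j h} := by
      ext x; simp
    show MeasurableSet {x : Bern Γ | ∀ h : S, x h = e j h}
    rw [this]
    exact MeasurableSet.iInter fun h =>
      (measurable_pi_apply (X := fun _ : Γ => Bool) (h : Γ)) (MeasurableSet.singleton _)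
  · rw [Set.eq_univ_iff_forall]
    intro x
    rw [Set.mem_iUnion]
    refine ⟨e.symm fun h => x h, ?_⟩
    intro h
    rw [Equiv.apply_symm_apply]
  · intro j
    refine le_trans (le_of_eq ?_) hk
    have h1 := Measure.infinitePi_pi (μ := fun _ : Γ => coin) (s := S)
      (t := fun i => if h : i ∈ S then {e j ⟨i, h⟩} else Set.univ)
      (fun i hi => by simp only [hi, dif_pos]; exact MeasurableSet.singleton _)
    have h2 : ∀ i ∈ S, coin (if h : i ∈ S then {e j ⟨i, h⟩} else Set.univ) = 1 / 2 := by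
      intro i hi
      simp only [hi, dif_pos]
      exact hcoin _
    rw [Finset.prod_congr rfl h2, Finset.prod_const, hS] at h1
    rw [← h1]
    show Measure.infinitePi (fun _ : Γ => coin) _ = _
    congr 1
    ext x
    constructor
    · intro hx i hi
      have hi' : i ∈ S := hi
      simp only [hi', dif_pos]
      exact hx ⟨i, hi'⟩
    · intro hx h
      have := hx h h.2
      simpa using this

/-- WALK.  For a free action of the free group with basis `s_1, …, s_g`:
`|∑_i ∑_ω a(ω) b(s_i ω)| ≤ 2 √g ‖a‖ ‖b‖`.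

Choose representatives: `ω = f_ω • rep`.  Split the pairs `(ω, i)`: (+) the reduced word of
`s_i f_ω` starts with `(i,true)`; (-) otherwise; then the reduced word of `f_ω` starts with
`(i,false)`.
(+): `∑ ≤ ∑_ω |a ω| √g (∑_i b(s_i ω)² 1₊)^{1/2} ≤ √g ‖a‖ ‖b‖` because an element `ω' = s_i ω` with
`f_ω'` starting with `(i,true)` comes from exactly one pair.
(-): symmetric, `∑_{ω'} |b ω'| ∑_i |a (s_i⁻¹ ω')| 1[f_{s_i⁻¹ω'} starts with (i,false)]`. -/
theorem walk {Ω : Type} {g : ℕ} [MulAction (FreeGroup (Fin g)) Ω]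
    (hfree : ∀ (f : FreeGroup (Fin g)) (ω : Ω), f • ω = ω → f = 1) (a b : Ω →₀ ℝ) :
    |∑ i : Fin g, a.sum fun ω r => r * b (FreeGroup.of i • ω)| ≤
      2 * Real.sqrt g * Real.sqrt (a.sum fun _ r => r ^ 2) *
        Real.sqrt (b.sum fun _ r => r ^ 2) := by
  exact walk_main hfree a b

/-- Walsh functions -/
def walsh (S : Finset Γ) (x : Bern Γ) : ℝ := ∏ h ∈ S, if x h = true then (-1 : ℝ) else 1

theorem walsh_smul [Group Γ] [DecidableEq Γ] (S : Finset Γ) (γ : Γ) (x : Bern Γ) :
    walsh S (γ⁻¹ • x) = walsh (S.image fun h => γ * h) x := by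
  unfold walsh
  rw [Finset.prod_image]
  · refine Finset.prod_congr rfl fun h _ => ?_
    rw [bern_smul, inv_inv]
  · intro a _ b _ h
    exact mul_left_cancel h

theorem walsh_empty (x : Bern Γ) : walsh (∅ : Finset Γ) x = 1 := by
  simp [walsh]

theorem walsh_mul_self (S : Finset Γ) (x : Bern Γ) : walsh S x * walsh S x = 1 := by
  unfold walsh
  rw [← Finset.prod_mul_distrib]
  refine Finset.prod_eq_one fun h _ => ?_
  split_ifs <;> norm_num

theorem walsh_mul [DecidableEq Γ] (S T : Finset Γ) (x : Bern Γ) :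
    walsh S x * walsh T x = walsh (symmDiff S T) x := by
  have h1 : walsh S x = walsh (S \ T) x * walsh (S ∩ T) x := by
    unfold walsh
    rw [← Finset.prod_union (Finset.disjoint_sdiff_inter S T), Finset.sdiff_union_inter]
  have h2 : walsh T x = walsh (T \ S) x * walsh (S ∩ T) x := by
    unfold walsh
    rw [Finset.inter_comm, ← Finset.prod_union (Finset.disjoint_sdiff_inter T S),
      Finset.sdiff_union_inter]
  have h3 : walsh (symmDiff S T) x = walsh (S \ T) x * walsh (T \ S) x := by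
    unfold walsh
    rw [← Finset.prod_union]
    · rfl
    · exact disjoint_sdiff_sdiff
  rw [h1, h2, h3]
  have := walsh_mul_self (S ∩ T) x
  linear_combination (walsh (S \ T) x * walsh (T \ S) x) * this

theorem measurable_walsh (S : Finset Γ) : Measurable (walsh S : Bern Γ → ℝ) := by
  unfold walsh
  refine Finset.measurable_prod _ fun h _ => ?_
  have h1 : Measurable fun x : Bern Γ => x h := measurable_pi_apply h
  exact (measurable_of_countable (fun b : Bool => if b = true then (-1 : ℝ) else 1)).comp h1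

theorem abs_walsh (S : Finset Γ) (x : Bern Γ) : |walsh S x| = 1 := by
  have := walsh_mul_self S x
  rcases mul_self_eq_one_iff.1 this with h | h <;> simp [h]

theorem integral_walsh (S : Finset Γ) (hS : S.Nonempty) :
    ∫ x, walsh S x ∂(bernM Γ) = 0 := by
  have h1 : ∀ x : Bern Γ, walsh S x =
      (fun y : S → Bool => ∏ h : S, (if y h = true then (-1 : ℝ) else 1)) (S.restrict x) := by
    intro x
    unfold walsh
    rw [← Finset.prod_coe_sort]
    rfl
  rw [integral_congr_ae (Filter.Eventually.of_forall h1)]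
  unfold bernM
  have h2 := integral_restrict_infinitePi (μ := fun _ : Γ => coin) (s := S)
    (f := fun y : S → Bool => ∏ h : S, (if y h = true then (-1 : ℝ) else 1)) ?_
  · refine h2.trans ?_
    rw [integral_fintype_prod_eq_prod (f := fun (_ : S) (b : Bool) => if b = true then (-1 : ℝ) else 1)]
    obtain ⟨h, hh⟩ := hS
    refine Finset.prod_eq_zero (Finset.mem_univ (⟨h, hh⟩ : S)) ?_
    have i1 : IsFiniteMeasure ((1 / 2 : ℝ≥0∞) • Measure.dirac true : Measure Bool) :=
      Measure.smul_finite _ (by simp)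
    have i2 : IsFiniteMeasure ((1 / 2 : ℝ≥0∞) • Measure.dirac false : Measure Bool) :=
      Measure.smul_finite _ (by simp)
    unfold coin
    rw [integral_add_measure (Integrable.of_finite) (Integrable.of_finite)]
    simp
  · exact (measurable_of_countable _).aestronglyMeasurable

theorem integrable_walsh (S : Finset Γ) : Integrable (walsh S) (bernM Γ) := by
  refine Integrable.of_bound (measurable_walsh S).aestronglyMeasurable 1 ?_
  exact Filter.Eventually.of_forall fun x => by rw [Real.norm_eq_abs, abs_walsh]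

/-- orthonormality -/
theorem walsh_int [DecidableEq Γ] (S T : Finset Γ) :
    ∫ x, walsh S x * walsh T x ∂(bernM Γ) = if S = T then 1 else 0 := by
  rw [integral_congr_ae (Filter.Eventually.of_forall (walsh_mul S T))]
  split_ifs with h
  · subst h
    rw [symmDiff_self]
    simp [walsh_empty, Finset.bot_eq_empty]
  · refine integral_walsh _ ?_
    rw [Finset.nonempty_iff_ne_empty]
    intro h'
    exact h (symmDiff_eq_bot.1 h')

open scoped Classical in
/-- change one coordinate -/
noncomputable def setc (h : Γ) (b : Bool) (x : Bern Γ) : Bern Γ := fun k => if k = h then b else x k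

theorem setc_self (h : Γ) (x : Bern Γ) (b : Bool) (hb : x h = b) : setc h b x = x := by
  funext k
  unfold setc
  split_ifs with hk
  · rw [hk, hb]
  · rfl

theorem setc_congr {Λ : Finset Γ} (h : Γ) (b : Bool) {x y : Bern Γ} (hxy : ∀ k ∈ Λ, x k = y k) :
    ∀ k, (k = h ∨ k ∈ Λ) → setc h b x k = setc h b y k := by
  intro k hk
  unfold setc
  split_ifs with h1
  · rfl
  · exact hxy k (hk.resolve_left h1)

/-- a function of finitely many coordinates is a finite combination of Walsh functions -/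
theorem walsh_expand (Λ : Finset Γ) (u : Bern Γ → ℝ)
    (hu : ∀ x y : Bern Γ, (∀ h ∈ Λ, x h = y h) → u x = u y) :
    ∃ c : Finset Γ →₀ ℝ, ∀ x, u x = c.sum fun S r => r * walsh S x := by
  classical
  suffices H : u ∈ Submodule.span ℝ (Set.range (walsh : Finset Γ → Bern Γ → ℝ)) by
    obtain ⟨c, hc⟩ := (Finsupp.mem_span_range_iff_exists_finsupp).1 H
    refine ⟨c, fun x => ?_⟩
    rw [← hc]
    simp [Finsupp.sum, Finset.sum_apply]
  have hmul : ∀ (h : Γ) (v : Bern Γ → ℝ),
      v ∈ Submodule.span ℝ (Set.range (walsh : Finset Γ → Bern Γ → ℝ)) →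
      (fun x => walsh {h} x * v x) ∈
        Submodule.span ℝ (Set.range (walsh : Finset Γ → Bern Γ → ℝ)) := by
    intro h v hv
    induction hv using Submodule.span_induction with
    | mem v hv =>
      obtain ⟨S, rfl⟩ := hv
      refine Submodule.subset_span ⟨symmDiff {h} S, ?_⟩
      funext x
      exact (walsh_mul _ _ x).symm
    | zero =>
      have := Submodule.zero_mem (Submodule.span ℝ (Set.range (walsh : Finset Γ → Bern Γ → ℝ)))
      convert this using 1
      funext x
      simp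
    | add v w _ _ h1 h2 =>
      have := Submodule.add_mem _ h1 h2
      convert this using 1
      funext x
      simp [mul_add]
    | smul r v _ h1 =>
      have := Submodule.smul_mem _ r h1
      convert this using 1
      funext x
      simp
      ring
  induction Λ using Finset.induction_on generalizing u with
  | empty =>
    have h0 : u = (u fun _ => true) • (walsh (∅ : Finset Γ)) := by
      funext x
      simp [walsh_empty, hu x (fun _ => true) (by simp)]
    rw [h0]
    exact Submodule.smul_mem _ _ (Submodule.subset_span ⟨∅, rfl⟩)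
  | insert h Λ hh ih =>
    have h1 := ih (fun x => u (setc h true x)) (fun x y hxy =>
      hu _ _ fun k hk => setc_congr h true hxy k (Finset.mem_insert.1 hk))
    have h2 := ih (fun x => u (setc h false x)) (fun x y hxy =>
      hu _ _ fun k hk => setc_congr h false hxy k (Finset.mem_insert.1 hk))
    have h3 := Submodule.smul_mem _ (1 / 2 : ℝ) (Submodule.add_mem _
      (Submodule.sub_mem _ h1 (hmul h _ h1)) (Submodule.add_mem _ h2 (hmul h _ h2)))
    convert h3 using 1
    funext x
    have hw : walsh {h} x = if x h = true then (-1 : ℝ) else 1 := by simp [walsh]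
    simp only [Pi.smul_apply, Pi.add_apply, Pi.sub_apply, smul_eq_mul, hw]
    by_cases hx : x h = true
    · rw [if_pos hx, setc_self h x true hx]
      ring
    · rw [if_neg hx, setc_self h x false (by simpa using hx)]
      ring

theorem walsh_sum_int [DecidableEq Γ] (a b : Finset Γ →₀ ℝ) :
    ∫ x, (a.sum fun S r => r * walsh S x) * (b.sum fun S r => r * walsh S x) ∂(bernM Γ) =
      b.sum fun S r => r * a S := by
  have h1 : ∀ x : Bern Γ, (a.sum fun S r => r * walsh S x) * (b.sum fun S r => r * walsh S x) =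
      ∑ T ∈ b.support, ∑ S ∈ a.support, a S * b T * walsh (symmDiff S T) x := by
    intro x
    unfold Finsupp.sum
    rw [Finset.sum_mul_sum, Finset.sum_comm]
    refine Finset.sum_congr rfl fun T _ => Finset.sum_congr rfl fun S _ => ?_
    rw [← walsh_mul]
    ring
  rw [integral_congr_ae (Filter.Eventually.of_forall h1)]
  rw [integral_finsetSum _ fun T _ => integrable_finsetSum _ fun S _ =>
    (integrable_walsh _).const_mul _]
  unfold Finsupp.sum
  refine Finset.sum_congr rfl fun T _ => ?_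
  rw [integral_finsetSum _ fun S _ => (integrable_walsh _).const_mul _]
  have h2 : ∀ S ∈ a.support, ∫ x, a S * b T * walsh (symmDiff S T) x ∂(bernM Γ) =
      if S = T then b T * a T else 0 := by
    intro S _
    rw [integral_const_mul, ← integral_congr_ae (Filter.Eventually.of_forall (walsh_mul S T)),
      walsh_int]
    split_ifs with h
    · subst h; ring
    · simp
  rw [Finset.sum_congr rfl h2, Finset.sum_ite_eq']
  split_ifs with h
  · rfl
  · simp only [Finsupp.notMem_support_iff.1 h, mul_zero]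

/-- SGCYL: the spectral gap for functions of finitely many coordinates.
Expand in Walsh functions; `FreeGroup (Fin g)` acts on the nonempty finite subsets of `Γ` through
left multiplication by `lift s`, freely because the free group is torsion free
(`γ S = S` implies that a power of `γ` fixes a point of `S`); apply `walk`. -/
theorem sg_cyl [Group Γ] {g : ℕ} (s : Fin g → Γ)
    (hs : Function.Injective (FreeGroup.lift s)) (Λ : Finset Γ) (u v : Bern Γ → ℝ)
    (hu : ∀ x y : Bern Γ, (∀ h ∈ Λ, x h = y h) → u x = u y)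
    (hv : ∀ x y : Bern Γ, (∀ h ∈ Λ, x h = y h) → v x = v y) :
    |∑ i : Fin g, (∫ x, u x * v ((s i)⁻¹ • x) ∂(bernM Γ) -
        (∫ x, u x ∂(bernM Γ)) * ∫ x, v x ∂(bernM Γ))| ≤
      2 * Real.sqrt g * Real.sqrt (∫ x, u x ^ 2 ∂(bernM Γ)) *
        Real.sqrt (∫ x, v x ^ 2 ∂(bernM Γ)) := by
  classical
  obtain ⟨a, ha⟩ := walsh_expand Λ u hu
  obtain ⟨b, hb⟩ := walsh_expand Λ v hv
  have ha0 : ∫ x, u x ∂(bernM Γ) = a ∅ := by
    have h := walsh_sum_int a (Finsupp.single ∅ 1)
    rw [Finsupp.sum_single_index (by simp)] at h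
    rw [one_mul] at h
    rw [← h]
    refine integral_congr_ae (Filter.Eventually.of_forall fun x => ?_)
    simp only
    rw [ha, Finsupp.sum_single_index (by simp), walsh_empty]
    ring
  have hb0 : ∫ x, v x ∂(bernM Γ) = b ∅ := by
    have h := walsh_sum_int b (Finsupp.single ∅ 1)
    rw [Finsupp.sum_single_index (by simp)] at h
    rw [one_mul] at h
    rw [← h]
    refine integral_congr_ae (Filter.Eventually.of_forall fun x => ?_)
    simp only
    rw [hb, Finsupp.sum_single_index (by simp), walsh_empty]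
    ring
  have ha2 : ∫ x, u x ^ 2 ∂(bernM Γ) = a.sum fun _ r => r ^ 2 := by
    have h := walsh_sum_int a a
    rw [integral_congr_ae (g := fun x => u x ^ 2)
      (Filter.Eventually.of_forall fun x => by simp only; rw [← ha]; ring)] at h
    rw [h]
    refine Finsupp.sum_congr fun S _ => ?_
    ring
  have hb2 : ∫ x, v x ^ 2 ∂(bernM Γ) = b.sum fun _ r => r ^ 2 := by
    have h := walsh_sum_int b b
    rw [integral_congr_ae (g := fun x => v x ^ 2)
      (Filter.Eventually.of_forall fun x => by simp only; rw [← hb]; ring)] at h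
    rw [h]
    refine Finsupp.sum_congr fun S _ => ?_
    ring
  -- the translation
  have himg : ∀ γ : Γ, Function.Injective fun S : Finset Γ => S.image fun h => γ * h := by
    intro γ
    exact Finset.image_injective (mul_right_injective γ)
  have huv : ∀ i : Fin g, ∫ x, u x * v ((s i)⁻¹ • x) ∂(bernM Γ) =
      b.sum fun T r => r * a (T.image fun h => s i * h) := by
    intro i
    have h := walsh_sum_int a (b.mapDomain fun S : Finset Γ => S.image fun h => s i * h)
    rw [Finsupp.sum_mapDomain_index (by simp) (by intros; ring)] at h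
    rw [← h]
    refine integral_congr_ae (Filter.Eventually.of_forall fun x => ?_)
    simp only
    rw [ha, hb, Finsupp.sum_mapDomain_index (by simp) (by intros; ring)]
    congr 1
    refine Finsupp.sum_congr fun S _ => ?_
    rw [walsh_smul]
  -- the action
  let act : MulAction (FreeGroup (Fin g)) {S : Finset Γ // S.Nonempty} :=
    { smul := fun f S => ⟨S.1.image fun h => FreeGroup.lift s f * h, S.2.image _⟩
      one_smul := fun S => Subtype.ext (by
        show S.1.image (fun h => FreeGroup.lift s 1 * h) = S.1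
        simp)
      mul_smul := fun f f' S => Subtype.ext (by
        show S.1.image (fun h => FreeGroup.lift s (f * f') * h) =
          (S.1.image fun h => FreeGroup.lift s f' * h).image fun h => FreeGroup.lift s f * h
        rw [Finset.image_image]
        congr 1
        funext h
        simp [mul_assoc]) }
  have hsm : ∀ (f : FreeGroup (Fin g)) (S : {S : Finset Γ // S.Nonempty}),
      (f • S).1 = S.1.image fun h => FreeGroup.lift s f * h := fun f S => rfl
  have hfree : ∀ (f : FreeGroup (Fin g)) (ω : {S : Finset Γ // S.Nonempty}),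
      f • ω = ω → f = 1 := by
    intro f S hS
    obtain ⟨h, hh⟩ := S.2
    have h1 : ∀ n : ℕ, FreeGroup.lift s f ^ n * h ∈ S.1 := by
      intro n
      induction n with
      | zero => simpa using hh
      | succ n ih =>
        have h2 : FreeGroup.lift s f * (FreeGroup.lift s f ^ n * h) ∈ (f • S).1 := by
          rw [hsm]
          exact Finset.mem_image_of_mem _ ih
        rw [hS] at h2
        rwa [pow_succ', mul_assoc]
    have h2 : ¬ Function.Injective fun n : ℕ => (⟨FreeGroup.lift s f ^ n * h, h1 n⟩ : S.1) :=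
      not_injective_infinite_finite _
    rw [Function.Injective] at h2
    push Not at h2
    obtain ⟨n, m, hnm, hne⟩ := h2
    have h3 : FreeGroup.lift s f ^ n = FreeGroup.lift s f ^ m := by
      have := congrArg Subtype.val hnm
      exact mul_right_cancel this
    have h4 : f ^ n = f ^ m := by
      apply hs
      rw [map_pow, map_pow, h3]
    by_contra hf
    exact hne ((injective_pow_iff_not_isOfFinOrder.2 (by
      intro h5
      exact hf ((isOfFinOrder_iff_eq_one f).1 h5))) h4)
  -- apply the walk estimate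
  have hw := walk hfree ((b.erase ∅).subtypeDomain fun S : Finset Γ => S.Nonempty)
    (a.subtypeDomain fun S : Finset Γ => S.Nonempty)
  have hsb : ∀ S ∈ (b.erase ∅).support, S.Nonempty := by
    intro S hS
    rw [Finsupp.support_erase, Finset.mem_erase] at hS
    exact Finset.nonempty_iff_ne_empty.2 hS.1
  have h1 : ∀ i : Fin g, (∫ x, u x * v ((s i)⁻¹ • x) ∂(bernM Γ) -
        (∫ x, u x ∂(bernM Γ)) * ∫ x, v x ∂(bernM Γ)) =
      ((b.erase ∅).subtypeDomain fun S : Finset Γ => S.Nonempty).sum fun ω r =>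
        r * (a.subtypeDomain fun S : Finset Γ => S.Nonempty) (FreeGroup.of i • ω) := by
    intro i
    rw [huv, ha0, hb0, ← Finsupp.add_sum_erase' b ∅ _ (by simp)]
    have h2 : ((b.erase ∅).subtypeDomain fun S : Finset Γ => S.Nonempty).sum (fun ω r =>
        r * (a.subtypeDomain fun S : Finset Γ => S.Nonempty) (FreeGroup.of i • ω)) =
        ((b.erase ∅).subtypeDomain fun S : Finset Γ => S.Nonempty).sum (fun ω r =>
        (fun (T : Finset Γ) (r : ℝ) => r * a (T.image fun h => s i * h)) ω.1 r) := by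
      refine Finsupp.sum_congr fun ω _ => ?_
      simp only [Finsupp.subtypeDomain_apply, hsm, FreeGroup.lift_apply_of]
    rw [h2, Finsupp.sum_subtypeDomain_index (p := fun S : Finset Γ => S.Nonempty)
      (h := fun (T : Finset Γ) (r : ℝ) => r * a (T.image fun h => s i * h)) hsb]
    simp only [Finset.image_empty]
    ring
  rw [Finset.sum_congr rfl fun i _ => h1 i]
  refine hw.trans ?_
  rw [ha2, hb2]
  have hb3 : (((b.erase ∅).subtypeDomain fun S : Finset Γ => S.Nonempty).sum fun _ r => r ^ 2) ≤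
      b.sum fun _ r => r ^ 2 := by
    rw [← Finsupp.add_sum_erase' b ∅ (fun _ r => r ^ 2) (by simp)]
    rw [Finsupp.sum_subtypeDomain_index (p := fun S : Finset Γ => S.Nonempty)
      (h := fun _ r => r ^ 2) hsb]
    nlinarith [sq_nonneg (b ∅)]
  have ha3 : ((a.subtypeDomain fun S : Finset Γ => S.Nonempty).sum fun _ r => r ^ 2) ≤
      a.sum fun _ r => r ^ 2 := by
    have h4 : (a.subtypeDomain fun S : Finset Γ => S.Nonempty) =
        ((a.erase ∅).subtypeDomain fun S : Finset Γ => S.Nonempty) := by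
      ext S
      rw [Finsupp.subtypeDomain_apply, Finsupp.subtypeDomain_apply, Finsupp.erase_ne]
      exact Finset.nonempty_iff_ne_empty.1 S.2
    have hsa : ∀ S ∈ (a.erase ∅).support, S.Nonempty := by
      intro S hS
      rw [Finsupp.support_erase, Finset.mem_erase] at hS
      exact Finset.nonempty_iff_ne_empty.2 hS.1
    rw [← Finsupp.add_sum_erase' a ∅ (fun _ r => r ^ 2) (by simp), h4]
    rw [Finsupp.sum_subtypeDomain_index (p := fun S : Finset Γ => S.Nonempty)
      (h := fun _ r => r ^ 2) hsa]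
    nlinarith [sq_nonneg (a ∅)]
  have hnn : 0 ≤ 2 * Real.sqrt g := by positivity
  calc _ ≤ 2 * Real.sqrt g * Real.sqrt (b.sum fun _ r => r ^ 2) *
        Real.sqrt (a.sum fun _ r => r ^ 2) := by
        gcongr
    _ = _ := by ring

namespace SGBaux

open scoped ENNReal InnerProductSpace symmDiff

/-- functions of finitely many coordinates -/
def Cyl (u : Bern Γ → ℝ) : Prop :=
  ∃ Λ : Finset Γ, ∀ x y : Bern Γ, (∀ h ∈ Λ, x h = y h) → u x = u y

theorem Cyl.add {u v : Bern Γ → ℝ} (hu : Cyl u) (hv : Cyl v) : Cyl (u + v) := by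
  classical
  obtain ⟨Λ, h1⟩ := hu
  obtain ⟨Λ', h2⟩ := hv
  refine ⟨Λ ∪ Λ', fun x y h => ?_⟩
  show u x + v x = u y + v y
  rw [h1 x y fun a ha => h a (Finset.mem_union_left _ ha),
    h2 x y fun a ha => h a (Finset.mem_union_right _ ha)]

/-- a function of finitely many coordinates factors through a finite set -/
theorem Cyl.factor {u : Bern Γ → ℝ} (hu : Cyl u) :
    ∃ (Λ : Finset Γ) (u' : (Λ → Bool) → ℝ), ∀ x : Bern Γ, u x = u' fun h => x h := by
  classical
  obtain ⟨Λ, h1⟩ := hu
  refine ⟨Λ, fun z => u (fun h => if hh : h ∈ Λ then z ⟨h, hh⟩ else false), fun x => ?_⟩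
  refine h1 _ _ fun h hh => ?_
  simp [hh]

theorem Cyl.meas {u : Bern Γ → ℝ} (hu : Cyl u) : Measurable u := by
  obtain ⟨Λ, u', h⟩ := hu.factor
  have h1 : Measurable (fun x : Bern Γ => fun h : Λ => x h) := by
    refine measurable_pi_lambda _ fun h => ?_
    exact measurable_pi_apply (X := fun _ : Γ => Bool) h.1
  have h2 : Measurable u' := measurable_of_countable u'
  have h3 : u = u' ∘ (fun x : Bern Γ => fun h : Λ => x h) := funext h
  rw [h3]
  exact h2.comp h1

theorem Cyl.memLp {u : Bern Γ → ℝ} (hu : Cyl u) : MemLp u 2 (bernM Γ) := by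
  classical
  have hm := hu.meas
  obtain ⟨Λ, u', h⟩ := hu.factor
  obtain ⟨C, hC⟩ : ∃ C : ℝ, ∀ z, ‖u' z‖ ≤ C := by
    refine ⟨∑ z, ‖u' z‖, fun z => ?_⟩
    exact Finset.single_le_sum (f := fun z => ‖u' z‖) (fun _ _ => norm_nonneg _)
      (Finset.mem_univ z)
  exact MemLp.of_bound hm.aestronglyMeasurable C
    (Filter.Eventually.of_forall fun x => by rw [h]; exact hC _)

theorem dense_cyl (f : Bern Γ → ℝ) (hf : MemLp f 2 (bernM Γ)) {ε : ℝ≥0∞} (hε : ε ≠ 0) :
    ∃ g : Bern Γ → ℝ, eLpNorm (f - g) 2 (bernM Γ) ≤ ε ∧ Cyl g := by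
  refine MemLp.induction_dense (by norm_num) Cyl ?_ (fun f g => Cyl.add)
    (fun f hf => hf.meas.aestronglyMeasurable) hf hε
  intro c s hs hμ ε hε
  obtain ⟨η, hη, hη'⟩ := exists_eLpNorm_indicator_le (μ := bernM Γ) (p := 2) (by norm_num) c hε
  have hdense : (bernM Γ).MeasureDense (measurableCylinders fun _ : Γ => Bool) :=
    Measure.MeasureDense.of_generateFrom_isSetAlgebra_finite (bernM Γ)
      (isSetAlgebra_measurableCylinders) (generateFrom_measurableCylinders).symm
  obtain ⟨t, ht, hst⟩ := hdense.approx s hs (measure_ne_top _ _) η (by exact_mod_cast hη)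
  refine ⟨t.indicator fun _ => c, ?_, ?_⟩
  · rw [eLpNorm_indicator_sub_indicator]
    refine hη' _ ?_
    rw [symmDiff_comm]
    refine hst.le.trans ?_
    rw [ENNReal.ofReal_coe_nnreal]
  · obtain ⟨Λ, S, hS, rfl⟩ := (mem_measurableCylinders _).1 ht
    refine ⟨Λ, fun x y h => ?_⟩
    have key : ∀ x y : Γ → Bool, (∀ h ∈ Λ, x h = y h) →
        (x ∈ cylinder Λ S ↔ y ∈ cylinder Λ S) := by
      intro x y h
      rw [mem_cylinder, mem_cylinder]
      have : Λ.restrict x = Λ.restrict y := by
        funext a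
        exact h a.1 a.2
      rw [this]
    have h1 := key x y h
    by_cases hx : (x : Γ → Bool) ∈ cylinder Λ S
    · exact (Set.indicator_of_mem hx _).trans
        (Set.indicator_of_mem (h1.1 hx) (fun _ => c)).symm
    · exact (Set.indicator_of_notMem hx _).trans
        (Set.indicator_of_notMem (fun h => hx (h1.2 h)) (fun _ => c)).symm

/-- the inequality in `L²` -/
theorem sg_L2 [Group Γ] {g : ℕ} (s : Fin g → Γ)
    (hs : Function.Injective (FreeGroup.lift s))
    (hmp : ∀ γ : Γ, MeasurePreserving (fun x : Bern Γ => γ • x) (bernM Γ) (bernM Γ))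
    (u v : Bern Γ → ℝ) (hu : MemLp u 2 (bernM Γ)) (hv : MemLp v 2 (bernM Γ)) :
    |∑ i : Fin g, (∫ x, u x * v ((s i)⁻¹ • x) ∂(bernM Γ) -
        (∫ x, u x ∂(bernM Γ)) * ∫ x, v x ∂(bernM Γ))| ≤
      2 * Real.sqrt g * Real.sqrt (∫ x, u x ^ 2 ∂(bernM Γ)) *
        Real.sqrt (∫ x, v x ^ 2 ∂(bernM Γ)) := by
  classical
  set μ := bernM Γ with hμ
  have h1m : MemLp (fun _ : Bern Γ => (1 : ℝ)) 2 μ := memLp_const 1
  set one : Lp ℝ 2 μ := h1m.toLp _ with hone
  set T : Fin g → Lp ℝ 2 μ → Lp ℝ 2 μ := fun i =>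
    Lp.compMeasurePreserving (fun x : Bern Γ => (s i)⁻¹ • x) (hmp (s i)⁻¹) with hT
  have hTc : ∀ i, Continuous (T i) := fun i =>
    (Lp.isometry_compMeasurePreserving (E := ℝ) (p := 2) (hmp (s i)⁻¹)).continuous
  -- values
  have hin : ∀ (f h : Bern Γ → ℝ) (hf : MemLp f 2 μ) (hh : MemLp h 2 μ),
      ⟪hf.toLp f, hh.toLp h⟫_ℝ = ∫ x, f x * h x ∂μ := by
    intro f h hf hh
    rw [L2.inner_def]
    refine integral_congr_ae ?_
    filter_upwards [hf.coeFn_toLp, hh.coeFn_toLp] with x h1 h2
    rw [h1, h2]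
    simp [mul_comm]
  have hTv : ∀ i (h : Bern Γ → ℝ) (hh : MemLp h 2 μ), T i (hh.toLp h) =
      (hh.comp_measurePreserving (hmp (s i)⁻¹)).toLp (h ∘ fun x : Bern Γ => (s i)⁻¹ • x) := by
    intro i h hh
    exact Lp.toLp_compMeasurePreserving hh _
  have hnorm : ∀ (f : Bern Γ → ℝ) (hf : MemLp f 2 μ),
      ‖hf.toLp f‖ = Real.sqrt (∫ x, f x ^ 2 ∂μ) := by
    intro f hf
    rw [norm_eq_sqrt_real_inner, hin]
    congr 1
    refine integral_congr_ae (Filter.Eventually.of_forall fun x => ?_)
    simp only []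
    ring
  set p : Lp ℝ 2 μ → Lp ℝ 2 μ → Prop := fun U V =>
    |∑ i : Fin g, (⟪U, T i V⟫_ℝ - ⟪U, one⟫_ℝ * ⟪one, V⟫_ℝ)| ≤ 2 * Real.sqrt g * ‖U‖ * ‖V‖ with hp
  have hval : ∀ (f h : Bern Γ → ℝ) (hf : MemLp f 2 μ) (hh : MemLp h 2 μ),
      p (hf.toLp f) (hh.toLp h) ↔
      |∑ i : Fin g, (∫ x, f x * h ((s i)⁻¹ • x) ∂μ - (∫ x, f x ∂μ) * ∫ x, h x ∂μ)| ≤
      2 * Real.sqrt g * Real.sqrt (∫ x, f x ^ 2 ∂μ) * Real.sqrt (∫ x, h x ^ 2 ∂μ) := by
    intro f h hf hh
    simp only [hp]
    rw [hnorm, hnorm]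
    have e1 : ∀ i, ⟪hf.toLp f, T i (hh.toLp h)⟫_ℝ = ∫ x, f x * h ((s i)⁻¹ • x) ∂μ := by
      intro i
      rw [hTv, hin]
      rfl
    have e2 : ⟪hf.toLp f, one⟫_ℝ = ∫ x, f x ∂μ := by
      rw [hone, hin]
      simp
    have e3 : ⟪one, hh.toLp h⟫_ℝ = ∫ x, h x ∂μ := by
      rw [hone, hin]
      simp
    simp_rw [e1, e2, e3]
  rw [← hval u v hu hv]
  set E : {u : Bern Γ → ℝ // Cyl u} → Lp ℝ 2 μ := fun u => (Cyl.memLp u.2).toLp u.1 with hE
  have hd : DenseRange E := by
    rw [Metric.denseRange_iff]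
    intro f r hr
    have hr' : ENNReal.ofReal (r / 2) ≠ 0 := by
      rw [Ne, ENNReal.ofReal_eq_zero, not_le]; linarith
    obtain ⟨w, hw1, hw2⟩ := dense_cyl (f : Bern Γ → ℝ) (Lp.memLp f) hr'
    refine ⟨⟨w, hw2⟩, ?_⟩
    have h3 : dist f (E ⟨w, hw2⟩) ≤ r / 2 := by
      rw [Lp.dist_def]
      have h4 : eLpNorm (⇑f - ⇑(E ⟨w, hw2⟩)) 2 μ = eLpNorm (⇑f - w) 2 μ := by
        refine eLpNorm_congr_ae ?_
        have := (Cyl.memLp hw2).coeFn_toLp
        filter_upwards [this] with x hx
        simp only [Pi.sub_apply, hE, hx]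
      rw [h4]
      exact ENNReal.toReal_le_of_le_ofReal (by linarith) hw1
    linarith
  refine isClosed_property2 hd (p := p) ?_ ?_ _ _
  · refine isClosed_le ?_ ?_
    · refine continuous_abs.comp ?_
      refine continuous_finsetSum _ fun i _ => ?_
      refine Continuous.sub ?_ ?_
      · exact Continuous.inner continuous_fst ((hTc i).comp continuous_snd)
      · exact (Continuous.inner continuous_fst continuous_const).mul
          (Continuous.inner continuous_const continuous_snd)
    · exact (continuous_const.mul (continuous_norm.comp continuous_fst)).mul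
        (continuous_norm.comp continuous_snd)
  · rintro ⟨f, hf⟩ ⟨h, hh⟩
    rw [hE, hval f h hf.memLp hh.memLp]
    obtain ⟨Λ, h1⟩ := hf
    obtain ⟨Λ', h2⟩ := hh
    exact sg_cyl s hs (Λ ∪ Λ') f h
      (fun x y hxy => h1 x y fun a ha => hxy a (Finset.mem_union_left _ ha))
      (fun x y hxy => h2 x y fun a ha => hxy a (Finset.mem_union_right _ ha))

/-- the inequality for bounded functions -/
theorem sg_bdd [Group Γ] {g : ℕ} (s : Fin g → Γ)
    (hs : Function.Injective (FreeGroup.lift s))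
    (hmp : ∀ γ : Γ, MeasurePreserving (fun x : Bern Γ => γ • x) (bernM Γ) (bernM Γ))
    (u v : Bern Γ → ℝ≥0∞) (hu : Measurable u) (hv : Measurable v) (n : ℕ)
    (hun : ∀ x, u x ≤ n) (hvn : ∀ x, v x ≤ n) :
    ∑ i : Fin g, ∫⁻ x, u x * v ((s i)⁻¹ • x) ∂(bernM Γ) ≤
      ENNReal.ofReal (2 * Real.sqrt g) * (∫⁻ x, u x ^ 2 ∂(bernM Γ)) ^ (1 / 2 : ℝ) *
        (∫⁻ x, v x ^ 2 ∂(bernM Γ)) ^ (1 / 2 : ℝ) +
        g * (∫⁻ x, u x ∂(bernM Γ)) * (∫⁻ x, v x ∂(bernM Γ)) := by
  set μ := bernM Γ with hμ
  have hut : ∀ x, u x ≠ ⊤ := fun x => ne_top_of_le_ne_top (ENNReal.natCast_ne_top n) (hun x)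
  have hvt : ∀ x, v x ≠ ⊤ := fun x => ne_top_of_le_ne_top (ENNReal.natCast_ne_top n) (hvn x)
  set U : Bern Γ → ℝ := fun x => (u x).toReal with hU
  set V : Bern Γ → ℝ := fun x => (v x).toReal with hV
  have hU0 : ∀ x, 0 ≤ U x := fun x => ENNReal.toReal_nonneg
  have hV0 : ∀ x, 0 ≤ V x := fun x => ENNReal.toReal_nonneg
  have hUn : ∀ x, U x ≤ n := fun x => by
    have := ENNReal.toReal_mono (ENNReal.natCast_ne_top n) (hun x)
    simpa using this
  have hVn : ∀ x, V x ≤ n := fun x => by
    have := ENNReal.toReal_mono (ENNReal.natCast_ne_top n) (hvn x)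
    simpa using this
  have hUm : Measurable U := hu.ennreal_toReal
  have hVm : Measurable V := hv.ennreal_toReal
  have hbd : ∀ (f : Bern Γ → ℝ), Measurable f → (∀ x, 0 ≤ f x) → ∀ C : ℝ, (∀ x, f x ≤ C) →
      ∀ p : ℝ≥0∞, MemLp f p μ := by
    intro f hf h0 C hC p
    exact MemLp.of_bound hf.aestronglyMeasurable C
      (Filter.Eventually.of_forall fun x => by rw [Real.norm_of_nonneg (h0 x)]; exact hC x)
  have hn0 : (0 : ℝ) ≤ n := Nat.cast_nonneg n
  have hV' : ∀ γ : Γ, Measurable fun x : Bern Γ => V (γ • x) := fun γ =>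
    hVm.comp (hmp γ).measurable
  have main := sg_L2 s hs hmp U V (hbd U hUm hU0 n hUn 2) (hbd V hVm hV0 n hVn 2)
  -- conversions
  have conv : ∀ (f : Bern Γ → ℝ), Measurable f → (∀ x, 0 ≤ f x) → ∀ C : ℝ, (∀ x, f x ≤ C) →
      ENNReal.ofReal (∫ x, f x ∂μ) = ∫⁻ x, ENNReal.ofReal (f x) ∂μ := by
    intro f hf h0 C hC
    refine ofReal_integral_eq_lintegral_ofReal ?_ (Filter.Eventually.of_forall h0)
    exact memLp_one_iff_integrable.1 (hbd f hf h0 C hC 1)
  have c1 : ∀ i : Fin g, ∫⁻ x, u x * v ((s i)⁻¹ • x) ∂μ =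
      ENNReal.ofReal (∫ x, U x * V ((s i)⁻¹ • x) ∂μ) := by
    intro i
    rw [conv (fun x => U x * V ((s i)⁻¹ • x)) (hUm.mul (hV' _))
      (fun x => mul_nonneg (hU0 _) (hV0 _)) (n * n)
      (fun x => mul_le_mul (hUn _) (hVn _) (hV0 _) hn0)]
    refine lintegral_congr fun x => ?_
    rw [ENNReal.ofReal_mul (hU0 _), hU, hV]
    simp only []
    rw [ENNReal.ofReal_toReal (hut _), ENNReal.ofReal_toReal (hvt _)]
  have c2 : ∫⁻ x, u x ∂μ = ENNReal.ofReal (∫ x, U x ∂μ) := by
    rw [conv U hUm hU0 n hUn]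
    exact lintegral_congr fun x => (ENNReal.ofReal_toReal (hut _)).symm
  have c3 : ∫⁻ x, v x ∂μ = ENNReal.ofReal (∫ x, V x ∂μ) := by
    rw [conv V hVm hV0 n hVn]
    exact lintegral_congr fun x => (ENNReal.ofReal_toReal (hvt _)).symm
  have c4 : (∫⁻ x, u x ^ 2 ∂μ) ^ (1 / 2 : ℝ) = ENNReal.ofReal (Real.sqrt (∫ x, U x ^ 2 ∂μ)) := by
    rw [Real.sqrt_eq_rpow, ← ENNReal.ofReal_rpow_of_nonneg
      (integral_nonneg fun x => sq_nonneg _) (by norm_num)]
    rw [conv (fun x => U x ^ 2) (hUm.pow_const 2) (fun x => sq_nonneg _) ((n : ℝ) ^ 2)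
      (fun x => pow_le_pow_left₀ (hU0 x) (hUn x) 2)]
    congr 1
    refine lintegral_congr fun x => ?_
    rw [ENNReal.ofReal_pow (hU0 _), hU]
    simp only []
    rw [ENNReal.ofReal_toReal (hut _)]
  have c5 : (∫⁻ x, v x ^ 2 ∂μ) ^ (1 / 2 : ℝ) = ENNReal.ofReal (Real.sqrt (∫ x, V x ^ 2 ∂μ)) := by
    rw [Real.sqrt_eq_rpow, ← ENNReal.ofReal_rpow_of_nonneg
      (integral_nonneg fun x => sq_nonneg _) (by norm_num)]
    rw [conv (fun x => V x ^ 2) (hVm.pow_const 2) (fun x => sq_nonneg _) ((n : ℝ) ^ 2)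
      (fun x => pow_le_pow_left₀ (hV0 x) (hVn x) 2)]
    congr 1
    refine lintegral_congr fun x => ?_
    rw [ENNReal.ofReal_pow (hV0 _), hV]
    simp only []
    rw [ENNReal.ofReal_toReal (hvt _)]
  simp_rw [c1]
  rw [c2, c3, c4, c5, ← ENNReal.ofReal_sum_of_nonneg
    (fun i _ => integral_nonneg fun x => mul_nonneg (hU0 _) (hV0 _))]
  have hIU : 0 ≤ ∫ x, U x ∂μ := integral_nonneg hU0
  have hIV : 0 ≤ ∫ x, V x ∂μ := integral_nonneg hV0
  rw [← ENNReal.ofReal_mul (by positivity), ← ENNReal.ofReal_mul (by positivity),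
    ← ENNReal.ofReal_natCast g, ← ENNReal.ofReal_mul (by positivity),
    ← ENNReal.ofReal_mul (by positivity), ← ENNReal.ofReal_add (by positivity) (by positivity)]
  refine ENNReal.ofReal_le_ofReal ?_
  have h2 := (le_abs_self _).trans main
  rw [Finset.sum_sub_distrib, Finset.sum_const, Finset.card_univ, Fintype.card_fin,
    nsmul_eq_mul] at h2
  linarith

theorem iSup_min_mul (a b : ℝ≥0∞) : ⨆ n : ℕ, min a n * min b n = a * b := by
  have h1 : ∀ a : ℝ≥0∞, ⨆ n : ℕ, min a n = a := by
    intro a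
    have := inf_iSup_eq a (fun n : ℕ => (n : ℝ≥0∞))
    rw [ENNReal.iSup_natCast, inf_top_eq] at this
    exact this.symm
  refine le_antisymm (iSup_le fun n => mul_le_mul' (min_le_left _ _) (min_le_left _ _)) ?_
  conv_lhs => rw [← h1 a, ← h1 b]
  rw [ENNReal.iSup_mul]
  refine iSup_le fun n => ?_
  rw [ENNReal.mul_iSup]
  refine iSup_le fun m => ?_
  refine le_trans ?_ (le_iSup (fun n : ℕ => min a n * min b n) (max n m))
  refine mul_le_mul' (min_le_min le_rfl ?_) (min_le_min le_rfl ?_)
  · exact_mod_cast le_max_left n m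
  · exact_mod_cast le_max_right n m

end SGBaux

/-- SGB: the spectral gap inequality.  Density of the functions of finitely many
coordinates in `L²` (cylinder sets generate), monotone convergence to pass to `ℝ≥0∞`-valued
functions. -/
theorem sg_bern [Group Γ] [Countable Γ] {g : ℕ} (s : Fin g → Γ)
    (hs : Function.Injective (FreeGroup.lift s)) : SG (bernM Γ) g s := by
  rcases Nat.eq_zero_or_pos g with hg | hg
  · subst hg
    intro u v _ _
    simp
  have : Nonempty (Fin g) := ⟨⟨0, hg⟩⟩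
  have : Infinite Γ := Infinite.of_injective _ hs
  have hmp : ∀ γ : Γ, MeasurePreserving (fun x : Bern Γ => γ • x) (bernM Γ) (bernM Γ) :=
    (bern_free (Γ := Γ)).1
  intro u v hu hv
  have hum : ∀ n : ℕ, Measurable fun x => min (u x) (n : ℝ≥0∞) := fun n =>
    hu.min measurable_const
  have hvm : ∀ n : ℕ, Measurable fun x => min (v x) (n : ℝ≥0∞) := fun n =>
    hv.min measurable_const
  have e1 : ∀ i : Fin g, ∫⁻ x, u x * v ((s i)⁻¹ • x) ∂(bernM Γ) =
      ⨆ n : ℕ, ∫⁻ x, min (u x) n * min (v ((s i)⁻¹ • x)) n ∂(bernM Γ) := by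
    intro i
    rw [← lintegral_iSup]
    · exact lintegral_congr fun x => (SGBaux.iSup_min_mul _ _).symm
    · exact fun n => (hum n).mul ((hvm n).comp (hmp (s i)⁻¹).measurable)
    · intro n m hnm x
      have : (n : ℝ≥0∞) ≤ m := by exact_mod_cast hnm
      exact mul_le_mul' (min_le_min le_rfl this) (min_le_min le_rfl this)
  simp_rw [e1]
  rw [ENNReal.finsetSum_iSup_of_monotone]
  · refine iSup_le fun n => ?_
    refine (SGBaux.sg_bdd s hs hmp (fun x => min (u x) n) (fun x => min (v x) n) (hum n) (hvm n)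
      n (fun x => min_le_right _ _) (fun x => min_le_right _ _)).trans ?_
    gcongr <;> exact min_le_left _ _
  · intro i n m hnm
    refine lintegral_mono fun x => ?_
    have : (n : ℝ≥0∞) ≤ m := by exact_mod_cast hnm
    exact mul_le_mul' (min_le_min le_rfl this) (min_le_min le_rfl this)

end Crest.Agent.R191
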