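import Crest.Agent.R191.Defs

/-!
# R191 piece BLK: block words `φ(v)` and alignment

`blk c ℓ v` is the concatenation of the words `C_b^{±1}`, `b` running over the letters of `v`.
Because `C_b` starts and ends with the letter `b` and is positive, `blk v` is reduced when `v` is.
-/

set_option autoImplicit false

namespace Crest.Agent.R191

variable {g : ℕ} {c : Fin g → ℕ → Fin g} {ℓ : ℕ}

theorem Cw_length (i : Fin g) : (Cw c ℓ i).length = ℓ := by
  simp [Cw]

theorem winv_length {L : Type} (w : List (L × Bool)) : (winv w).length = w.length := by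
  simp [winv]

theorem winv_winv {L : Type} (w : List (L × Bool)) : winv (winv w) = w := by
  unfold winv
  rw [List.map_reverse, List.reverse_reverse, List.map_map]
  have : ((fun e : L × Bool => (e.1, !e.2)) ∘ fun e : L × Bool => (e.1, !e.2)) = id := by
    funext e
    simp
  rw [this, List.map_id]

theorem mk_winv {L : Type} (w : List (L × Bool)) :
    FreeGroup.mk (winv w) = (FreeGroup.mk w)⁻¹ := by
  rw [FreeGroup.inv_mk]
  rfl

theorem Red.winv {L : Type} {w : List (L × Bool)} (h : Red w) : Red (winv w) := by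
  unfold Red at h ⊢
  unfold Crest.Agent.R191.winv
  rw [List.isChain_reverse, List.isChain_map]
  refine h.imp fun a b hab hcon => hab ?_
  obtain ⟨h1, h2⟩ := hcon
  simp only at h1 h2
  refine ⟨h1.symm, ?_⟩
  cases ha : a.2 <;> cases hb : b.2 <;> simp_all

theorem blk_append (v v' : List (Fin g × Bool)) :
    blk c ℓ (v ++ v') = blk c ℓ v ++ blk c ℓ v' := by
  simp [blk]

namespace Blk_aux

/-- one block -/
def blo {g : ℕ} (c : Fin g → ℕ → Fin g) (ℓ : ℕ) (e : Fin g × Bool) : List (Fin g × Bool) :=
  if e.2 = true then Cw c ℓ e.1 else winv (Cw c ℓ e.1)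

theorem blk_cons (e : Fin g × Bool) (v : List (Fin g × Bool)) :
    blk c ℓ (e :: v) = blo c ℓ e ++ blk c ℓ v := rfl

theorem blo_length (e : Fin g × Bool) : (blo c ℓ e).length = ℓ := by
  unfold blo
  split_ifs
  · exact Cw_length _
  · rw [winv_length, Cw_length]

/-- letters of a block -/
def bl {g : ℕ} (c : Fin g → ℕ → Fin g) (ℓ : ℕ) (e : Fin g × Bool) (r : ℕ) : Fin g × Bool :=
  if e.2 = true then (c e.1 r, true) else (c e.1 (ℓ - 1 - r), false)

theorem blo_get (e : Fin g × Bool) {r : ℕ} (hr : r < ℓ) : (blo c ℓ e)[r]? = some (bl c ℓ e r) := by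
  unfold blo bl
  split_ifs with h
  · simp [Cw, hr]
  · unfold winv
    rw [List.getElem?_reverse (by simpa [Cw] using hr)]
    simp only [Cw, List.length_map, List.length_range, List.getElem?_map]
    rw [List.getElem?_range (by omega)]
    simp

theorem bl_zero (hc : CWords c ℓ) (e : Fin g × Bool) : bl c ℓ e 0 = e := by
  unfold bl
  obtain ⟨i, b⟩ := e
  cases b
  · simp [hc.last]
  · simp [hc.head]

theorem bl_last (hc : CWords c ℓ) (e : Fin g × Bool) : bl c ℓ e (ℓ - 1) = e := by
  unfold bl
  obtain ⟨i, b⟩ := e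
  cases b
  · simp [hc.head]
  · simp [hc.last]

theorem bl_snd (e : Fin g × Bool) (r : ℕ) : (bl c ℓ e r).2 = e.2 := by
  unfold bl
  obtain ⟨i, b⟩ := e
  cases b <;> simp

theorem blo_winv (e : Fin g × Bool) : blo c ℓ (e.1, !e.2) = winv (blo c ℓ e) := by
  unfold blo
  obtain ⟨i, b⟩ := e
  cases b
  · simp [winv_winv]
  · simp

theorem mk_append {L : Type} (w w' : List (L × Bool)) :
    FreeGroup.mk (w ++ w') = FreeGroup.mk w * FreeGroup.mk w' := (FreeGroup.mul_mk).symm

theorem mk_blo (e : Fin g × Bool) : FreeGroup.mk (blo c ℓ e) = phi c ℓ (FreeGroup.mk [e]) := by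
  obtain ⟨i, b⟩ := e
  cases b
  · have h1 : FreeGroup.mk [(i, false)] = (FreeGroup.of i)⁻¹ := rfl
    rw [h1, map_inv]
    unfold blo
    simp only [Bool.false_eq_true, if_false]
    rw [mk_winv]
    unfold phi
    rw [FreeGroup.lift_apply_of]
  · have h1 : FreeGroup.mk [(i, true)] = FreeGroup.of i := rfl
    rw [h1]
    unfold blo phi
    rw [FreeGroup.lift_apply_of]
    rfl

end Blk_aux

open Blk_aux

theorem blk_length (v : List (Fin g × Bool)) : (blk c ℓ v).length = ℓ * v.length := by
  induction v with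
  | nil => simp [blk]
  | cons e v ih =>
    rw [blk_cons, List.length_append, blo_length, ih, List.length_cons]
    ring

theorem blk_winv (v : List (Fin g × Bool)) : blk c ℓ (winv v) = winv (blk c ℓ v) := by
  have happ : ∀ (a b : List (Fin g × Bool)), winv (a ++ b) = winv b ++ winv a := by
    intro a b
    simp [winv]
  induction v with
  | nil => simp [blk, winv]
  | cons e v ih =>
    have h1 : winv (e :: v) = winv v ++ [(e.1, !e.2)] := by simp [winv]
    rw [h1, blk_append, ih, blk_cons e v, happ, ← blo_winv]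
    congr 1
    simp [blk, blo]

theorem mk_blk (v : List (Fin g × Bool)) :
    FreeGroup.mk (blk c ℓ v) = phi c ℓ (FreeGroup.mk v) := by
  induction v with
  | nil =>
    have h1 : FreeGroup.mk ([] : List (Fin g × Bool)) = 1 := rfl
    simp [blk, h1]
  | cons e v ih =>
    have h1 : FreeGroup.mk (e :: v) = FreeGroup.mk [e] * FreeGroup.mk v := by
      rw [← mk_append]; rfl
    rw [blk_cons, mk_append, ih, h1, map_mul, mk_blo]

theorem blk_red (hc : CWords c ℓ) {v : List (Fin g × Bool)} (hv : Red v) :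
    Red (blk c ℓ v) := by
  have hℓ : 0 < ℓ := by have := hc.big; omega
  have hblo : ∀ e : Fin g × Bool, Red (blo c ℓ e) := by
    intro e
    unfold Red
    rw [List.isChain_iff_getElem]
    intro i hi hcon
    rw [blo_length] at hi
    have h1 := blo_get (c := c) (ℓ := ℓ) e (r := i) (by omega)
    have h2 := blo_get (c := c) (ℓ := ℓ) e (r := i + 1) hi
    rw [List.getElem?_eq_getElem (by rw [blo_length]; omega)] at h1 h2
    have h3 := Option.some.inj h1
    have h4 := Option.some.inj h2
    have h5 := hcon.2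
    rw [h3, h4, bl_snd, bl_snd] at h5
    cases e.2 <;> simp at h5
  induction v with
  | nil => simp [blk, Red]
  | cons e v ih =>
    rw [blk_cons]
    have hv' : Red v := by
      unfold Red at hv ⊢
      exact hv.tail
    unfold Red
    rw [List.isChain_append]
    refine ⟨hblo e, ih hv', ?_⟩
    intro x hx y hy hcon
    have hx1 : x = e := by
      rw [List.getLast?_eq_getElem?, blo_length, blo_get e (by omega), bl_last hc] at hx
      simpa using hx.symm
    cases v with
    | nil => simp [blk] at hy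
    | cons e' v =>
      have hy1 : y = e' := by
        rw [blk_cons, List.head?_eq_getElem?, List.getElem?_append_left (by rw [blo_length]; omega),
          blo_get e' hℓ, bl_zero hc] at hy
        simpa using hy.symm
      subst hx1 hy1
      unfold Red at hv
      rw [List.isChain_cons_cons] at hv
      exact hv.1 hcon

namespace Blk_aux

theorem red_isReduced {L : Type} {w : List (L × Bool)} : Red w ↔ FreeGroup.IsReduced w := by
  unfold Red FreeGroup.IsReduced
  constructor
  · intro h
    refine h.imp fun a b hab h1 => ?_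
    by_contra h2
    refine hab ⟨h1.symm, ?_⟩
    cases ha : a.2 <;> cases hb : b.2 <;> simp_all
  · intro h
    refine h.imp fun a b hab h1 => ?_
    have h3 : a.2 = b.2 := hab h1.1.symm
    have h2 := h1.2
    rw [h3] at h2
    simp at h2

theorem red_eq_nil {L : Type} [DecidableEq L] {w : List (L × Bool)} (h : Red w)
    (h1 : FreeGroup.mk w = 1) : w = [] := by
  have h2 := (red_isReduced.1 h).reduce_eq
  have h3 : (FreeGroup.mk w).toWord = FreeGroup.reduce w := FreeGroup.toWord_mk
  rw [h1, FreeGroup.toWord_one, h2] at h3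
  exact h3.symm

end Blk_aux

theorem phi_injective (hc : CWords c ℓ) : Function.Injective (phi c ℓ) := by
  rw [injective_iff_map_eq_one]
  intro x hx
  have h1 : FreeGroup.mk x.toWord = x := FreeGroup.mk_toWord
  have h2 : Red x.toWord := red_isReduced.2 FreeGroup.isReduced_toWord
  rw [← h1, ← mk_blk] at hx
  have h3 := red_eq_nil (blk_red hc h2) hx
  have h4 : (blk c ℓ x.toWord).length = 0 := by rw [h3]; rfl
  rw [blk_length] at h4
  have h5 : x.toWord.length = 0 := by
    have := hc.big
    rcases Nat.mul_eq_zero.1 h4 with h | h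
    · omega
    · exact h
  rw [← h1, List.eq_nil_of_length_eq_zero h5]
  rfl

/-- cutting a block word at a block boundary -/
theorem blk_take (v : List (Fin g × Bool)) (a : ℕ) :
    (blk c ℓ v).take (ℓ * a) = blk c ℓ (v.take a) := by
  induction v generalizing a with
  | nil => simp [blk]
  | cons e v ih =>
    cases a with
    | zero => simp [blk]
    | succ a =>
      rw [blk_cons, List.take_succ_cons, blk_cons, ← ih a, List.take_append, blo_length]
      congr 1
      · rw [List.take_of_length_le]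
        rw [blo_length]
        nlinarith
      · congr 1
        rw [Nat.mul_succ]
        omega

theorem Blk_aux.blk_drop (v : List (Fin g × Bool)) (a : ℕ) :
    (blk c ℓ v).drop (ℓ * a) = blk c ℓ (v.drop a) := by
  induction v generalizing a with
  | nil => simp [blk]
  | cons e v ih =>
    cases a with
    | zero => simp [blk]
    | succ a =>
      rw [blk_cons, List.drop_succ_cons, ← ih a, List.drop_append, blo_length]
      rw [List.drop_of_length_le, List.nil_append]
      · congr 1
        rw [Nat.mul_succ]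
        omega
      · rw [blo_length]
        nlinarith

/-- a full block in a nonempty block word: every nonempty block word has an infix `C_b` or
`C_b⁻¹` -/
theorem blk_infix {v : List (Fin g × Bool)} (hv : v ≠ []) :
    ∃ b, Cw c ℓ b <:+: blk c ℓ v ∨ winv (Cw c ℓ b) <:+: blk c ℓ v := by
  cases v with
  | nil => exact absurd rfl hv
  | cons e v =>
    obtain ⟨i, b⟩ := e
    refine ⟨i, ?_⟩
    cases b
    · right
      exact (List.prefix_append _ _).isInfix
    · left
      exact (List.prefix_append _ _).isInfix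

namespace Blk_aux

theorem drop_eq (v : List (Fin g × Bool)) {a : ℕ} (ha : a < v.length) :
    (blk c ℓ v).drop (ℓ * a) = blo c ℓ v[a] ++ blk c ℓ (v.drop (a + 1)) := by
  rw [blk_drop, List.drop_eq_getElem_cons ha, blk_cons]

/-- letters of a block word -/
theorem blk_get (v : List (Fin g × Bool)) {a r : ℕ} (ha : a < v.length) (hr : r < ℓ) :
    (blk c ℓ v)[ℓ * a + r]? = some (bl c ℓ v[a] r) := by
  rw [← List.getElem?_drop, drop_eq v ha, List.getElem?_append_left (by rw [blo_length]; exact hr),
    blo_get _ hr]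

theorem blk_get' (hℓ : 0 < ℓ) (v : List (Fin g × Bool)) {p : ℕ} (hp : p < ℓ * v.length) :
    ∃ ha : p / ℓ < v.length, (blk c ℓ v)[p]? = some (bl c ℓ v[p / ℓ] (p % ℓ)) := by
  have ha : p / ℓ < v.length := Nat.div_lt_of_lt_mul hp
  refine ⟨ha, ?_⟩
  have h := blk_get (c := c) (ℓ := ℓ) v ha (Nat.mod_lt p hℓ)
  rwa [Nat.div_add_mod] at h

theorem take_eq (v : List (Fin g × Bool)) {a r : ℕ} (ha : a < v.length) (hr : r ≤ ℓ) :
    (blk c ℓ v).take (ℓ * a + r) = blk c ℓ (v.take a) ++ (blo c ℓ v[a]).take r := by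
  rw [List.take_add, blk_take, drop_eq v ha, List.take_append_of_le_length]
  rw [blo_length]; exact hr

/-- six equal letters inside blocks -/
theorem window (hc : CWords c ℓ) {e e' : Fin g × Bool} {o o' : ℕ} (ho : o + 6 ≤ ℓ)
    (ho' : o' + 6 ≤ ℓ) (h : ∀ i, i < 6 → bl c ℓ e (o + i) = bl c ℓ e' (o' + i)) :
    e = e' ∧ o = o' := by
  obtain ⟨i, b⟩ := e
  obtain ⟨i', b'⟩ := e'
  have hb : b = b' := by
    have := congrArg Prod.snd (h 0 (by omega))
    rwa [bl_snd, bl_snd] at this
  subst hb
  cases b
  · have h1 := hc.win i i' (ℓ - 5 - o) (ℓ - 5 - o') (by omega) (by omega) (by omega) (by omega) ?_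
    · refine ⟨by rw [h1.1], by omega⟩
    · intro r hr
      have h2 := h (4 - r) (by omega)
      simp only [bl, Bool.false_eq_true, if_false, Prod.mk.injEq, and_true] at h2
      have e1 : ℓ - 5 - o + r = ℓ - 1 - (o + (4 - r)) := by omega
      have e2 : ℓ - 5 - o' + r = ℓ - 1 - (o' + (4 - r)) := by omega
      rw [e1, e2]
      exact h2
  · have h1 := hc.win i i' (o + 1) (o' + 1) (by omega) (by omega) (by omega) (by omega) ?_
    · refine ⟨by rw [h1.1], by omega⟩
    · intro r hr
      have h2 := h (1 + r) (by omega)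
      simp only [bl, if_true, Prod.mk.injEq, and_true] at h2
      rw [add_assoc, add_assoc]
      exact h2

end Blk_aux

/-- ALIGNMENT.  If in two reduced block words the `18` letters before the positions `k`, `k'` agree,
then the positions are the same modulo `ℓ`, the next letters agree when the positions are inside
a block, and the quotient of the prefixes is in the image of `φ`.

Proof: among `18` letters there are at most one block boundary of each word, so there are `≥ 6`
consecutive letters lying in one block in both words; the four middle ones are inner letters of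
`C_b^{±1}`, so `win` (the sign is visible) shows that these two blocks have the same letter, sign
and offset.  Go on to the right from there: inside the block the words agree; if the
block ends before `k`, it does so in both words at the same place; the next blocks start at the same
place, and (if nonempty overlap) have the same first letter (`C_b` starts with `(b,true)`,
`C_b⁻¹` starts with `(b,false)`), hence are the same block.  So at `k`, `k'` the offset is the same,
`r = k % ℓ = k' % ℓ`, and if `r ≠ 0` then both are inside the same block `C_b^ε`, hence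
`U.take k = blk (v.take a) ++ (C_b^ε).take r`, `U'.take k' = blk (v'.take a') ++ (C_b^ε).take r`. -/
theorem align (hc : CWords c ℓ) {v v' : List (Fin g × Bool)} (hv : Red v) (hv' : Red v')
    {k k' : ℕ} (h18 : 18 ≤ k) (h18' : 18 ≤ k') (hk : k ≤ (blk c ℓ v).length)
    (hk' : k' ≤ (blk c ℓ v').length)
    (h : ∀ r, r < 18 → (blk c ℓ v)[k - 18 + r]? = (blk c ℓ v')[k' - 18 + r]?) :
    k % ℓ = k' % ℓ ∧
    (k % ℓ ≠ 0 → (blk c ℓ v)[k]? = (blk c ℓ v')[k']? ∧ (blk c ℓ v)[k]? ≠ none) ∧
    FreeGroup.mk ((blk c ℓ v).take k) * (FreeGroup.mk ((blk c ℓ v').take k'))⁻¹ ∈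
      (phi c ℓ).range := by
  have hbig := hc.big
  have hℓ : 0 < ℓ := by omega
  rw [blk_length] at hk hk'
  -- letters
  have hget : ∀ p, p < ℓ * v.length → ∃ ha : p / ℓ < v.length,
      (blk c ℓ v)[p]? = some (bl c ℓ v[p / ℓ] (p % ℓ)) := fun p hp => blk_get' hℓ v hp
  have hget' : ∀ p, p < ℓ * v'.length → ∃ ha : p / ℓ < v'.length,
      (blk c ℓ v')[p]? = some (bl c ℓ v'[p / ℓ] (p % ℓ)) := fun p hp => blk_get' hℓ v' hp
  -- a good window
  have hwin : ∃ r0, (r0 = 0 ∨ r0 = 6 ∨ r0 = 12) ∧ (k - 18 + r0) % ℓ + 6 ≤ ℓ ∧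
      (k' - 18 + r0) % ℓ + 6 ≤ ℓ := by
    have key : ∀ m : ℕ, ∃ r1, (r1 = 0 ∨ r1 = 6 ∨ r1 = 12) ∧ ∀ r0, (r0 = 0 ∨ r0 = 6 ∨ r0 = 12) →
        r0 ≠ r1 → (m + r0) % ℓ + 6 ≤ ℓ := by
      intro m
      have hm := Nat.mod_lt m hℓ
      have hadd : ∀ r0, r0 < ℓ → (m + r0) % ℓ = if m % ℓ + r0 < ℓ then m % ℓ + r0
          else m % ℓ + r0 - ℓ := by
        intro r0 hr0
        rw [Nat.add_mod, Nat.mod_eq_of_lt hr0]
        split_ifs with hlt
        · exact Nat.mod_eq_of_lt hlt
        · rw [Nat.mod_eq_sub_mod (by omega)]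
          exact Nat.mod_eq_of_lt (by omega)
      by_cases h1 : m % ℓ + 6 ≤ ℓ
      · by_cases h2 : m % ℓ + 12 ≤ ℓ
        · refine ⟨12, by omega, fun r0 hr0 hne => ?_⟩
          rw [hadd r0 (by omega)]
          split_ifs <;> omega
        · refine ⟨6, by omega, fun r0 hr0 hne => ?_⟩
          rw [hadd r0 (by omega)]
          split_ifs <;> omega
      · refine ⟨0, by omega, fun r0 hr0 hne => ?_⟩
        rw [hadd r0 (by omega)]
        split_ifs <;> omega
    obtain ⟨r1, h1, h1'⟩ := key (k - 18)
    obtain ⟨r2, h2, h2'⟩ := key (k' - 18)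
    have : ∃ r0, (r0 = 0 ∨ r0 = 6 ∨ r0 = 12) ∧ r0 ≠ r1 ∧ r0 ≠ r2 := by
      by_cases ha : 0 ≠ r1 ∧ 0 ≠ r2
      · exact ⟨0, by omega, ha.1, ha.2⟩
      · by_cases hb : 6 ≠ r1 ∧ 6 ≠ r2
        · exact ⟨6, by omega, hb.1, hb.2⟩
        · exact ⟨12, by omega, by omega, by omega⟩
    obtain ⟨r0, hr0, hr1, hr2⟩ := this
    exact ⟨r0, hr0, h1' r0 hr0 hr1, h2' r0 hr0 hr2⟩
  obtain ⟨r0, hr0, hw, hw'⟩ := hwin
  have hr0' : r0 ≤ 12 := by omega
  -- inside the window
  have hdivmod : ∀ p i, p % ℓ + 6 ≤ ℓ → i < 6 → (p + i) / ℓ = p / ℓ ∧ (p + i) % ℓ = p % ℓ + i := by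
    intro p i hp hi
    have h1 : p + i = p % ℓ + i + ℓ * (p / ℓ) := by
      have := Nat.div_add_mod p ℓ
      omega
    constructor
    · rw [h1, Nat.add_mul_div_left _ _ hℓ, Nat.div_eq_of_lt (by omega), zero_add]
    · rw [h1, Nat.add_mul_mod_self_left]
      exact Nat.mod_eq_of_lt (by omega)
  obtain ⟨ha, -⟩ := hget (k - 18 + r0) (by omega)
  obtain ⟨ha', -⟩ := hget' (k' - 18 + r0) (by omega)
  have hw6 : v[(k - 18 + r0) / ℓ] = v'[(k' - 18 + r0) / ℓ] ∧
      (k - 18 + r0) % ℓ = (k' - 18 + r0) % ℓ := by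
    refine window hc hw hw' fun i hi => ?_
    have e1 := hdivmod (k - 18 + r0) i hw hi
    have e2 := hdivmod (k' - 18 + r0) i hw' hi
    obtain ⟨h3, h4⟩ := hget (k - 18 + r0 + i) (by omega)
    obtain ⟨h3', h4'⟩ := hget' (k' - 18 + r0 + i) (by omega)
    have h5 := h (r0 + i) (by omega)
    rw [← add_assoc, ← add_assoc, h4, h4'] at h5
    have h6 := Option.some.inj h5
    simp only [e1.1, e1.2, e2.1, e2.2] at h6
    exact h6
  have hmod : k % ℓ = k' % ℓ := by
    have h1 : (k - 18 + r0) ≡ (k' - 18 + r0) [MOD ℓ] := hw6.2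
    have h2 : (k - 18) ≡ (k' - 18) [MOD ℓ] := Nat.ModEq.add_right_cancel' r0 h1
    have h3 := h2.add_right 18
    rw [Nat.sub_add_cancel h18, Nat.sub_add_cancel h18'] at h3
    exact h3
  -- the block containing `k`
  have hblock : k % ℓ ≠ 0 → ∃ (h1 : k / ℓ < v.length) (h2 : k' / ℓ < v'.length),
      v[k / ℓ] = v'[k' / ℓ] := by
    intro hne
    have hk1 : k < ℓ * v.length := by
      rcases Nat.lt_or_ge k (ℓ * v.length) with h1 | h1
      · exact h1
      · have : k = ℓ * v.length := le_antisymm hk h1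
        rw [this, Nat.mul_mod_right] at hne
        exact absurd rfl hne
    have hk1' : k' < ℓ * v'.length := by
      rcases Nat.lt_or_ge k' (ℓ * v'.length) with h1 | h1
      · exact h1
      · have : k' = ℓ * v'.length := le_antisymm hk' h1
        rw [hmod, this, Nat.mul_mod_right] at hne
        exact absurd rfl hne
    have hd1 : k / ℓ < v.length := Nat.div_lt_of_lt_mul hk1
    have hd2 : k' / ℓ < v'.length := Nat.div_lt_of_lt_mul hk1'
    refine ⟨hd1, hd2, ?_⟩
    have hdm := Nat.div_add_mod k ℓ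
    have hdm' := Nat.div_add_mod k' ℓ
    rcases Nat.lt_or_ge 18 (k % ℓ) with h19 | h19
    · -- everything in one block
      have e1 : (k - 18 + r0) / ℓ = k / ℓ := by
        have h1 : k - 18 + r0 = (k % ℓ - 18 + r0) + ℓ * (k / ℓ) := by omega
        rw [h1, Nat.add_mul_div_left _ _ hℓ, Nat.div_eq_of_lt, zero_add]
        have := Nat.mod_lt k hℓ
        omega
      have e2 : (k' - 18 + r0) / ℓ = k' / ℓ := by
        have h1 : k' - 18 + r0 = (k' % ℓ - 18 + r0) + ℓ * (k' / ℓ) := by omega
        rw [h1, Nat.add_mul_div_left _ _ hℓ, Nat.div_eq_of_lt, zero_add]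
        have := Nat.mod_lt k' hℓ
        omega
      have h3 := hw6.1
      simp only [e1, e2] at h3
      exact h3
    · have h1 := h (18 - k % ℓ) (by omega)
      have e1 : k - 18 + (18 - k % ℓ) = ℓ * (k / ℓ) + 0 := by omega
      have e2 : k' - 18 + (18 - k % ℓ) = ℓ * (k' / ℓ) + 0 := by omega
      rw [e1, e2, blk_get v hd1 hℓ, blk_get v' hd2 hℓ, bl_zero hc, bl_zero hc] at h1
      exact Option.some.inj h1
  refine ⟨hmod, ?_, ?_⟩
  · intro hne
    obtain ⟨h1, h2, h3⟩ := hblock hne
    have e1 := blk_get (c := c) (ℓ := ℓ) v h1 (Nat.mod_lt k hℓ)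
    have e2 := blk_get (c := c) (ℓ := ℓ) v' h2 (Nat.mod_lt k' hℓ)
    rw [Nat.div_add_mod] at e1 e2
    rw [e1, e2, h3, hmod]
    exact ⟨rfl, by simp⟩
  · by_cases hne : k % ℓ = 0
    · have e1 : (blk c ℓ v).take k = blk c ℓ (v.take (k / ℓ)) := by
        rw [← blk_take]
        congr 1
        have := Nat.div_add_mod k ℓ
        omega
      have e2 : (blk c ℓ v').take k' = blk c ℓ (v'.take (k' / ℓ)) := by
        rw [← blk_take]
        congr 1
        have := Nat.div_add_mod k' ℓ
        omega
      rw [e1, e2, mk_blk, mk_blk, ← map_inv, ← map_mul]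
      exact ⟨_, rfl⟩
    · obtain ⟨h1, h2, h3⟩ := hblock hne
      have e1 := take_eq (c := c) (ℓ := ℓ) v h1 (Nat.mod_lt k hℓ).le
      have e2 := take_eq (c := c) (ℓ := ℓ) v' h2 (Nat.mod_lt k' hℓ).le
      rw [Nat.div_add_mod] at e1 e2
      rw [e1, e2, mk_append, mk_append, mk_blk, mk_blk, h3, hmod]
      have e3 : ∀ a b x : FreeGroup (Fin g), a * x * (b * x)⁻¹ = a * b⁻¹ := by
        intro a b x
        group
      rw [e3, ← map_inv, ← map_mul]
      exact ⟨_, rfl⟩

end Crest.Agent.R191
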