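import Crest.Agent.R191.Exc

/-!
# R191 piece BRIT: the group and the Dehn property

`Gam c ℓ = HNNExtension F ⊤ φ(F) φ`, `t f t⁻¹ = φ(f)`.
-/

set_option autoImplicit false

namespace Crest.Agent.R191

variable {g : ℕ} {c : Fin g → ℕ → Fin g} {ℓ : ℕ}

/-- `φ` as an isomorphism `⊤ ≃ φ(F)` -/
noncomputable def phiEquiv (hc : CWords c ℓ) :
    (⊤ : Subgroup (FreeGroup (Fin g))) ≃* (phi c ℓ).range :=
  Subgroup.topEquiv.trans (MonoidHom.ofInjective (f := phi c ℓ) (by
    -- `phi_injective hc` (piece BLK)
    exact phi_injective hc))

/-- the group -/
abbrev Gam (hc : CWords c ℓ) : Type :=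
  HNNExtension (FreeGroup (Fin g)) ⊤ (phi c ℓ).range (phiEquiv hc)

/-- the generators -/
noncomputable def gval (hc : CWords c ℓ) : Lab g → Gam hc
  | none => HNNExtension.t
  | some i => HNNExtension.of (FreeGroup.of i)

/-- `t` conjugates: `s_i = t⁻¹ C_i t`, as a product of the `s_j` -/
theorem gam_conj (hc : CWords c ℓ) (i : Fin g) :
    gval hc none * gval hc (some i) * (gval hc none)⁻¹ =
      ((List.range ℓ).map fun p => gval hc (some (c i p))).prod := by
  have h := HNNExtension.equiv_eq_conj (φ := phiEquiv hc)
    (⟨FreeGroup.of i, Subgroup.mem_top _⟩ : (⊤ : Subgroup (FreeGroup (Fin g))))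
  have h1 : gval hc none * gval hc (some i) * (gval hc none)⁻¹ =
      HNNExtension.of (phi c ℓ (FreeGroup.of i)) := h.symm
  rw [h1]
  have h2 : phi c ℓ (FreeGroup.of i) =
      ((List.range ℓ).map fun p => FreeGroup.of (c i p)).prod := by
    unfold phi
    rw [FreeGroup.lift_apply_of]
    unfold Cw
    have : ∀ l : List ℕ, FreeGroup.mk (l.map fun p => (c i p, true)) =
        (l.map fun p => FreeGroup.of (c i p)).prod := by
      intro l
      induction l with
      | nil => rfl
      | cons x l ih =>
        rw [List.map_cons, List.map_cons, List.prod_cons, ← ih]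
        rw [FreeGroup.of, FreeGroup.mul_mk]
        rfl
    exact this _
  rw [h2, map_list_prod, List.map_map]
  rfl

theorem gam_rel (hc : CWords c ℓ) (i : Fin g) :
    wval (gval hc) (seg c ℓ i 0 (ℓ + 3)) = 1 := by
  have h0 : seg c ℓ i 0 (ℓ + 3) = (none, true) :: (some i, true) :: (none, false) ::
      (List.range ℓ).map (fun j => (some (c i (ℓ - 1 - j)), false)) := by
    unfold seg
    rw [Nat.add_comm ℓ 3, List.range_add, List.map_append]
    have e1 : (List.range 3).map (fun j => rl c ℓ i (0 + j)) =
        [(none, true), (some i, true), (none, false)] := by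
      have hb := hc.big
      have h1 : (1 : ℕ) % (ℓ + 3) = 1 := Nat.mod_eq_of_lt (by omega)
      have h2 : (2 : ℕ) % (ℓ + 3) = 2 := Nat.mod_eq_of_lt (by omega)
      simp [List.range_succ, rl, h1, h2]
    rw [e1]
    simp only [List.cons_append, List.nil_append, List.map_map]
    congr 3
    apply List.map_congr_left
    intro j hj
    rw [List.mem_range] at hj
    have h1 : (0 + (3 + j)) % (ℓ + 3) = 3 + j := by
      rw [Nat.zero_add]
      exact Nat.mod_eq_of_lt (by omega)
    simp only [Function.comp, rl, h1]
    rw [if_neg (by omega), if_neg (by omega), if_neg (by omega)]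
    have : ℓ + 2 - (3 + j) = ℓ - 1 - j := by omega
    rw [this]
  have h3 : wval (gval hc) ((List.range ℓ).map (fun j => (some (c i (ℓ - 1 - j)), false))) =
      (((List.range ℓ).map fun p => gval hc (some (c i p))).prod)⁻¹ := by
    rw [List.prod_inv_reverse, ← List.map_reverse, ← List.map_reverse]
    unfold wval
    rw [List.map_map, List.map_map]
    congr 1
    have hrev : (List.range ℓ).reverse = (List.range ℓ).map (fun j => ℓ - 1 - j) := by
      apply List.ext_getElem
      · simp
      · intro n h1 h2
        simp
    rw [hrev, List.map_map]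
    apply List.map_congr_left
    intro j _
    simp [lval]
  have h4 := gam_conj hc i
  have h5 : wval (gval hc) (seg c ℓ i 0 (ℓ + 3)) =
      gval hc none * gval hc (some i) * (gval hc none)⁻¹ *
      wval (gval hc) ((List.range ℓ).map (fun j => (some (c i (ℓ - 1 - j)), false))) := by
    rw [h0]
    simp [wval, lval, mul_assoc]
  rw [h5, h3, h4, mul_inv_cancel]

/-- the group is finitely generated by `t` and the `s_i` -/
theorem gam_closure (hc : CWords c ℓ) : Subgroup.closure (Set.range (gval hc)) = ⊤ := by
  rw [eq_top_iff]
  rintro x -
  have hof : ∀ f : FreeGroup (Fin g), (HNNExtension.of f : Gam hc) ∈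
      Subgroup.closure (Set.range (gval hc)) := by
    intro f
    induction f using FreeGroup.induction_on with
    | C1 => rw [map_one]; exact Subgroup.one_mem _
    | of i => exact Subgroup.subset_closure ⟨some i, rfl⟩
    | inv_of i h => rw [map_inv]; exact Subgroup.inv_mem _ h
    | mul x y hx hy => rw [map_mul]; exact Subgroup.mul_mem _ hx hy
  induction x using HNNExtension.induction_on with
  | of f => exact hof f
  | t => exact Subgroup.subset_closure ⟨none, rfl⟩
  | mul x y hx hy => exact Subgroup.mul_mem _ hx hy
  | inv x hx => exact Subgroup.inv_mem _ hx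

theorem gam_fg (hc : CWords c ℓ) : Group.FG (Gam hc) := by
  rw [Group.fg_iff]
  exact ⟨_, gam_closure hc, Set.finite_range _⟩

theorem gam_countable (hc : CWords c ℓ) : Countable (Gam hc) := by
  have h : Function.Surjective
      (fun w : List (Lab g × Bool) => FreeGroup.lift (gval hc) (FreeGroup.mk w)) := by
    intro x
    have hx : x ∈ Subgroup.closure (Set.range (gval hc)) := by
      rw [gam_closure]; exact Subgroup.mem_top x
    rw [← FreeGroup.range_lift_eq_closure] at hx
    obtain ⟨y, rfl⟩ := hx
    obtain ⟨w, rfl⟩ := Quot.exists_rep y
    exact ⟨w, rfl⟩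
  exact h.countable

/-- the height homomorphism `s_i ↦ 0`, `t ↦ 1` -/
theorem gam_height (hc : CWords c ℓ) :
    ∃ h : Gam hc →* Multiplicative ℤ, h (gval hc none) = Multiplicative.ofAdd 1 ∧
      ∀ i, h (gval hc (some i)) = 1 := by
  refine ⟨HNNExtension.lift (1 : FreeGroup (Fin g) →* Multiplicative ℤ)
    (Multiplicative.ofAdd 1) (by intro a; simp), ?_, ?_⟩
  · simp [gval]
  · intro i
    simp [gval]

/-- value of a word with positive excursions -/
theorem excV_val (hc : CWords c ℓ) {w : List (Lab g × Bool)} {f : FreeGroup (Fin g)}
    (h : ExcV c ℓ w f) : wval (gval hc) w = HNNExtension.of f := by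
  induction h with
  | nil => simp [wval]
  | @s e w f h ih =>
    obtain ⟨i, b⟩ := e
    have h1 : wval (gval hc) (emb (i, b) :: w) =
        lval (gval hc) (some i, b) * wval (gval hc) w := by
      simp [wval, emb]
    rw [h1, ih, map_mul]
    congr 1
    cases b with
    | true => rfl
    | false =>
      have h2 : (FreeGroup.mk [(i, false)] : FreeGroup (Fin g)) = (FreeGroup.of i)⁻¹ := by
        simp [FreeGroup.of, FreeGroup.inv_mk, FreeGroup.invRev]
      rw [h2, map_inv]
      rfl
  | @blk u w f f' hu hw ihu ihw =>
    have h1 : wval (gval hc) ((none, true) :: (u ++ (none, false) :: w)) =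
        HNNExtension.t * wval (gval hc) u * HNNExtension.t⁻¹ * wval (gval hc) w := by
      simp [wval, lval, gval, mul_assoc]
    rw [h1, ihu, ihw, map_mul]
    congr 1
    exact (HNNExtension.equiv_eq_conj (φ := phiEquiv hc)
      (⟨f, Subgroup.mem_top _⟩ : (⊤ : Subgroup (FreeGroup (Fin g))))).symm

/-- first-level decomposition of a word (signs `false … false true … true`) -/
theorem britton_dec (w : List (Lab g × Bool)) :
    ∃ (a : List (Lab g × Bool)) (fa : FreeGroup (Fin g))
      (L : List (Bool × List (Lab g × Bool) × FreeGroup (Fin g))),
      ExcV c ℓ a fa ∧ (∀ x ∈ L, ExcV c ℓ x.2.1 x.2.2) ∧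
      w = a ++ L.flatMap (fun x => (none, x.1) :: x.2.1) ∧
      L.IsChain (fun x y => x.1 = true → y.1 = true) := by
  induction w with
  | nil => exact ⟨[], 1, [], ExcV.nil, by simp, by simp, by simp⟩
  | cons e w ih =>
    obtain ⟨a, fa, L, ha, hL, rfl, hch⟩ := ih
    obtain ⟨o, b⟩ := e
    cases o with
    | some i =>
      exact ⟨(some i, b) :: a, _, L, ExcV.s (i, b) ha, hL, by simp, hch⟩
    | none =>
      cases b with
      | false =>
        refine ⟨[], 1, (false, a, fa) :: L, ExcV.nil, ?_, by simp, ?_⟩
        · intro x hx
          rcases List.mem_cons.1 hx with rfl | hx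
          · exact ha
          · exact hL x hx
        · cases L with
          | nil => simp
          | cons y L => exact List.isChain_cons_cons.2 ⟨by simp, hch⟩
      | true =>
        cases L with
        | nil =>
          refine ⟨[], 1, [(true, a, fa)], ExcV.nil, ?_, by simp, by simp⟩
          intro x hx
          rw [List.mem_singleton] at hx
          subst hx
          exact ha
        | cons y L =>
          obtain ⟨by', vy, fy⟩ := y
          cases by' with
          | true =>
            refine ⟨[], 1, (true, a, fa) :: (true, vy, fy) :: L, ExcV.nil, ?_, by simp,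
              List.isChain_cons_cons.2 ⟨by simp, hch⟩⟩
            intro x hx
            rcases List.mem_cons.1 hx with rfl | hx
            · exact ha
            · exact hL x hx
          | false =>
            refine ⟨(none, true) :: (a ++ (none, false) :: vy), _, L,
              ExcV.blk ha (hL (false, vy, fy) (by simp)),
              fun x hx => hL x (by simp [hx]), by simp, ?_⟩
            cases L with
            | nil => simp
            | cons z L => exact (List.isChain_cons_cons.1 hch).2

/-- BRITTON.  A reduced `NCfree` word with value in the base group has only positive excursions.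

Proof.  Every word `w` has a first-level decomposition
`w = a₀ t⁻¹ a₁ t⁻¹ ⋯ t⁻¹ a_r t b₁ t ⋯ t b_s` with all `a_i`, `b_i` of type `ExcV`
(induction on `w`, cutting out maximal positive excursions: a down-up path at its minimum).
The corresponding HNN word has signs `t⁻¹ … t⁻¹ t … t`; if `r + s ≥ 1` and the value is in the base
group, Britton's lemma (`HNNExtension.ReducedWord.toList_eq_nil_of_mem_of_range`) says it is not
reduced, and the only possible pinch is `t⁻¹ (value of a_r) t` with value of `a_r` in `φ(F)`
(`r, s ≥ 1`).  `a_r` is an infix of `w`, preceded by `t⁻¹`, so it does not start with `t`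
(`w` is reduced), it is reduced and `NCfree`; `excP` gives `a_r = []`, so `t⁻¹ t` is an infix of
`w`, contradiction. -/
theorem britton (hc : CWords c ℓ) {w : List (Lab g × Bool)} (hr : Red w) (hn : NCfree c ℓ w)
    {f : FreeGroup (Fin g)} (hf : wval (gval hc) w = HNNExtension.of f) :
    ExcV c ℓ w f := by
  obtain ⟨a, fa, L, ha, hL, rfl, hch⟩ := britton_dec (c := c) (ℓ := ℓ) w
  -- infixes of `w`
  have hinf : ∀ v, v <:+: a ++ L.flatMap (fun x => (none, x.1) :: x.2.1) → Red v ∧ NCfree c ℓ v := by
    intro v hv
    refine ⟨List.IsChain.infix hr hv, fun i k => ⟨fun h => (hn i k).1 (h.trans hv),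
      fun h => (hn i k).2 (h.trans hv)⟩⟩
  -- the HNN word
  let φ := phiEquiv hc
  let M : List (ℤˣ × FreeGroup (Fin g)) := L.map fun x => (if x.1 = true then 1 else -1, x.2.2)
  have hM : M.IsChain (fun a b => a.2 ∈ HNNExtension.toSubgroup
      (⊤ : Subgroup (FreeGroup (Fin g))) (phi c ℓ).range a.1 → a.1 = b.1) := by
    have key : ∀ (pre : List (Lab g × Bool)) (L : List (Bool × List (Lab g × Bool) ×
        FreeGroup (Fin g))), (∀ x ∈ L, ExcV c ℓ x.2.1 x.2.2) →
        L.IsChain (fun x y => x.1 = true → y.1 = true) →
        (∀ v, v <:+: pre ++ L.flatMap (fun x => (none, x.1) :: x.2.1) →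
          Red v ∧ NCfree c ℓ v) →
        (L.map fun x => ((if x.1 = true then 1 else -1 : ℤˣ), x.2.2)).IsChain
          (fun a b => a.2 ∈ HNNExtension.toSubgroup
      (⊤ : Subgroup (FreeGroup (Fin g))) (phi c ℓ).range a.1 → a.1 = b.1) := by
      intro pre L
      induction L generalizing pre with
      | nil => intros; simp
      | cons x L ih =>
        intro hL hch hinf
        cases L with
        | nil => simp
        | cons y L =>
          rw [List.isChain_cons_cons] at hch
          simp only [List.map_cons]
          rw [List.isChain_cons_cons]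
          refine ⟨?_, ?_⟩
          · intro hx
            obtain ⟨bx, vx, fx⟩ := x
            obtain ⟨by', vy, fy⟩ := y
            simp only at hx hch ⊢
            cases bx with
            | true =>
              have := hch.1 rfl
              simp [this]
            | false =>
              cases by' with
              | false => simp
              | true =>
                exfalso
                simp only [Bool.false_eq_true, if_false, HNNExtension.toSubgroup_neg_one] at hx
                have hvx : ExcV c ℓ vx fx := hL (false, vx, fx) (by simp)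
                have hi1 : ((none, false) :: vx ++ [(none, true)] : List (Lab g × Bool)) <:+:
                    pre ++ List.flatMap (fun x => (none, x.1) :: x.2.1)
                      ((false, vx, fx) :: (true, vy, fy) :: L) := by
                  refine ⟨pre, vy ++ List.flatMap (fun x => (none, x.1) :: x.2.1) L, ?_⟩
                  simp
                have hi2 : vx <:+: ((none, false) :: vx ++ [(none, true)] :
                    List (Lab g × Bool)) := ⟨[(none, false)], [(none, true)], by simp⟩
                obtain ⟨hr1, -⟩ := hinf _ hi1
                obtain ⟨hr2, hn2⟩ := hinf _ (hi2.trans hi1)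
                have hnil : vx = [] := by
                  refine excP hc hvx hr2 hn2 ?_ hx
                  intro hhead
                  cases vx with
                  | nil => simp at hhead
                  | cons z vx =>
                    simp only [List.head?_cons, Option.some.injEq] at hhead
                    subst hhead
                    unfold Red at hr1
                    simp only [List.cons_append] at hr1
                    rw [List.isChain_cons_cons] at hr1
                    exact hr1.1 (by simp)
                subst hnil
                unfold Red at hr1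
                simp only [List.cons_append, List.nil_append] at hr1
                rw [List.isChain_cons_cons] at hr1
                exact hr1.1 (by simp)
          · refine ih (pre ++ (none, x.1) :: x.2.1) (fun z hz => hL z (by simp [hz]))
              hch.2 ?_
            intro v hv
            apply hinf v
            simpa using hv
    exact key a L hL hch hinf
  let W : HNNExtension.NormalWord.ReducedWord (FreeGroup (Fin g)) ⊤ (phi c ℓ).range :=
    ⟨fa, M, hM⟩
  have hW : W.prod φ = HNNExtension.of f := by
    rw [← hf]
    have hval : ∀ L : List (Bool × List (Lab g × Bool) × FreeGroup (Fin g)),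
        (∀ x ∈ L, ExcV c ℓ x.2.1 x.2.2) →
        wval (gval hc) (L.flatMap (fun x => (none, x.1) :: x.2.1)) =
        ((L.map fun x => ((if x.1 = true then 1 else -1 : ℤˣ), x.2.2)).map
          (fun x : ℤˣ × FreeGroup (Fin g) =>
            (HNNExtension.t ^ (x.1 : ℤ) * HNNExtension.of x.2 : Gam hc))).prod := by
      intro L
      induction L with
      | nil => intro _; simp [wval]
      | cons x L ih =>
        intro hL
        have h1 := ih (fun z hz => hL z (by simp [hz]))
        have h2 : wval (gval hc) x.2.1 = HNNExtension.of x.2.2 :=
          excV_val hc (hL x (by simp))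
        rw [List.map_cons, List.map_cons, List.prod_cons, ← h1, ← h2]
        obtain ⟨bx, vx, fx⟩ := x
        cases bx <;> simp [wval, lval, gval, mul_assoc]
    have h2 := excV_val hc ha
    have h3 := hval L hL
    change HNNExtension.of fa * (M.map _).prod = _
    rw [← h2]
    change _ * (((L.map fun x => ((if x.1 = true then 1 else -1 : ℤˣ), x.2.2)).map
          (fun x : ℤˣ × FreeGroup (Fin g) =>
            (HNNExtension.t ^ (x.1 : ℤ) * HNNExtension.of x.2 : Gam hc))).prod) = _
    rw [← h3]
    simp [wval]
  have hnil : M = [] := HNNExtension.ReducedWord.toList_eq_nil_of_mem_of_range φ W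
    ⟨f, hW.symm⟩
  have hLnil : L = [] := by simpa [M] using hnil
  subst hLnil
  have hfa : fa = f := by
    apply HNNExtension.of_injective (φ := phiEquiv hc)
    rw [← excV_val hc ha, ← hf]
    simp
  subst hfa
  simpa using ha

/-- DEHN. -/
theorem gam_dehn (hc : CWords c ℓ) (i0 : Fin g) (w : List (Lab g × Bool)) (hr : Red w)
    (hw : wval (gval hc) w = gval hc (some i0)) :
    w = [(some i0, true)] ∨
      ∃ i k, seg c ℓ i k (ℓ - 57) <:+: w ∨ winv (seg c ℓ i k (ℓ - 57)) <:+: w := by
  by_cases hn : NCfree c ℓ w
  · left
    have h := britton hc hr hn (f := FreeGroup.of i0) hw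
    rcases excQ hc h hr hn with ⟨v, rfl, hv⟩ | h2
    · -- `v` is reduced and `mk v = of i0`, so `v = [(i0, true)]`
      have hv2 : FreeGroup.IsReduced v := by
        have h1 : List.IsChain (fun e e' : Fin g × Bool => ¬ ((emb e').1 = (emb e).1 ∧
            (emb e').2 = !(emb e).2)) v := by
          unfold Red at hr
          rw [List.isChain_map] at hr
          exact hr
        refine h1.imp ?_
        intro a b hab h
        by_contra hne
        apply hab
        refine ⟨by simp [emb, h], ?_⟩
        simp only [emb]
        cases h1 : a.2 <;> cases h2 : b.2 <;> simp_all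
      have hv3 : FreeGroup.mk [(i0, true)] = FreeGroup.mk v := hv
      obtain ⟨u, hu1, hu2⟩ := FreeGroup.Red.exact.1 hv3
      have e1 := (FreeGroup.IsReduced.red_iff_eq hv2).1 hu2
      have e2 := (FreeGroup.IsReduced.red_iff_eq (FreeGroup.IsReduced.singleton)).1 hu1
      rw [← e1, e2]
      simp [emb]
    · simp at h2
  · right
    unfold NCfree at hn
    push Not at hn
    obtain ⟨i, k, h⟩ := hn
    by_cases h1 : seg c ℓ i k (ℓ - 57) <:+: w
    · exact ⟨i, k, Or.inl h1⟩
    · exact ⟨i, k, Or.inr (h h1)⟩

end Crest.Agent.R191
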