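import Crest.Agent.R191.Meas

/-!
# R191 piece CL: auxiliary lemmas (Cauchy-Schwarz)
-/

set_option autoImplicit false

namespace Crest.Agent.R191.CLaux

open MeasureTheory
open scoped ENNReal

theorem two_conj : (2 : ℝ).HolderConjugate 2 := by
  rw [Real.holderConjugate_iff]; norm_num

theorem tsum_cs {P : Type} (f g : P → ℝ≥0∞) :
    ∑' p, f p * g p ≤ (∑' p, f p ^ 2) ^ (1 / 2 : ℝ) * (∑' p, g p ^ 2) ^ (1 / 2 : ℝ) := by
  rw [ENNReal.tsum_eq_iSup_sum]
  refine iSup_le fun s => ?_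
  refine (ENNReal.inner_le_Lp_mul_Lq s f g two_conj).trans ?_
  refine mul_le_mul' ?_ ?_
  · refine ENNReal.rpow_le_rpow ?_ (by norm_num)
    calc ∑ i ∈ s, f i ^ (2 : ℝ) = ∑ i ∈ s, f i ^ 2 := by
          refine Finset.sum_congr rfl fun i _ => ?_
          rw [← ENNReal.rpow_natCast]; norm_num
      _ ≤ ∑' p, f p ^ 2 := ENNReal.sum_le_tsum s
  · refine ENNReal.rpow_le_rpow ?_ (by norm_num)
    calc ∑ i ∈ s, g i ^ (2 : ℝ) = ∑ i ∈ s, g i ^ 2 := by
          refine Finset.sum_congr rfl fun i _ => ?_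
          rw [← ENNReal.rpow_natCast]; norm_num
      _ ≤ ∑' p, g p ^ 2 := ENNReal.sum_le_tsum s

/-- Cauchy-Schwarz along a partial injection -/
theorem tsum_pinj {S : Type} (P : S → S → Prop) (h1 : ∀ n m m', P n m → P n m' → m = m')
    (h2 : ∀ n n' m, P n m → P n' m → n = n') (f g : S → ℝ≥0∞) :
    ∑' nm : S × S, (open scoped Classical in if P nm.1 nm.2 then f nm.1 * g nm.2 else 0) ≤
      (∑' s, f s ^ 2) ^ (1 / 2 : ℝ) * (∑' s, g s ^ 2) ^ (1 / 2 : ℝ) := by
  classical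
  have key : ∀ nm : S × S, (if P nm.1 nm.2 then f nm.1 * g nm.2 else 0) =
      (if P nm.1 nm.2 then f nm.1 else 0) * (if P nm.1 nm.2 then g nm.2 else 0) := by
    intro nm; split_ifs <;> simp
  have e0 : ∑' nm : S × S, (open scoped Classical in if P nm.1 nm.2 then f nm.1 * g nm.2 else 0)
      = ∑' nm : S × S, (if P nm.1 nm.2 then f nm.1 else 0) * (if P nm.1 nm.2 then g nm.2 else 0) := by
    refine tsum_congr fun nm => ?_
    rw [← key]
  rw [e0]
  refine (tsum_cs _ _).trans (mul_le_mul' ?_ ?_)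
  · refine ENNReal.rpow_le_rpow ?_ (by norm_num)
    rw [ENNReal.tsum_prod (f := fun n m => (if P n m then f n else 0) ^ 2)]
    refine ENNReal.tsum_le_tsum fun n => ?_
    by_cases hn : ∃ m, P n m
    · obtain ⟨m, hm⟩ := hn
      rw [tsum_eq_single m]
      · simp [hm]
      · intro m' hm'
        have : ¬ P n m' := fun h => hm' (h1 _ _ _ h hm)
        simp [this]
    · push Not at hn
      simp [hn]
  · refine ENNReal.rpow_le_rpow ?_ (by norm_num)
    rw [ENNReal.tsum_prod (f := fun n m => (if P n m then g m else 0) ^ 2), ENNReal.tsum_comm]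
    refine ENNReal.tsum_le_tsum fun m => ?_
    by_cases hn : ∃ n, P n m
    · obtain ⟨n, hn⟩ := hn
      rw [tsum_eq_single n]
      · simp [hn]
      · intro n' hn'
        have : ¬ P n' m := fun h => hn' (h2 _ _ _ h hn)
        simp [this]
    · push Not at hn
      simp [hn]

theorem rpow_half_sq (a : ℝ≥0∞) : (a ^ (1 / 2 : ℝ)) ^ 2 = a := by
  rw [← ENNReal.rpow_natCast, ← ENNReal.rpow_mul]; norm_num

/-- Cauchy-Schwarz for a function supported on a set -/
theorem lintegral_supp {X : Type} [MeasurableSpace X] (μ : Measure X) (U : X → ℝ≥0∞)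
    (hU : Measurable U) (A : Set X) (hA : MeasurableSet A) (h0 : ∀ x, x ∉ A → U x = 0) :
    ∫⁻ x, U x ∂μ ≤ (∫⁻ x, U x ^ 2 ∂μ) ^ (1 / 2 : ℝ) * (μ A) ^ (1 / 2 : ℝ) := by
  have h := ENNReal.lintegral_mul_le_Lp_mul_Lq μ two_conj (f := U) (g := A.indicator 1)
    hU.aemeasurable ((measurable_one.indicator hA).aemeasurable)
  have e1 : ∀ x, (U * A.indicator (1 : X → ℝ≥0∞)) x = U x := by
    intro x
    by_cases hx : x ∈ A
    · simp [hx]
    · simp [hx, h0 x hx]
  have e2 : ∀ x, (A.indicator (1 : X → ℝ≥0∞) x) ^ (2 : ℝ) = A.indicator 1 x := by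
    intro x
    by_cases hx : x ∈ A
    · simp [hx]
    · simp [hx]
  simp only [e1, e2] at h
  rw [lintegral_indicator_one hA] at h
  have e3 : ∫⁻ x, U x ^ (2 : ℝ) ∂μ = ∫⁻ x, U x ^ 2 ∂μ := by
    refine lintegral_congr fun x => ?_
    rw [← ENNReal.rpow_natCast]; norm_num
  rw [e3] at h
  exact h

end Crest.Agent.R191.CLaux
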