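import Crest.Agent.R191.Meas
import Crest.Agent.R191.CLaux

/-!
# R191 piece CL: counting paths in a small set of vertices (spectral gap)
-/

set_option autoImplicit false

namespace Crest.Agent.R191

open MeasureTheory
open scoped ENNReal

/-- CL1 (one step).  For `u v : S → X → ℝ≥0∞` supported on a family `W` with `g * cnt W ≤ 1`,
`∑_i ∑_{edges (x,n) → (σ_i x, m)} u(x,n) v(σ_i x, m) ≤ (2√g + 1) ‖u‖₂ ‖v‖₂`.

Proof: for fixed `i`, `x` the edges form a partial injection of sheets, so by Cauchy–Schwarz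
`∑_{(n,m) : x ∈ E i n m} u n x * v m (σ_i x) ≤ U x * V (σ_i x)`, `U x = (∑_n (u n x)^2)^{1/2}`, `V` similarly.
`SG` gives `≤ 2√g ‖U‖ ‖V‖ + g ∫U ∫V`, and `∫ U ≤ ‖U‖₂ μ(supp U)^{1/2}`, `μ(supp U) ≤ cnt W`
(Cauchy–Schwarz / Hölder), so `g ∫U ∫V ≤ g * cnt W * ‖U‖ ‖V‖ ≤ ‖U‖ ‖V‖`. -/
theorem CL_step (e : Env) {S : Type} [Countable S] (𝒢 : Fld (Lab e.g) e.X S)
    (hm : FMeas 𝒢) (hf : Folded (𝒢.G e.val)) (W : S → Set e.X)
    (hW : ∀ s, MeasurableSet (W s)) (hWc : cnt e.μ W * e.g ≤ 1)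
    (u v : S → e.X → ℝ≥0∞) (hu : ∀ s, Measurable (u s)) (hv : ∀ s, Measurable (v s))
    (hu0 : ∀ s x, x ∉ W s → u s x = 0) (hv0 : ∀ s x, x ∉ W s → v s x = 0) :
    ∑ i : Fin e.g, ∑' nm : S × S, ∫⁻ x in 𝒢.E (some i) nm.1 nm.2,
        u nm.1 x * v nm.2 ((e.val (some i))⁻¹ • x) ∂e.μ ≤
      ENNReal.ofReal (2 * Real.sqrt e.g + 1) * (∑' s, ∫⁻ x, u s x ^ 2 ∂e.μ) ^ (1 / 2 : ℝ) *
        (∑' s, ∫⁻ x, v s x ^ 2 ∂e.μ) ^ (1 / 2 : ℝ) := by
  classical
  set U : e.X → ℝ≥0∞ := fun x => (∑' s, u s x ^ 2) ^ (1 / 2 : ℝ) with hUdef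
  set V : e.X → ℝ≥0∞ := fun x => (∑' s, v s x ^ 2) ^ (1 / 2 : ℝ) with hVdef
  have hUm : Measurable U :=
    (Measurable.tsum fun s => (hu s).pow_const 2).pow_const _
  have hVm : Measurable V :=
    (Measurable.tsum fun s => (hv s).pow_const 2).pow_const _
  have hU2 : ∫⁻ x, U x ^ 2 ∂e.μ = ∑' s, ∫⁻ x, u s x ^ 2 ∂e.μ := by
    rw [← lintegral_tsum fun s => ((hu s).pow_const 2).aemeasurable]
    exact lintegral_congr fun x => CLaux.rpow_half_sq _
  have hV2 : ∫⁻ x, V x ^ 2 ∂e.μ = ∑' s, ∫⁻ x, v s x ^ 2 ∂e.μ := by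
    rw [← lintegral_tsum fun s => ((hv s).pow_const 2).aemeasurable]
    exact lintegral_congr fun x => CLaux.rpow_half_sq _
  -- the fixed `i` estimate
  have step1 : ∀ i : Fin e.g, ∑' nm : S × S, ∫⁻ x in 𝒢.E (some i) nm.1 nm.2,
      u nm.1 x * v nm.2 ((e.val (some i))⁻¹ • x) ∂e.μ ≤
      ∫⁻ x, U x * V ((e.val (some i))⁻¹ • x) ∂e.μ := by
    intro i
    have hmeas : ∀ nm : S × S, Measurable fun x =>
        u nm.1 x * v nm.2 ((e.val (some i))⁻¹ • x) := fun nm =>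
      (hu nm.1).mul ((hv nm.2).comp (e.meas_smul _))
    have h1 : ∀ nm : S × S, ∫⁻ x in 𝒢.E (some i) nm.1 nm.2,
        u nm.1 x * v nm.2 ((e.val (some i))⁻¹ • x) ∂e.μ =
        ∫⁻ x, (𝒢.E (some i) nm.1 nm.2).indicator
          (fun x => u nm.1 x * v nm.2 ((e.val (some i))⁻¹ • x)) x ∂e.μ := fun nm => by
      rw [lintegral_indicator (hm _ _ _)]
    simp only [h1]
    rw [← lintegral_tsum fun nm => ((hmeas nm).indicator (hm _ _ _)).aemeasurable]
    refine lintegral_mono fun x => ?_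
    have h2 := CLaux.tsum_pinj (fun n m => x ∈ 𝒢.E (some i) n m)
      (fun n m m' h h' => by
        have := hf.1 (some i) (x, n) ((e.val (some i))⁻¹ • x, m) ((e.val (some i))⁻¹ • x, m')
          ⟨rfl, h⟩ ⟨rfl, h'⟩
        exact (Prod.mk.inj this).2)
      (fun n n' m h h' => by
        have := hf.2 (some i) (x, n) (x, n') ((e.val (some i))⁻¹ • x, m)
          ⟨rfl, h⟩ ⟨rfl, h'⟩
        exact (Prod.mk.inj this).2)
      (fun s => u s x) (fun s => v s ((e.val (some i))⁻¹ • x))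
    refine le_trans (le_of_eq ?_) h2
    refine tsum_congr fun nm => ?_
    simp only [Set.indicator_apply]
  refine (Finset.sum_le_sum fun i _ => step1 i).trans ?_
  refine (e.sg U V hUm hVm).trans ?_
  rw [hU2, hV2]
  set a := (∑' s, ∫⁻ x, u s x ^ 2 ∂e.μ) ^ (1 / 2 : ℝ) with ha
  set b := (∑' s, ∫⁻ x, v s x ^ 2 ∂e.μ) ^ (1 / 2 : ℝ) with hb
  have hsupp : MeasurableSet (⋃ s, W s) := MeasurableSet.iUnion hW
  have hUs : ∀ x, x ∉ (⋃ s, W s) → U x = 0 := by
    intro x hx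
    have : ∀ s, u s x = 0 := fun s => hu0 s x fun h => hx (Set.mem_iUnion.mpr ⟨s, h⟩)
    simp [hUdef, this]
  have hVs : ∀ x, x ∉ (⋃ s, W s) → V x = 0 := by
    intro x hx
    have : ∀ s, v s x = 0 := fun s => hv0 s x fun h => hx (Set.mem_iUnion.mpr ⟨s, h⟩)
    simp [hVdef, this]
  have hμ : e.μ (⋃ s, W s) ≤ cnt e.μ W := measure_iUnion_le _
  have hcw : ((cnt e.μ W) ^ (1 / 2 : ℝ)) ^ 2 = cnt e.μ W := CLaux.rpow_half_sq _
  have hUi : ∫⁻ x, U x ∂e.μ ≤ a * (cnt e.μ W) ^ (1 / 2 : ℝ) := by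
    refine (CLaux.lintegral_supp e.μ U hUm _ hsupp hUs).trans ?_
    rw [hU2]
    exact mul_le_mul' le_rfl (ENNReal.rpow_le_rpow hμ (by norm_num))
  have hVi : ∫⁻ x, V x ∂e.μ ≤ b * (cnt e.μ W) ^ (1 / 2 : ℝ) := by
    refine (CLaux.lintegral_supp e.μ V hVm _ hsupp hVs).trans ?_
    rw [hV2]
    exact mul_le_mul' le_rfl (ENNReal.rpow_le_rpow hμ (by norm_num))
  have hmain : (e.g : ℝ≥0∞) * (∫⁻ x, U x ∂e.μ) * (∫⁻ x, V x ∂e.μ) ≤ a * b := by
    calc (e.g : ℝ≥0∞) * (∫⁻ x, U x ∂e.μ) * (∫⁻ x, V x ∂e.μ)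
        ≤ (e.g : ℝ≥0∞) * (a * (cnt e.μ W) ^ (1 / 2 : ℝ)) * (b * (cnt e.μ W) ^ (1 / 2 : ℝ)) := by
          gcongr
      _ = (((cnt e.μ W) ^ (1 / 2 : ℝ)) ^ 2 * e.g) * (a * b) := by ring
      _ ≤ 1 * (a * b) := by
          rw [hcw]
          gcongr
      _ = a * b := one_mul _
  calc ENNReal.ofReal (2 * Real.sqrt e.g) * a * b +
        (e.g : ℝ≥0∞) * (∫⁻ x, U x ∂e.μ) * (∫⁻ x, V x ∂e.μ)
      ≤ ENNReal.ofReal (2 * Real.sqrt e.g) * a * b + a * b := by gcongr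
    _ = (ENNReal.ofReal (2 * Real.sqrt e.g) + 1) * a * b := by ring
    _ = ENNReal.ofReal (2 * Real.sqrt e.g + 1) * a * b := by
        rw [ENNReal.ofReal_add (by positivity) (by norm_num), ENNReal.ofReal_one]

/-- number of readings of length `n` inside `W` -/
noncomputable def hcl (e : Env) {S : Type} (𝒢 : Fld (Lab e.g) e.X S) (W : S → Set e.X) :
    ℕ → S → e.X → ℝ≥0∞
  | 0 => fun s => (W s).indicator fun _ => 1
  | n + 1 => fun s => (W s).indicator fun x => ∑ i : Fin e.g, ∑' m : S,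
      (𝒢.E (some i) m s).indicator (hcl e 𝒢 W n m) (e.val (some i) • x)

theorem ind_le' {α : Type} (A : Set α) (f : α → ℝ≥0∞) (x : α) : A.indicator f x ≤ f x := by
  by_cases h : x ∈ A
  · rw [Set.indicator_of_mem h]
  · rw [Set.indicator_of_notMem h]; exact zero_le

theorem hcl_meas (e : Env) {S : Type} [Countable S] (𝒢 : Fld (Lab e.g) e.X S)
    (hm : FMeas 𝒢) (W : S → Set e.X) (hW : ∀ s, MeasurableSet (W s)) (n : ℕ) (s : S) :
    Measurable (hcl e 𝒢 W n s) := by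
  induction n generalizing s with
  | zero => exact measurable_const.indicator (hW s)
  | succ n ih =>
    refine Measurable.indicator ?_ (hW s)
    refine Finset.measurable_sum _ fun i _ => ?_
    refine Measurable.tsum fun m => ?_
    exact ((ih m).indicator (hm _ _ _)).comp (e.pmp (e.val (some i))).measurable

theorem hcl_zero (e : Env) {S : Type} (𝒢 : Fld (Lab e.g) e.X S)
    (W : S → Set e.X) (n : ℕ) (s : S) (x : e.X) (hx : x ∉ W s) : hcl e 𝒢 W n s x = 0 := by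
  cases n with
  | zero => unfold hcl; exact Set.indicator_of_notMem hx _
  | succ n => unfold hcl; exact Set.indicator_of_notMem hx _

theorem hcl_le (e : Env) {S : Type} (𝒢 : Fld (Lab e.g) e.X S)
    (hf : Folded (𝒢.G e.val)) (W : S → Set e.X) (n : ℕ) (s : S) (x : e.X) :
    hcl e 𝒢 W n s x ≤ (e.g : ℝ≥0∞) ^ n := by
  induction n generalizing s x with
  | zero =>
    rw [pow_zero]
    unfold hcl
    exact ind_le' _ _ x
  | succ n ih =>
    unfold hcl
    refine (ind_le' _ _ x).trans ?_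
    have h1 : ∀ i : Fin e.g, ∑' m : S,
        (𝒢.E (some i) m s).indicator (hcl e 𝒢 W n m) (e.val (some i) • x) ≤ (e.g : ℝ≥0∞) ^ n := by
      intro i
      by_cases h : ∃ m, e.val (some i) • x ∈ 𝒢.E (some i) m s
      · obtain ⟨m, hm⟩ := h
        rw [tsum_eq_single m]
        · exact (ind_le' _ _ _).trans (ih _ _)
        · intro m' hm'
          refine Set.indicator_of_notMem (fun h' => hm' ?_) _
          have h1 : 𝒢.G e.val (some i) (e.val (some i) • x, m') (x, s) := ⟨by simp, h'⟩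
          have h2 : 𝒢.G e.val (some i) (e.val (some i) • x, m) (x, s) := ⟨by simp, hm⟩
          exact congrArg Prod.snd (hf.2 _ _ _ _ h1 h2)
      · push Not at h
        rw [ENNReal.tsum_eq_zero.2 fun m => Set.indicator_of_notMem (h m) _]
        exact zero_le
    calc _ ≤ ∑ _i : Fin e.g, (e.g : ℝ≥0∞) ^ n := Finset.sum_le_sum fun i _ => h1 i
      _ = _ := by simp [pow_succ']

open scoped Classical in
theorem hcl_count (e : Env) {S : Type} (𝒢 : Fld (Lab e.g) e.X S)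
    (W : S → Set e.X) (n : ℕ) (s : S) (x : e.X) :
    ∑ p : Fin n → Fin e.g, (if ∃ v, RdW (𝒢.G e.val) (fun u => u.1 ∈ W u.2)
      (List.ofFn fun j => (some (p j), false)) (x, s) v then (1 : ℝ≥0∞) else 0) ≤
    hcl e 𝒢 W n s x := by
  induction n generalizing s x with
  | zero =>
    rw [Fintype.sum_subsingleton _ (fun i => i.elim0)]
    unfold hcl
    by_cases hx : x ∈ W s
    · rw [Set.indicator_of_mem hx]
      split_ifs <;> simp
    · rw [Set.indicator_of_notMem hx, if_neg]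
      rintro ⟨v, h1, h2⟩
      exact hx h2
  | succ n ih =>
    rw [← (Fin.consEquiv fun _ => Fin e.g).sum_comp, Fintype.sum_prod_type]
    unfold hcl
    by_cases hx : x ∈ W s
    · rw [Set.indicator_of_mem hx]
      refine Finset.sum_le_sum fun i _ => ?_
      calc _ ≤ ∑ p : Fin n → Fin e.g, ∑' m : S,
            (𝒢.E (some i) m s).indicator (fun y => if ∃ v, RdW (𝒢.G e.val) (fun u => u.1 ∈ W u.2)
      (List.ofFn fun j => (some (p j), false)) (y, m) v then (1 : ℝ≥0∞) else 0)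
              (e.val (some i) • x) := by
            refine Finset.sum_le_sum fun p _ => ?_
            split_ifs with h
            · obtain ⟨v, hv⟩ := h
              rw [List.ofFn_succ] at hv
              obtain ⟨_, z, hz1, hz2⟩ := hv
              obtain ⟨y, m⟩ := z
              obtain ⟨hy, hm⟩ := hz1
              simp only [Fin.consEquiv_apply, Fin.cons_zero, Fin.cons_succ] at hy hm hz2
              have hy' : y = e.val (some i) • x := by rw [hy]; simp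
              subst hy'
              refine le_trans ?_ (ENNReal.le_tsum m)
              rw [Set.indicator_of_mem hm, if_pos ⟨v, hz2⟩]
            · exact zero_le
        _ = ∑' m : S, ∑ p : Fin n → Fin e.g, 
            (𝒢.E (some i) m s).indicator (fun y => if ∃ v, RdW (𝒢.G e.val) (fun u => u.1 ∈ W u.2)
      (List.ofFn fun j => (some (p j), false)) (y, m) v then (1 : ℝ≥0∞) else 0)
              (e.val (some i) • x) := by
            rw [Summable.tsum_finsetSum fun _ _ => ENNReal.summable]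
        _ ≤ _ := by
            refine ENNReal.tsum_le_tsum fun m => ?_
            by_cases hm : e.val (some i) • x ∈ 𝒢.E (some i) m s
            · rw [Set.indicator_of_mem hm]
              simp only [Set.indicator_of_mem hm]
              exact ih _ _
            · simp only [Set.indicator_of_notMem hm]
              simp
    · rw [Set.indicator_of_notMem hx, nonpos_iff_eq_zero]
      refine Finset.sum_eq_zero fun i _ => Finset.sum_eq_zero fun p _ => ?_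
      rw [if_neg]
      rintro ⟨v, hv⟩
      rw [List.ofFn_succ] at hv
      exact hx hv.1

/-- Cauchy–Schwarz on `S × X` -/
theorem cs_cnt {S X : Type} [Countable S] [MeasurableSpace X] (μ : Measure X)
    (u v : S → X → ℝ≥0∞) (hu : ∀ s, Measurable (u s)) (hv : ∀ s, Measurable (v s)) :
    ∑' s, ∫⁻ x, u s x * v s x ∂μ ≤ (∑' s, ∫⁻ x, u s x ^ 2 ∂μ) ^ (1 / 2 : ℝ) *
      (∑' s, ∫⁻ x, v s x ^ 2 ∂μ) ^ (1 / 2 : ℝ) := by
  have hc : (2 : ℝ).HolderConjugate 2 := Real.HolderConjugate.two_two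
  have h2 : ∀ y : ℝ≥0∞, y ^ (2 : ℝ) = y ^ 2 := fun y => by
    rw [← ENNReal.rpow_natCast]; norm_num
  have h1 : ∀ s, ∫⁻ x, u s x * v s x ∂μ ≤ (∫⁻ x, u s x ^ 2 ∂μ) ^ (1 / 2 : ℝ) *
      (∫⁻ x, v s x ^ 2 ∂μ) ^ (1 / 2 : ℝ) := by
    intro s
    have := ENNReal.lintegral_mul_le_Lp_mul_Lq μ hc (hu s).aemeasurable (hv s).aemeasurable
    simpa only [h2, Pi.mul_apply] using this
  let _ : MeasurableSpace S := ⊤
  have h3 := ENNReal.lintegral_mul_le_Lp_mul_Lq (Measure.count : Measure S) hc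
    (f := fun s => (∫⁻ x, u s x ^ 2 ∂μ) ^ (1 / 2 : ℝ))
    (g := fun s => (∫⁻ x, v s x ^ 2 ∂μ) ^ (1 / 2 : ℝ))
    (measurable_from_top).aemeasurable (measurable_from_top).aemeasurable
  rw [lintegral_count, lintegral_count, lintegral_count] at h3
  have h4 : ∀ y : ℝ≥0∞, (y ^ (1 / 2 : ℝ)) ^ (2 : ℝ) = y := fun y => by
    rw [← ENNReal.rpow_mul]; norm_num
  simp only [Pi.mul_apply, h4] at h3
  exact (ENNReal.tsum_le_tsum h1).trans h3

/-- one step for the norms -/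
theorem hcl_step (e : Env) {S : Type} [Countable S] (𝒢 : Fld (Lab e.g) e.X S)
    (hm : FMeas 𝒢) (hf : Folded (𝒢.G e.val)) (W : S → Set e.X)
    (hW : ∀ s, MeasurableSet (W s)) (hWc : cnt e.μ W * e.g ≤ 1) (n : ℕ) :
    ∑' s, ∫⁻ x, hcl e 𝒢 W (n + 1) s x ^ 2 ∂e.μ ≤ ENNReal.ofReal (2 * Real.sqrt e.g + 1) *
      (∑' s, ∫⁻ x, hcl e 𝒢 W n s x ^ 2 ∂e.μ) ^ (1 / 2 : ℝ) *
        (∑' s, ∫⁻ x, hcl e 𝒢 W (n + 1) s x ^ 2 ∂e.μ) ^ (1 / 2 : ℝ) := by
  refine le_trans ?_ (CL_step e 𝒢 hm hf W hW hWc (hcl e 𝒢 W n) (hcl e 𝒢 W (n + 1))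
    (hcl_meas e 𝒢 hm W hW n) (hcl_meas e 𝒢 hm W hW (n + 1))
    (hcl_zero e 𝒢 W n) (hcl_zero e 𝒢 W (n + 1)))
  have h1 : ∀ s, ∫⁻ x, hcl e 𝒢 W (n + 1) s x ^ 2 ∂e.μ ≤
      ∑ i : Fin e.g, ∑' m : S, ∫⁻ x in 𝒢.E (some i) m s,
        hcl e 𝒢 W n m x * hcl e 𝒢 W (n + 1) s ((e.val (some i))⁻¹ • x) ∂e.μ := by
    intro s
    have h2 : ∀ x, hcl e 𝒢 W (n + 1) s x ^ 2 ≤
        ∑ i : Fin e.g, ∑' m : S, (𝒢.E (some i) m s).indicator (hcl e 𝒢 W n m)
          (e.val (some i) • x) * hcl e 𝒢 W (n + 1) s x := by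
      intro x
      rw [sq]
      calc _ ≤ (∑ i : Fin e.g, ∑' m : S, (𝒢.E (some i) m s).indicator (hcl e 𝒢 W n m)
          (e.val (some i) • x)) * hcl e 𝒢 W (n + 1) s x := by
            gcongr
            conv_lhs => unfold hcl
            exact ind_le' _ _ x
        _ = _ := by
            rw [Finset.sum_mul]
            refine Finset.sum_congr rfl fun i _ => ?_
            rw [ENNReal.tsum_mul_right]
    refine (lintegral_mono h2).trans ?_
    have hmeas : ∀ (i : Fin e.g) (m : S), Measurable fun x =>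
        (𝒢.E (some i) m s).indicator (hcl e 𝒢 W n m)
          (e.val (some i) • x) * hcl e 𝒢 W (n + 1) s x := fun i m =>
      (((hcl_meas e 𝒢 hm W hW n m).indicator (hm _ _ _)).comp
        (e.pmp (e.val (some i))).measurable).mul (hcl_meas e 𝒢 hm W hW (n + 1) s)
    rw [lintegral_finsetSum _ fun i _ => Measurable.tsum fun m => hmeas i m]
    refine Finset.sum_le_sum fun i _ => ?_
    rw [lintegral_tsum fun m => (hmeas i m).aemeasurable]
    refine ENNReal.tsum_le_tsum fun m => le_of_eq ?_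
    rw [← lintegral_indicator (hm _ _ _)]
    have h3 := (e.pmp (e.val (some i))).lintegral_comp (f := fun y =>
      (𝒢.E (some i) m s).indicator (fun x => hcl e 𝒢 W n m x *
        hcl e 𝒢 W (n + 1) s ((e.val (some i))⁻¹ • x)) y) (by
        refine Measurable.indicator ?_ (hm _ _ _)
        exact (hcl_meas e 𝒢 hm W hW n m).mul ((hcl_meas e 𝒢 hm W hW (n + 1) s).comp
          (e.pmp _).measurable))
    rw [← h3]
    refine lintegral_congr fun x => ?_
    rw [Set.indicator_mul_left, inv_smul_smul]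
  refine (ENNReal.tsum_le_tsum h1).trans (le_of_eq ?_)
  rw [Summable.tsum_finsetSum fun _ _ => ENNReal.summable]
  refine Finset.sum_congr rfl fun i _ => ?_
  rw [ENNReal.tsum_prod', ENNReal.tsum_comm]

theorem cnt_ne_top_of_mul (e : Env) {S : Type} (W : S → Set e.X)
    (hWc : cnt e.μ W * e.g ≤ 1) : cnt e.μ W ≠ ⊤ := by
  intro h
  have hg : (e.g : ℝ≥0∞) ≠ 0 := by
    have := e.i0.pos
    exact_mod_cast this.ne'
  rw [h, ENNReal.top_mul hg] at hWc
  exact absurd hWc (by simp)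

theorem hcl_fin (e : Env) {S : Type} [Countable S] (𝒢 : Fld (Lab e.g) e.X S)
    (hf : Folded (𝒢.G e.val)) (W : S → Set e.X)
    (hW : ∀ s, MeasurableSet (W s)) (hWc : cnt e.μ W * e.g ≤ 1) (n : ℕ) :
    ∑' s, ∫⁻ x, hcl e 𝒢 W n s x ^ 2 ∂e.μ ≠ ⊤ := by
  have h1 : ∀ s, ∫⁻ x, hcl e 𝒢 W n s x ^ 2 ∂e.μ ≤ ((e.g : ℝ≥0∞) ^ n) ^ 2 * e.μ (W s) := by
    intro s
    rw [← lintegral_indicator_const (hW s)]
    refine lintegral_mono fun x => ?_
    by_cases hx : x ∈ W s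
    · rw [Set.indicator_of_mem hx]
      exact pow_le_pow_left' (hcl_le e 𝒢 hf W n s x) 2
    · rw [hcl_zero e 𝒢 W n s x hx]
      simp
  refine ne_top_of_le_ne_top ?_ (ENNReal.tsum_le_tsum h1)
  rw [ENNReal.tsum_mul_left]
  exact ENNReal.mul_ne_top (by simp) (cnt_ne_top_of_mul e W hWc)

theorem hcl_sq_zero (e : Env) {S : Type} [Countable S] (𝒢 : Fld (Lab e.g) e.X S) (W : S → Set e.X)
    (hW : ∀ s, MeasurableSet (W s)) :
    ∑' s, ∫⁻ x, hcl e 𝒢 W 0 s x ^ 2 ∂e.μ = cnt e.μ W := by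
  unfold cnt
  refine tsum_congr fun s => ?_
  rw [← lintegral_indicator_one (hW s)]
  refine lintegral_congr fun x => ?_
  unfold hcl
  by_cases hx : x ∈ W s
  · simp [Set.indicator_of_mem hx]
  · simp [Set.indicator_of_notMem hx]

theorem hcl_norm (e : Env) {S : Type} [Countable S] (𝒢 : Fld (Lab e.g) e.X S)
    (hm : FMeas 𝒢) (hf : Folded (𝒢.G e.val)) (W : S → Set e.X)
    (hW : ∀ s, MeasurableSet (W s)) (hWc : cnt e.μ W * e.g ≤ 1) (n : ℕ) :
    (∑' s, ∫⁻ x, hcl e 𝒢 W n s x ^ 2 ∂e.μ) ^ (1 / 2 : ℝ) ≤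
      ENNReal.ofReal (2 * Real.sqrt e.g + 1) ^ n * cnt e.μ W ^ (1 / 2 : ℝ) := by
  induction n with
  | zero => rw [hcl_sq_zero e 𝒢 W hW, pow_zero, one_mul]
  | succ n ih =>
    have h1 := hcl_step e 𝒢 hm hf W hW hWc n
    have h2 := hcl_fin e 𝒢 hf W hW hWc (n + 1)
    set N := ∑' s, ∫⁻ x, hcl e 𝒢 W (n + 1) s x ^ 2 ∂e.μ with hN
    have h3 : N ^ (1 / 2 : ℝ) ≤ ENNReal.ofReal (2 * Real.sqrt e.g + 1) *
        (∑' s, ∫⁻ x, hcl e 𝒢 W n s x ^ 2 ∂e.μ) ^ (1 / 2 : ℝ) := by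
      by_cases h0 : N = 0
      · rw [h0, ENNReal.zero_rpow_of_pos (by norm_num)]
        exact zero_le
      · have h4 : N = N ^ (1 / 2 : ℝ) * N ^ (1 / 2 : ℝ) := by
          rw [← ENNReal.rpow_add _ _ h0 h2]; norm_num
        have h5 : N ^ (1 / 2 : ℝ) ≠ 0 := by
          intro h6
          rw [h6, zero_mul] at h4
          exact h0 h4
        have h6 : N ^ (1 / 2 : ℝ) ≠ ⊤ := ENNReal.rpow_ne_top_of_nonneg (by norm_num) h2
        rw [← ENNReal.mul_le_mul_iff_left h5 h6]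
        rwa [← h4]
    refine h3.trans ?_
    rw [pow_succ', mul_assoc]
    gcongr

/-- CL2 (four steps).  The number of readings of words `s_{i₁}⁻¹ s_{i₂}⁻¹ s_{i₃}⁻¹ s_{i₄}⁻¹` inside `W` is at
most `(2√g+1)^4 cnt W`.

Proof: `h₀ = 1_W`, `h_{k+1}(s,x) = 1_W(s,x) ∑_i ∑_n h_k(n, val(s_i) • x)` over the edges
`(val(s_i) • x, n) → (x, s)` (= number of readings of length `k+1` from `(x,s)` in `W`; finite, bounded
by `g^{k+1}`).  `‖h_{k+1}‖² = ⟨h_{k+1}, h_{k+1}⟩ ≤ (2√g+1) ‖h_k‖ ‖h_{k+1}‖` by CL1 (after the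
substitution `x ↦ val(s_i) • x`), so `‖h_{k+1}‖ ≤ (2√g+1) ‖h_k‖` (norms finite since `cnt W < ∞`).
The left side is `∑_s ∫ h₄ = ⟨1_W, h₄⟩ ≤ ‖1_W‖ ‖h₄‖ ≤ (2√g+1)^4 ‖1_W‖² = (2√g+1)^4 cnt W`. -/
theorem CL (e : Env) {S : Type} [Countable S] (𝒢 : Fld (Lab e.g) e.X S)
    (hm : FMeas 𝒢) (hf : Folded (𝒢.G e.val)) (W : S → Set e.X)
    (hW : ∀ s, MeasurableSet (W s)) (hWc : cnt e.μ W * e.g ≤ 1) :
    cnt e.μ (fun p : S × (Fin 4 → Fin e.g) => {x | ∃ v, RdW (𝒢.G e.val) (fun u => u.1 ∈ W u.2)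
      (List.ofFn fun j => (some (p.2 j), false)) (x, p.1) v}) ≤
    ENNReal.ofReal ((2 * Real.sqrt e.g + 1) ^ 4) * cnt e.μ W := by
  classical
  have hmeas : ∀ s (p : Fin 4 → Fin e.g), MeasurableSet {x | ∃ v, RdW (𝒢.G e.val)
      (fun u => u.1 ∈ W u.2) (List.ofFn fun j => (some (p j), false)) (x, s) v} := fun s p =>
    meas_rdW (fun γ => (e.pmp γ).measurable) hm _ s W hW
  have h1 : cnt e.μ (fun p : S × (Fin 4 → Fin e.g) => {x | ∃ v, RdW (𝒢.G e.val)
      (fun u => u.1 ∈ W u.2) (List.ofFn fun j => (some (p.2 j), false)) (x, p.1) v}) ≤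
      ∑' s, ∫⁻ x, hcl e 𝒢 W 0 s x * hcl e 𝒢 W 4 s x ∂e.μ := by
    unfold cnt
    rw [ENNReal.tsum_prod']
    refine ENNReal.tsum_le_tsum fun s => ?_
    rw [tsum_fintype]
    simp only
    have h2 : ∀ x, hcl e 𝒢 W 0 s x * hcl e 𝒢 W 4 s x = hcl e 𝒢 W 4 s x := by
      intro x
      by_cases hx : x ∈ W s
      · have : hcl e 𝒢 W 0 s x = 1 := by unfold hcl; exact Set.indicator_of_mem hx _
        rw [this, one_mul]
      · rw [hcl_zero e 𝒢 W 4 s x hx, mul_zero]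
    simp_rw [h2]
    calc _ = ∑ p : Fin 4 → Fin e.g, ∫⁻ x, (if ∃ v, RdW (𝒢.G e.val) (fun u => u.1 ∈ W u.2)
      (List.ofFn fun j => (some (p j), false)) (x, s) v then (1 : ℝ≥0∞) else 0) ∂e.μ := by
          refine Finset.sum_congr rfl fun p _ => ?_
          rw [← lintegral_indicator_one (hmeas s p)]
          refine lintegral_congr fun x => ?_
          simp [Set.indicator_apply]
      _ = ∫⁻ x, ∑ p : Fin 4 → Fin e.g, (if ∃ v, RdW (𝒢.G e.val) (fun u => u.1 ∈ W u.2)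
      (List.ofFn fun j => (some (p j), false)) (x, s) v then (1 : ℝ≥0∞) else 0) ∂e.μ := by
          rw [lintegral_finsetSum _ fun p _ => Measurable.ite (hmeas s p) measurable_const
            measurable_const]
      _ ≤ _ := lintegral_mono fun x => hcl_count e 𝒢 W 4 s x
  refine h1.trans ?_
  refine (cs_cnt e.μ _ _ (hcl_meas e 𝒢 hm W hW 0) (hcl_meas e 𝒢 hm W hW 4)).trans ?_
  rw [hcl_sq_zero e 𝒢 W hW]
  have h2 := hcl_norm e 𝒢 hm hf W hW hWc 4
  calc _ ≤ cnt e.μ W ^ (1 / 2 : ℝ) * (ENNReal.ofReal (2 * Real.sqrt e.g + 1) ^ 4 *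
        cnt e.μ W ^ (1 / 2 : ℝ)) := by gcongr
    _ = ENNReal.ofReal (2 * Real.sqrt e.g + 1) ^ 4 *
        (cnt e.μ W ^ (1 / 2 : ℝ) * cnt e.μ W ^ (1 / 2 : ℝ)) := by ring
    _ = _ := by
        rw [← ENNReal.rpow_add_of_nonneg _ _ (by norm_num) (by norm_num),
          ENNReal.ofReal_pow (by positivity)]
        norm_num

namespace CLTaux

theorem rdW_append {L V : Type} {G : L → V → V → Prop} {W : V → Prop} {w w' : List (L × Bool)}
    {u v : V} (h : RdW G W (w ++ w') u v) : ∃ z, RdW G W w u z ∧ RdW G W w' z v := by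
  induction w generalizing u with
  | nil =>
    refine ⟨u, ⟨rfl, ?_⟩, h⟩
    cases w' with
    | nil => exact h.2
    | cons e w' => exact h.1
  | cons e w ih =>
    obtain ⟨h1, z, h2, h3⟩ := h
    obtain ⟨z', h4, h5⟩ := ih h3
    exact ⟨z', ⟨h1, z, h2, h4⟩, h5⟩

/-- good positions -/
def good (ℓ k j : ℕ) : Prop := j + 61 ≤ ℓ ∧ 4 ≤ (k + j) % (ℓ + 3) ∧ (k + j) % (ℓ + 3) ≤ ℓ - 2

instance (ℓ k j : ℕ) : Decidable (good ℓ k j) := by unfold good; infer_instance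

theorem card_good (ℓ k : ℕ) (hℓ : 1000 ≤ ℓ) :
    ℓ - 68 ≤ ((Finset.range ℓ).filter fun j => good ℓ k j).card := by
  have h1 : (Finset.range (ℓ - 60)) ⊆ ((Finset.range ℓ).filter fun j => good ℓ k j) ∪
      ((Finset.range (ℓ - 60)).filter fun j =>
        (k + j) % (ℓ + 3) < 4 ∨ ℓ - 1 ≤ (k + j) % (ℓ + 3)) := by
    intro j hj
    rw [Finset.mem_range] at hj
    rw [Finset.mem_union, Finset.mem_filter, Finset.mem_filter, Finset.mem_range, Finset.mem_range]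
    by_cases h : good ℓ k j
    · exact Or.inl ⟨by omega, h⟩
    · right
      refine ⟨hj, ?_⟩
      unfold good at h
      omega
  have h2 : ((Finset.range (ℓ - 60)).filter fun j =>
        (k + j) % (ℓ + 3) < 4 ∨ ℓ - 1 ≤ (k + j) % (ℓ + 3)).card ≤ 8 := by
    have h3 : ((Finset.range (ℓ - 60)).filter fun j =>
        (k + j) % (ℓ + 3) < 4 ∨ ℓ - 1 ≤ (k + j) % (ℓ + 3)).card
        ≤ (Finset.range 4 ∪ (Finset.range 4).image fun r => ℓ - 1 + r).card := by
      refine Finset.card_le_card_of_injOn (fun j => (k + j) % (ℓ + 3)) ?_ ?_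
      · intro j hj
        have hj := (Finset.mem_filter.mp hj).2
        have hlt : (k + j) % (ℓ + 3) < ℓ + 3 := Nat.mod_lt _ (by omega)
        rw [Finset.coe_union, Set.mem_union, Finset.mem_coe, Finset.mem_coe, Finset.mem_range,
          Finset.mem_image]
        rcases hj with hj | hj
        · exact Or.inl hj
        · right
          refine ⟨(k + j) % (ℓ + 3) - (ℓ - 1), by rw [Finset.mem_range]; omega, ?_⟩
          show ℓ - 1 + ((k + j) % (ℓ + 3) - (ℓ - 1)) = (k + j) % (ℓ + 3)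
          omega
      · intro j hj j' hj' heq
        have hj := (Finset.mem_filter.mp hj).1
        have hj' := (Finset.mem_filter.mp hj').1
        rw [Finset.mem_range] at hj hj'
        have heq : (k + j) % (ℓ + 3) = (k + j') % (ℓ + 3) := heq
        have : (k + j) ≡ (k + j') [MOD (ℓ + 3)] := heq
        have h4 : j ≡ j' [MOD (ℓ + 3)] := Nat.ModEq.add_left_cancel' k this
        exact Nat.ModEq.eq_of_lt_of_lt h4 (by omega) (by omega)
    refine h3.trans ?_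
    calc _ ≤ (Finset.range 4).card + ((Finset.range 4).image fun r => ℓ - 1 + r).card :=
          Finset.card_union_le _ _
      _ ≤ 4 + 4 := by
          gcongr
          · simp
          · exact (Finset.card_image_le).trans (by simp)
      _ = 8 := rfl
  have h4 := Finset.card_le_card h1
  rw [Finset.card_range] at h4
  have h5 := Finset.card_union_le ((Finset.range ℓ).filter fun j => good ℓ k j)
    ((Finset.range (ℓ - 60)).filter fun j =>
        (k + j) % (ℓ + 3) < 4 ∨ ℓ - 1 ≤ (k + j) % (ℓ + 3))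
  omega

/-- transport family -/
def KK (e : Env) {S : Type} (𝒢 : Fld (Lab e.g) e.X S) (k : ℕ) (T : S × Fin e.g → Set e.X)
    (p : S × Fin e.g) (γ : e.Γ) (q : S × (Fin 4 → Fin e.g)) : Set e.X :=
  {x | x ∈ T p ∧ ∃ j, good e.ℓ k j ∧ γ = (wval e.val (seg e.c e.ℓ p.2 k j))⁻¹ ∧
    (∀ r : Fin 4, rl e.c e.ℓ p.2 (k + j + r) = (some (q.2 r), false)) ∧
    Rd (𝒢.G e.val) (seg e.c e.ℓ p.2 k j) (x, p.1) (γ • x, q.1)}

theorem KK_meas (e : Env) {S : Type} [Countable S] (𝒢 : Fld (Lab e.g) e.X S)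
    (hm : FMeas 𝒢) (k : ℕ) (T : S × Fin e.g → Set e.X) (hT : ∀ p, MeasurableSet (T p))
    (p : S × Fin e.g) (γ : e.Γ) (q : S × (Fin 4 → Fin e.g)) : MeasurableSet (KK e 𝒢 k T p γ q) := by
  have : KK e 𝒢 k T p γ q = T p ∩ ⋃ j : ℕ, {x | good e.ℓ k j ∧
      γ = (wval e.val (seg e.c e.ℓ p.2 k j))⁻¹ ∧
      (∀ r : Fin 4, rl e.c e.ℓ p.2 (k + j + r) = (some (q.2 r), false)) ∧
      Rd (𝒢.G e.val) (seg e.c e.ℓ p.2 k j) (x, p.1) (γ • x, q.1)} := by
    ext x
    simp only [KK, Set.mem_inter_iff, Set.mem_iUnion, Set.mem_setOf_eq]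
  rw [this]
  refine (hT p).inter (MeasurableSet.iUnion fun j => ?_)
  by_cases h : good e.ℓ k j ∧ γ = (wval e.val (seg e.c e.ℓ p.2 k j))⁻¹ ∧
      (∀ r : Fin 4, rl e.c e.ℓ p.2 (k + j + r) = (some (q.2 r), false))
  · have h1 := meas_rd (val := e.val) (𝒢 := 𝒢) (Env.meas_smul e) hm
      (seg e.c e.ℓ p.2 k j) p.1 q.1 γ h.2.1
    convert h1 using 1
    ext x
    simp only [Set.mem_setOf_eq]
    constructor
    · intro hx; exact hx.2.2.2
    · intro hx; exact ⟨h.1, h.2.1, h.2.2, hx⟩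
  · convert MeasurableSet.empty using 1
    ext x
    simp only [Set.mem_setOf_eq, Set.mem_empty_iff_false, iff_false]
    intro hx
    exact h ⟨hx.1, hx.2.1, hx.2.2.1⟩

end CLTaux

open CLTaux in
/-- CLT.  If from every point of the family `T` the segment of length `ℓ - 57` starting at
position `k` is readable inside `W`, then `2000 * cnt T ≤ cnt W`.

Proof: for `x ∈ T (s,i)` and `j ≤ ℓ - 57 - 4` with `4 ≤ (k+j) % (ℓ+3) ≤ ℓ - 2` send mass one from
`(x,s,i)` to (the vertex after `j` letters, the four indices of the letters `k+j..k+j+3`), which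
are of the form `(some _, false)` (`rl_inner`).  At least `(ℓ-57-3) - 8 = ℓ - 68` such `j`
(`ℓ - 60` consecutive positions, distinct mod `ℓ+3`, at most `8` residues are bad).
Each target receives at most one: the four letters determine `i` and `(k+j) % (ℓ+3)`, hence `j`
(`rl_inner_win`), and then the start vertex (`Folded.rd_left`).  So by `mt_le` (`c = ℓ - 68`)
`(ℓ-68) cnt T ≤ (2√g+1)^4 cnt W`; use `num1`. -/
theorem CLT (e : Env) {S : Type} [Countable S] (𝒢 : Fld (Lab e.g) e.X S)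
    (hm : FMeas 𝒢) (hf : Folded (𝒢.G e.val)) (k : ℕ) (W : S → Set e.X)
    (hW : ∀ s, MeasurableSet (W s)) (hWc : cnt e.μ W * e.g ≤ 1)
    (T : S × Fin e.g → Set e.X) (hT : ∀ p, MeasurableSet (T p))
    (hTW : ∀ s i x, x ∈ T (s, i) → ∃ v, RdW (𝒢.G e.val) (fun u => u.1 ∈ W u.2)
      (seg e.c e.ℓ i k (e.ℓ - 57)) (x, s) v) :
    2000 * cnt e.μ T ≤ cnt e.μ W := by
  classical
  have hℓ : 1000 ≤ e.ℓ := e.cw.big
  set B : S × (Fin 4 → Fin e.g) → Set e.X := fun p => {x | ∃ v, RdW (𝒢.G e.val)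
    (fun u => u.1 ∈ W u.2) (List.ofFn fun j => (some (p.2 j), false)) (x, p.1) v} with hBdef
  have hCL : cnt e.μ B ≤ ENNReal.ofReal ((2 * Real.sqrt e.g + 1) ^ 4) * cnt e.μ W :=
    CL e 𝒢 hm hf W hW hWc
  have hBm : ∀ q, MeasurableSet (B q) := fun q =>
    meas_rdW (val := e.val) (𝒢 := 𝒢) (Env.meas_smul e) hm _ q.1 W hW
  -- uniqueness of the position
  have huniq : ∀ {i i' : Fin e.g} {j j' : ℕ}, good e.ℓ k j → good e.ℓ k j' →
      (∀ r, r < 4 → rl e.c e.ℓ i (k + j + r) = rl e.c e.ℓ i' (k + j' + r)) → i = i' ∧ j = j' := by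
    intro i i' j j' hj hj' h
    obtain ⟨h1, h2⟩ := rl_inner_win e.cw hj.2.1 hj.2.2 hj'.2.1 hj'.2.2 h
    refine ⟨h1, ?_⟩
    have h3 : (k + j) ≡ (k + j') [MOD (e.ℓ + 3)] := h2
    have h4 : j ≡ j' [MOD (e.ℓ + 3)] := Nat.ModEq.add_left_cancel' k h3
    have := hj.1
    have := hj'.1
    exact Nat.ModEq.eq_of_lt_of_lt h4 (by omega) (by omega)
  have hmt := mt_le (k := 1) (c := e.ℓ - 68) e.pmp (A := T) hBm (KK e 𝒢 k T)
    (KK_meas e 𝒢 hm k T hT) ?_ ?_ ?_
  · have h1 : ((e.ℓ - 68 : ℕ) : ℝ≥0∞) * cnt e.μ T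
        ≤ ENNReal.ofReal ((2 * Real.sqrt e.g + 1) ^ 4) * cnt e.μ W := by
      calc _ ≤ ((1 : ℕ) : ℝ≥0∞) * cnt e.μ B := hmt
        _ = cnt e.μ B := by simp
        _ ≤ _ := hCL
    set a : ℝ := (2 * Real.sqrt e.g + 1) ^ 4 with ha
    have ha0 : 0 < a := by positivity
    have h2 : ENNReal.ofReal a * 2000 ≤ ((e.ℓ - 68 : ℕ) : ℝ≥0∞) := by
      have h3 := e.num1
      have h4 : ((e.ℓ - 68 : ℕ) : ℝ) = (e.ℓ : ℝ) - 68 := by
        rw [Nat.cast_sub (by omega)]; norm_num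
      have h5 : ENNReal.ofReal (2000 * a) ≤ ENNReal.ofReal ((e.ℓ - 68 : ℕ) : ℝ) := by
        apply ENNReal.ofReal_le_ofReal
        rw [h4]; exact h3
      rw [ENNReal.ofReal_natCast, ENNReal.ofReal_mul (by norm_num)] at h5
      rw [mul_comm]
      convert h5 using 2
      norm_num
    have h3 : ENNReal.ofReal a * (2000 * cnt e.μ T) ≤ ENNReal.ofReal a * cnt e.μ W := by
      rw [← mul_assoc]
      exact (mul_le_mul_left h2 _).trans h1
    have h6 : ENNReal.ofReal a ≠ 0 := by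
      rw [Ne, ENNReal.ofReal_eq_zero]; linarith
    exact (ENNReal.mul_le_mul_iff_right h6 ENNReal.ofReal_ne_top).mp h3
  · -- every point sends at least ℓ - 68
    rintro ⟨s, i⟩ x hx
    obtain ⟨v, hv⟩ := hTW s i x hx
    have hex : ∀ j : ℕ, ∃ gq : e.Γ × (S × (Fin 4 → Fin e.g)), good e.ℓ k j →
        (gq.1 = (wval e.val (seg e.c e.ℓ i k j))⁻¹ ∧
        (∀ r : Fin 4, rl e.c e.ℓ i (k + j + r) = (some (gq.2.2 r), false)) ∧
        Rd (𝒢.G e.val) (seg e.c e.ℓ i k j) (x, s) (gq.1 • x, gq.2.1)) := by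
      intro j
      by_cases hj : good e.ℓ k j
      · have hle : j ≤ e.ℓ - 57 := by have := hj.1; omega
        have hsplit : seg e.c e.ℓ i k (e.ℓ - 57)
            = seg e.c e.ℓ i k j ++ seg e.c e.ℓ i (k + j) (e.ℓ - 57 - j) := by
          rw [← seg_add]; congr 1; omega
        rw [hsplit] at hv
        obtain ⟨z, hz, -⟩ := rdW_append hv
        have hz' := hz.rd
        refine ⟨((wval e.val (seg e.c e.ℓ i k j))⁻¹, (z.2, fun r =>
          e.c i (e.ℓ + 2 - (k + j) % (e.ℓ + 3) - r))), fun _ => ⟨rfl, ?_, ?_⟩⟩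
        · intro r
          exact rl_inner e.cw hj.2.1 hj.2.2 r r.2
        · have := rd_point hz'
          simp only at this ⊢
          rw [← this]
          exact hz'
      · exact ⟨(1, (s, fun _ => i)), fun h => absurd h hj⟩
    choose F hF using hex
    have hcard := card_good e.ℓ k hℓ
    have hinj : Set.InjOn F ((Finset.range e.ℓ).filter fun j => good e.ℓ k j : Finset ℕ) := by
      intro j hj j' hj' heq
      have hj := (Finset.mem_filter.mp (Finset.mem_coe.mp hj)).2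
      have hj' := (Finset.mem_filter.mp (Finset.mem_coe.mp hj')).2
      refine (huniq (i := i) (i' := i) hj hj' fun r hr => ?_).2
      rw [(hF j hj).2.1 ⟨r, hr⟩, (hF j' hj').2.1 ⟨r, hr⟩, heq]
    have hsub : (F '' ((Finset.range e.ℓ).filter fun j => good e.ℓ k j : Finset ℕ)) ⊆
        {gq : e.Γ × (S × (Fin 4 → Fin e.g)) | x ∈ KK e 𝒢 k T (s, i) gq.1 gq.2} := by
      rintro _ ⟨j, hj, rfl⟩
      have hj := (Finset.mem_filter.mp (Finset.mem_coe.mp hj)).2
      exact ⟨hx, j, hj, (hF j hj).1, (hF j hj).2.1, (hF j hj).2.2⟩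
    calc ((e.ℓ - 68 : ℕ) : ℕ∞) ≤ (((Finset.range e.ℓ).filter fun j => good e.ℓ k j).card : ℕ∞) := by
          exact_mod_cast hcard
      _ = (((Finset.range e.ℓ).filter fun j => good e.ℓ k j : Finset ℕ) : Set ℕ).encard :=
          (Set.encard_coe_eq_coe_finsetCard _).symm
      _ = (F '' ((Finset.range e.ℓ).filter fun j => good e.ℓ k j : Finset ℕ)).encard :=
          (hinj.encard_image).symm
      _ ≤ _ := Set.encard_le_encard hsub
  · -- targets
    rintro ⟨s, i⟩ γ ⟨s', idx⟩ x ⟨hx, j, hj, hγ, hidx, hrd⟩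
    obtain ⟨v, hv⟩ := hTW s i x hx
    have hj1 := hj.1
    have hsplit : seg e.c e.ℓ i k (e.ℓ - 57)
        = seg e.c e.ℓ i k j ++ (seg e.c e.ℓ i (k + j) 4
          ++ seg e.c e.ℓ i (k + j + 4) (e.ℓ - 57 - j - 4)) := by
      rw [← seg_add, ← seg_add]; congr 1; omega
    rw [hsplit] at hv
    obtain ⟨z, hz, hv2⟩ := rdW_append hv
    obtain ⟨z', hz', -⟩ := rdW_append hv2
    have hzeq : z = (γ • x, s') := hf.rd_unique hz.rd hrd
    subst hzeq
    refine ⟨z', ?_⟩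
    have hw : seg e.c e.ℓ i (k + j) 4 = List.ofFn fun j : Fin 4 => (some (idx j), false) := by
      apply List.ext_getElem
      · simp [seg]
      · intro n h1 h2
        rw [seg_getElem, List.getElem_ofFn]
        have hn : n < 4 := by simpa [seg] using h1
        exact hidx ⟨n, hn⟩
    rw [hw] at hz'
    exact hz'
  · -- each target receives at most one
    rintro ⟨s', idx⟩ y
    rw [Nat.cast_one, Set.encard_le_one_iff]
    rintro ⟨γ, s, i⟩ ⟨γ', s₂, i'⟩ h h'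
    obtain ⟨-, j, hj, hγ, hidx, hrd⟩ := h
    obtain ⟨-, j', hj', hγ', hidx', hrd'⟩ := h'
    simp only at hj hγ hidx hrd hj' hγ' hidx' hrd'
    obtain ⟨h1, h2⟩ := huniq (i := i) (i' := i') hj hj' fun r hr => by
      rw [hidx ⟨r, hr⟩, hidx' ⟨r, hr⟩]
    subst h1; subst h2
    have h3 : γ = γ' := by rw [hγ, hγ']
    subst h3
    have h4 := hf.rd_left hrd hrd'
    rw [Prod.mk.injEq] at h4
    rw [h4.2]

end Crest.Agent.R191
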