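import Crest.Agent.R191.Defs

/-!
# R191 piece CHEAP: actions of cost close to one
-/

set_option autoImplicit false

namespace Crest.Agent.R191

open MeasureTheory
open scoped ENNReal

/-- the twisted action on `X × ZMod m` -/
@[reducible] def cheapAct {Γ X : Type} [Group Γ] [MulAction Γ X] (h : Γ →* Multiplicative ℤ) (m : ℕ) :
    MulAction Γ (X × ZMod m) where
  smul γ y := (γ • y.1, y.2 + ((Multiplicative.toAdd (h γ) : ℤ) : ZMod m))
  one_smul y := by
    change ((1 : Γ) • y.1, y.2 + ((Multiplicative.toAdd (h 1) : ℤ) : ZMod m)) = y
    simp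
  mul_smul a b y := by
    change ((a * b) • y.1, y.2 + ((Multiplicative.toAdd (h (a * b)) : ℤ) : ZMod m)) =
      (a • (b • y.1), (y.2 + ((Multiplicative.toAdd (h b) : ℤ) : ZMod m)) +
        ((Multiplicative.toAdd (h a) : ℤ) : ZMod m))
    rw [mul_smul, map_mul, toAdd_mul]
    push_cast
    rw [add_assoc, add_comm ((Multiplicative.toAdd (h a) : ℤ) : ZMod m)]

/-- the uniform measure on `ZMod m` -/
noncomputable def unifZ (m : ℕ) : Measure (ZMod m) := ((m : ℝ≥0∞)⁻¹) • Measure.count

theorem unifZ_univ (m : ℕ) [NeZero m] : unifZ m Set.univ = 1 := by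
  rw [unifZ, Measure.smul_apply, smul_eq_mul, Measure.count_apply MeasurableSet.univ,
    Set.encard_univ, ENat.card_eq_coe_fintype_card, ZMod.card]
  exact ENNReal.inv_mul_cancel (by simpa using NeZero.ne m) (by simp)

theorem unifZ_zero (m : ℕ) [NeZero m] : unifZ m {0} = ((m : ℝ≥0∞)⁻¹) := by
  rw [unifZ, Measure.smul_apply, smul_eq_mul, Measure.count_apply (MeasurableSet.singleton _)]
  simp

theorem unifZ_add (m : ℕ) [NeZero m] (c : ZMod m) :
    MeasurePreserving (fun k : ZMod m => k + c) (unifZ m) (unifZ m) := by
  refine ⟨measurable_of_countable _, ?_⟩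
  rw [unifZ, Measure.map_smul]
  congr 1
  exact (measurePreserving_add_right (Measure.count : Measure (ZMod m)) c).map_eq

/-- CHEAP.  `Y = X × ZMod m`, `m = g * M`, `γ • (x, k) = (γ • x, k + h γ)`, `ν = μ ×` uniform.
Free (first coordinate), pmp.  Graphing: index `0`: `(t, univ)`; index `i + 1`, `i < g`:
`(s_i, {k = 0})`; cost `1 + g / m = 1 + 1 / M`.
Generation: let `P k` : for all `x`, `i`, `(x,k)` is joined to `s_i • (x,k)`.  `P 0` holds.
`P (k+1) → P k`: `s_i • (x,k) = t⁻¹ (t s_i t⁻¹) t • (x,k)`, `t • (x,k)` is at level `k+1`, and
`t s_i t⁻¹` is a product of `s_j^{±1}` (which do not change the level).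
So `P k` for all `k : ZMod m`; then the set of `γ` such that every `y` is joined to `γ • y` is a
subgroup containing the generators. -/
theorem cheap {Γ X : Type} [Group Γ] [Countable Γ] [MulAction Γ X] [MeasurableSpace X]
    [StandardBorelSpace X] (μ : Measure X) [IsProbabilityMeasure μ]
    (hact : Crest.Dynamics.IsFreePMPAction Γ X μ) {g : ℕ} (hg : 0 < g) (val : Lab g → Γ)
    (hcl : Subgroup.closure (Set.range val) = ⊤) (h : Γ →* Multiplicative ℤ)
    (ht : h (val none) = Multiplicative.ofAdd 1) (hs : ∀ i, h (val (some i)) = 1)
    (hconj : ∀ i, val none * val (some i) * (val none)⁻¹ ∈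
      Subgroup.closure (Set.range fun i => val (some i)))
    (M : ℕ) (hM : 0 < M) :
    ∃ (Y : Type) (_ : MeasurableSpace Y) (_ : StandardBorelSpace Y) (ν : Measure Y)
      (_ : IsProbabilityMeasure ν) (_ : MulAction Γ Y),
      Crest.Dynamics.IsFreePMPAction Γ Y ν ∧
      Crest.Dynamics.actionCost Γ Y ν ≤ 1 + 1 / (M : ℝ≥0∞) := by
  classical
  have hm : 0 < g * M := Nat.mul_pos hg hM
  have : NeZero (g * M) := ⟨hm.ne'⟩
  let act : MulAction Γ (X × ZMod (g * M)) := cheapAct h (g * M)
  have hκ : IsProbabilityMeasure (unifZ (g * M)) := ⟨unifZ_univ _⟩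
  have hsm : ∀ (γ : Γ) (y : X × ZMod (g * M)),
      γ • y = (γ • y.1, y.2 + ((Multiplicative.toAdd (h γ) : ℤ) : ZMod (g * M))) := fun _ _ => rfl
  refine ⟨X × ZMod (g * M), inferInstance, inferInstance, μ.prod (unifZ (g * M)), inferInstance,
    act, ⟨?_, ?_⟩, ?_⟩
  · intro γ
    exact (hact.1 γ).prod (unifZ_add (g * M) _)
  · intro γ hγ
    refine measure_mono_null (t := {x : X | γ • x = x} ×ˢ (Set.univ : Set (ZMod (g * M)))) ?_ ?_
    · intro y hy
      have h1 : γ • y = y := hy
      rw [hsm] at h1
      exact ⟨congrArg Prod.fst h1, trivial⟩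
    · rw [Measure.prod_prod, hact.2 γ hγ, zero_mul]
  · -- the graphing
    let Φ : ℕ → Γ × Set (X × ZMod (g * M)) := fun n =>
      match n with
      | 0 => (val none, Set.univ)
      | i + 1 => if hi : i < g then (val (some ⟨i, hi⟩), {y | y.2 = 0}) else (1, ∅)
    have hΦ0 : Φ 0 = (val none, Set.univ) := rfl
    have hΦs : ∀ i : ℕ, Φ (i + 1) =
        if hi : i < g then (val (some ⟨i, hi⟩), {y | y.2 = 0}) else (1, ∅) := fun _ => rfl
    have hms : MeasurableSet {y : X × ZMod (g * M) | y.2 = 0} :=
      measurable_snd (MeasurableSet.singleton (0 : ZMod (g * M)))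
    have hgen : Crest.Dynamics.Generates (Γ := Γ) (μ.prod (unifZ (g * M))) Φ := by
      refine ⟨?_, ∅, measure_empty, ?_⟩
      · intro i
        cases i with
        | zero => exact MeasurableSet.univ
        | succ i =>
          rw [hΦs]
          split_ifs
          · exact hms
          · exact MeasurableSet.empty
      · -- connectivity
        have hR0 : ∀ y : X × ZMod (g * M),
            Relation.EqvGen (Crest.Dynamics.GraphingStep Φ) y (val none • y) := fun y =>
          Relation.EqvGen.rel _ _ ⟨0, trivial, rfl⟩
        have hRi : ∀ y : X × ZMod (g * M), y.2 = 0 → ∀ i : Fin g,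
            Relation.EqvGen (Crest.Dynamics.GraphingStep Φ) y (val (some i) • y) := by
          intro y hy i
          refine Relation.EqvGen.rel _ _ ⟨i.1 + 1, ?_, ?_⟩
          · rw [hΦs, dif_pos i.2]; exact hy
          · rw [hΦs, dif_pos i.2]
        have hS : ∀ γ ∈ Subgroup.closure (Set.range fun i => val (some i)), h γ = 1 := by
          intro γ hγ
          have hle : Subgroup.closure (Set.range fun i => val (some i)) ≤ h.ker := by
            rw [Subgroup.closure_le]
            rintro _ ⟨i, rfl⟩
            exact hs i
          exact hle hγ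
        have hlev : ∀ (γ : Γ) (y : X × ZMod (g * M)), h γ = 1 → (γ • y).2 = y.2 := by
          intro γ y hγ
          rw [hsm, hγ]
          simp
        have hlevt : ∀ y : X × ZMod (g * M), (val none • y).2 = y.2 + 1 := by
          intro y
          rw [hsm, ht]
          simp
        have hstep : ∀ k : ZMod (g * M),
            (∀ y : X × ZMod (g * M), y.2 = k + 1 → ∀ i : Fin g,
              Relation.EqvGen (Crest.Dynamics.GraphingStep Φ) y (val (some i) • y)) →
            ∀ y : X × ZMod (g * M), y.2 = k → ∀ i : Fin g,
              Relation.EqvGen (Crest.Dynamics.GraphingStep Φ) y (val (some i) • y) := by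
          intro k hP y hy i
          have hall : ∀ γ ∈ Subgroup.closure (Set.range fun i => val (some i)),
              ∀ z : X × ZMod (g * M), z.2 = k + 1 →
                Relation.EqvGen (Crest.Dynamics.GraphingStep Φ) z (γ • z) := by
            intro γ hγ
            induction hγ using Subgroup.closure_induction with
            | mem x hx =>
              obtain ⟨j, rfl⟩ := hx
              intro z hz
              exact hP z hz j
            | one =>
              intro z _
              rw [one_smul]
              exact Relation.EqvGen.refl _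
            | mul a b ha hb iha ihb =>
              intro z hz
              rw [mul_smul]
              exact Relation.EqvGen.trans _ _ _ (ihb z hz)
                (iha _ (by rw [hlev b z (hS b hb), hz]))
            | inv a ha iha =>
              intro z hz
              have h1 := iha (a⁻¹ • z) (by rw [hlev a⁻¹ z (by rw [map_inv, hS a ha, inv_one]), hz])
              rw [smul_inv_smul] at h1
              exact Relation.EqvGen.symm _ _ h1
          have h2 := hall _ (hconj i) (val none • y) (by rw [hlevt, hy])
          have h3 : (val none * val (some i) * (val none)⁻¹) • (val none • y) =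
              val none • (val (some i) • y) := by
            rw [mul_smul, inv_smul_smul, mul_smul]
          rw [h3] at h2
          exact Relation.EqvGen.trans _ _ _ (hR0 y) (Relation.EqvGen.trans _ _ _ h2
            (Relation.EqvGen.symm _ _ (hR0 _)))
        have hneg : ∀ (j : ℕ), ∀ y : X × ZMod (g * M), y.2 = -(j : ZMod (g * M)) → ∀ i : Fin g,
              Relation.EqvGen (Crest.Dynamics.GraphingStep Φ) y (val (some i) • y) := by
          intro j
          induction j with
          | zero =>
            intro y hy i
            exact hRi y (by rw [hy]; simp) i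
          | succ j ih =>
            intro y hy i
            refine hstep (-((j + 1 : ℕ) : ZMod (g * M))) ?_ y hy i
            intro z hz i'
            refine ih z ?_ i'
            rw [hz]
            push_cast
            ring
        have hPall : ∀ y : X × ZMod (g * M), ∀ i : Fin g,
              Relation.EqvGen (Crest.Dynamics.GraphingStep Φ) y (val (some i) • y) := by
          intro y i
          refine hneg (-y.2).val y ?_ i
          rw [ZMod.natCast_zmod_val, neg_neg]
        intro y _ γ
        have hγ : γ ∈ Subgroup.closure (Set.range val) := by rw [hcl]; trivial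
        induction hγ using Subgroup.closure_induction generalizing y with
        | mem x hx =>
          obtain ⟨a, rfl⟩ := hx
          cases a with
          | none => exact hR0 y
          | some i => exact hPall y i
        | one =>
          rw [one_smul]
          exact Relation.EqvGen.refl _
        | mul a b _ _ iha ihb =>
          rw [mul_smul]
          exact Relation.EqvGen.trans _ _ _ (ihb y (Set.notMem_empty y))
            (iha _ (Set.notMem_empty _))
        | inv a _ iha =>
          have h1 := iha (a⁻¹ • y) (Set.notMem_empty _)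
          rw [smul_inv_smul] at h1
          exact Relation.EqvGen.symm _ _ h1
    refine le_trans (sInf_le ⟨Φ, hgen, rfl⟩) ?_
    rw [Crest.Dynamics.graphingCost, tsum_eq_zero_add' ENNReal.summable, hΦ0]
    have hsum : ∑' i : ℕ, (μ.prod (unifZ (g * M))) (Φ (i + 1)).2 =
        ∑ i ∈ Finset.range g, ((g * M : ℕ) : ℝ≥0∞)⁻¹ := by
      rw [tsum_eq_sum (s := Finset.range g)]
      · refine Finset.sum_congr rfl fun i hi => ?_
        rw [hΦs, dif_pos (Finset.mem_range.1 hi)]
        have : {y : X × ZMod (g * M) | y.2 = 0} = (Set.univ : Set X) ×ˢ {(0 : ZMod (g * M))} := by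
          ext y; simp
        change (μ.prod (unifZ (g * M))) {y : X × ZMod (g * M) | y.2 = 0} = _
        rw [this, Measure.prod_prod, measure_univ, one_mul, unifZ_zero]
      · intro i hi
        rw [hΦs, dif_neg (by simpa using hi)]
        exact measure_empty
    rw [hsum, measure_univ, Finset.sum_const, Finset.card_range, nsmul_eq_mul]
    refine add_le_add le_rfl ?_
    push_cast
    rw [ENNReal.mul_inv (Or.inl (by exact_mod_cast hg.ne')) (Or.inl (by simp)), ← mul_assoc,
      ENNReal.mul_inv_cancel (by exact_mod_cast hg.ne') (by simp), one_mul, one_div]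

end Crest.Agent.R191
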