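import Crest.Agent.R191.Meas

/-!
# R191 piece FOREST: parent edges towards the base, and monotonicity of `E - V`
-/

set_option autoImplicit false

namespace Crest.Agent.R191

open MeasureTheory

namespace ForestAux

variable (e : Env) {S : Type} (𝒢 : Fld (Lab e.g) e.X S) (b : S)

/-- `(x,s)` reads a word of length `n` to a base vertex -/
def Dn (n : ℕ) (s : S) : Set e.X :=
  {x | ∃ w : List (Lab e.g × Bool), w.length = n ∧ ∃ v, Rd (𝒢.G e.val) w (x, s) v ∧ v.2 = b}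

/-- exact distance -/
def Mn (n : ℕ) (s : S) : Set e.X :=
  {x | x ∈ Dn e 𝒢 b n s ∧ ∀ m, m < n → x ∉ Dn e 𝒢 b m s}

/-- letters leading to distance `n` -/
def Cand (n : ℕ) (l : Lab e.g × Bool) (s : S) : Set e.X :=
  {x | ∃ z, Stp (𝒢.G e.val) l (x, s) z ∧ z.1 ∈ Dn e 𝒢 b n z.2}

/-- the parent letter -/
def Par (n : ℕ) (l : Lab e.g × Bool) (s : S) : Set e.X :=
  {x | x ∈ Mn e 𝒢 b (n + 1) s ∧ x ∈ Cand e 𝒢 b n l s ∧
    ∀ l' : Lab e.g × Bool, Encodable.encode l' < Encodable.encode l → x ∉ Cand e 𝒢 b n l' s}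

/-- the parent edges -/
def PE (s : S) (ge : e.Γ × EI (Lab e.g) S) : Set e.X :=
  {x | s ≠ b ∧ ∃ n,
    (x ∈ Par e 𝒢 b n (ge.2.1, true) s ∧ ge.1 = 1 ∧ ge.2.2.1 = s ∧
      x ∈ 𝒢.E ge.2.1 s ge.2.2.2) ∨
    (x ∈ Par e 𝒢 b n (ge.2.1, false) s ∧ ge.1 = e.val ge.2.1 ∧ ge.2.2.2 = s ∧
      e.val ge.2.1 • x ∈ 𝒢.E ge.2.1 ge.2.2.1 s)}

variable {e 𝒢 b}

theorem meas_Dn [Countable S] (hm : FMeas 𝒢) (n : ℕ) (s : S) :
    MeasurableSet (Dn e 𝒢 b n s) := by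
  have h1 : Dn e 𝒢 b n s = ⋃ w : List (Lab e.g × Bool), ⋃ (_ : w.length = n),
      {x | ∃ v, Rd (𝒢.G e.val) w (x, s) v ∧ v.1 ∈ (fun s' => {_x : e.X | s' = b}) v.2} := by
    ext x
    simp only [Dn, Set.mem_ofPred_eq, Set.mem_iUnion, exists_prop]
  rw [h1]
  refine MeasurableSet.iUnion fun w => MeasurableSet.iUnion fun _ => ?_
  exact meas_rd_prop (val := e.val) (Env.meas_smul e) hm w s (fun s' => {_x : e.X | s' = b})
    fun s' => MeasurableSet.const _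

theorem meas_Mn [Countable S] (hm : FMeas 𝒢) (n : ℕ) (s : S) :
    MeasurableSet (Mn e 𝒢 b n s) := by
  have h1 : Mn e 𝒢 b n s = Dn e 𝒢 b n s ∩ ⋂ m, ⋂ (_ : m < n), (Dn e 𝒢 b m s)ᶜ := by
    ext x
    simp only [Mn, Set.mem_ofPred_eq, Set.mem_inter_iff, Set.mem_iInter, Set.mem_compl_iff]
  rw [h1]
  exact (meas_Dn hm n s).inter (MeasurableSet.iInter fun m => MeasurableSet.iInter fun _ =>
    (meas_Dn hm m s).compl)

theorem meas_Cand [Countable S] (hm : FMeas 𝒢) (n : ℕ) (l : Lab e.g × Bool) (s : S) :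
    MeasurableSet (Cand e 𝒢 b n l s) := by
  have h1 : Cand e 𝒢 b n l s =
      {x | ∃ v, Rd (𝒢.G e.val) [l] (x, s) v ∧ v.1 ∈ Dn e 𝒢 b n v.2} := by
    ext x
    simp only [Cand, Set.mem_ofPred_eq, Rd]
    constructor
    · rintro ⟨z, h1, h2⟩
      exact ⟨z, ⟨z, h1, rfl⟩, h2⟩
    · rintro ⟨v, ⟨z, h1, rfl⟩, h2⟩
      exact ⟨_, h1, h2⟩
  rw [h1]
  exact meas_rd_prop (Env.meas_smul e) hm [l] s _ fun s' => meas_Dn hm n s'

theorem meas_Par [Countable S] (hm : FMeas 𝒢) (n : ℕ) (l : Lab e.g × Bool) (s : S) :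
    MeasurableSet (Par e 𝒢 b n l s) := by
  have h1 : Par e 𝒢 b n l s = Mn e 𝒢 b (n + 1) s ∩ (Cand e 𝒢 b n l s ∩
      ⋂ l' : Lab e.g × Bool, ⋂ (_ : Encodable.encode l' < Encodable.encode l),
        (Cand e 𝒢 b n l' s)ᶜ) := by
    ext x
    simp only [Par, Set.mem_ofPred_eq, Set.mem_inter_iff, Set.mem_iInter, Set.mem_compl_iff]
  rw [h1]
  exact (meas_Mn hm _ s).inter ((meas_Cand hm n l s).inter (MeasurableSet.iInter fun m =>
    MeasurableSet.iInter fun _ => (meas_Cand hm n m s).compl))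

theorem meas_PE [Countable S] (hm : FMeas 𝒢) (s : S) (ge : e.Γ × EI (Lab e.g) S) :
    MeasurableSet (PE e 𝒢 b s ge) := by
  have h1 : PE e 𝒢 b s ge = {_x : e.X | s ≠ b} ∩ ⋃ n,
      ((Par e 𝒢 b n (ge.2.1, true) s ∩ ({_x : e.X | ge.1 = 1} ∩ ({_x : e.X | ge.2.2.1 = s} ∩
        𝒢.E ge.2.1 s ge.2.2.2))) ∪
      (Par e 𝒢 b n (ge.2.1, false) s ∩ ({_x : e.X | ge.1 = e.val ge.2.1} ∩
        ({_x : e.X | ge.2.2.2 = s} ∩
        (fun x : e.X => e.val ge.2.1 • x) ⁻¹' (𝒢.E ge.2.1 ge.2.2.1 s))))) := by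
    ext x
    simp only [PE, Set.mem_ofPred_eq, Set.mem_inter_iff, Set.mem_iUnion, Set.mem_union,
      Set.mem_preimage]
  rw [h1]
  refine (MeasurableSet.const _).inter (MeasurableSet.iUnion fun n => ?_)
  refine ((meas_Par hm n _ s).inter ((MeasurableSet.const _).inter
    ((MeasurableSet.const _).inter (hm _ _ _)))).union
    ((meas_Par hm n _ s).inter ((MeasurableSet.const _).inter
    ((MeasurableSet.const _).inter (Env.meas_smul e _ (hm _ _ _)))))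

theorem Mn_unique {n m : ℕ} {s : S} {x : e.X} (h : x ∈ Mn e 𝒢 b n s) (h' : x ∈ Mn e 𝒢 b m s) :
    n = m := by
  rcases lt_trichotomy n m with h1 | h1 | h1
  · exact absurd h.1 (h'.2 n h1)
  · exact h1
  · exact absurd h'.1 (h.2 m h1)

theorem exists_Mn {n : ℕ} {s : S} {x : e.X} (h : x ∈ Dn e 𝒢 b n s) :
    ∃ m, m ≤ n ∧ x ∈ Mn e 𝒢 b m s := by
  classical
  have hex : ∃ m, x ∈ Dn e 𝒢 b m s := ⟨n, h⟩
  refine ⟨Nat.find hex, Nat.find_min' hex h, Nat.find_spec hex, fun m hm => Nat.find_min hex hm⟩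

theorem Mn_zero {s : S} {x : e.X} (h : x ∈ Dn e 𝒢 b 0 s) : s = b := by
  obtain ⟨w, hw, v, h1, h2⟩ := h
  rw [List.length_eq_zero_iff] at hw
  subst hw
  have : (x, s) = v := h1
  subst this
  exact h2

theorem exists_Par {n : ℕ} {s : S} {x : e.X} (h : x ∈ Mn e 𝒢 b (n + 1) s) :
    ∃ l, x ∈ Par e 𝒢 b n l s := by
  classical
  have h1 : ∃ k, ∃ l : Lab e.g × Bool, Encodable.encode l = k ∧ x ∈ Cand e 𝒢 b n l s := by
    obtain ⟨w, hw, v, h1, h2⟩ := h.1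
    cases w with
    | nil => simp at hw
    | cons l w =>
      obtain ⟨z, h3, h4⟩ := h1
      exact ⟨_, l, rfl, z, h3, w, by simpa using hw, v, h4, h2⟩
  obtain ⟨l, hl, hl'⟩ := Nat.find_spec h1
  refine ⟨l, h, hl', fun l' hlt hl'' => ?_⟩
  rw [hl] at hlt
  exact Nat.find_min h1 hlt ⟨l', rfl, hl''⟩

theorem Par_unique {n m : ℕ} {l l' : Lab e.g × Bool} {s : S} {x : e.X}
    (h : x ∈ Par e 𝒢 b n l s) (h' : x ∈ Par e 𝒢 b m l' s) : n = m ∧ l = l' := by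
  have h1 : n + 1 = m + 1 := Mn_unique h.1 h'.1
  have h2 : n = m := by omega
  subst h2
  refine ⟨rfl, ?_⟩
  rcases lt_trichotomy (Encodable.encode l) (Encodable.encode l') with h3 | h3 | h3
  · exact absurd h.2.1 (h'.2.2 l h3)
  · exact Encodable.encode_injective h3
  · exact absurd h'.2.1 (h.2.2 l' h3)

theorem stp_true {a : Lab e.g} {x : e.X} {s : S} {z : e.X × S} :
    Stp (𝒢.G e.val) (a, true) (x, s) z ↔ z.1 = (e.val a)⁻¹ • x ∧ x ∈ 𝒢.E a s z.2 := by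
  simp [Stp, Fld.G]

theorem stp_false {a : Lab e.g} {x : e.X} {s : S} {z : e.X × S} :
    Stp (𝒢.G e.val) (a, false) (x, s) z ↔ x = (e.val a)⁻¹ • z.1 ∧ z.1 ∈ 𝒢.E a z.2 s := by
  simp [Stp, Fld.G]

theorem stp_false' {a : Lab e.g} {x : e.X} {s : S} {z : e.X × S} :
    Stp (𝒢.G e.val) (a, false) (x, s) z ↔ z.1 = e.val a • x ∧ e.val a • x ∈ 𝒢.E a z.2 s := by
  rw [stp_false, eq_inv_smul_iff]
  constructor
  · rintro ⟨h1, h2⟩
    exact ⟨h1.symm, h1 ▸ h2⟩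
  · rintro ⟨h1, h2⟩
    exact ⟨h1.symm, h1.symm ▸ h2⟩

/-- the two kinds of parent edges with the parent vertex -/
theorem PE_cases (hf : Folded (𝒢.G e.val)) {s : S} {γ : e.Γ} {ed : EI (Lab e.g) S} {x : e.X}
    (h : x ∈ PE e 𝒢 b s (γ, ed)) :
    s ≠ b ∧ ∃ n, (x ∈ Par e 𝒢 b n (ed.1, true) s ∧ γ = 1 ∧ ed.2.1 = s ∧
      x ∈ 𝒢.E ed.1 s ed.2.2 ∧ (e.val ed.1)⁻¹ • x ∈ Dn e 𝒢 b n ed.2.2) ∨
    (x ∈ Par e 𝒢 b n (ed.1, false) s ∧ γ = e.val ed.1 ∧ ed.2.2 = s ∧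
      e.val ed.1 • x ∈ 𝒢.E ed.1 ed.2.1 s ∧ e.val ed.1 • x ∈ Dn e 𝒢 b n ed.2.1) := by
  obtain ⟨hs, n, h1 | h1⟩ := h
  · obtain ⟨h1, h2, h3, h4⟩ := h1
    refine ⟨hs, n, Or.inl ⟨h1, h2, h3, h4, ?_⟩⟩
    obtain ⟨z, h5, h6⟩ := h1.2.1
    have h7 : Stp (𝒢.G e.val) (ed.1, true) (x, s) ((e.val ed.1)⁻¹ • x, ed.2.2) :=
      stp_true.2 ⟨rfl, h4⟩
    have h8 := hf.stp_right h5 h7
    subst h8
    exact h6
  · obtain ⟨h1, h2, h3, h4⟩ := h1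
    refine ⟨hs, n, Or.inr ⟨h1, h2, h3, h4, ?_⟩⟩
    obtain ⟨z, h5, h6⟩ := h1.2.1
    have h7 : Stp (𝒢.G e.val) (ed.1, false) (x, s) (e.val ed.1 • x, ed.2.1) :=
      stp_false'.2 ⟨rfl, h4⟩
    have h8 := hf.stp_right h5 h7
    subst h8
    exact h6

theorem no_mixed {n m : ℕ} {l l' : Lab e.g × Bool} {s s' : S} {x x' : e.X}
    (h1 : x ∈ Par e 𝒢 b n l s) (h2 : x' ∈ Dn e 𝒢 b n s')
    (h3 : x' ∈ Par e 𝒢 b m l' s') (h4 : x ∈ Dn e 𝒢 b m s) : False := by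
  have h5 : n + 1 ≤ m := by
    by_contra hlt
    exact h1.1.2 m (by omega) h4
  have h6 : m + 1 ≤ n := by
    by_contra hlt
    exact h3.1.2 n (by omega) h2
  omega

end ForestAux

open ForestAux in
/-- PARENT EDGES.  `x ∈ K s (γ, ed)` means: `(x, s)` is a non-base vertex and its parent edge is the
edge with source point `γ • x` and index `ed`.

Let `d u` be the least length of a word read from a base vertex to `u` (finite by `conn`); a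
non-base vertex `(x,s)` has a signed letter `e` (choose the first one in a fixed enumeration
of the finite type `Lab g × Bool`) with `Stp G e (x,s) z`, `d z < d (x,s)`.  If `e = (a,true)` the
edge is `(x, (a, s, z.2))` (`γ = 1`), if `e = (a,false)` it is `(z.1, (a, z.2, s))`, `γ = val a`.
Distinct non-base vertices have distinct parent edges because `d` decreases strictly along
`u → z` (if the edge `{u,z}` were the parent edge of both, `d z < d u < d z`).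
Last item: follow parent edges down to the base: all steps have value `0` under `F`. -/
theorem forest (e : Env) {S : Type} [Countable S] (𝒢 : Fld (Lab e.g) e.X S) (b : S)
    (h : Base e 𝒢 b) :
    ∃ K : S → e.Γ × EI (Lab e.g) S → Set e.X,
      (∀ s ge, MeasurableSet (K s ge)) ∧
      (∀ s x, s ≠ b → x ∈ 𝒢.Vs e.val s → ∃ ge, x ∈ K s ge) ∧
      (∀ s ge x, x ∈ K s ge → s ≠ b ∧ x ∈ 𝒢.Vs e.val s ∧ ge.1 • x ∈ 𝒢.Es ge.2 ∧
        ((ge.1 = 1 ∧ ge.2.2.1 = s) ∨ (ge.1 = e.val ge.2.1 ∧ ge.2.2.2 = s))) ∧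
      (∀ s ge ge' x, x ∈ K s ge → x ∈ K s ge' → ge = ge') ∧
      (∀ s s' γ γ' ed x x', x ∈ K s (γ, ed) → x' ∈ K s' (γ', ed) → γ • x = γ' • x' →
        s = s' ∧ x = x') ∧
      (∀ F : e.X → EI (Lab e.g) S → ℝ, (∀ s ge x, x ∈ K s ge → F (ge.1 • x) ge.2 = 0) →
        ∀ u, IsV (𝒢.G e.val) u → ∃ w x, RS (𝒢.G e.val) (efun F) w (x, b) u 0) := by
  have hconn : ∀ s x, x ∈ 𝒢.Vs e.val s → ∃ n, x ∈ Dn e 𝒢 b n s := by
    intro s x hx
    obtain ⟨w, y, hw⟩ := h.conn (x, s) hx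
    exact ⟨_, winv w, rfl, (y, b), rd_winv hw, rfl⟩
  have hex : ∀ s x n, s ≠ b → x ∈ Mn e 𝒢 b (n + 1) s →
      ∃ ge : e.Γ × EI (Lab e.g) S, x ∈ PE e 𝒢 b s ge ∧
        ∃ (l : Lab e.g × Bool) (z : e.X × S), Stp (𝒢.G e.val) l (x, s) z ∧
          z.1 ∈ Dn e 𝒢 b n z.2 ∧ ∀ F : e.X → EI (Lab e.g) S → ℝ,
          F (ge.1 • x) ge.2 = 0 → sgn (efun F) l (x, s) z = 0 := by
    intro s x n hs hx
    obtain ⟨⟨a, ab⟩, hl⟩ := exists_Par hx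
    obtain ⟨z, hz1, hz2⟩ := hl.2.1
    cases ab with
    | true =>
      have hz3 := stp_true.1 hz1
      refine ⟨(1, (a, s, z.2)), ⟨hs, n, Or.inl ⟨hl, rfl, rfl, hz3.2⟩⟩, (a, true), z, hz1, hz2,
        fun F hF => ?_⟩
      simpa [sgn, efun] using hF
    | false =>
      have hz3 := stp_false'.1 hz1
      refine ⟨(e.val a, (a, z.2, s)), ⟨hs, n, Or.inr ⟨hl, rfl, rfl, hz3.2⟩⟩, (a, false), z,
        hz1, hz2, fun F hF => ?_⟩
      simpa [sgn, efun, hz3.1] using hF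
  refine ⟨PE e 𝒢 b, fun s ge => meas_PE h.meas s ge, ?_, ?_, ?_, ?_, ?_⟩
  · intro s x hs hx
    obtain ⟨n, hn⟩ := hconn s x hx
    obtain ⟨m, -, hm⟩ := exists_Mn hn
    cases m with
    | zero => exact absurd (Mn_zero hm.1) hs
    | succ m =>
      obtain ⟨ge, hge, -⟩ := hex s x m hs hm
      exact ⟨ge, hge⟩
  · rintro s ⟨γ, ed⟩ x hx
    obtain ⟨hs, n, ⟨h1, h2, h3, h4, h5⟩ | ⟨h1, h2, h3, h4, h5⟩⟩ := PE_cases h.folded hx
    · refine ⟨hs, ⟨ed.1, ((e.val ed.1)⁻¹ • x, ed.2.2), Or.inl ⟨rfl, h4⟩⟩, ?_, Or.inl ⟨h2, h3⟩⟩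
      show γ • x ∈ 𝒢.E ed.1 ed.2.1 ed.2.2
      rw [h2, one_smul, h3]
      exact h4
    · refine ⟨hs, ⟨ed.1, (e.val ed.1 • x, ed.2.1), Or.inr ⟨(inv_smul_smul _ _).symm, h4⟩⟩, ?_,
        Or.inr ⟨h2, h3⟩⟩
      show γ • x ∈ 𝒢.E ed.1 ed.2.1 ed.2.2
      rw [h2, h3]
      exact h4
  · rintro s ⟨γ, a, s1, s2⟩ ⟨γ', a', s1', s2'⟩ x hx hx'
    obtain ⟨-, n, h0⟩ := PE_cases h.folded hx
    obtain ⟨-, n', h0'⟩ := PE_cases h.folded hx'
    rcases h0 with ⟨h1, h2, h3, h4, -⟩ | ⟨h1, h2, h3, h4, -⟩ <;>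
    rcases h0' with ⟨h1', h2', h3', h4', -⟩ | ⟨h1', h2', h3', h4', -⟩
    · simp only at h1 h2 h3 h4 h1' h2' h3' h4'
      have h5 := (Par_unique h1 h1').2
      simp only [Prod.mk.injEq, and_true] at h5
      subst h5 h3
      have h6 : Stp (𝒢.G e.val) (a, true) (x, s1) ((e.val a)⁻¹ • x, s2) :=
        stp_true.2 ⟨rfl, h4⟩
      have h7 : Stp (𝒢.G e.val) (a, true) (x, s1) ((e.val a)⁻¹ • x, s2') :=
        stp_true.2 ⟨rfl, h4'⟩
      have h8 := h.folded.stp_right h6 h7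
      simp only [Prod.mk.injEq, true_and] at h8
      rw [h2, h2', h3', h8]
    · have h5 := (Par_unique h1 h1').2
      simp at h5
    · have h5 := (Par_unique h1 h1').2
      simp at h5
    · simp only at h1 h2 h3 h4 h1' h2' h3' h4'
      have h5 := (Par_unique h1 h1').2
      simp only [Prod.mk.injEq, and_true] at h5
      subst h5 h3
      have h6 : Stp (𝒢.G e.val) (a, false) (x, s2) (e.val a • x, s1) :=
        stp_false'.2 ⟨rfl, h4⟩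
      have h7 : Stp (𝒢.G e.val) (a, false) (x, s2) (e.val a • x, s1') :=
        stp_false'.2 ⟨rfl, h4'⟩
      have h8 := h.folded.stp_right h6 h7
      simp only [Prod.mk.injEq, true_and] at h8
      rw [h2, h2', h3', h8]
  · rintro s s' γ γ' ⟨a, s1, s2⟩ x x' hx hx' hγ
    obtain ⟨-, n, h0⟩ := PE_cases h.folded hx
    obtain ⟨-, n', h0'⟩ := PE_cases h.folded hx'
    rcases h0 with ⟨h1, h2, h3, h4, h5⟩ | ⟨h1, h2, h3, h4, h5⟩ <;>
    rcases h0' with ⟨h1', h2', h3', h4', h5'⟩ | ⟨h1', h2', h3', h4', h5'⟩ <;>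
    simp only at h1 h2 h3 h4 h5 h1' h2' h3' h4' h5' <;> subst h2 h2' h3 h3'
    · rw [one_smul, one_smul] at hγ
      exact ⟨rfl, hγ⟩
    · exfalso
      rw [one_smul] at hγ
      subst hγ
      rw [inv_smul_smul] at h5
      exact no_mixed h1 h5 h1' h5'
    · exfalso
      rw [one_smul] at hγ
      subst hγ
      rw [inv_smul_smul] at h5'
      exact no_mixed h1 h5 h1' h5'
    · exact ⟨rfl, smul_left_cancel _ hγ⟩
  · intro F hF
    have key : ∀ n, ∀ s x, x ∈ Dn e 𝒢 b n s →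
        ∃ w y, RS (𝒢.G e.val) (efun F) w (y, b) (x, s) 0 := by
      intro n
      induction n using Nat.strong_induction_on with
      | _ n ih =>
        intro s x hx
        by_cases hs : s = b
        · subst hs
          exact ⟨[], x, rfl, rfl⟩
        · obtain ⟨m, hmn, hm⟩ := exists_Mn hx
          cases m with
          | zero => exact absurd (Mn_zero hm.1) hs
          | succ m =>
            obtain ⟨ge, hge, l, z, hz1, hz2, hz3⟩ := hex s x m hs hm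
            obtain ⟨w, y, hw⟩ := ih m (by omega) z.2 z.1 hz2
            have h1 := hz3 F (hF s ge x hge)
            have h2 : RS (𝒢.G e.val) (efun F) [l] (x, s) z 0 :=
              ⟨z, 0, hz1, ⟨rfl, rfl⟩, by rw [h1, add_zero]⟩
            have h3 := rs_winv h2
            refine ⟨w ++ winv [l], y, ?_⟩
            rw [rs_append]
            exact ⟨z, 0, -0, hw, h3, by simp⟩
    intro u hu
    obtain ⟨n, hn⟩ := hconn u.2 u.1 hu
    exact key n u.2 u.1 hn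

/-- every vertex is an endpoint of an edge -/
theorem cnt_Vs_le (e : Env) {S : Type} [Countable S] (𝒢 : Fld (Lab e.g) e.X S)
    (hm : FMeas 𝒢) : cnt e.μ (𝒢.Vs e.val) ≤ 2 * cnt e.μ 𝒢.Es := by
  have h1 : ∀ s, e.μ (𝒢.Vs e.val s) ≤
      ∑' am : Lab e.g × S, e.μ (𝒢.E am.1 s am.2) + ∑' am : Lab e.g × S, e.μ (𝒢.E am.1 am.2 s) := by
    intro s
    have h2 : 𝒢.Vs e.val s ⊆ (⋃ am : Lab e.g × S, 𝒢.E am.1 s am.2) ∪
        ⋃ am : Lab e.g × S, (fun x : e.X => e.val am.1 • x) ⁻¹' (𝒢.E am.1 am.2 s) := by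
      rintro x ⟨a, v, h | h⟩
      · exact Or.inl (Set.mem_iUnion.2 ⟨(a, v.2), h.2⟩)
      · refine Or.inr (Set.mem_iUnion.2 ⟨(a, v.2), ?_⟩)
        have h3 : x = (e.val a)⁻¹ • v.1 := h.1
        show e.val a • x ∈ 𝒢.E a v.2 s
        rw [h3, smul_inv_smul]
        exact h.2
    refine (measure_mono h2).trans ((measure_union_le _ _).trans ?_)
    refine add_le_add (measure_iUnion_le _) ((measure_iUnion_le _).trans ?_)
    refine ENNReal.tsum_le_tsum fun am => le_of_eq ?_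
    exact (e.pmp (e.val am.1)).measure_preimage (hm am.1 am.2 s).nullMeasurableSet
  have h2 : ∑' s, ∑' am : Lab e.g × S, e.μ (𝒢.E am.1 s am.2) = cnt e.μ 𝒢.Es := by
    unfold cnt Fld.Es
    rw [ENNReal.tsum_prod']
    simp_rw [ENNReal.tsum_prod']
    rw [ENNReal.tsum_comm]
  have h3 : ∑' s, ∑' am : Lab e.g × S, e.μ (𝒢.E am.1 am.2 s) = cnt e.μ 𝒢.Es := by
    unfold cnt Fld.Es
    rw [ENNReal.tsum_prod']
    simp_rw [ENNReal.tsum_prod']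
    rw [ENNReal.tsum_comm]
    refine tsum_congr fun a => ?_
    rw [ENNReal.tsum_comm]
  calc cnt e.μ (𝒢.Vs e.val) ≤ ∑' s, (∑' am : Lab e.g × S, e.μ (𝒢.E am.1 s am.2) +
        ∑' am : Lab e.g × S, e.μ (𝒢.E am.1 am.2 s)) := ENNReal.tsum_le_tsum h1
    _ = 2 * cnt e.μ 𝒢.Es := by rw [ENNReal.tsum_add, h2, h3, two_mul]

theorem Vs_fin (e : Env) {S : Type} [Countable S] (𝒢 : Fld (Lab e.g) e.X S) (b : S)
    (h : Base e 𝒢 b) : cnt e.μ (𝒢.Vs e.val) ≠ ⊤ := by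
  refine ne_top_of_le_ne_top ?_ (cnt_Vs_le e 𝒢 h.meas)
  exact ENNReal.mul_ne_top (by simp) h.fin

/-- MONOTONICITY.  For a subfield containing the base `t`-edges: `V - V' ≤ E - E'`.
The map (vertex of `𝒢` which is not a vertex of `𝒢'`) ↦ (its parent edge in `𝒢`) is injective
and lands in `E ∖ E'` (the edge is incident to the vertex).  Use `mt_inj`. -/
theorem mono (e : Env) {S : Type} [Countable S] (𝒢 : Fld (Lab e.g) e.X S) (b : S)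
    (h : Base e 𝒢 b) (𝒢' : Fld (Lab e.g) e.X S) (hm : FMeas 𝒢')
    (hsub : ∀ a n m, 𝒢'.E a n m ⊆ 𝒢.E a n m) (hb : ∀ x, x ∈ 𝒢'.E none b b) :
    cnt e.μ (𝒢.Vs e.val) + cnt e.μ 𝒢'.Es ≤ cnt e.μ (𝒢'.Vs e.val) + cnt e.μ 𝒢.Es := by
  obtain ⟨K, hK1, hK2, hK3, hK4, hK5, -⟩ := forest e 𝒢 b h
  have hVm' : ∀ s, MeasurableSet (𝒢'.Vs e.val s) := fun s => meas_Vs (Env.meas_smul e) hm s
  have hVm : ∀ s, MeasurableSet (𝒢.Vs e.val s) := fun s => meas_Vs (Env.meas_smul e) h.meas s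
  have hVs : ∀ s, 𝒢'.Vs e.val s ⊆ 𝒢.Vs e.val s := by
    rintro s x ⟨a, v, h1 | h1⟩
    · exact ⟨a, v, Or.inl ⟨h1.1, hsub _ _ _ h1.2⟩⟩
    · exact ⟨a, v, Or.inr ⟨h1.1, hsub _ _ _ h1.2⟩⟩
  have key : cnt e.μ (fun s => 𝒢.Vs e.val s \ 𝒢'.Vs e.val s) ≤
      cnt e.μ (fun ed => 𝒢.Es ed \ 𝒢'.Es ed) := by
    refine mt_inj e.pmp (fun ed => (h.meas _ _ _).diff (hm _ _ _))
      (fun s γ ed => K s (γ, ed) ∩ (𝒢.Vs e.val s \ 𝒢'.Vs e.val s))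
      (fun s γ ed => (hK1 s (γ, ed)).inter ((hVm s).diff (hVm' s))) ?_ ?_ ?_
    · intro s x hx
      have hs : s ≠ b := by
        rintro rfl
        exact hx.2 ⟨none, ((e.val none)⁻¹ • x, s), Or.inl ⟨rfl, hb x⟩⟩
      obtain ⟨ge, hge⟩ := hK2 s x hs hx.1
      exact ⟨ge.1, ge.2, hge, hx⟩
    · intro s γ ed x hx
      obtain ⟨hx1, hx2⟩ := hx
      obtain ⟨h1, h2, h3, h4⟩ := hK3 s (γ, ed) x hx1
      refine ⟨h3, fun h5 => hx2.2 ?_⟩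
      have h6 : γ • x ∈ 𝒢'.E ed.1 ed.2.1 ed.2.2 := h5
      rcases h4 with ⟨h7, h8⟩ | ⟨h7, h8⟩
      · simp only at h7 h8
        rw [h7, one_smul, h8] at h6
        exact ⟨ed.1, ((e.val ed.1)⁻¹ • x, ed.2.2), Or.inl ⟨rfl, h6⟩⟩
      · simp only at h7 h8
        rw [h7, h8] at h6
        exact ⟨ed.1, (e.val ed.1 • x, ed.2.1), Or.inr ⟨(inv_smul_smul _ _).symm, h6⟩⟩
    · intro ed y γ γ' s s' h1 h2
      have h3 := hK5 s s' γ γ' ed (γ⁻¹ • y) (γ'⁻¹ • y) h1.1 h2.1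
        (by rw [smul_inv_smul, smul_inv_smul])
      obtain ⟨h4, h5⟩ := h3
      subst h4
      have h6 := hK4 s (γ, ed) (γ', ed) (γ⁻¹ • y) h1.1 (h5 ▸ h2.1)
      simp only [Prod.mk.injEq, and_true] at h6
      exact ⟨h6, rfl⟩
  have h1 := cnt_inter_add_diff (μ := e.μ) (𝒢.Vs e.val) hVm'
  have h2 := cnt_inter_add_diff (μ := e.μ) 𝒢.Es (B := 𝒢'.Es) (fun ed => hm _ _ _)
  have h3 : cnt e.μ (fun p => 𝒢.Vs e.val p ∩ 𝒢'.Vs e.val p) ≤ cnt e.μ (𝒢'.Vs e.val) :=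
    cnt_mono fun p => Set.inter_subset_right
  have h4 : cnt e.μ 𝒢'.Es ≤ cnt e.μ (fun p => 𝒢.Es p ∩ 𝒢'.Es p) :=
    cnt_mono fun p x hx => ⟨hsub _ _ _ hx, hx⟩
  calc cnt e.μ (𝒢.Vs e.val) + cnt e.μ 𝒢'.Es
      = cnt e.μ (fun p => 𝒢.Vs e.val p ∩ 𝒢'.Vs e.val p) +
        cnt e.μ (fun s => 𝒢.Vs e.val s \ 𝒢'.Vs e.val s) + cnt e.μ 𝒢'.Es := by rw [h1]
    _ ≤ cnt e.μ (𝒢'.Vs e.val) + cnt e.μ (fun ed => 𝒢.Es ed \ 𝒢'.Es ed) +
        cnt e.μ (fun p => 𝒢.Es p ∩ 𝒢'.Es p) := by gcongr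
    _ = cnt e.μ (𝒢'.Vs e.val) + cnt e.μ 𝒢.Es := by rw [← h2]; ring

/-- consequence: `E' ≤ V' + 2δ` for subfields of fields with `E ≤ V + 2δ` -/
theorem mono_cap (e : Env) {S : Type} [Countable S] (𝒢 : Fld (Lab e.g) e.X S) (b : S)
    (h : Good e 𝒢 b) (𝒢' : Fld (Lab e.g) e.X S) (hm : FMeas 𝒢')
    (hsub : ∀ a n m, 𝒢'.E a n m ⊆ 𝒢.E a n m) (hb : ∀ x, x ∈ 𝒢'.E none b b) :
    cnt e.μ 𝒢'.Es ≤ cnt e.μ (𝒢'.Vs e.val) + ENNReal.ofReal (2 * e.δ) := by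
  have h1 := mono e 𝒢 b h.toBase 𝒢' hm hsub hb
  have h2 := h.cap
  have hV := Vs_fin e 𝒢 b h.toBase
  have h3 : cnt e.μ (𝒢.Vs e.val) + cnt e.μ 𝒢'.Es ≤
      cnt e.μ (𝒢.Vs e.val) + (cnt e.μ (𝒢'.Vs e.val) + ENNReal.ofReal (2 * e.δ)) := by
    calc _ ≤ _ := h1
      _ ≤ cnt e.μ (𝒢'.Vs e.val) + (cnt e.μ (𝒢.Vs e.val) + ENNReal.ofReal (2 * e.δ)) := by gcongr
      _ = _ := by ring
  exact (ENNReal.add_le_add_iff_left hV).1 h3

end Crest.Agent.R191
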