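import Crest.Agent.R191.Row

/-!
# R191 piece LLA, helper lemmas: the Schur test on `ℓ²` and the contraction matrix
-/

set_option autoImplicit false

namespace Crest.Agent.R191.LLAaux

open MeasureTheory
open scoped ENNReal

/-- square summation in `ℓ²` -/
theorem hasSum_sq {I : Type} (f : lp (fun _ : I => ℝ) 2) :
    HasSum (fun i => (f i) ^ 2) (‖f‖ ^ 2) := by
  have h := lp.hasSum_norm (p := 2) (by norm_num) f
  simpa using h

theorem memlp_of_sq {I : Type} (f : I → ℝ) (h : Summable fun i => (f i) ^ 2) :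
    Memℓp f 2 := by
  refine memℓp_gen ?_
  simpa using h

theorem tsum_ofReal_sq {I : Type} (f : lp (fun _ : I => ℝ) 2) :
    ∑' i, ENNReal.ofReal ((f i) ^ 2) = ENNReal.ofReal (‖f‖ ^ 2) := by
  rw [← (hasSum_sq f).tsum_eq]
  exact (ENNReal.ofReal_tsum_of_nonneg (fun i => sq_nonneg _) (hasSum_sq f).summable).symm

theorem summable_of_tsum_ofReal {I : Type} (f : I → ℝ) (hf : ∀ i, 0 ≤ f i)
    (h : ∑' i, ENNReal.ofReal (f i) ≠ ⊤) : Summable f := by
  have := ENNReal.summable_toReal h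
  refine this.congr fun i => ?_
  exact ENNReal.toReal_ofReal (hf i)

/-- Cauchy-Schwarz for one finite row -/
theorem row_cs {I : Type} (m f : I → ℝ) (hs : (Function.support m).Finite)
    (hrow : ∑' i, ENNReal.ofReal |m i| ≤ 1) :
    ENNReal.ofReal ((∑' i, m i * f i) ^ 2) ≤
      ∑' i, ENNReal.ofReal (|m i|) * ENNReal.ofReal ((f i) ^ 2) := by
  classical
  have h1 : ∑' i, m i * f i = ∑ i ∈ hs.toFinset, m i * f i := by
    refine tsum_eq_sum fun i hi => ?_
    have : m i = 0 := by simpa using hi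
    simp [this]
  have h2 : ∑' i, ENNReal.ofReal (|m i|) * ENNReal.ofReal ((f i) ^ 2) =
      ∑ i ∈ hs.toFinset, ENNReal.ofReal (|m i|) * ENNReal.ofReal ((f i) ^ 2) := by
    refine tsum_eq_sum fun i hi => ?_
    have : m i = 0 := by simpa using hi
    simp [this]
  have h3 : ∑ i ∈ hs.toFinset, |m i| ≤ 1 := by
    have h4 : ∑' i, ENNReal.ofReal (|m i|) = ∑ i ∈ hs.toFinset, ENNReal.ofReal (|m i|) := by
      refine tsum_eq_sum fun i hi => ?_
      have : m i = 0 := by simpa using hi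
      simp [this]
    rw [h4, ← ENNReal.ofReal_sum_of_nonneg (fun i _ => abs_nonneg _)] at hrow
    have := ENNReal.ofReal_le_one.1 hrow
    exact this
  rw [h1, h2]
  have h5 : (∑ i ∈ hs.toFinset, m i * f i) ^ 2 ≤
      (∑ i ∈ hs.toFinset, |m i|) * ∑ i ∈ hs.toFinset, |m i| * (f i) ^ 2 := by
    refine Finset.sum_sq_le_sum_mul_sum_of_sq_le_mul _ (fun i _ => abs_nonneg _)
      (fun i _ => mul_nonneg (abs_nonneg _) (sq_nonneg _)) (fun i _ => ?_)
    rw [mul_pow, ← mul_assoc, ← sq, sq_abs]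
  have h6 : 0 ≤ ∑ i ∈ hs.toFinset, |m i| * (f i) ^ 2 :=
    Finset.sum_nonneg fun i _ => mul_nonneg (abs_nonneg _) (sq_nonneg _)
  calc ENNReal.ofReal ((∑ i ∈ hs.toFinset, m i * f i) ^ 2)
      ≤ ENNReal.ofReal (∑ i ∈ hs.toFinset, |m i| * (f i) ^ 2) := by
        refine ENNReal.ofReal_le_ofReal (h5.trans ?_)
        calc (∑ i ∈ hs.toFinset, |m i|) * ∑ i ∈ hs.toFinset, |m i| * (f i) ^ 2
            ≤ 1 * ∑ i ∈ hs.toFinset, |m i| * (f i) ^ 2 := by gcongr
          _ = _ := one_mul _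
    _ = _ := by
        rw [ENNReal.ofReal_sum_of_nonneg
          (fun i _ => mul_nonneg (abs_nonneg _) (sq_nonneg _))]
        refine Finset.sum_congr rfl fun i _ => ?_
        rw [ENNReal.ofReal_mul (abs_nonneg _)]

/-- the sum of squares of the image -/
theorem schur_sum {I J : Type} (M : J → I → ℝ)
    (hs : ∀ j, (Function.support (M j)).Finite)
    (hrow : ∀ j, ∑' i, ENNReal.ofReal |M j i| ≤ 1)
    (hcol : ∀ i, ∑' j, ENNReal.ofReal |M j i| ≤ 1) (f : lp (fun _ : I => ℝ) 2) :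
    ∑' j, ENNReal.ofReal ((∑' i, M j i * f i) ^ 2) ≤ ENNReal.ofReal (‖f‖ ^ 2) := by
  calc ∑' j, ENNReal.ofReal ((∑' i, M j i * f i) ^ 2)
      ≤ ∑' j, ∑' i, ENNReal.ofReal (|M j i|) * ENNReal.ofReal ((f i) ^ 2) :=
        ENNReal.tsum_le_tsum fun j => row_cs (M j) f (hs j) (hrow j)
    _ = ∑' i, ∑' j, ENNReal.ofReal (|M j i|) * ENNReal.ofReal ((f i) ^ 2) := ENNReal.tsum_comm
    _ = ∑' i, (∑' j, ENNReal.ofReal (|M j i|)) * ENNReal.ofReal ((f i) ^ 2) := by
        refine tsum_congr fun i => ?_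
        rw [ENNReal.tsum_mul_right]
    _ ≤ ∑' i, 1 * ENNReal.ofReal ((f i) ^ 2) :=
        ENNReal.tsum_le_tsum fun i => by gcongr; exact hcol i
    _ = ENNReal.ofReal (‖f‖ ^ 2) := by simp only [one_mul]; exact tsum_ofReal_sq f

/-- Schur test. -/
theorem schur {I J : Type} (M : J → I → ℝ)
    (hs : ∀ j, (Function.support (M j)).Finite)
    (hrow : ∀ j, ∑' i, ENNReal.ofReal |M j i| ≤ 1)
    (hcol : ∀ i, ∑' j, ENNReal.ofReal |M j i| ≤ 1) :
    ∃ T : lp (fun _ : I => ℝ) 2 →L[ℝ] lp (fun _ : J => ℝ) 2, ‖T‖ ≤ 1 ∧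
      ∀ f j, (T f : J → ℝ) j = ∑' i, M j i * f i := by
  have hsum : ∀ (f : lp (fun _ : I => ℝ) 2) j, Summable fun i => M j i * f i := by
    intro f j
    refine summable_of_hasFiniteSupport ((hs j).subset fun i hi => ?_)
    intro h0
    exact hi (by simp [h0])
  have hmem : ∀ f : lp (fun _ : I => ℝ) 2, Summable fun j => (∑' i, M j i * f i) ^ 2 := by
    intro f
    refine summable_of_tsum_ofReal _ (fun j => sq_nonneg _) ?_
    exact ((schur_sum M hs hrow hcol f).trans_lt ENNReal.ofReal_lt_top).ne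
  let T₀ : lp (fun _ : I => ℝ) 2 →ₗ[ℝ] lp (fun _ : J => ℝ) 2 :=
    { toFun := fun f => ⟨fun j => ∑' i, M j i * f i, memlp_of_sq _ (hmem f)⟩
      map_add' := by
        intro f g
        ext j
        simp only [lp.coeFn_add, Pi.add_apply]
        rw [← (hsum f j).tsum_add (hsum g j)]
        exact tsum_congr fun i => mul_add _ _ _
      map_smul' := by
        intro c f
        ext j
        simp only [lp.coeFn_smul, Pi.smul_apply, smul_eq_mul, RingHom.id_apply]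
        rw [← tsum_mul_left]
        exact tsum_congr fun i => by ring }
  have hT₀ : ∀ f j, (T₀ f : J → ℝ) j = ∑' i, M j i * f i := fun f j => rfl
  have hb : ∀ f, ‖T₀ f‖ ≤ 1 * ‖f‖ := by
    intro f
    rw [one_mul]
    have h1 := schur_sum M hs hrow hcol f
    have h2 := tsum_ofReal_sq (T₀ f)
    have h3 : ENNReal.ofReal (‖T₀ f‖ ^ 2) ≤ ENNReal.ofReal (‖f‖ ^ 2) := by
      rw [← h2]; exact h1
    have h4 := (ENNReal.ofReal_le_ofReal_iff (sq_nonneg _)).1 h3
    exact (abs_le_of_sq_le_sq' h4 (norm_nonneg _)).2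
  refine ⟨T₀.mkContinuous 1 hb, T₀.mkContinuous_norm_le zero_le_one hb, fun f j => ?_⟩
  rw [LinearMap.mkContinuous_apply, hT₀]


/-! ## the weights -/

theorem exists_weight (K : Type) [Countable K] :
    ∃ w : K → ℝ, (∀ k, 0 < w k) ∧ (∀ k, w k ≤ 1) ∧ ∑' k, ENNReal.ofReal (w k) ≤ 1 := by
  obtain ⟨e, he⟩ := exists_injective_nat K
  refine ⟨fun k => (1 / 2 : ℝ) ^ (e k + 1), fun k => by positivity, fun k =>
    pow_le_one₀ (by norm_num) (by norm_num), ?_⟩
  have h1 := ENNReal.tsum_comp_le_tsum_of_injective he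
    (fun n : ℕ => ENNReal.ofReal ((1 / 2 : ℝ) ^ (n + 1)))
  refine h1.trans ?_
  have hs : Summable fun n : ℕ => (1 / 2 : ℝ) ^ (n + 1) :=
    (summable_nat_add_iff 1).2 summable_geometric_two
  rw [← ENNReal.ofReal_tsum_of_nonneg (fun n => by positivity) hs]
  have h2 : ∑' n : ℕ, (1 / 2 : ℝ) ^ (n + 1) = 1 := by
    have h3 : ∀ n : ℕ, (1 / 2 : ℝ) ^ (n + 1) = (1 / 2) * (1 / 2) ^ n := fun n => by ring
    simp_rw [h3]
    rw [tsum_mul_left, tsum_geometric_two]
    norm_num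
  rw [h2]
  simp

/-- `ℓ¹` norm of a finite integer row -/
noncomputable def n1 {K : Type} (κ : K →₀ ℤ) : ℝ := ∑ i ∈ κ.support, |(κ i : ℝ)|

theorem n1_nonneg {K : Type} (κ : K →₀ ℤ) : 0 ≤ n1 κ :=
  Finset.sum_nonneg fun _ _ => abs_nonneg _

theorem tsum_abs_eq {K : Type} (κ : K →₀ ℤ) :
    ∑' i, ENNReal.ofReal |(κ i : ℝ)| = ENNReal.ofReal (n1 κ) := by
  classical
  rw [n1, ENNReal.ofReal_sum_of_nonneg (fun i _ => abs_nonneg _)]
  refine tsum_eq_sum fun i hi => ?_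
  have : κ i = 0 := by simpa using hi
  simp [this]

section matrix

variable {Γ X P Q : Type} [Group Γ] [MulAction Γ X]

open scoped Classical in
/-- the matrix -/
noncomputable def Mat (A : P → Set X) (B : Q → Set X) (c : Q → X → (Γ × P →₀ ℤ))
    (w : Q × (Γ × P →₀ ℤ) → ℝ) (x : X) (j : Γ × Q) (i : Γ × P) : ℝ :=
  if j.1 • x ∈ B j.2 ∧ i.1 • x ∈ A i.2 then
    (w (j.2, c j.2 (j.1 • x)) / (1 + n1 (c j.2 (j.1 • x)))) *
      ((c j.2 (j.1 • x) (i.1 * j.1⁻¹, i.2) : ℤ) : ℝ)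
  else 0

variable {A : P → Set X} {B : Q → Set X} {c : Q → X → (Γ × P →₀ ℤ)}
  {w : Q × (Γ × P →₀ ℤ) → ℝ}

theorem abs_mat_le (hw : ∀ k, 0 < w k) (x : X) (j : Γ × Q) (i : Γ × P) :
    |Mat A B c w x j i| ≤ (w (j.2, c j.2 (j.1 • x)) / (1 + n1 (c j.2 (j.1 • x)))) *
      |((c j.2 (j.1 • x) (i.1 * j.1⁻¹, i.2) : ℤ) : ℝ)| := by
  have h0 : 0 ≤ w (j.2, c j.2 (j.1 • x)) / (1 + n1 (c j.2 (j.1 • x))) :=
    div_nonneg (hw _).le (by have := n1_nonneg (c j.2 (j.1 • x)); linarith)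
  unfold Mat
  split_ifs
  · rw [abs_mul, abs_of_nonneg h0]
  · rw [abs_zero]
    exact mul_nonneg h0 (abs_nonneg _)

omit [Group Γ] in
theorem w_mul_le (hw : ∀ k, 0 < w k) (q : Q) (κ : Γ × P →₀ ℤ) :
    ENNReal.ofReal (w (q, κ) / (1 + n1 κ)) * ENNReal.ofReal (n1 κ) ≤
      ENNReal.ofReal (w (q, κ)) := by
  have h0 := n1_nonneg κ
  rw [← ENNReal.ofReal_mul (div_nonneg (hw _).le (by linarith))]
  refine ENNReal.ofReal_le_ofReal ?_
  rw [div_mul_eq_mul_div, div_le_iff₀ (by linarith)]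
  have := (hw (q, κ)).le
  nlinarith

theorem mat_row (hw : ∀ k, 0 < w k) (hw1 : ∀ k, w k ≤ 1) (x : X) (j : Γ × Q) :
    ∑' i, ENNReal.ofReal |Mat A B c w x j i| ≤ 1 := by
  set κ := c j.2 (j.1 • x) with hκ
  have h0 : 0 ≤ w (j.2, κ) / (1 + n1 κ) :=
    div_nonneg (hw _).le (by have := n1_nonneg κ; linarith)
  calc ∑' i, ENNReal.ofReal |Mat A B c w x j i|
      ≤ ∑' i : Γ × P, ENNReal.ofReal (w (j.2, κ) / (1 + n1 κ)) *
          ENNReal.ofReal |((κ (i.1 * j.1⁻¹, i.2) : ℤ) : ℝ)| := by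
        refine ENNReal.tsum_le_tsum fun i => ?_
        rw [← ENNReal.ofReal_mul h0]
        exact ENNReal.ofReal_le_ofReal (abs_mat_le hw x j i)
    _ = ENNReal.ofReal (w (j.2, κ) / (1 + n1 κ)) *
          ∑' i : Γ × P, ENNReal.ofReal |((κ (i.1 * j.1⁻¹, i.2) : ℤ) : ℝ)| := by
        rw [ENNReal.tsum_mul_left]
    _ ≤ ENNReal.ofReal (w (j.2, κ) / (1 + n1 κ)) *
          ∑' i : Γ × P, ENNReal.ofReal |((κ i : ℤ) : ℝ)| := by
        refine mul_le_mul_right ?_ _
        refine ENNReal.tsum_comp_le_tsum_of_injective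
          (f := fun i : Γ × P => (i.1 * j.1⁻¹, i.2)) ?_
          (fun i => ENNReal.ofReal |((κ i : ℤ) : ℝ)|)
        intro a b hab
        simp only [Prod.mk.injEq, mul_left_inj] at hab
        exact Prod.ext hab.1 hab.2
    _ ≤ ENNReal.ofReal (w (j.2, κ)) := by
        rw [tsum_abs_eq]; exact w_mul_le hw _ _
    _ ≤ 1 := ENNReal.ofReal_le_one.2 (hw1 _)

theorem mat_col (hw : ∀ k, 0 < w k) (hws : ∑' k, ENNReal.ofReal (w k) ≤ 1) (x : X)
    (i : Γ × P) :
    ∑' j, ENNReal.ofReal |Mat A B c w x j i| ≤ 1 := by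
  calc ∑' j, ENNReal.ofReal |Mat A B c w x j i|
      ≤ ∑' j : Γ × Q, ∑' κ : Γ × P →₀ ℤ, ENNReal.ofReal (w (j.2, κ) / (1 + n1 κ)) *
          ENNReal.ofReal |((κ (i.1 * j.1⁻¹, i.2) : ℤ) : ℝ)| := by
        refine ENNReal.tsum_le_tsum fun j => ?_
        refine le_trans ?_ (ENNReal.le_tsum (c j.2 (j.1 • x)))
        have h0 : 0 ≤ w (j.2, c j.2 (j.1 • x)) / (1 + n1 (c j.2 (j.1 • x))) :=
          div_nonneg (hw _).le (by have := n1_nonneg (c j.2 (j.1 • x)); linarith)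
        rw [← ENNReal.ofReal_mul h0]
        exact ENNReal.ofReal_le_ofReal (abs_mat_le hw x j i)
    _ = ∑' q : Q, ∑' κ : Γ × P →₀ ℤ, ∑' τ : Γ, ENNReal.ofReal (w (q, κ) / (1 + n1 κ)) *
          ENNReal.ofReal |((κ (i.1 * τ⁻¹, i.2) : ℤ) : ℝ)| := by
        rw [ENNReal.tsum_prod', ENNReal.tsum_comm]
        refine tsum_congr fun q => ?_
        rw [ENNReal.tsum_comm]
    _ ≤ ∑' q : Q, ∑' κ : Γ × P →₀ ℤ, ENNReal.ofReal (w (q, κ)) := by
        refine ENNReal.tsum_le_tsum fun q => ENNReal.tsum_le_tsum fun κ => ?_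
        rw [ENNReal.tsum_mul_left]
        refine le_trans ?_ (w_mul_le hw q κ)
        gcongr
        rw [← tsum_abs_eq]
        refine ENNReal.tsum_comp_le_tsum_of_injective
          (f := fun τ : Γ => (i.1 * τ⁻¹, i.2)) ?_
          (fun i => ENNReal.ofReal |((κ i : ℤ) : ℝ)|)
        intro a b hab
        simpa using hab
    _ = ∑' k : Q × (Γ × P →₀ ℤ), ENNReal.ofReal (w k) := by
        rw [ENNReal.tsum_prod']
    _ ≤ 1 := hws

theorem mat_supp (x : X) (j : Γ × Q) : (Function.support (Mat A B c w x j)).Finite := by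
  classical
  refine ((c j.2 (j.1 • x)).support.finite_toSet.image
    (fun i : Γ × P => (i.1 * j.1, i.2))).subset fun i hi => ?_
  refine ⟨(i.1 * j.1⁻¹, i.2), ?_, by simp⟩
  simp only [Finset.mem_coe, Finsupp.mem_support_iff]
  intro h0
  apply hi
  unfold Mat
  rw [h0]
  simp

/-- the value of the row on `f` extended along the orbit -/
theorem mat_sum (f : Γ × P → ℝ) (x : X) (j : Γ × Q) (hj : j.1 • x ∈ B j.2)
    (hf : ∀ σ p, σ • x ∉ A p → f (σ, p) = 0) :
    ∑' i, Mat A B c w x j i * f i =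
      (w (j.2, c j.2 (j.1 • x)) / (1 + n1 (c j.2 (j.1 • x)))) *
        (c j.2 (j.1 • x)).sum fun gp z => (z : ℝ) * f (gp.1 * j.1, gp.2) := by
  classical
  set κ := c j.2 (j.1 • x) with hκ
  have h1 : ∀ i : Γ × P, Mat A B c w x j i * f i =
      (w (j.2, κ) / (1 + n1 κ)) * (((κ (i.1 * j.1⁻¹, i.2) : ℤ) : ℝ) * f i) := by
    intro i
    unfold Mat
    by_cases h : i.1 • x ∈ A i.2
    · rw [if_pos ⟨hj, h⟩]
      ring
    · have : f i = 0 := hf i.1 i.2 h
      rw [this]; simp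
  simp_rw [h1]
  rw [tsum_mul_left]
  congr 1
  rw [Finsupp.sum]
  let e : Γ × P ≃ Γ × P := Equiv.prodCongr (Equiv.mulRight j.1) (Equiv.refl P)
  rw [← e.tsum_eq (fun i : Γ × P => ((κ (i.1 * j.1⁻¹, i.2) : ℤ) : ℝ) * f i)]
  rw [tsum_eq_sum (s := κ.support)]
  · refine Finset.sum_congr rfl fun i _ => ?_
    have h2 : e i = (i.1 * j.1, i.2) := rfl
    rw [h2]
    simp
  · intro i hi
    have : κ i = 0 := by simpa using hi
    simp [e, this]

theorem mat_equi (γ σ τ : Γ) (p : P) (q : Q) (x : X) :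
    Mat A B c w (γ • x) (τ, q) (σ, p) = Mat A B c w x (τ * γ, q) (σ * γ, p) := by
  unfold Mat
  simp only [mul_smul, mul_inv_rev]
  have h : σ * γ * (γ⁻¹ * τ⁻¹) = σ * τ⁻¹ := by group
  rw [h]
  have h1 : (τ * γ) • x = τ • γ • x := mul_smul _ _ _
  have h2 : (σ * γ) • x = σ • γ • x := mul_smul _ _ _
  congr 1
  rw [h1, h2]

theorem mat_meas [Countable Γ] [MeasurableSpace X] [Countable P]
    (hm : ∀ γ : Γ, Measurable fun x : X => γ • x)
    (hA : ∀ p, MeasurableSet (A p)) (hB : ∀ q, MeasurableSet (B q))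
    (hc : ∀ q y, MeasurableSet {x | c q x = y}) (j : Γ × Q) (i : Γ × P) :
    Measurable fun x => Mat A B c w x j i := by
  classical
  let _ : MeasurableSpace (Γ × P →₀ ℤ) := ⊤
  have hc' : Measurable (c j.2) := measurable_to_countable' fun y => hc j.2 y
  have h1 : Measurable fun x : X => c j.2 (j.1 • x) := hc'.comp (hm j.1)
  unfold Mat
  refine Measurable.ite ?_ ?_ measurable_const
  · exact ((hm j.1) (hB j.2)).inter ((hm i.1) (hA i.2))
  · exact (measurable_from_top (f := fun κ : Γ × P →₀ ℤ =>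
      (w (j.2, κ) / (1 + n1 κ)) * ((κ (i.1 * j.1⁻¹, i.2) : ℤ) : ℝ))).comp h1

end matrix

/-- everything, in terms of the matrix -/
theorem exists_all {Γ X P Q : Type} [Group Γ] [Countable Γ] [MulAction Γ X]
    [MeasurableSpace X] [Countable P] [Countable Q]
    (hm : ∀ γ : Γ, Measurable fun x : X => γ • x)
    (hfree : ∀ (γ : Γ) (x : X), γ • x = x → γ = 1)
    {A : P → Set X} (hA : ∀ p, MeasurableSet (A p))
    {B : Q → Set X} (hB : ∀ q, MeasurableSet (B q))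
    (Φ : Q → (X → P → ℝ) → X → ℝ) (hΦ : ∀ q, IsRow Γ (Φ q))
    (hker : ∀ F : X → P → ℝ,
      (∀ x : X, Summable fun gp : Γ × P => (F (gp.1 • x) gp.2) ^ 2) →
      (∀ x p, x ∉ A p → F x p = 0) →
      (∀ q x, x ∈ B q → Φ q F x = 0) → ∀ x p, F x p = 0) :
    ∃ (M : X → Γ × Q → Γ × P → ℝ)
      (T : X → (lp (fun _ : Γ × P => ℝ) 2 →L[ℝ] lp (fun _ : Γ × Q => ℝ) 2)),
      (∀ x, ‖T x‖ ≤ 1) ∧ (∀ x f j, (T x f : Γ × Q → ℝ) j = ∑' i, M x j i * f i) ∧
      (∀ i j, Measurable fun x => M x j i) ∧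
      (∀ (γ σ τ : Γ) (p : P) (q : Q) (x : X),
        M (γ • x) (τ, q) (σ, p) = M x (τ * γ, q) (σ * γ, p)) ∧
      (∀ (σ : Γ) (p : P) (x : X) j, σ • x ∉ A p → M x j (σ, p) = 0) ∧
      (∀ (τ : Γ) (q : Q) (x : X) i, τ • x ∉ B q → M x (τ, q) i = 0) ∧
      (∀ (x : X) (f : lp (fun _ : Γ × P => ℝ) 2),
        (∀ σ p, σ • x ∉ A p → (f : Γ × P → ℝ) (σ, p) = 0) → T x f = 0 → f = 0) := by
  classical
  choose c hc hcΦ using hΦ
  obtain ⟨w, hw, hw1, hws⟩ := exists_weight (Q × (Γ × P →₀ ℤ))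
  have hT := fun x => schur (Mat A B c w x) (fun j => mat_supp x j)
    (fun j => mat_row hw hw1 x j) (fun i => mat_col hw hws x i)
  choose T hTn hT using hT
  refine ⟨Mat A B c w, T, hTn, hT, fun i j => mat_meas hm hA hB hc j i, mat_equi, ?_, ?_, ?_⟩
  · intro σ p x j h
    unfold Mat
    rw [if_neg]
    exact fun h' => h h'.2
  · intro τ q x i h
    unfold Mat
    rw [if_neg]
    exact fun h' => h h'.1
  · intro x f hf hTf
    -- the extension to the orbit
    have hinj : ∀ σ σ' : Γ, σ • x = σ' • x → σ = σ' := by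
      intro σ σ' h
      have h1 : (σ'⁻¹ * σ) • x = x := by rw [mul_smul, h, inv_smul_smul]
      have h2 := hfree _ _ h1
      rw [inv_mul_eq_one] at h2
      exact h2.symm
    let F : X → P → ℝ := fun y p => if h : ∃ σ : Γ, σ • x = y then f (h.choose, p) else 0
    have hF1 : ∀ σ p, F (σ • x) p = f (σ, p) := by
      intro σ p
      have h : ∃ σ' : Γ, σ' • x = σ • x := ⟨σ, rfl⟩
      simp only [F]
      rw [dif_pos h, hinj _ _ h.choose_spec]
    have hF2 : ∀ y p, (¬ ∃ σ : Γ, σ • x = y) → F y p = 0 := by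
      intro y p h
      simp only [F]
      rw [dif_neg h]
    have hF3 : ∀ y p, (¬ ∃ σ : Γ, σ • x = y) → ∀ γ : Γ, F (γ • y) p = 0 := by
      intro y p h γ
      refine hF2 _ _ fun ⟨σ, hσ⟩ => h ⟨γ⁻¹ * σ, ?_⟩
      rw [mul_smul, hσ, inv_smul_smul]
    have key := hker F ?_ ?_ ?_
    · ext i
      have := key (i.1 • x) i.2
      rw [hF1] at this
      simpa using this
    · intro y
      by_cases h : ∃ σ : Γ, σ • x = y
      · obtain ⟨σ, rfl⟩ := h
        have h1 : (fun gp : Γ × P => (F (gp.1 • σ • x) gp.2) ^ 2) =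
            (fun i : Γ × P => (f i) ^ 2) ∘ fun gp : Γ × P => (gp.1 * σ, gp.2) := by
          funext gp
          simp only [Function.comp]
          rw [← mul_smul, hF1]
        rw [h1]
        refine (hasSum_sq f).summable.comp_injective ?_
        intro a b hab
        simp only [Prod.mk.injEq, mul_left_inj] at hab
        exact Prod.ext hab.1 hab.2
      · have h1 : (fun gp : Γ × P => (F (gp.1 • y) gp.2) ^ 2) = fun _ => 0 := by
          funext gp
          rw [hF3 y _ h]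
          simp
        rw [h1]
        exact summable_zero
    · intro y p hy
      by_cases h : ∃ σ : Γ, σ • x = y
      · obtain ⟨σ, rfl⟩ := h
        rw [hF1]
        exact hf σ p hy
      · exact hF2 _ _ h
    · intro q y hy
      rw [hcΦ]
      by_cases h : ∃ σ : Γ, σ • x = y
      · obtain ⟨τ, rfl⟩ := h
        have h1 := hT x f (τ, q)
        rw [hTf, mat_sum (A := A) (B := B) (c := c) (w := w) f x (τ, q) hy hf] at h1
        have h2 : (c q (τ • x)).sum (fun gp z => (z : ℝ) * F (gp.1 • τ • x) gp.2) =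
            (c q (τ • x)).sum fun gp z => (z : ℝ) * f (gp.1 * τ, gp.2) := by
          refine Finsupp.sum_congr fun gp _ => ?_
          rw [← mul_smul, hF1]
        rw [h2]
        have h3 : w (q, c q (τ • x)) / (1 + n1 (c q (τ • x))) ≠ 0 := by
          have h4 := n1_nonneg (c q (τ • x))
          have h5 := hw (q, c q (τ • x))
          exact (div_pos h5 (by linarith)).ne'
        have h6 : ((0 : lp (fun _ : Γ × Q => ℝ) 2) : Γ × Q → ℝ) (τ, q) = 0 := by simp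
        rw [h6] at h1
        exact (mul_eq_zero.1 h1.symm).resolve_left h3
      · have h1 : ∀ gp ∈ (c q y).support, ((c q y gp : ℤ) : ℝ) * F (gp.1 • y) gp.2 = 0 := by
          intro gp _
          rw [hF3 y _ h, mul_zero]
        exact Finset.sum_eq_zero h1

end Crest.Agent.R191.LLAaux
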