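import Mathlib

/-!
# R191 piece LLC: abstract Hilbert space lemmas
-/

set_option autoImplicit false
set_option linter.deprecated false

namespace Crest.Agent.R191.LLC

open MeasureTheory Filter Topology
open scoped ENNReal InnerProductSpace

variable {E F : Type*} [NormedAddCommGroup E] [InnerProductSpace ℝ E] [CompleteSpace E]
  [NormedAddCommGroup F] [InnerProductSpace ℝ F] [CompleteSpace F]

/-- `S = V* V` -/
noncomputable def SOp (V : E →L[ℝ] F) : E →L[ℝ] E := V.adjoint ∘L V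

/-- `R = 1 - V* V` -/
noncomputable def ROp (V : E →L[ℝ] F) : E →L[ℝ] E := 1 - SOp V

theorem inner_SOp (V : E →L[ℝ] F) (u v : E) : ⟪SOp V u, v⟫_ℝ = ⟪V u, V v⟫_ℝ := by
  simp [SOp, ContinuousLinearMap.adjoint_inner_left]

theorem inner_SOp' (V : E →L[ℝ] F) (u v : E) : ⟪u, SOp V v⟫_ℝ = ⟪V u, V v⟫_ℝ := by
  simp [SOp, ContinuousLinearMap.adjoint_inner_right]

theorem ROp_symm (V : E →L[ℝ] F) (u v : E) : ⟪ROp V u, v⟫_ℝ = ⟪u, ROp V v⟫_ℝ := by
  simp only [ROp, ContinuousLinearMap.sub_apply, ContinuousLinearMap.one_apply, inner_sub_left,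
    inner_sub_right, inner_SOp, inner_SOp']

theorem norm_V_le {V : E →L[ℝ] F} (hV : ‖V‖ ≤ 1) (u : E) : ‖V u‖ ≤ ‖u‖ := by
  simpa using V.le_of_opNorm_le hV u

theorem ROp_pos {V : E →L[ℝ] F} (hV : ‖V‖ ≤ 1) (u : E) : 0 ≤ ⟪ROp V u, u⟫_ℝ := by
  have h1 := norm_V_le hV u
  have h2 : ⟪ROp V u, u⟫_ℝ = ‖u‖ ^ 2 - ‖V u‖ ^ 2 := by
    simp only [ROp, ContinuousLinearMap.sub_apply, ContinuousLinearMap.one_apply, inner_sub_left,
      inner_SOp, real_inner_self_eq_norm_sq]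
  rw [h2]
  have h3 : ‖V u‖ ^ 2 ≤ ‖u‖ ^ 2 := by
    apply pow_le_pow_left₀ (norm_nonneg _) h1
  linarith

theorem ROp_norm {V : E →L[ℝ] F} (hV : ‖V‖ ≤ 1) : ‖ROp V‖ ≤ 1 := by
  refine ContinuousLinearMap.opNorm_le_bound _ zero_le_one fun u => ?_
  rw [one_mul]
  have hadj : ‖V.adjoint‖ ≤ 1 := by
    rw [LinearIsometryEquiv.norm_map]; exact hV
  have h1 : ‖SOp V u‖ ≤ ‖V u‖ := by
    simpa [SOp] using norm_V_le hadj (V u)
  have h2 : ‖ROp V u‖ ^ 2 = ‖u‖ ^ 2 - 2 * ‖V u‖ ^ 2 + ‖SOp V u‖ ^ 2 := by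
    have : ROp V u = u - SOp V u := by simp [ROp]
    rw [this, norm_sub_sq_real, inner_SOp', real_inner_self_eq_norm_sq]
  have h3 : ‖SOp V u‖ ^ 2 ≤ ‖V u‖ ^ 2 := pow_le_pow_left₀ (norm_nonneg _) h1 2
  have h4 : ‖ROp V u‖ ^ 2 ≤ ‖u‖ ^ 2 := by
    rw [h2]; nlinarith [sq_nonneg ‖V u‖]
  exact le_of_sq_le_sq h4 (norm_nonneg _)

theorem ROp_pow_symm (V : E →L[ℝ] F) (k : ℕ) (u v : E) :
    ⟪(ROp V ^ k) u, v⟫_ℝ = ⟪u, (ROp V ^ k) v⟫_ℝ := by
  induction k generalizing u v with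
  | zero => simp
  | succ k ih =>
    rw [pow_succ, ContinuousLinearMap.mul_apply, ih, ROp_symm, ← ContinuousLinearMap.mul_apply,
      ← pow_succ', ← pow_succ]

theorem ROp_pow_pos {V : E →L[ℝ] F} (hV : ‖V‖ ≤ 1) (k : ℕ) (u : E) :
    0 ≤ ⟪(ROp V ^ k) u, u⟫_ℝ := by
  rcases Nat.even_or_odd' k with ⟨m, rfl | rfl⟩
  · rw [two_mul, pow_add, ContinuousLinearMap.mul_apply, ROp_pow_symm]
    exact real_inner_self_nonneg
  · have : (2 * m + 1) = m + (m + 1) := by ring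
    rw [this, pow_add, ContinuousLinearMap.mul_apply, ROp_pow_symm, pow_succ',
      ContinuousLinearMap.mul_apply]
    exact ROp_pos hV _

theorem ROp_pow_norm {V : E →L[ℝ] F} (hV : ‖V‖ ≤ 1) (k : ℕ) (u : E) :
    ‖(ROp V ^ k) u‖ ≤ ‖u‖ := by
  induction k with
  | zero => simp
  | succ k ih =>
    rw [pow_succ', ContinuousLinearMap.mul_apply]
    have := (ROp V).le_of_opNorm_le (ROp_norm hV) ((ROp V ^ k) u)
    linarith

theorem ROp_pow_le {V : E →L[ℝ] F} (hV : ‖V‖ ≤ 1) (k : ℕ) (u : E) :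
    ⟪(ROp V ^ k) u, u⟫_ℝ ≤ ‖u‖ ^ 2 := by
  have h1 := real_inner_le_norm ((ROp V ^ k) u) u
  have h2 := ROp_pow_norm hV k u
  nlinarith [norm_nonneg u, norm_nonneg ((ROp V ^ k) u)]

/-- The polynomial `q_N` with `X * q_N = 1 - (1/N) ∑_{k<N} (1-X)^k` -/
noncomputable def qp (N : ℕ) : Polynomial ℝ :=
  Polynomial.C ((N : ℝ)⁻¹) * ∑ k ∈ Finset.range N, ∑ i ∈ Finset.range k, (1 - Polynomial.X) ^ i

theorem X_mul_qp {N : ℕ} (hN : 0 < N) :
    Polynomial.X * qp N = 1 - Polynomial.C ((N : ℝ)⁻¹) *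
      ∑ k ∈ Finset.range N, (1 - Polynomial.X) ^ k := by
  have h1 : ∀ k : ℕ, Polynomial.X * ∑ i ∈ Finset.range k, (1 - Polynomial.X : Polynomial ℝ) ^ i
      = 1 - (1 - Polynomial.X) ^ k := by
    intro k
    have := mul_neg_geom_sum (1 - Polynomial.X : Polynomial ℝ) k
    rw [sub_sub_cancel] at this
    exact this
  have hN' : (N : ℝ) ≠ 0 := by positivity
  have h2 : Polynomial.C ((N : ℝ)⁻¹) * (N : Polynomial ℝ) = 1 := by
    rw [← Polynomial.C_eq_natCast, ← Polynomial.C_mul, inv_mul_cancel₀ hN', Polynomial.C_1]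
  rw [qp, mul_left_comm, Finset.mul_sum]
  simp_rw [h1]
  rw [Finset.sum_sub_distrib, Finset.sum_const, Finset.card_range, nsmul_eq_mul, mul_one, mul_sub,
    h2]

/-- `p_N(S)` -/
noncomputable def PN (N : ℕ) (V : E →L[ℝ] F) : E →L[ℝ] E :=
  ∑ j ∈ Finset.range ((qp N).natDegree + 1), (qp N).coeff j • SOp V ^ (j + 1)

theorem PN_eq {N : ℕ} (hN : 0 < N) (V : E →L[ℝ] F) :
    PN N V = 1 - (N : ℝ)⁻¹ • ∑ k ∈ Finset.range N, ROp V ^ k := by
  have h1 : PN N V = Polynomial.aeval (SOp V) (Polynomial.X * qp N) := by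
    rw [map_mul, Polynomial.aeval_X, Polynomial.aeval_eq_sum_range, PN, Finset.mul_sum]
    refine Finset.sum_congr rfl fun j _ => ?_
    rw [mul_smul_comm, ← pow_succ']
  rw [h1, X_mul_qp hN]
  simp only [map_sub, map_one, map_mul, Polynomial.aeval_C, map_sum, map_pow, Polynomial.aeval_X]
  rw [← Algebra.smul_def]
  rfl

theorem inner_PN {N : ℕ} (hN : 0 < N) (V : E →L[ℝ] F) (u : E) :
    ⟪PN N V u, u⟫_ℝ = ‖u‖ ^ 2 - (N : ℝ)⁻¹ * ∑ k ∈ Finset.range N, ⟪(ROp V ^ k) u, u⟫_ℝ := by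
  rw [PN_eq hN]
  simp only [ContinuousLinearMap.sub_apply, ContinuousLinearMap.one_apply,
    ContinuousLinearMap.smul_apply, ContinuousLinearMap.sum_apply, inner_sub_left,
    real_inner_smul_left, sum_inner, real_inner_self_eq_norm_sq]

theorem PN_le {N : ℕ} (hN : 0 < N) {V : E →L[ℝ] F} (hV : ‖V‖ ≤ 1) (u : E) :
    ⟪PN N V u, u⟫_ℝ ≤ ‖u‖ ^ 2 := by
  rw [inner_PN hN]
  have : 0 ≤ (N : ℝ)⁻¹ * ∑ k ∈ Finset.range N, ⟪(ROp V ^ k) u, u⟫_ℝ :=
    mul_nonneg (by positivity) (Finset.sum_nonneg fun k _ => ROp_pow_pos hV k u)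
  linarith

theorem PN_nonneg {N : ℕ} (hN : 0 < N) {V : E →L[ℝ] F} (hV : ‖V‖ ≤ 1) (u : E) :
    0 ≤ ⟪PN N V u, u⟫_ℝ := by
  rw [inner_PN hN]
  have h1 : ∑ k ∈ Finset.range N, ⟪(ROp V ^ k) u, u⟫_ℝ ≤ N * ‖u‖ ^ 2 := by
    have := Finset.sum_le_sum (s := Finset.range N) fun k (_ : k ∈ Finset.range N) =>
      ROp_pow_le hV k u
    simpa using this
  have hN' : (0 : ℝ) < N := by exact_mod_cast hN
  have h2 : (N : ℝ)⁻¹ * ∑ k ∈ Finset.range N, ⟪(ROp V ^ k) u, u⟫_ℝ ≤ ‖u‖ ^ 2 := by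
    rw [inv_mul_le_iff₀ hN']; exact h1
  linarith

theorem PN_zero {N : ℕ} {V : E →L[ℝ] F} {u : E} (hu : V u = 0) :
    ⟪PN N V u, u⟫_ℝ = 0 := by
  have : PN N V u = 0 := by
    simp only [PN, ContinuousLinearMap.sum_apply, ContinuousLinearMap.smul_apply, pow_succ,
      ContinuousLinearMap.mul_apply]
    have h0 : SOp V u = 0 := by simp [SOp, hu]
    simp [h0]
  simp [this]

theorem SOp_pow_bound {V : E →L[ℝ] F} (hV : ‖V‖ ≤ 1) (k : ℕ) (u : E) :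
    |⟪(SOp V ^ k) u, u⟫_ℝ| ≤ ‖u‖ ^ 2 := by
  have hadj : ‖V.adjoint‖ ≤ 1 := by
    rw [LinearIsometryEquiv.norm_map]; exact hV
  have h1 : ‖(SOp V ^ k) u‖ ≤ ‖u‖ := by
    induction k with
    | zero => simp
    | succ k ih =>
      rw [pow_succ', ContinuousLinearMap.mul_apply]
      have h2 : ‖SOp V ((SOp V ^ k) u)‖ ≤ ‖V ((SOp V ^ k) u)‖ := by
        simpa [SOp] using norm_V_le hadj (V ((SOp V ^ k) u))
      have h3 := norm_V_le hV ((SOp V ^ k) u)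
      linarith
  have h2 := abs_real_inner_le_norm ((SOp V ^ k) u) u
  nlinarith [norm_nonneg u]

theorem SOp_pow_zero {V : E →L[ℝ] F} {u : E} (hu : V u = 0) (k : ℕ) :
    ⟪(SOp V ^ (k + 1)) u, u⟫_ℝ = 0 := by
  have : (SOp V ^ (k + 1)) u = 0 := by
    rw [pow_succ, ContinuousLinearMap.mul_apply]
    have h0 : SOp V u = 0 := by simp [SOp, hu]
    simp [h0]
  simp [this]

theorem inner_PN_sum (N : ℕ) (V : E →L[ℝ] F) (u : E) :
    ⟪PN N V u, u⟫_ℝ = ∑ j ∈ Finset.range ((qp N).natDegree + 1),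
      (qp N).coeff j * ⟪(SOp V ^ (j + 1)) u, u⟫_ℝ := by
  simp only [PN, ContinuousLinearMap.sum_apply, ContinuousLinearMap.smul_apply,
    real_inner_smul_left, sum_inner]

/-- Mean ergodic theorem: if `u` is orthogonal to `ker V`, then `⟪p_N(S)u,u⟫ → ‖u‖²`. -/
theorem PN_tendsto {V : E →L[ℝ] F} (hV : ‖V‖ ≤ 1) {u : E}
    (hu : ∀ f, V f = 0 → ⟪f, u⟫_ℝ = 0) :
    Tendsto (fun N : ℕ => ⟪PN N V u, u⟫_ℝ) atTop (𝓝 (‖u‖ ^ 2)) := by
  have h1 := (ROp V).tendsto_birkhoffAverage_orthogonalProjection (ROp_norm hV) u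
  have h2 : (((ROp V).eqLocus (1 : E →L[ℝ] E)).orthogonalProjectionOnto u : E) = 0 := by
    have : u ∈ ((ROp V).eqLocus (1 : E →L[ℝ] E))ᗮ := by
      rw [Submodule.mem_orthogonal]
      intro f hf
      apply hu
      have hf' : ROp V f = f := hf
      have h3 : SOp V f = 0 := by
        have : ROp V f = f - SOp V f := by simp [ROp]
        rw [this] at hf'
        exact sub_eq_self.mp hf'
      have h4 : ⟪V f, V f⟫_ℝ = 0 := by rw [← inner_SOp, h3, inner_zero_left]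
      exact inner_self_eq_zero.mp h4
    rw [Submodule.coe_eq_zero, Submodule.orthogonalProjectionOnto_eq_zero_iff]
    exact this
  rw [h2] at h1
  have h3 : Tendsto (fun N : ℕ => ⟪birkhoffAverage ℝ (ROp V) _root_.id N u, u⟫_ℝ) atTop (𝓝 0) := by
    have := Filter.Tendsto.inner (𝕜 := ℝ) h1 (tendsto_const_nhds (x := u) (f := atTop))
    simpa using this
  have h4 : Tendsto (fun N : ℕ => ‖u‖ ^ 2 - ⟪birkhoffAverage ℝ (ROp V) _root_.id N u, u⟫_ℝ) atTop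
      (𝓝 (‖u‖ ^ 2)) := by
    simpa using tendsto_const_nhds.sub h3
  refine h4.congr' ?_
  filter_upwards [eventually_gt_atTop 0] with N hN
  rw [inner_PN hN]
  congr 1
  simp only [birkhoffAverage, birkhoffSum, real_inner_smul_left, sum_inner, id_eq]
  congr 1
  refine Finset.sum_congr rfl fun k _ => ?_
  congr 1
  have : ∀ k : ℕ, (⇑(ROp V))^[k] u = (ROp V ^ k) u := by
    intro k
    induction k with
    | zero => simp
    | succ k ih =>
      rw [Function.iterate_succ_apply', ih, pow_succ', ContinuousLinearMap.mul_apply]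
  exact this k

end Crest.Agent.R191.LLC
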