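import Crest.Agent.R191.Row
import Crest.Agent.R191.LLA
import Crest.Agent.R191.LLC

/-!
# R191 pieces LLA, LLB, LLC: the L² dimension inequality

`lemmaL`: if `A` (columns) has finite measure, and the only function on `X × P` supported on `A`,
square summable on every orbit, killed by all rows `(x,q)`, `x ∈ B q`, is zero, then
`cnt A ≤ cnt B`.

LLA = `exists_contraction`, LLB = `trace_eq`, LLC = `contraction_ineq` (with `lemmaL` derived).
-/

set_option autoImplicit false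

namespace Crest.Agent.R191

open MeasureTheory
open scoped ENNReal InnerProductSpace

/-- the real `ℓ²` space over `I` -/
abbrev L2 (I : Type) := lp (fun _ : I => ℝ) 2

/-- the basis vector -/
noncomputable def dlt {I : Type} [DecidableEq I] (i : I) : L2 I := lp.single 2 i (1 : ℝ)

open scoped Classical in
/-- A measurable equivariant field of contractions `ℓ²(Γ × P) → ℓ²(Γ × Q)`, `T x` living on
`{(γ,p) | γ • x ∈ A p}` and `{(γ,q) | γ • x ∈ B q}`. -/
structure TField {Γ X P Q : Type} [Group Γ] [MulAction Γ X] [MeasurableSpace X]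
    (A : P → Set X) (B : Q → Set X) (T : X → (L2 (Γ × P) →L[ℝ] L2 (Γ × Q))) : Prop where
  norm_le : ∀ x, ‖T x‖ ≤ 1
  meas : ∀ i j, Measurable fun x => (T x (dlt i) : Γ × Q → ℝ) j
  equi : ∀ (γ σ τ : Γ) (p : P) (q : Q) (x : X),
    (T (γ • x) (dlt (σ, p)) : Γ × Q → ℝ) (τ, q) = (T x (dlt (σ * γ, p)) : Γ × Q → ℝ) (τ * γ, q)
  suppA : ∀ (σ : Γ) (p : P) (x : X), σ • x ∉ A p → T x (dlt (σ, p)) = 0
  suppB : ∀ (f : L2 (Γ × P)) (τ : Γ) (q : Q) (x : X), τ • x ∉ B q →
    (T x f : Γ × Q → ℝ) (τ, q) = 0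
  inj : ∀ (x : X) (f : L2 (Γ × P)), (∀ σ p, σ • x ∉ A p → (f : Γ × P → ℝ) (σ, p) = 0) →
    T x f = 0 → f = 0

/-- LLA.  Let `c q x : Γ × P →₀ ℤ` be the row of `Φ q` at `x`; put
`M_x((τ,q),(σ,p)) = λ_q(τ•x) * c q (τ•x) (σ * τ⁻¹, p)` if `τ•x ∈ B q` and `σ•x ∈ A p`, else `0`, where
`λ_q(y) = 2^{-code(q, c q y)} / (1 + ∑ |c q y|) > 0` (`code` an injection of the countable
type `Q × (Γ × P →₀ ℤ)` into `{1,2,…}`).  Row sums `∑_{(σ,p)} |M| ≤ 1`.  Column sums: for a
given column `(σ,p)` the rows `(τ,q)` with row value `c q (τ•x) = κ` and entry position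
`σ τ⁻¹ = ρ` are determined by `(q, κ, ρ)`, so the column sum is
`≤ ∑_{(q,κ)} 2^{-code} ∑_ρ |κ(ρ,p)|/(1+|κ|_1) ≤ 1`.  Schur test: `T_x f (τ,q) = ∑ M_x((τ,q),(σ,p)) f(σ,p)`
has norm `≤ 1` (`|∑ M f|² ≤ (∑|M|)(∑|M| f²)`, sum over rows).
Equivariance: `M_{γ•x}((τ,q),(σ,p)) = M_x((τγ,q),(σγ,p))`.
Injectivity: `f` with `T_x f = 0`, supported where `σ•x ∈ A p`: extend to `F : X → P → ℝ` by
`F (σ•x) p = f (σ,p)` on the orbit of `x` (well defined by freeness), `0` elsewhere; square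
summable on all orbits; `hker` gives `F = 0`. -/
theorem exists_contraction {Γ X P Q : Type} [Group Γ] [Countable Γ] [MulAction Γ X]
    [MeasurableSpace X] [Countable P] [Countable Q]
    (hm : ∀ γ : Γ, Measurable fun x : X => γ • x)
    (hfree : ∀ (γ : Γ) (x : X), γ • x = x → γ = 1)
    {A : P → Set X} (hA : ∀ p, MeasurableSet (A p))
    {B : Q → Set X} (hB : ∀ q, MeasurableSet (B q))
    (Φ : Q → (X → P → ℝ) → X → ℝ) (hΦ : ∀ q, IsRow Γ (Φ q))
    (hker : ∀ F : X → P → ℝ,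
      (∀ x : X, Summable fun gp : Γ × P => (F (gp.1 • x) gp.2) ^ 2) →
      (∀ x p, x ∉ A p → F x p = 0) →
      (∀ q x, x ∈ B q → Φ q F x = 0) → ∀ x p, F x p = 0) :
    ∃ T : X → (L2 (Γ × P) →L[ℝ] L2 (Γ × Q)), TField A B T := by
  obtain ⟨M, T, h1, h2, h3, h4, h5, h6, h7⟩ :=
    LLAaux.exists_all hm hfree hA hB Φ hΦ hker
  have hd : ∀ (inst : DecidableEq (Γ × P)) x i j,
      (T x (@dlt _ inst i) : Γ × Q → ℝ) j = M x j i := by
    intro inst x i j
    rw [h2, tsum_eq_single i]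
    · have h8 : (@dlt _ inst i : Γ × P → ℝ) i = 1 := lp.single_apply_self _ _ _
      rw [h8, mul_one]
    · intro i' hi'
      have h8 : (@dlt _ inst i : Γ × P → ℝ) i' = 0 := lp.single_apply_ne _ _ _ hi'
      rw [h8, mul_zero]
  refine ⟨T, h1, fun i j => ?_, fun γ σ τ p q x => ?_, fun σ p x h => ?_, fun f τ q x h => ?_, h7⟩
  · exact (funext fun x => hd _ x i j : _ = fun x => M x j i) ▸ h3 i j
  · rw [hd, hd]
    exact h4 γ σ τ p q x
  · ext j
    rw [hd, h5 σ p x j h]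
    simp
  · rw [h2]
    have h8 : ∀ i, M x (τ, q) i * f i = 0 := fun i => by rw [h6 τ q x i h, zero_mul]
    simp_rw [h8]
    exact tsum_zero

section LLB

theorem llb_inner {I : Type} (f g : L2 I) :
    HasSum (fun i => (f : I → ℝ) i * (g : I → ℝ) i) ⟪f, g⟫_ℝ := by
  have h := lp.hasSum_inner (𝕜 := ℝ) f g
  simpa [mul_comm] using h

theorem llb_inner_left {I : Type} [DecidableEq I] (i : I) (f : L2 I) :
    ⟪dlt i, f⟫_ℝ = (f : I → ℝ) i := by
  unfold dlt
  rw [lp.inner_single_left]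
  simp

theorem llb_inner_right {I : Type} [DecidableEq I] (i : I) (f : L2 I) :
    ⟪f, dlt i⟫_ℝ = (f : I → ℝ) i := by
  rw [real_inner_comm, llb_inner_left]

theorem llb_norm_dlt {I : Type} [DecidableEq I] (i : I) : ‖(dlt i : L2 I)‖ = 1 := by
  unfold dlt
  rw [lp.norm_single (by norm_num)]
  simp

theorem llb_adj {I J : Type} [DecidableEq I] (T : L2 I →L[ℝ] L2 J) (g : L2 J) (i : I) :
    (T.adjoint g : I → ℝ) i = ⟪g, T (dlt i)⟫_ℝ := by
  rw [← llb_inner_right, ContinuousLinearMap.adjoint_inner_left]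

theorem llb_expand {I J : Type} [DecidableEq I] [DecidableEq J] (T : L2 I →L[ℝ] L2 J)
    (f : L2 I) (j : J) :
    HasSum (fun i => (T (dlt i) : J → ℝ) j * (f : I → ℝ) i) ((T f : J → ℝ) j) := by
  have h := llb_inner (T.adjoint (dlt j)) f
  rw [ContinuousLinearMap.adjoint_inner_left, llb_inner_left] at h
  have e : ∀ i, (T.adjoint (dlt j) : I → ℝ) i = (T (dlt i) : J → ℝ) j := fun i => by
    rw [llb_adj, llb_inner_left]
  simpa only [e] using h

/-- the operator `(T T*)^k T` -/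
noncomputable def llbU {I J : Type} (T : L2 I →L[ℝ] L2 J) (k : ℕ) : L2 I →L[ℝ] L2 J :=
  ((T ∘L T.adjoint) ^ k) ∘L T

theorem llbU_zero {I J : Type} (T : L2 I →L[ℝ] L2 J) : llbU T 0 = T := by
  unfold llbU
  rw [pow_zero]
  rfl

theorem llbU_succ_apply {I J : Type} (T : L2 I →L[ℝ] L2 J) (k : ℕ) (f : L2 I) :
    llbU T (k + 1) f = T (T.adjoint (llbU T k f)) := by
  unfold llbU
  rw [pow_succ']
  rfl

theorem llb_pow_left {I J : Type} (T : L2 I →L[ℝ] L2 J) (k : ℕ) (f : L2 I) :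
    ((T.adjoint ∘L T) ^ (k + 1)) f = T.adjoint (llbU T k f) := by
  induction k generalizing f with
  | zero => rw [llbU_zero, zero_add, pow_one]; rfl
  | succ k ih =>
    rw [pow_succ', mul_apply_eq_comp, ih, llbU_succ_apply]
    rfl

theorem llb_pow_right {I J : Type} (T : L2 I →L[ℝ] L2 J) (k : ℕ) (f : L2 J) :
    ((T ∘L T.adjoint) ^ (k + 1)) f = llbU T k (T.adjoint f) := by
  rw [pow_succ]
  rfl

/-- coefficients of `U (k+1)` -/
theorem llbU_coef {I J : Type} [DecidableEq I] [DecidableEq J] (T : L2 I →L[ℝ] L2 J) (k : ℕ)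
    (i : I) (j : J) :
    (llbU T (k + 1) (dlt i) : J → ℝ) j =
      ∑' i', (T (dlt i') : J → ℝ) j *
        ∑' j', (llbU T k (dlt i) : J → ℝ) j' * (T (dlt i') : J → ℝ) j' := by
  rw [llbU_succ_apply, ← (llb_expand T _ j).tsum_eq]
  refine tsum_congr fun i' => ?_
  rw [llb_adj, (llb_inner _ _).tsum_eq]

theorem llb_norm_T_dlt {I J : Type} [DecidableEq I] (T : L2 I →L[ℝ] L2 J) (hT : ‖T‖ ≤ 1)
    (i : I) : ‖T (dlt i)‖ ≤ 1 := by
  calc ‖T (dlt i)‖ ≤ ‖T‖ * ‖(dlt i : L2 I)‖ := T.le_opNorm _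
    _ ≤ 1 * 1 := by
        gcongr
        rw [llb_norm_dlt]
    _ = 1 := one_mul _

theorem llb_norm_U_dlt {I J : Type} [DecidableEq I] (T : L2 I →L[ℝ] L2 J) (hT : ‖T‖ ≤ 1)
    (k : ℕ) (i : I) : ‖llbU T k (dlt i)‖ ≤ 1 := by
  induction k with
  | zero => rw [llbU_zero]; exact llb_norm_T_dlt T hT i
  | succ k ih =>
    rw [llbU_succ_apply]
    have hT' : ‖T.adjoint‖ ≤ 1 := by
      rw [LinearIsometryEquiv.norm_map]
      exact hT
    calc ‖T (T.adjoint (llbU T k (dlt i)))‖ ≤ ‖T‖ * ‖T.adjoint (llbU T k (dlt i))‖ := T.le_opNorm _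
      _ ≤ ‖T‖ * (‖T.adjoint‖ * ‖llbU T k (dlt i)‖) := by
          gcongr
          exact T.adjoint.le_opNorm _
      _ ≤ 1 * (1 * 1) := by gcongr
      _ = 1 := by norm_num

/-- products of coefficients of `U` and `T` -/
noncomputable def llbE {I J : Type} [DecidableEq I] (T : L2 I →L[ℝ] L2 J) (k : ℕ) (j : J)
    (i : I) : ℝ := (llbU T k (dlt i) : J → ℝ) j * (T (dlt i) : J → ℝ) j

theorem llb_diag_left {I J : Type} [DecidableEq I] [DecidableEq J] (T : L2 I →L[ℝ] L2 J)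
    (k : ℕ) (i : I) :
    HasSum (fun j => llbE T k j i) ⟪((T.adjoint ∘L T) ^ (k + 1)) (dlt i), dlt i⟫_ℝ := by
  rw [llb_pow_left, ContinuousLinearMap.adjoint_inner_left]
  exact llb_inner _ _

theorem llb_diag_right {I J : Type} [DecidableEq I] [DecidableEq J] (T : L2 I →L[ℝ] L2 J)
    (k : ℕ) (j : J) :
    HasSum (fun i => llbE T k j i) ⟪((T ∘L T.adjoint) ^ (k + 1)) (dlt j), dlt j⟫_ℝ := by
  rw [llb_pow_right, llb_inner_right]
  have h := llb_expand (llbU T k) (T.adjoint (dlt j)) j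
  have e : ∀ i, (T.adjoint (dlt j) : I → ℝ) i = (T (dlt i) : J → ℝ) j := fun i => by
    rw [llb_adj, llb_inner_left]
  simp only [e] at h
  exact h

theorem llb_sum_enorm {I J : Type} [DecidableEq I] [DecidableEq J] (T : L2 I →L[ℝ] L2 J)
    (hT : ‖T‖ ≤ 1) (k : ℕ) (i : I) : ∑' j, ‖llbE T k j i‖ₑ ≤ 1 := by
  set u := llbU T k (dlt i) with hu
  set v := T (dlt i) with hv
  have h1 : HasSum (fun j => (u : J → ℝ) j * (u : J → ℝ) j) (‖u‖ ^ 2) := by
    rw [← real_inner_self_eq_norm_sq]; exact llb_inner u u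
  have h2 : HasSum (fun j => (v : J → ℝ) j * (v : J → ℝ) j) (‖v‖ ^ 2) := by
    rw [← real_inner_self_eq_norm_sq]; exact llb_inner v v
  have h3 := (h1.add h2).mul_left (1 / 2)
  have hle : ∀ j, ‖llbE T k j i‖ₑ ≤ ENNReal.ofReal
      (1 / 2 * ((u : J → ℝ) j * (u : J → ℝ) j + (v : J → ℝ) j * (v : J → ℝ) j)) := by
    intro j
    rw [← ofReal_norm]
    apply ENNReal.ofReal_le_ofReal
    unfold llbE
    rw [← hu, ← hv, Real.norm_eq_abs, abs_le]
    constructor <;> nlinarith [sq_nonneg ((u : J → ℝ) j + (v : J → ℝ) j),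
      sq_nonneg ((u : J → ℝ) j - (v : J → ℝ) j)]
  calc ∑' j, ‖llbE T k j i‖ₑ ≤ ∑' j, ENNReal.ofReal
        (1 / 2 * ((u : J → ℝ) j * (u : J → ℝ) j + (v : J → ℝ) j * (v : J → ℝ) j)) :=
        ENNReal.tsum_le_tsum hle
    _ = ENNReal.ofReal (1 / 2 * (‖u‖ ^ 2 + ‖v‖ ^ 2)) := by
        rw [← ENNReal.ofReal_tsum_of_nonneg _ h3.summable, h3.tsum_eq]
        intro j
        nlinarith [mul_self_nonneg ((u : J → ℝ) j), mul_self_nonneg ((v : J → ℝ) j)]
    _ ≤ 1 := by
        rw [← ENNReal.ofReal_one]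
        apply ENNReal.ofReal_le_ofReal
        have hu1 : ‖u‖ ≤ 1 := llb_norm_U_dlt T hT k i
        have hv1 : ‖v‖ ≤ 1 := llb_norm_T_dlt T hT i
        nlinarith [norm_nonneg u, norm_nonneg v]

end LLB

section LLB2

variable {Γ X P Q : Type} [Group Γ] [MulAction Γ X] [MeasurableSpace X]
  {A : P → Set X} {B : Q → Set X} {T : X → (L2 (Γ × P) →L[ℝ] L2 (Γ × Q))}

open scoped Classical in
theorem llbU_meas [Countable Γ] [Countable P] [Countable Q] (hT : TField A B T) (k : ℕ)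
    (i : Γ × P) (j : Γ × Q) :
    Measurable fun x => (llbU (T x) k (dlt i) : Γ × Q → ℝ) j := by
  induction k generalizing i j with
  | zero => simp only [llbU_zero]; exact hT.meas i j
  | succ k ih =>
    simp only [llbU_coef]
    exact Measurable.tsum fun i' => (hT.meas i' j).mul
      (Measurable.tsum fun j' => (ih i j').mul (hT.meas i' j'))

open scoped Classical in
theorem llbU_equi (hT : TField A B T) (k : ℕ) (γ σ τ : Γ) (p : P) (q : Q) (x : X) :
    (llbU (T (γ • x)) k (dlt (σ, p)) : Γ × Q → ℝ) (τ, q) =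
      (llbU (T x) k (dlt (σ * γ, p)) : Γ × Q → ℝ) (τ * γ, q) := by
  induction k generalizing σ τ p q with
  | zero => simp only [llbU_zero]; exact hT.equi γ σ τ p q x
  | succ k ih =>
    rw [llbU_coef, llbU_coef]
    let eP : Γ × P ≃ Γ × P := (Equiv.mulRight γ).prodCongr (Equiv.refl P)
    let eQ : Γ × Q ≃ Γ × Q := (Equiv.mulRight γ).prodCongr (Equiv.refl Q)
    symm
    rw [← Equiv.tsum_eq eP]
    refine tsum_congr fun i' => ?_
    obtain ⟨σ', p'⟩ := i'
    rw [← Equiv.tsum_eq eQ]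
    congr 1
    · exact (hT.equi γ σ' τ p' q x).symm
    · refine tsum_congr fun j' => ?_
      obtain ⟨τ', q'⟩ := j'
      congr 1
      · exact (ih σ τ' p q').symm
      · exact (hT.equi γ σ' τ' p' q' x).symm

open scoped Classical in
theorem llbE_meas [Countable Γ] [Countable P] [Countable Q] (hT : TField A B T) (k : ℕ)
    (i : Γ × P) (j : Γ × Q) : Measurable fun x => llbE (T x) k j i :=
  (llbU_meas hT k i j).mul (hT.meas i j)

open scoped Classical in
theorem llbE_equi (hT : TField A B T) (k : ℕ) (γ σ τ : Γ) (p : P) (q : Q) (x : X) :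
    llbE (T (γ • x)) k (τ, q) (σ, p) = llbE (T x) k (τ * γ, q) (σ * γ, p) := by
  unfold llbE
  rw [llbU_equi hT, hT.equi]

open scoped Classical in
theorem llbE_zero (hT : TField A B T) (k : ℕ) (p : P) (x : X) (hx : x ∉ A p) (j : Γ × Q) :
    llbE (T x) k j ((1 : Γ), p) = 0 := by
  unfold llbE
  rw [hT.suppA 1 p x (by rwa [one_smul])]
  simp

end LLB2

open scoped Classical in
/-- LLB, TRACE.  Measurability of the diagonal coefficients and the trace identity
`∑_p ∫ ⟪(T*T)^(k+1) δ_{(1,p)}, δ_{(1,p)}⟫ = ∑_q ∫ ⟪(TT*)^(k+1) δ_{(1,q)}, δ_{(1,q)}⟫`.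

With `U = (TT*)^k T` : `⟪(T*T)^(k+1) δ_{(1,p)}, δ_{(1,p)}⟫ = ⟪U δ_{(1,p)}, T δ_{(1,p)}⟫ =
∑_{(τ,q)} U_x((τ,q),(1,p)) T_x((τ,q),(1,p))`, and
`⟪(TT*)^(k+1) δ_{(1,q)}, δ_{(1,q)}⟫ = ∑_{(σ,p)} T_x((1,q),(σ,p)) U_x((1,q),(σ,p))`.
Coefficients of `U` are measurable and equivariant (induction on `k`, countable sums).
Substitute `x ↦ τ • x` (measure preserving) in every term.  Absolute convergence:
`∑ |U T| ≤ ‖U δ‖ ‖T δ‖ ≤ 1` on `A p`, `0` off `A p`, and `cnt A < ∞`.
(`T.adjoint` on the Hilbert spaces `L2`.) -/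
theorem trace_eq {Γ X P Q : Type} [Group Γ] [Countable Γ] [MulAction Γ X]
    [MeasurableSpace X] [Countable P] [Countable Q] {μ : Measure X} [IsProbabilityMeasure μ]
    (hpmp : ∀ γ : Γ, MeasurePreserving (fun x : X => γ • x) μ μ)
    {A : P → Set X} (hA : ∀ p, MeasurableSet (A p)) (hfin : cnt μ A ≠ ⊤)
    {B : Q → Set X} (hB : ∀ q, MeasurableSet (B q))
    {T : X → (L2 (Γ × P) →L[ℝ] L2 (Γ × Q))} (hT : TField A B T) (k : ℕ) :
    (∀ p, Measurable fun x => ⟪(((T x).adjoint ∘L T x) ^ (k + 1)) (dlt ((1 : Γ), p)),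
        dlt ((1 : Γ), p)⟫_ℝ) ∧
    (∀ q, Measurable fun x => ⟪((T x ∘L (T x).adjoint) ^ (k + 1)) (dlt ((1 : Γ), q)),
        dlt ((1 : Γ), q)⟫_ℝ) ∧
    ∑' p, ∫ x, ⟪(((T x).adjoint ∘L T x) ^ (k + 1)) (dlt ((1 : Γ), p)),
        dlt ((1 : Γ), p)⟫_ℝ ∂μ =
    ∑' q, ∫ x, ⟪((T x ∘L (T x).adjoint) ^ (k + 1)) (dlt ((1 : Γ), q)),
        dlt ((1 : Γ), q)⟫_ℝ ∂μ := by
  have e1 : ∀ p x, ⟪(((T x).adjoint ∘L T x) ^ (k + 1)) (dlt ((1 : Γ), p)),
        dlt ((1 : Γ), p)⟫_ℝ = ∑' j : Γ × Q, llbE (T x) k j ((1 : Γ), p) := fun p x =>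
    (llb_diag_left (T x) k ((1 : Γ), p)).tsum_eq.symm
  have e2 : ∀ q x, ⟪((T x ∘L (T x).adjoint) ^ (k + 1)) (dlt ((1 : Γ), q)),
        dlt ((1 : Γ), q)⟫_ℝ = ∑' i : Γ × P, llbE (T x) k ((1 : Γ), q) i := fun q x =>
    (llb_diag_right (T x) k ((1 : Γ), q)).tsum_eq.symm
  simp only [e1, e2]
  refine ⟨fun p => Measurable.tsum fun j => llbE_meas hT k _ _,
    fun q => Measurable.tsum fun i => llbE_meas hT k _ _, ?_⟩
  -- the lintegrals
  have hm : ∀ i j, Measurable fun x => llbE (T x) k j i := fun i j => llbE_meas hT k i j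
  have hshift : ∀ (σ : Γ) (p : P) (q : Q) (x : X),
      llbE (T x) k ((1 : Γ), q) (σ, p) = llbE (T (σ • x)) k (σ⁻¹, q) ((1 : Γ), p) := by
    intro σ p q x
    rw [llbE_equi hT, inv_mul_cancel, one_mul]
  let a : P × (Γ × Q) → ℝ≥0∞ := fun z => ∫⁻ x, ‖llbE (T x) k z.2 ((1 : Γ), z.1)‖ₑ ∂μ
  let J : P × (Γ × Q) → ℝ := fun z => ∫ x, llbE (T x) k z.2 ((1 : Γ), z.1) ∂μ
  have ha1 : ∀ p, ∑' j, a (p, j) ≤ μ (A p) := by
    intro p
    calc ∑' j, a (p, j) = ∫⁻ x, ∑' j, ‖llbE (T x) k j ((1 : Γ), p)‖ₑ ∂μ :=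
          (lintegral_tsum fun j => (hm _ j).enorm.aemeasurable).symm
      _ ≤ ∫⁻ x, (A p).indicator (fun _ => 1) x ∂μ := by
          refine lintegral_mono fun x => ?_
          by_cases hx : x ∈ A p
          · rw [Set.indicator_of_mem hx]
            exact llb_sum_enorm (T x) (hT.norm_le x) k _
          · rw [Set.indicator_of_notMem hx]
            simp [llbE_zero hT k p x hx]
      _ = μ (A p) := by rw [lintegral_indicator_const (hA p), one_mul]
  have hatot : ∑' z, a z ≠ ⊤ := by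
    rw [ENNReal.tsum_prod']
    exact ne_top_of_le_ne_top hfin (ENNReal.tsum_le_tsum ha1)
  have haJ : ∀ z, ‖J z‖ ≤ (a z).toReal := by
    intro z
    have h := enorm_integral_le_lintegral_enorm (μ := μ)
      (fun x => llbE (T x) k z.2 ((1 : Γ), z.1))
    have hz : a z ≠ ⊤ := ENNReal.ne_top_of_tsum_ne_top hatot z
    rw [← toReal_enorm]
    exact ENNReal.toReal_mono hz h
  have hJs : Summable J := Summable.of_norm_bounded (ENNReal.summable_toReal hatot) haJ
  -- left hand side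
  have hL : ∀ p, ∫ x, ∑' j : Γ × Q, llbE (T x) k j ((1 : Γ), p) ∂μ = ∑' j, J (p, j) := by
    intro p
    refine integral_tsum (fun j => (hm _ j).aestronglyMeasurable) ?_
    exact ne_top_of_le_ne_top (ENNReal.ne_top_of_tsum_ne_top hfin p) (ha1 p)
  -- right hand side
  let e : Q × (Γ × P) ≃ P × (Γ × Q) :=
    { toFun := fun z => (z.2.2, (z.2.1⁻¹, z.1))
      invFun := fun z => (z.2.2, (z.2.1⁻¹, z.1))
      left_inv := fun z => by simp
      right_inv := fun z => by simp }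
  have hb : ∀ (q : Q) (i : Γ × P), ∫⁻ x, ‖llbE (T x) k ((1 : Γ), q) i‖ₑ ∂μ = a (e (q, i)) := by
    rintro q ⟨σ, p⟩
    simp only [hshift σ p q]
    exact (hpmp σ).lintegral_comp (hm ((1 : Γ), p) (σ⁻¹, q)).enorm
  have hJ' : ∀ (q : Q) (i : Γ × P), ∫ x, llbE (T x) k ((1 : Γ), q) i ∂μ = J (e (q, i)) := by
    rintro q ⟨σ, p⟩
    simp only [hshift σ p q]
    have h := integral_map (μ := μ) (φ := fun x : X => σ • x) (hpmp σ).measurable.aemeasurable
      (f := fun x => llbE (T x) k (σ⁻¹, q) ((1 : Γ), p))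
      (hm ((1 : Γ), p) (σ⁻¹, q)).aestronglyMeasurable
    rw [(hpmp σ).map_eq] at h
    exact h.symm
  have hbtot : ∑' z, a (e z) ≠ ⊤ := by
    rw [Equiv.tsum_eq e a]
    exact hatot
  have hR : ∀ q, ∫ x, ∑' i : Γ × P, llbE (T x) k ((1 : Γ), q) i ∂μ = ∑' i, J (e (q, i)) := by
    intro q
    rw [integral_tsum (fun i => (hm i _).aestronglyMeasurable)]
    · exact tsum_congr fun i => hJ' q i
    · simp only [hb]
      rw [ENNReal.tsum_prod'] at hbtot
      exact ENNReal.ne_top_of_tsum_ne_top hbtot q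
  have hJes : Summable fun z => J (e z) := (Equiv.summable_iff e).2 hJs
  simp only [hL, hR]
  rw [← hJs.tsum_prod, ← hJes.tsum_prod, Equiv.tsum_eq e J]

section LLCaux

open Filter Topology

theorem norm_dlt {I : Type} [DecidableEq I] (i : I) : ‖dlt i‖ = 1 := by
  have h : ‖dlt i‖ ^ 2 = 1 := by
    rw [← real_inner_self_eq_norm_sq, dlt, lp.inner_single_left]
    simp
  have h2 : (0 : ℝ) ≤ ‖dlt i‖ := norm_nonneg _
  nlinarith

theorem inner_dlt {I : Type} [DecidableEq I] (i : I) (f : L2 I) :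
    ⟪f, dlt i⟫_ℝ = (f : I → ℝ) i := by
  rw [dlt, lp.inner_single_right]
  simp

open scoped Classical in
/-- the kernel of `T x` lives off `A` -/
theorem TField.ker_supp {Γ X P Q : Type} [Group Γ] [MulAction Γ X] [MeasurableSpace X]
    {A : P → Set X} {B : Q → Set X} {T : X → (L2 (Γ × P) →L[ℝ] L2 (Γ × Q))}
    (hT : TField A B T) (x : X) (f : L2 (Γ × P)) (hf : T x f = 0) (σ : Γ) (p : P)
    (hp : σ • x ∈ A p) : (f : Γ × P → ℝ) (σ, p) = 0 := by
  have hmem : Memℓp (fun i : Γ × P => if i.1 • x ∈ A i.2 then (f : Γ × P → ℝ) i else 0) 2 := by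
    apply memℓp_gen
    have h0 : Summable fun i : Γ × P => ‖(f : Γ × P → ℝ) i‖ ^ (2 : ENNReal).toReal :=
      (lp.memℓp f).summable (by norm_num)
    refine Summable.of_nonneg_of_le (fun i => by positivity) (fun i => ?_) h0
    by_cases h : i.1 • x ∈ A i.2
    · simp [h]
    · simp only [h, if_false, norm_zero]
      rw [Real.zero_rpow (by norm_num)]
      positivity
  set fA : L2 (Γ × P) := ⟨_, hmem⟩ with hfA
  have hfAi : ∀ i : Γ × P, (fA : Γ × P → ℝ) i = if i.1 • x ∈ A i.2 then (f : Γ × P → ℝ) i else 0 :=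
    fun i => rfl
  have h1 : T x (f - fA) = 0 := by
    have hs := lp.hasSum_single (E := fun _ : Γ × P => ℝ) (p := 2) (by norm_num) (f - fA)
    have hs2 := hs.mapL (T x)
    have hz : (fun i => T x (lp.single 2 i ((f - fA : L2 (Γ × P)) i))) = fun _ => 0 := by
      funext i
      by_cases h : i.1 • x ∈ A i.2
      · have : (f - fA : L2 (Γ × P)) i = 0 := by
          simp [hfAi, h]
        rw [this, lp.single_zero, map_zero]
      · have h2 : lp.single (E := fun _ : Γ × P => ℝ) 2 i ((f - fA : L2 (Γ × P)) i) =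
            ((f - fA : L2 (Γ × P)) i) • dlt i := by
          rw [dlt, ← lp.single_smul, smul_eq_mul, mul_one]
        rw [h2, map_smul, hT.suppA i.1 i.2 x h, smul_zero]
    rw [hz] at hs2
    exact hs2.unique hasSum_zero
  have h2 : T x fA = 0 := by
    rw [map_sub, hf, zero_sub, neg_eq_zero] at h1
    exact h1
  have h3 : fA = 0 := hT.inj x fA (fun σ p h => by rw [hfAi]; simp [h]) h2
  have h4 := hfAi (σ, p)
  rw [h3] at h4
  simp only [hp, if_true] at h4
  rw [← h4]; rfl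

open scoped Classical in
theorem TField.adj_zero {Γ X P Q : Type} [Group Γ] [MulAction Γ X] [MeasurableSpace X]
    {A : P → Set X} {B : Q → Set X} {T : X → (L2 (Γ × P) →L[ℝ] L2 (Γ × Q))}
    (hT : TField A B T) (x : X) (q : Q) (hq : x ∉ B q) :
    (T x).adjoint (dlt ((1 : Γ), q)) = 0 := by
  refine ext_inner_right ℝ fun f => ?_
  rw [ContinuousLinearMap.adjoint_inner_left, real_inner_comm, inner_dlt, inner_zero_left]
  exact hT.suppB f 1 q x (by rwa [one_smul])

end LLCaux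

open scoped Classical in
/-- LLC, LIMIT.  WLOG `cnt B < ∞`.  For fixed `x`, on the closed subspace of `f` supported on
`{(σ,p) | σ•x ∈ A p}`, `R = 1 - T*T` is a positive contraction whose fixed space is `ker T = 0`.
Mean ergodic theorem (`ContinuousLinearMap.tendsto_birkhoffAverage_orthogonalProjection`):
`(1/N) ∑_{k<N} ⟪R^k e, e⟫ → 0` for `e = δ_{(1,p)}`, `x ∈ A p`.
`p_N(t) = 1 - (1/N) ∑_{k<N} (1-t)^k` is a real polynomial with zero constant term, `0 ≤ p_N ≤ 1` on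
`[0,1]`; so `⟪p_N(T*T) e, e⟫ ∈ [0,1]` tends to `1` on `A p` (and is `0` off `A p`); by dominated
convergence (finite measure `cnt A`) `∑_p ∫ ⟪p_N(T*T) e, e⟫ → cnt A`; by `trace_eq` (linearity)
it equals `∑_q ∫ ⟪p_N(TT*) δ_{(1,q)}, δ_{(1,q)}⟫ ≤ cnt B`. -/
theorem contraction_ineq {Γ X P Q : Type} [Group Γ] [Countable Γ] [MulAction Γ X]
    [MeasurableSpace X] [Countable P] [Countable Q] {μ : Measure X} [IsProbabilityMeasure μ]
    (hpmp : ∀ γ : Γ, MeasurePreserving (fun x : X => γ • x) μ μ)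
    {A : P → Set X} (hA : ∀ p, MeasurableSet (A p)) (hfin : cnt μ A ≠ ⊤)
    {B : Q → Set X} (hB : ∀ q, MeasurableSet (B q))
    {T : X → (L2 (Γ × P) →L[ℝ] L2 (Γ × Q))} (hT : TField A B T) :
    cnt μ A ≤ cnt μ B := by
  classical
  by_cases hfinB : cnt μ B = ⊤
  · rw [hfinB]; exact le_top
  have hsA : Summable fun p => (μ (A p)).toReal := ENNReal.summable_toReal hfin
  have hsB : Summable fun q => (μ (B q)).toReal := ENNReal.summable_toReal hfinB
  have hT1 : ∀ x, ‖T x‖ ≤ 1 := hT.norm_le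
  have hT2 : ∀ x, ‖(T x).adjoint‖ ≤ 1 := fun x => by
    rw [LinearIsometryEquiv.norm_map]; exact hT1 x
  have hzA : ∀ p x, x ∉ A p → T x (dlt ((1 : Γ), p)) = 0 := fun p x hx =>
    hT.suppA 1 p x (by rwa [one_smul])
  have hzB : ∀ q x, x ∉ B q → (T x).adjoint (dlt ((1 : Γ), q)) = 0 := fun q x hx =>
    hT.adj_zero x q hx
  -- the power terms
  set fA : ℕ → P → X → ℝ := fun k p x =>
    ⟪(LLC.SOp (T x) ^ (k + 1)) (dlt ((1 : Γ), p)), dlt ((1 : Γ), p)⟫_ℝ with hfA
  set fB : ℕ → Q → X → ℝ := fun k q x =>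
    ⟪(LLC.SOp (T x).adjoint ^ (k + 1)) (dlt ((1 : Γ), q)), dlt ((1 : Γ), q)⟫_ℝ with hfB
  have htr : ∀ k, (∀ p, Measurable (fA k p)) ∧ (∀ q, Measurable (fB k q)) ∧
      ∑' p, ∫ x, fA k p x ∂μ = ∑' q, ∫ x, fB k q x ∂μ := by
    intro k
    have h := trace_eq hpmp hA hfin hB hT k
    have e1 : ∀ x, (T x ∘L (T x).adjoint) = LLC.SOp (T x).adjoint := fun x => by
      rw [LLC.SOp, ContinuousLinearMap.adjoint_adjoint]
    simp_rw [e1] at h
    exact h
  have hbA : ∀ k p x, |fA k p x| ≤ (A p).indicator (fun _ => (1 : ℝ)) x := by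
    intro k p x
    by_cases hx : x ∈ A p
    · rw [Set.indicator_of_mem hx]
      have := LLC.SOp_pow_bound (hT1 x) (k + 1) (dlt ((1 : Γ), p))
      rwa [norm_dlt, one_pow] at this
    · rw [Set.indicator_of_notMem hx, hfA]
      simp only
      rw [LLC.SOp_pow_zero (hzA p x hx) k, abs_zero]
  have hbB : ∀ k q x, |fB k q x| ≤ (B q).indicator (fun _ => (1 : ℝ)) x := by
    intro k q x
    by_cases hx : x ∈ B q
    · rw [Set.indicator_of_mem hx]
      have := LLC.SOp_pow_bound (hT2 x) (k + 1) (dlt ((1 : Γ), q))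
      rwa [norm_dlt, one_pow] at this
    · rw [Set.indicator_of_notMem hx, hfB]
      simp only
      rw [LLC.SOp_pow_zero (hzB q x hx) k, abs_zero]
  have hind : ∀ s : Set X, ∀ x, s.indicator (fun _ => (1 : ℝ)) x ≤ 1 := fun s x =>
    Set.indicator_le_self' (fun _ _ => zero_le_one) x
  have hiA : ∀ k p, Integrable (fA k p) μ := fun k p =>
    Integrable.of_bound ((htr k).1 p).aestronglyMeasurable 1
      (Filter.Eventually.of_forall fun x => (hbA k p x).trans (hind _ x))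
  have hiB : ∀ k q, Integrable (fB k q) μ := fun k q =>
    Integrable.of_bound ((htr k).2.1 q).aestronglyMeasurable 1
      (Filter.Eventually.of_forall fun x => (hbB k q x).trans (hind _ x))
  have hintA : ∀ p, ∫ x, (A p).indicator (fun _ => (1 : ℝ)) x ∂μ = (μ (A p)).toReal := by
    intro p
    rw [integral_indicator_const (1 : ℝ) (hA p)]
    simp [Measure.real]
  have hintB : ∀ q, ∫ x, (B q).indicator (fun _ => (1 : ℝ)) x ∂μ = (μ (B q)).toReal := by
    intro q
    rw [integral_indicator_const (1 : ℝ) (hB q)]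
    simp [Measure.real]
  have hindiA : ∀ p, Integrable ((A p).indicator (fun _ => (1 : ℝ))) μ := fun p =>
    (integrable_const (1 : ℝ)).indicator (hA p)
  have hindiB : ∀ q, Integrable ((B q).indicator (fun _ => (1 : ℝ))) μ := fun q =>
    (integrable_const (1 : ℝ)).indicator (hB q)
  have hsumA : ∀ k, Summable fun p => ∫ x, fA k p x ∂μ := by
    intro k
    refine Summable.of_norm_bounded hsA fun p => ?_
    rw [← hintA p]
    exact norm_integral_le_of_norm_le (hindiA p) (Filter.Eventually.of_forall fun x => hbA k p x)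
  have hsumB : ∀ k, Summable fun q => ∫ x, fB k q x ∂μ := by
    intro k
    refine Summable.of_norm_bounded hsB fun q => ?_
    rw [← hintB q]
    exact norm_integral_le_of_norm_le (hindiB q) (Filter.Eventually.of_forall fun x => hbB k q x)
  -- the polynomial terms
  set gA : ℕ → P → X → ℝ := fun N p x =>
    ⟪LLC.PN N (T x) (dlt ((1 : Γ), p)), dlt ((1 : Γ), p)⟫_ℝ with hgA
  set gB : ℕ → Q → X → ℝ := fun N q x =>
    ⟪LLC.PN N (T x).adjoint (dlt ((1 : Γ), q)), dlt ((1 : Γ), q)⟫_ℝ with hgB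
  have hgA' : ∀ N p x, gA N p x = ∑ j ∈ Finset.range ((LLC.qp N).natDegree + 1),
      (LLC.qp N).coeff j * fA j p x := fun N p x => LLC.inner_PN_sum N _ _
  have hgB' : ∀ N q x, gB N q x = ∑ j ∈ Finset.range ((LLC.qp N).natDegree + 1),
      (LLC.qp N).coeff j * fB j q x := fun N q x => LLC.inner_PN_sum N _ _
  have hgiA : ∀ N p, ∫ x, gA N p x ∂μ = ∑ j ∈ Finset.range ((LLC.qp N).natDegree + 1),
      (LLC.qp N).coeff j * ∫ x, fA j p x ∂μ := by
    intro N p
    simp_rw [hgA']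
    rw [integral_finsetSum _ fun j _ => (hiA j p).const_mul _]
    simp_rw [integral_const_mul]
  have hgiB : ∀ N q, ∫ x, gB N q x ∂μ = ∑ j ∈ Finset.range ((LLC.qp N).natDegree + 1),
      (LLC.qp N).coeff j * ∫ x, fB j q x ∂μ := by
    intro N q
    simp_rw [hgB']
    rw [integral_finsetSum _ fun j _ => (hiB j q).const_mul _]
    simp_rw [integral_const_mul]
  have heq : ∀ N, ∑' p, ∫ x, gA N p x ∂μ = ∑' q, ∫ x, gB N q x ∂μ := by
    intro N
    simp_rw [hgiA, hgiB]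
    rw [Summable.tsum_finsetSum fun j _ => (hsumA j).mul_left _,
      Summable.tsum_finsetSum fun j _ => (hsumB j).mul_left _]
    refine Finset.sum_congr rfl fun j _ => ?_
    rw [tsum_mul_left, tsum_mul_left, (htr j).2.2]
  have hmA : ∀ N p, Measurable (gA N p) := by
    intro N p
    have : gA N p = fun x => ∑ j ∈ Finset.range ((LLC.qp N).natDegree + 1),
      (LLC.qp N).coeff j * fA j p x := funext (hgA' N p)
    rw [this]
    exact Finset.measurable_sum _ fun j _ => ((htr j).1 p).const_mul _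
  have hgiB2 : ∀ N q, Integrable (gB N q) μ := by
    intro N q
    have : gB N q = fun x => ∑ j ∈ Finset.range ((LLC.qp N).natDegree + 1),
      (LLC.qp N).coeff j * fB j q x := funext (hgB' N q)
    rw [this]
    exact integrable_finsetSum _ fun j _ => (hiB j q).const_mul _
  have hgbA : ∀ N, 0 < N → ∀ p x, ‖gA N p x‖ ≤ (A p).indicator (fun _ => (1 : ℝ)) x := by
    intro N hN p x
    by_cases hx : x ∈ A p
    · rw [Set.indicator_of_mem hx, Real.norm_eq_abs, abs_of_nonneg (LLC.PN_nonneg hN (hT1 x) _)]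
      have := LLC.PN_le hN (hT1 x) (dlt ((1 : Γ), p))
      rwa [norm_dlt, one_pow] at this
    · rw [Set.indicator_of_notMem hx, hgA]
      simp only
      rw [LLC.PN_zero (hzA p x hx), norm_zero]
  have hgbB : ∀ N, 0 < N → ∀ q x, gB N q x ≤ (B q).indicator (fun _ => (1 : ℝ)) x := by
    intro N hN q x
    by_cases hx : x ∈ B q
    · rw [Set.indicator_of_mem hx]
      have := LLC.PN_le hN (hT2 x) (dlt ((1 : Γ), q))
      rwa [norm_dlt, one_pow] at this
    · rw [Set.indicator_of_notMem hx, hgB]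
      simp only
      rw [LLC.PN_zero (hzB q x hx)]
  have hlimp : ∀ p, Filter.Tendsto (fun N => ∫ x, gA N p x ∂μ) Filter.atTop
      (nhds (μ (A p)).toReal) := by
    intro p
    rw [← hintA p]
    refine tendsto_integral_filter_of_dominated_convergence
      ((A p).indicator fun _ => (1 : ℝ)) (Filter.Eventually.of_forall fun N =>
        (hmA N p).aestronglyMeasurable) ?_ (hindiA p) ?_
    · filter_upwards [Filter.eventually_gt_atTop 0] with N hN
      exact Filter.Eventually.of_forall fun x => hgbA N hN p x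
    · refine Filter.Eventually.of_forall fun x => ?_
      by_cases hx : x ∈ A p
      · rw [Set.indicator_of_mem hx]
        have := LLC.PN_tendsto (hT1 x) (u := dlt ((1 : Γ), p)) fun f hf => by
          rw [inner_dlt]
          exact hT.ker_supp x f hf 1 p (by rwa [one_smul])
        rwa [norm_dlt, one_pow] at this
      · rw [Set.indicator_of_notMem hx]
        refine tendsto_const_nhds.congr fun N => ?_
        rw [hgA]
        simp only
        rw [LLC.PN_zero (hzA p x hx)]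
  have hlim : Filter.Tendsto (fun N => ∑' p, ∫ x, gA N p x ∂μ) Filter.atTop
      (nhds (∑' p, (μ (A p)).toReal)) := by
    refine tendsto_tsum_of_dominated_convergence hsA hlimp ?_
    filter_upwards [Filter.eventually_gt_atTop 0] with N hN
    intro p
    rw [← hintA p]
    exact norm_integral_le_of_norm_le (hindiA p)
      (Filter.Eventually.of_forall fun x => hgbA N hN p x)
  have hle : ∑' p, (μ (A p)).toReal ≤ ∑' q, (μ (B q)).toReal := by
    refine le_of_tendsto hlim ?_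
    filter_upwards [Filter.eventually_gt_atTop 0] with N hN
    rw [heq N]
    have hsg : Summable fun q => ∫ x, gB N q x ∂μ := by
      simp_rw [hgiB]
      exact summable_sum fun j _ => (hsumB j).mul_left _
    refine Summable.tsum_le_tsum (fun q => ?_) hsg hsB
    rw [← hintB q]
    exact integral_mono (hgiB2 N q) (hindiB q) fun x => hgbB N hN q x
  rw [← ENNReal.toReal_le_toReal hfin hfinB, cnt, cnt, ENNReal.tsum_toReal_eq fun p =>
    measure_ne_top μ _, ENNReal.tsum_toReal_eq fun q => measure_ne_top μ _]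
  exact hle

theorem lemmaL {Γ X P Q : Type} [Group Γ] [Countable Γ] [MulAction Γ X] [MeasurableSpace X]
    [Countable P] [Countable Q] {μ : Measure X} [IsProbabilityMeasure μ]
    (hpmp : ∀ γ : Γ, MeasurePreserving (fun x : X => γ • x) μ μ)
    (hfree : ∀ (γ : Γ) (x : X), γ • x = x → γ = 1)
    {A : P → Set X} (hA : ∀ p, MeasurableSet (A p)) (hfin : cnt μ A ≠ ⊤)
    {B : Q → Set X} (hB : ∀ q, MeasurableSet (B q))
    (Φ : Q → (X → P → ℝ) → X → ℝ) (hΦ : ∀ q, IsRow Γ (Φ q))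
    (hker : ∀ F : X → P → ℝ,
      (∀ x : X, Summable fun gp : Γ × P => (F (gp.1 • x) gp.2) ^ 2) →
      (∀ x p, x ∉ A p → F x p = 0) →
      (∀ q x, x ∈ B q → Φ q F x = 0) → ∀ x p, F x p = 0) :
    cnt μ A ≤ cnt μ B := by
  obtain ⟨T, hT⟩ := exists_contraction (fun γ => (hpmp γ).measurable) hfree hA hB Φ hΦ hker
  exact contraction_ineq hpmp hA hfin hB hT

end Crest.Agent.R191
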