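import Crest.Agent.R191.Forest
import Crest.Agent.R191.LemmaL

/-!
# R191 piece STAR: `E ≤ V + |Θ| + |T|`
-/

set_option autoImplicit false

namespace Crest.Agent.R191

open MeasureTheory

namespace StarAux

theorem isRow_disjoint {Γ X P J : Type} [Group Γ] [Countable Γ] [MulAction Γ X]
    [MeasurableSpace X] [Countable P] [Countable J] (D : J → Set X)
    (hD : ∀ j, MeasurableSet (D j)) (hu : ∀ j j' x, x ∈ D j → x ∈ D j' → j = j')
    (Ψ : J → (X → P → ℝ) → X → ℝ) (hΨ : ∀ j, IsRow Γ (Ψ j)) :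
    ∃ Φ : (X → P → ℝ) → X → ℝ, IsRow Γ Φ ∧ ∀ F x j, x ∈ D j → Φ F x = Ψ j F x := by
  classical
  let j : X → Option J := fun x => if h : ∃ j, x ∈ D j then some h.choose else none
  have hj : ∀ x i, j x = some i ↔ x ∈ D i := by
    intro x i
    by_cases h : ∃ j, x ∈ D j
    · simp only [j]
      rw [dif_pos h, Option.some_inj]
      constructor
      · intro h'
        exact h' ▸ h.choose_spec
      · intro h'
        exact hu _ _ x h.choose_spec h'
    · simp only [j]
      rw [dif_neg h]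
      constructor
      · intro h'
        cases h'
      · intro h'
        exact absurd ⟨i, h'⟩ h
  have hjm : ∀ i, MeasurableSet {x | j x = i} := by
    intro i
    cases i with
    | some i =>
      have : {x | j x = some i} = D i := by
        ext x
        exact hj x i
      rw [this]
      exact hD i
    | none =>
      have : {x | j x = none} = (⋃ i, D i)ᶜ := by
        ext x
        simp only [Set.mem_compl_iff, Set.mem_iUnion, not_exists]
        constructor
        · intro h' i hi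
          have h2 := (hj x i).2 hi
          have h3 : j x = none := h'
          rw [h3] at h2
          cases h2
        · intro h'
          show j x = none
          simp only [j]
          rw [dif_neg]
          rintro ⟨i, hi⟩
          exact h' i hi
      rw [this]
      exact (MeasurableSet.iUnion hD).compl
  refine ⟨_, isRow_piecewise (Φ := fun i : Option J => match i with
    | some i => Ψ i
    | none => fun _ _ => 0) j hjm ?_, ?_⟩
  · intro i
    cases i with
    | some i => exact hΨ i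
    | none => exact isRow_zero
  · intro F x i hi
    have := (hj x i).2 hi
    rw [this]

theorem cnt_elim {X P Q : Type} [MeasurableSpace X] {μ : Measure X} (A : P → Set X)
    (B : Q → Set X) : cnt μ (Sum.elim A B) = cnt μ A + cnt μ B := by
  unfold cnt
  rw [Summable.tsum_sum ENNReal.summable ENNReal.summable]
  rfl

end StarAux

/-- PSUM: in a measurable folded field the sum along the reading of a fixed word from a fixed sheet
is a row (`0`, say, if the word is not readable).
Induction on `w`: `e :: w` from sheet `s` at `x`: the next vertex `(σ x, s')` (`σ = (val a)⁻¹` or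
`val a`) with `s' = s'(x)` measurable; `Φ F x = ± F (…) (…) + Φ_{s'(x)} F (σ • x)`; use
`isRow_eval`, `isRow_neg`, `isRow_add`, `isRow_shift`, `isRow_piecewise`. -/
theorem isRow_psum {L Γ X S : Type} [Group Γ] [Countable Γ] [MulAction Γ X] [MeasurableSpace X]
    [Countable S] [Countable L] {𝒢 : Fld L X S} {val : L → Γ}
    (hm : ∀ γ : Γ, Measurable fun x : X => γ • x) (h𝒢 : FMeas 𝒢) (hf : Folded (𝒢.G val))
    (w : List (L × Bool)) (s : S) :
    ∃ Φ : (X → EI L S → ℝ) → X → ℝ, IsRow Γ Φ ∧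
      ∀ F x v r, RS (𝒢.G val) (efun F) w (x, s) v r → Φ F x = r := by
  induction w generalizing s with
  | nil =>
    refine ⟨fun _ _ => 0, isRow_zero, fun F x v r h => h.2.symm⟩
  | cons l w ih =>
    choose Ψ hΨ hΨ' using ih
    obtain ⟨a, ab⟩ := l
    cases ab with
    | true =>
      obtain ⟨Φ, hΦ, hΦ'⟩ := StarAux.isRow_disjoint (Γ := Γ) (P := EI L S)
        (fun s' => 𝒢.E a s s') (fun s' => h𝒢 a s s')
        (fun s' s'' x h h' => by
          have := hf.1 a (x, s) ((val a)⁻¹ • x, s') ((val a)⁻¹ • x, s'') ⟨rfl, h⟩ ⟨rfl, h'⟩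
          simpa using this)
        (fun s' F x => F x (a, s, s') + Ψ s' F ((val a)⁻¹ • x))
        (fun s' => isRow_add (isRow_eval (a, s, s')) (isRow_shift hm (hΨ s') _))
      refine ⟨Φ, hΦ, fun F x v r h => ?_⟩
      obtain ⟨z, r', h1, h2, rfl⟩ := h
      have h3 : z.1 = (val a)⁻¹ • x ∧ x ∈ 𝒢.E a s z.2 := by simpa [Stp, Fld.G] using h1
      rw [hΦ' F x z.2 h3.2]
      have h4 : (z.1, z.2) = z := rfl
      rw [← h3.1, hΨ' z.2 F z.1 v r' h2]
      simp [sgn, efun]
    | false =>
      obtain ⟨Φ, hΦ, hΦ'⟩ := StarAux.isRow_disjoint (Γ := Γ) (P := EI L S)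
        (fun s' => (fun x : X => val a • x) ⁻¹' 𝒢.E a s' s) (fun s' => hm _ (h𝒢 a s' s))
        (fun s' s'' (x : X) (h : val a • x ∈ 𝒢.E a s' s) (h' : val a • x ∈ 𝒢.E a s'' s) => by
          have := hf.2 a (val a • x, s') (val a • x, s'') (x, s)
            ⟨(inv_smul_smul _ _).symm, h⟩ ⟨(inv_smul_smul _ _).symm, h'⟩
          simpa using this)
        (fun s' F x => (- F (val a • x) (a, s', s)) + Ψ s' F (val a • x))
        (fun s' => isRow_add (isRow_neg (isRow_shift hm (isRow_eval (a, s', s)) _))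
          (isRow_shift hm (hΨ s') _))
      refine ⟨Φ, hΦ, fun F x v r h => ?_⟩
      obtain ⟨z, r', h1, h2, rfl⟩ := h
      have h3 : x = (val a)⁻¹ • z.1 ∧ z.1 ∈ 𝒢.E a z.2 s := by simpa [Stp, Fld.G] using h1
      have h5 : val a • x = z.1 := by rw [h3.1, smul_inv_smul]
      have h6 : x ∈ (fun x : X => val a • x) ⁻¹' 𝒢.E a z.2 s := by
        show val a • x ∈ 𝒢.E a z.2 s
        rw [h5]
        exact h3.2
      rw [hΦ' F x z.2 h6]
      rw [h5, hΨ' z.2 F z.1 v r' h2]
      simp [sgn, efun]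

/-- STAR.  Apply `lemmaL` with columns `P = EI (Lab g) S`, `A = 𝒢.Es`, and rows
`Unit ⊕ Q ⊕ (S × Fin g) ⊕ (S × Γ × EI)`:
* base `t`-edges: `F x (none, b, b)`, on all of `X`: measure `1`;
* the rows `Φ q` on `A q`;
* loops: for `x ∈ T (s,i)` the sum along the closed loop (`isRow_psum`);
* parent edges: `F (γ • x) ed` on `K s (γ, ed)` (`forest`): total measure
  `= ∑_{s ≠ b} μ (Vs s) = cnt Vs - 1` (`Vs b = univ`).
An `F` supported on the edges and killed by all rows sums to `0` over base-base readings by `Coc`;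
an edge `u → v` has, by `forest`, readings of sum `0` from the base to `u` and from the base to
`v`, so `F = 0` on the edge.  Conclusion `cnt Es ≤ 1 + cnt A + cnt T + (cnt Vs - 1)`.
(If the right hand side is infinite nothing is to be shown.) -/
theorem star (e : Env) {S : Type} [Countable S] (𝒢 : Fld (Lab e.g) e.X S) (b : S)
    (h : Base e 𝒢 b) {Q : Type} [Countable Q] (A : Q → Set e.X)
    (Φ : Q → (e.X → EI (Lab e.g) S → ℝ) → e.X → ℝ)
    (hA : ∀ q, MeasurableSet (A q)) (hΦ : ∀ q, IsRow e.Γ (Φ q)) (k : ℕ)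
    (T : S × Fin e.g → Set e.X) (hT : ∀ p, MeasurableSet (T p))
    (hTc : ∀ p, T p ⊆ closedAt e 𝒢 k p) (hc : Coc e 𝒢 b A Φ k T) :
    cnt e.μ 𝒢.Es ≤ cnt e.μ (𝒢.Vs e.val) + (cnt e.μ A + cnt e.μ T) := by
  classical
  obtain ⟨K, hK1, hK2, hK3, hK4, hK5, hK6⟩ := forest e 𝒢 b h
  have hpsum := fun p : S × Fin e.g => isRow_psum (val := e.val) (Env.meas_smul e) h.meas
    h.folded (seg e.c e.ℓ p.2 k (e.ℓ + 3)) p.1
  choose Ψ hΨ hΨ' using hpsum
  have main := lemmaL (P := EI (Lab e.g) S)
    (Q := Unit ⊕ (Q ⊕ ((S × Fin e.g) ⊕ (S × (e.Γ × EI (Lab e.g) S))))) e.pmp e.free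
    (A := 𝒢.Es) (fun p => h.meas _ _ _) h.fin
    (B := Sum.elim (fun _ => Set.univ) (Sum.elim A (Sum.elim T (fun q => K q.1 q.2))))
    (by
      rintro (_ | q | q | q)
      · exact MeasurableSet.univ
      · exact hA q
      · exact hT q
      · exact hK1 _ _)
    (Sum.elim (fun _ F x => F x (none, b, b)) (Sum.elim Φ (Sum.elim Ψ
      (fun q F x => F (q.2.1 • x) q.2.2))))
    (by
      rintro (_ | q | q | q)
      · exact isRow_eval _
      · exact hΦ q
      · exact hΨ q
      · exact isRow_shift (Env.meas_smul e) (isRow_eval q.2.2) q.2.1)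
    (by
      intro F _ hF hrow x p
      have hcoc := hc F (fun x a n m hx => hF x (a, n, m) hx)
        (fun x => hrow (Sum.inl ()) x (Set.mem_univ _))
        (fun q x hx => hrow (Sum.inr (Sum.inl q)) x hx)
        (fun s i x r hx hr => by
          have h1 := hrow (Sum.inr (Sum.inr (Sum.inl (s, i)))) x hx
          have h2 := hΨ' (s, i) F x _ r hr
          rw [← h2]
          exact h1)
      have htree := hK6 F (fun s ge x hx =>
        hrow (Sum.inr (Sum.inr (Sum.inr (s, ge)))) x hx)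
      obtain ⟨a, n, m⟩ := p
      by_cases hx : x ∈ 𝒢.E a n m
      · have hG : (𝒢.G e.val) a (x, n) ((e.val a)⁻¹ • x, m) := ⟨rfl, hx⟩
        obtain ⟨w1, x1, h1⟩ := htree (x, n) ⟨a, _, Or.inl hG⟩
        obtain ⟨w2, x2, h2⟩ := htree ((e.val a)⁻¹ • x, m) ⟨a, _, Or.inr hG⟩
        have h3 : RS (𝒢.G e.val) (efun F) [(a, true)] (x, n) ((e.val a)⁻¹ • x, m)
            (F x (a, n, m)) := by
          refine ⟨((e.val a)⁻¹ • x, m), 0, ?_, ⟨rfl, rfl⟩, ?_⟩
          · simpa [Stp] using hG
          · simp [sgn, efun]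
        have h4 : RS (𝒢.G e.val) (efun F) (w1 ++ ([(a, true)] ++ winv w2)) (x1, b) (x2, b)
            (F x (a, n, m)) := by
          rw [rs_append]
          refine ⟨_, _, _, h1, ?_, (zero_add _).symm⟩
          rw [rs_append]
          exact ⟨_, _, _, h3, rs_winv h2, by simp⟩
        exact hcoc _ _ _ _ h4
      · exact hF x (a, n, m) hx)
  refine main.trans ?_
  rw [StarAux.cnt_elim, StarAux.cnt_elim, StarAux.cnt_elim]
  have hU : cnt e.μ (fun _ : Unit => (Set.univ : Set e.X)) = 1 := by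
    unfold cnt
    rw [tsum_fintype]
    simp
  have hb : 𝒢.Vs e.val b = Set.univ := by
    rw [Set.eq_univ_iff_forall]
    intro x
    exact ⟨none, ((e.val none)⁻¹ • x, b), Or.inl ⟨rfl, h.base_t x⟩⟩
  have hKb : ∀ s, ∑' ge, e.μ (K s ge) ≤ if s = b then 0 else e.μ (𝒢.Vs e.val s) := by
    intro s
    rw [← measure_iUnion (fun ge ge' hne => Set.disjoint_left.2 fun x hx hx' =>
      hne (hK4 s ge ge' x hx hx')) (fun ge => hK1 s ge)]
    split_ifs with hs
    · have : (⋃ ge, K s ge) = ∅ := by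
        rw [Set.iUnion_eq_empty]
        intro ge
        rw [Set.eq_empty_iff_forall_notMem]
        intro x hx
        exact (hK3 s ge x hx).1 hs
      rw [this, measure_empty]
    · refine measure_mono (Set.iUnion_subset fun ge x hx => (hK3 s ge x hx).2.1)
  have hKc : cnt e.μ (fun q : S × (e.Γ × EI (Lab e.g) S) => K q.1 q.2) + 1 ≤
      cnt e.μ (𝒢.Vs e.val) := by
    unfold cnt
    rw [ENNReal.tsum_prod', ENNReal.tsum_eq_add_tsum_ite (f := fun s => e.μ (𝒢.Vs e.val s)) b,
      hb, measure_univ, add_comm]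
    gcongr with s
    exact hKb s
  rw [hU]
  calc 1 + (cnt e.μ A + (cnt e.μ T + cnt e.μ fun q : S × (e.Γ × EI (Lab e.g) S) => K q.1 q.2))
      = (cnt e.μ (fun q : S × (e.Γ × EI (Lab e.g) S) => K q.1 q.2) + 1) +
        (cnt e.μ A + cnt e.μ T) := by ring
    _ ≤ _ := by gcongr

/-- consequence for the fields of the class -/
theorem star_good (e : Env) {S : Type} [Countable S] (𝒢 : Fld (Lab e.g) e.X S) (b : S)
    (h : Good e 𝒢 b) :
    cnt e.μ 𝒢.Es ≤ cnt e.μ (𝒢.Vs e.val) + (ENNReal.ofReal e.δ + cnt e.μ (closedAt e 𝒢 0)) := by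
  obtain ⟨Q, _, A, Φ, hA, hΦ, hcnt, hc⟩ := h.coc
  refine (star e 𝒢 b h.toBase A Φ hA hΦ 0 (closedAt e 𝒢 0)
    (fun p => meas_closedAt e h.meas 0 p) (fun p => subset_rfl) hc).trans ?_
  gcongr

end Crest.Agent.R191
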