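import Crest.Agent.R191.Rot
import Crest.Agent.R191.Forest
import Crest.Agent.R191.Star

/-!
# R191 piece COLLAPSE: removing the runs of the long loops

`n = ℓ + 3`.  A long loop `(v, i)` has a first run `p`: the vertices at the positions
`p+1, …, p+61` have degree `≤ 2`; the `62` edges at the positions `p, …, p+61` are removed.
-/

set_option autoImplicit false

namespace Crest.Agent.R191

open MeasureTheory

variable (e : Env) {S : Type} (𝒢 : Fld (Lab e.g) e.X S)

/-- the run property at position `p` -/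
def RunAt (i : Fin e.g) (v : e.X × S) (p : ℕ) : Prop :=
  ∀ r, 1 ≤ r → r ≤ 61 → ∀ z, Rd (𝒢.G e.val) (seg e.c e.ℓ i 0 (p + r)) v z →
    deg (𝒢.G e.val) z ≤ 2

/-- `p` is the first run of the long loop `(v, i)` -/
def LongMin (i : Fin e.g) (v : e.X × S) (p : ℕ) : Prop :=
  v.1 ∈ closedAt e 𝒢 0 (v.2, i) ∧ RunAt e 𝒢 i v p ∧ ∀ p', p' < p → ¬ RunAt e 𝒢 i v p'

/-- the step of the relator `i`, started at `v`, at position `j`, traverses the `a`-edge `u → z` -/
def OnStep (i : Fin e.g) (v : e.X × S) (j : ℕ) (a : Lab e.g) (u z : e.X × S) : Prop :=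
  ∃ y y', Rd (𝒢.G e.val) (seg e.c e.ℓ i 0 j) v y ∧ Stp (𝒢.G e.val) (rl e.c e.ℓ i j) y y' ∧
    ((rl e.c e.ℓ i j = (a, true) ∧ y = u ∧ y' = z) ∨
      (rl e.c e.ℓ i j = (a, false) ∧ y = z ∧ y' = u))

/-- the edge `(a, u, z)` is on the first run of a long loop -/
def Removed (a : Lab e.g) (u z : e.X × S) : Prop :=
  ∃ i v p r, r ≤ 61 ∧ LongMin e 𝒢 i v p ∧ OnStep e 𝒢 i v (p + r) a u z

/-- an interior vertex of the first run of a long loop -/
def Interior (z : e.X × S) : Prop :=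
  ∃ i v p r, 1 ≤ r ∧ r ≤ 61 ∧ LongMin e 𝒢 i v p ∧
    Rd (𝒢.G e.val) (seg e.c e.ℓ i 0 (p + r)) v z

/-- the collapsed field -/
def colF : Fld (Lab e.g) e.X S :=
  ⟨fun a n m => {x | x ∈ 𝒢.E a n m ∧ ¬ Removed e 𝒢 a (x, n) ((e.val a)⁻¹ • x, m)}⟩

variable {e 𝒢}

/-- at a vertex of degree at most two, three readable letters are not distinct -/
theorem co_deg_two {L V : Type} [Fintype L] {G : L → V → V → Prop} {z : V} (h : deg G z ≤ 2)
    {e1 e2 e3 : L × Bool} (h1 : ∃ y, Stp G e1 z y) (h2 : ∃ y, Stp G e2 z y)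
    (h3 : ∃ y, Stp G e3 z y) (h12 : e2 ≠ e1) (h13 : e3 ≠ e1) : e3 = e2 := by
  classical
  by_contra h23
  unfold deg at h
  have hs : ({e1, e2, e3} : Finset (L × Bool)) ⊆
      Finset.univ.filter fun e : L × Bool => ∃ z', Stp G e z z' := by
    intro x hx
    simp only [Finset.mem_insert, Finset.mem_singleton] at hx
    simp only [Finset.mem_filter, Finset.mem_univ, true_and]
    rcases hx with rfl | rfl | rfl
    · exact h1
    · exact h2
    · exact h3
  have hc := Finset.card_le_card hs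
  have h4 : ({e1, e2, e3} : Finset (L × Bool)).card = 3 := by
    rw [Finset.card_insert_of_notMem, Finset.card_insert_of_notMem, Finset.card_singleton]
    · simp [Ne.symm h23]
    · simp [Ne.symm h12, Ne.symm h13]
  rw [h4] at hc
  have h5 : (Finset.univ.filter fun e : L × Bool => ∃ z', Stp G e z z').card ≤ 2 := by
    convert h
  omega

/-- the step at position `j` of a reading -/
theorem co_step {V : Type} {g : ℕ} {c : Fin g → ℕ → Fin g} {ℓ : ℕ}
    {G : Lab g → V → V → Prop} (i : Fin g) (k j : ℕ) (v y' : V) :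
    Rd G (seg c ℓ i k (j + 1)) v y' ↔
      ∃ y, Rd G (seg c ℓ i k j) v y ∧ Stp G (rl c ℓ i (k + j)) y y' := by
  rw [seg_add, rd_append]
  constructor
  · rintro ⟨y, h1, h2⟩
    rw [show (1 : ℕ) = 0 + 1 from rfl, seg_succ] at h2
    obtain ⟨z, h3, h4⟩ := h2
    have h5 : z = y' := h4
    subst h5
    exact ⟨y, h1, h3⟩
  · rintro ⟨y, h1, h2⟩
    refine ⟨y, h1, ?_⟩
    rw [show (1 : ℕ) = 0 + 1 from rfl, seg_succ]
    exact ⟨y', h2, rfl⟩

/-- the vertices of a closed loop, read forever -/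
theorem co_path {V : Type} {g : ℕ} {c : Fin g → ℕ → Fin g} {ℓ : ℕ}
    {G : Lab g → V → V → Prop} (hG : Folded G) {i : Fin g} {v : V}
    (h : Rd G (seg c ℓ i 0 (ℓ + 3)) v v) :
    ∃ Z : ℕ → V, (∀ j, Rd G (seg c ℓ i 0 j) v (Z j)) ∧
      (∀ j, Stp G (rl c ℓ i j) (Z j) (Z (j + 1))) ∧
      (∀ j y, Rd G (seg c ℓ i 0 j) v y → y = Z j) ∧
      ∀ j, Z (j * (ℓ + 3)) = v := by
  choose Z hZ hZ' using fun j => closed_read hG h j
  refine ⟨Z, hZ, fun j => ?_, fun j y hy => hG.rd_unique hy (hZ j), fun j => ?_⟩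
  · obtain ⟨y, h1, h2⟩ := (co_step i 0 j v (Z (j + 1))).1 (hZ (j + 1))
    rw [hG.rd_unique h1 (hZ j), zero_add] at h2
    exact h2
  · have h1 : Rd G (seg c ℓ i 0 (j * (ℓ + 3))) v v := by
      induction j with
      | zero => rw [zero_mul]; exact rfl
      | succ j ih =>
        rw [add_mul, one_mul]
        exact (closed_period hG h).2 ih
    exact hG.rd_unique (hZ _) h1

/-- CO1, EXCLUSIVITY.  If a closed loop `(v', i')` traverses (in whatever direction) an edge of the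
first run of the long loop `(v, i)`, then it is the same loop and the position is the same mod `n`.

Proof. At an interior vertex of the run exactly two signed letters are readable: the inverse of
the incoming letter and the outgoing letter of the loop (distinct by `rl_red`).  The loop
`(v', i')` is reduced too, so when it traverses one run edge it traverses all `62` of
them, in the same or in the opposite direction.  Same direction:
`rl i (p+t) = rl i' (j+t)` for `t < 62`, apply `rl_win`; the positions agree mod `n`, the vertices at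
these positions agree, read on to a multiple of `n` to get `v = v'`.
Opposite direction: contradiction to `rl_win_inv`. -/
theorem co_excl (hf : Folded (𝒢.G e.val)) {i i' : Fin e.g} {v v' : e.X × S} {p r j : ℕ}
    {a : Lab e.g} {u z : e.X × S} (hr : r ≤ 61) (hl : LongMin e 𝒢 i v p)
    (h1 : OnStep e 𝒢 i v (p + r) a u z) (hc : v'.1 ∈ closedAt e 𝒢 0 (v'.2, i'))
    (h2 : OnStep e 𝒢 i' v' j a u z) :
    i = i' ∧ v = v' ∧ (p + r) % (e.ℓ + 3) = j % (e.ℓ + 3) := by
  classical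
  set G := 𝒢.G e.val with hG
  obtain ⟨hcl, hrun, -⟩ := hl
  have hcl' : Rd G (seg e.c e.ℓ i 0 (e.ℓ + 3)) v v := hcl
  have hc' : Rd G (seg e.c e.ℓ i' 0 (e.ℓ + 3)) v' v' := hc
  obtain ⟨Z, hZ, hS, hU, hM⟩ := co_path hf hcl'
  obtain ⟨Z', hZ', hS', hU', hM'⟩ := co_path hf hc'
  have hbig := e.cw.big
  -- the degrees
  have hdeg : ∀ t, 1 ≤ t → t ≤ 61 → deg G (Z (p + t)) ≤ 2 :=
    fun t ht1 ht2 => hrun t ht1 ht2 _ (hZ _)
  -- readable letters
  have hout : ∀ t, ∃ y, Stp G (rl e.c e.ℓ i t) (Z t) y := fun t => ⟨_, hS t⟩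
  have hin : ∀ t, ∃ y, Stp G ((rl e.c e.ℓ i t).1, !(rl e.c e.ℓ i t).2) (Z (t + 1)) y :=
    fun t => ⟨_, stp_inv.2 (hS t)⟩
  have hout' : ∀ t, ∃ y, Stp G (rl e.c e.ℓ i' t) (Z' t) y := fun t => ⟨_, hS' t⟩
  have hin' : ∀ t, ∃ y, Stp G ((rl e.c e.ℓ i' t).1, !(rl e.c e.ℓ i' t).2) (Z' (t + 1)) y :=
    fun t => ⟨_, stp_inv.2 (hS' t)⟩
  have hred : ∀ (i : Fin e.g) (q : ℕ), rl e.c e.ℓ i (q + 1) ≠
      ((rl e.c e.ℓ i q).1, !(rl e.c e.ℓ i q).2) := by
    intro i q h
    exact rl_red e.cw i q ⟨by rw [h], by rw [h]⟩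
  have hinj : ∀ (x y : Lab e.g × Bool), (x.1, !x.2) = (y.1, !y.2) → x = y := by
    rintro ⟨x1, x2⟩ ⟨y1, y2⟩ h
    simp only [Prod.mk.injEq, Bool.not_eq_eq_eq_not] at h
    simp [h.1, h.2]
  have hinv2 : ∀ (x : Lab e.g × Bool), (((x.1, !x.2) : Lab e.g × Bool).1,
      !((x.1, !x.2) : Lab e.g × Bool).2) = x := by
    rintro ⟨x1, x2⟩; simp
  -- shift of the loop' by a full period
  have hper : Z' (j + (e.ℓ + 3)) = Z' j :=
    (hU' _ _ ((closed_period hf hc').2 (hZ' j))).symm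
  have hper1 : Z' (j + (e.ℓ + 3) + 1) = Z' (j + 1) := by
    rw [show j + (e.ℓ + 3) + 1 = (j + 1) + (e.ℓ + 3) by ring]
    exact (hU' _ _ ((closed_period hf hc').2 (hZ' (j + 1)))).symm
  have hrl : rl e.c e.ℓ i' (j + (e.ℓ + 3)) = rl e.c e.ℓ i' j := rl_period i' j
  obtain ⟨y, y', ha1, ha2, ha3⟩ := h1
  obtain ⟨w, w', hb1, hb2, hb3⟩ := h2
  have hy : y = Z (p + r) := hU _ _ ha1
  have hy' : y' = Z (p + r + 1) := by
    subst hy
    exact hf.stp_right ha2 (hS _)
  have hw : w = Z' j := hU' _ _ hb1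
  have hw' : w' = Z' (j + 1) := by
    subst hw
    exact hf.stp_right hb2 (hS' _)
  have hcases : (rl e.c e.ℓ i (p + r) = rl e.c e.ℓ i' j ∧ Z (p + r) = Z' j ∧
        Z (p + r + 1) = Z' (j + 1)) ∨
      (rl e.c e.ℓ i (p + r) = ((rl e.c e.ℓ i' j).1, !(rl e.c e.ℓ i' j).2) ∧
        Z (p + r) = Z' (j + 1) ∧ Z (p + r + 1) = Z' j) := by
    rcases ha3 with ⟨h3, h4, h5⟩ | ⟨h3, h4, h5⟩ <;> rcases hb3 with ⟨h6, h7, h8⟩ | ⟨h6, h7, h8⟩
    · left
      exact ⟨h3.trans h6.symm, by rw [← hy, ← hw, h4, h7], by rw [← hy', ← hw', h5, h8]⟩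
    · right
      exact ⟨by rw [h3, h6]; simp, by rw [← hy, ← hw', h4, h8], by rw [← hy', ← hw, h5, h7]⟩
    · right
      exact ⟨by rw [h3, h6]; simp, by rw [← hy, ← hw', h4, h8], by rw [← hy', ← hw, h5, h7]⟩
    · left
      exact ⟨h3.trans h6.symm, by rw [← hy, ← hw, h4, h7], by rw [← hy', ← hw', h5, h8]⟩
  rcases hcases with ⟨hL, hA, hB⟩ | ⟨hL, hA, hB⟩
  · -- same direction
    set q₀ := j + (e.ℓ + 3) - r with hq₀
    have hfwd : ∀ s, r + s ≤ 61 → rl e.c e.ℓ i (p + (r + s)) = rl e.c e.ℓ i' (q₀ + (r + s)) ∧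
        Z (p + (r + s)) = Z' (q₀ + (r + s)) ∧ Z (p + (r + s) + 1) = Z' (q₀ + (r + s) + 1) := by
      intro s
      induction s with
      | zero =>
        intro _
        have h3 : q₀ + (r + 0) = j + (e.ℓ + 3) := by omega
        rw [h3, add_zero, hrl, hper, hper1]
        exact ⟨hL, hA, hB⟩
      | succ s ih =>
        intro hs
        obtain ⟨i1, i2, i3⟩ := ih (by omega)
        have hd := hdeg (r + s + 1) (by omega) (by omega)
        rw [← add_assoc p] at hd
        have k1 := hin (p + (r + s))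
        have k2 := hout (p + (r + s) + 1)
        have k3 := hout' (q₀ + (r + s) + 1)
        rw [← i3] at k3
        have k4 := co_deg_two hd k1 k2 k3 (hred _ _) (by rw [i1]; exact hred _ _)
        refine ⟨?_, ?_, ?_⟩
        · rw [show p + (r + (s + 1)) = p + (r + s) + 1 by ring,
            show q₀ + (r + (s + 1)) = q₀ + (r + s) + 1 by ring]
          exact k4.symm
        · rw [show p + (r + (s + 1)) = p + (r + s) + 1 by ring,
            show q₀ + (r + (s + 1)) = q₀ + (r + s) + 1 by ring]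
          exact i3
        · rw [show p + (r + (s + 1)) + 1 = (p + (r + s) + 1) + 1 by ring,
            show q₀ + (r + (s + 1)) + 1 = (q₀ + (r + s) + 1) + 1 by ring]
          have k5 := hS (p + (r + s) + 1)
          have k6 := hS' (q₀ + (r + s) + 1)
          rw [k4, ← i3] at k6
          exact hf.stp_right k5 k6
    have hbwd : ∀ s, s ≤ r → rl e.c e.ℓ i (p + (r - s)) = rl e.c e.ℓ i' (q₀ + (r - s)) ∧
        Z (p + (r - s)) = Z' (q₀ + (r - s)) := by
      intro s
      induction s with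
      | zero =>
        intro _
        have := hfwd 0 (by omega)
        exact ⟨this.1, this.2.1⟩
      | succ s ih =>
        intro hs
        obtain ⟨i1, i2⟩ := ih (by omega)
        have hd := hdeg (r - s) (by omega) (by omega)
        have e1 : p + (r - s) = p + (r - (s + 1)) + 1 := by omega
        have e2 : q₀ + (r - s) = q₀ + (r - (s + 1)) + 1 := by omega
        rw [e1] at hd i1 i2
        rw [e2] at i1 i2
        have k1 := hout (p + (r - (s + 1)) + 1)
        have k2 := hin (p + (r - (s + 1)))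
        have k3 := hin' (q₀ + (r - (s + 1)))
        rw [← i2] at k3
        have k4 := co_deg_two hd k1 k2 k3 (Ne.symm (hred _ _))
          (by rw [i1]; exact Ne.symm (hred _ _))
        have k5 := hinj _ _ k4
        refine ⟨k5.symm, ?_⟩
        have k6 := hS (p + (r - (s + 1)))
        have k7 := hS' (q₀ + (r - (s + 1)))
        rw [k5, ← i2] at k7
        exact hf.stp_left k6 k7
    have hall : ∀ t, t ≤ 61 → rl e.c e.ℓ i (p + t) = rl e.c e.ℓ i' (q₀ + t) := by
      intro t ht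
      rcases le_total r t with h | h
      · have := (hfwd (t - r) (by omega)).1
        rw [show r + (t - r) = t by omega] at this
        exact this
      · have := (hbwd (r - t) (by omega)).1
        rw [show r - (r - t) = t by omega] at this
        exact this
    obtain ⟨hii, hpq⟩ := rl_win e.cw (i := i) (j := i') (p := p) (q := q₀)
      (fun t ht => hall t (by omega))
    have hZp : Z p = Z' q₀ := by
      have := (hbwd r le_rfl).2
      simpa using this
    refine ⟨hii, ?_, ?_⟩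
    · subst hii
      -- read on to a multiple of the period
      have hread : ∀ m, Z (p + m) = Z' (q₀ + m) := by
        intro m
        induction m with
        | zero => exact hZp
        | succ m ih =>
          have k1 := hS (p + m)
          have k2 := hS' (q₀ + m)
          have k3 : rl e.c e.ℓ i (q₀ + m) = rl e.c e.ℓ i (p + m) :=
            rl_mod i _ _ (by rw [Nat.add_mod, ← hpq, ← Nat.add_mod])
          rw [k3, ← ih] at k2
          exact hf.stp_right k1 k2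
      have hdm := Nat.div_add_mod p (e.ℓ + 3)
      have hdm' := Nat.div_add_mod q₀ (e.ℓ + 3)
      have hlt := Nat.mod_lt p (show 0 < e.ℓ + 3 by omega)
      have hm1 : p + (e.ℓ + 3 - p % (e.ℓ + 3)) = (p / (e.ℓ + 3) + 1) * (e.ℓ + 3) := by
        rw [add_mul, one_mul, mul_comm (p / (e.ℓ + 3))]; omega
      have hm2 : q₀ + (e.ℓ + 3 - p % (e.ℓ + 3)) = (q₀ / (e.ℓ + 3) + 1) * (e.ℓ + 3) := by
        rw [add_mul, one_mul, mul_comm (q₀ / (e.ℓ + 3)), hpq]; omega
      have hend := hread (e.ℓ + 3 - p % (e.ℓ + 3))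
      rw [hm1, hm2, hM, hM'] at hend
      exact hend
    · have : (p + r) % (e.ℓ + 3) = (q₀ + r) % (e.ℓ + 3) := by
        rw [Nat.add_mod, hpq, ← Nat.add_mod]
      rw [this, show q₀ + r = j + (e.ℓ + 3) by omega, Nat.add_mod_right]
  · -- opposite direction
    exfalso
    set q₀ := j + (e.ℓ + 3) + r with hq₀
    have hfwd : ∀ s, r + s ≤ 61 → rl e.c e.ℓ i (p + (r + s)) =
          ((rl e.c e.ℓ i' (q₀ - (r + s))).1, !(rl e.c e.ℓ i' (q₀ - (r + s))).2) ∧
        Z (p + (r + s) + 1) = Z' (q₀ - (r + s)) ∧ Z (p + (r + s)) = Z' (q₀ - (r + s) + 1) := by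
      intro s
      induction s with
      | zero =>
        intro _
        have h3 : q₀ - (r + 0) = j + (e.ℓ + 3) := by omega
        rw [h3, add_zero, hrl, hper, hper1]
        exact ⟨hL, hB, hA⟩
      | succ s ih =>
        intro hs
        obtain ⟨i1, i2, i3⟩ := ih (by omega)
        have hd := hdeg (r + s + 1) (by omega) (by omega)
        rw [← add_assoc p] at hd
        have e2 : q₀ - (r + s) = q₀ - (r + (s + 1)) + 1 := by omega
        rw [e2] at i1 i2
        have k1 := hin (p + (r + s))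
        have k2 := hout (p + (r + s) + 1)
        have k3 := hin' (q₀ - (r + (s + 1)))
        rw [← i2] at k3
        have k4 := co_deg_two hd k1 k2 k3 (hred _ _)
          (by rw [i1, hinv2]; exact Ne.symm (hred _ _))
        refine ⟨?_, ?_, ?_⟩
        · rw [show p + (r + (s + 1)) = p + (r + s) + 1 by ring]
          exact k4.symm
        · rw [show p + (r + (s + 1)) + 1 = (p + (r + s) + 1) + 1 by ring]
          have k5 := hS (p + (r + s) + 1)
          have k6 := stp_inv.2 (hS' (q₀ - (r + (s + 1))))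
          rw [k4, ← i2] at k6
          exact hf.stp_right k5 k6
        · rw [show p + (r + (s + 1)) = p + (r + s) + 1 by ring]
          exact i2
    have hbwd : ∀ s, s ≤ r → rl e.c e.ℓ i (p + (r - s)) =
          ((rl e.c e.ℓ i' (q₀ - (r - s))).1, !(rl e.c e.ℓ i' (q₀ - (r - s))).2) ∧
        Z (p + (r - s)) = Z' (q₀ - (r - s) + 1) := by
      intro s
      induction s with
      | zero =>
        intro _
        have := hfwd 0 (by omega)
        exact ⟨this.1, this.2.2⟩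
      | succ s ih =>
        intro hs
        obtain ⟨i1, i2⟩ := ih (by omega)
        have hd := hdeg (r - s) (by omega) (by omega)
        have e1 : p + (r - s) = p + (r - (s + 1)) + 1 := by omega
        have e2 : q₀ - (r - (s + 1)) = q₀ - (r - s) + 1 := by omega
        rw [e2]
        rw [e1] at hd i1 i2
        have k1 := hout (p + (r - (s + 1)) + 1)
        have k2 := hin (p + (r - (s + 1)))
        have k3 := hout' (q₀ - (r - s) + 1)
        rw [← i2] at k3
        have k4 := co_deg_two hd k1 k2 k3 (Ne.symm (hred _ _))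
          (by rw [i1]; exact hred _ _)
        have k5 : rl e.c e.ℓ i (p + (r - (s + 1))) =
            ((rl e.c e.ℓ i' (q₀ - (r - s) + 1)).1, !(rl e.c e.ℓ i' (q₀ - (r - s) + 1)).2) := by
          rw [k4, hinv2]
        refine ⟨k5, ?_⟩
        have k6 := hS (p + (r - (s + 1)))
        have k7 := stp_inv.2 (hS' (q₀ - (r - s) + 1))
        rw [← k5, ← i2] at k7
        exact hf.stp_left k6 k7
    have hall : ∀ t, t ≤ 61 → rl e.c e.ℓ i (p + t) =
        ((rl e.c e.ℓ i' (q₀ - t)).1, !(rl e.c e.ℓ i' (q₀ - t)).2) := by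
      intro t ht
      rcases le_total r t with h | h
      · have := (hfwd (t - r) (by omega)).1
        rw [show r + (t - r) = t by omega] at this
        exact this
      · have := (hbwd (r - t) (by omega)).1
        rw [show r - (r - t) = t by omega] at this
        exact this
    refine rl_win_inv e.cw (i := i) (j := i') (p := p) (q := q₀ - 5) fun t ht => ?_
    rw [hall t (by omega), show q₀ - 5 + (5 - t) = q₀ - t by omega]

/-- uniqueness of the first run -/
theorem LongMin.uniq {i : Fin e.g} {v : e.X × S} {p p' : ℕ} (h : LongMin e 𝒢 i v p)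
    (h' : LongMin e 𝒢 i v p') : p = p' := by
  rcases lt_trichotomy p p' with h1 | h1 | h1
  · exact absurd h.2.1 (h'.2.2 p h1)
  · exact h1
  · exact absurd h'.2.1 (h.2.2 p' h1)

/-- the steps of a closed loop -/
theorem co_next (hf : Folded (𝒢.G e.val)) {i : Fin e.g} {v z : e.X × S} {j : ℕ}
    (hc : v.1 ∈ closedAt e 𝒢 0 (v.2, i)) (hz : Rd (𝒢.G e.val) (seg e.c e.ℓ i 0 j) v z) :
    ∃ y, Stp (𝒢.G e.val) (rl e.c e.ℓ i j) z y ∧
      Rd (𝒢.G e.val) (seg e.c e.ℓ i 0 (j + 1)) v y := by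
  have hc' : Rd (𝒢.G e.val) (seg e.c e.ℓ i 0 (e.ℓ + 3)) v v := hc
  obtain ⟨y, h1, -⟩ := closed_read hf hc' (j + 1)
  have h2 := h1
  rw [seg_succ_right, rd_append] at h2
  obtain ⟨z', h3, y', h4, h5⟩ := h2
  have h5' : y' = y := h5
  subst h5'
  obtain rfl := hf.rd_unique h3 hz
  rw [Nat.zero_add] at h4
  exact ⟨y', h4, h1⟩

/-- the step at position `j` traverses an edge -/
theorem onStep_of {i : Fin e.g} {v y y' : e.X × S} {j : ℕ}
    (h1 : Rd (𝒢.G e.val) (seg e.c e.ℓ i 0 j) v y)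
    (h2 : Stp (𝒢.G e.val) (rl e.c e.ℓ i j) y y') :
    (∀ a, rl e.c e.ℓ i j = (a, true) → OnStep e 𝒢 i v j a y y') ∧
    (∀ a, rl e.c e.ℓ i j = (a, false) → OnStep e 𝒢 i v j a y' y) :=
  ⟨fun _ ha => ⟨y, y', h1, h2, Or.inl ⟨ha, rfl, rfl⟩⟩,
    fun _ ha => ⟨y, y', h1, h2, Or.inr ⟨ha, rfl, rfl⟩⟩⟩

/-- the letters readable at an interior vertex -/
theorem co_letters (hf : Folded (𝒢.G e.val)) {i : Fin e.g} {v z : e.X × S} {p r : ℕ}
    (hr : r + 1 ≤ 61) (hl : LongMin e 𝒢 i v p)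
    (hz : Rd (𝒢.G e.val) (seg e.c e.ℓ i 0 (p + (r + 1))) v z) :
    ∃ y y', Rd (𝒢.G e.val) (seg e.c e.ℓ i 0 (p + r)) v y ∧
      Stp (𝒢.G e.val) (rl e.c e.ℓ i (p + r)) y z ∧
      Stp (𝒢.G e.val) (rl e.c e.ℓ i (p + (r + 1))) z y' ∧
      ∀ ε u, Stp (𝒢.G e.val) ε z u →
        (ε = ((rl e.c e.ℓ i (p + r)).1, !(rl e.c e.ℓ i (p + r)).2) ∧ u = y) ∨
        (ε = rl e.c e.ℓ i (p + (r + 1)) ∧ u = y') := by
  classical
  obtain ⟨y', h1, -⟩ := co_next hf hl.1 hz
  have h2 := hz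
  rw [← Nat.add_assoc, seg_succ_right, rd_append] at h2
  obtain ⟨y, h3, z', h4, h5⟩ := h2
  have h5' : z' = z := h5
  subst h5'
  rw [Nat.zero_add] at h4
  refine ⟨y, y', h3, h4, h1, ?_⟩
  intro ε u hu
  have h6 := stp_inv.mpr h4
  by_cases c1 : ε = ((rl e.c e.ℓ i (p + r)).1, !(rl e.c e.ℓ i (p + r)).2)
  · left
    refine ⟨c1, ?_⟩
    rw [c1] at hu
    exact hf.stp_right hu h6
  by_cases c2 : ε = rl e.c e.ℓ i (p + (r + 1))
  · right
    refine ⟨c2, ?_⟩
    rw [c2] at hu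
    exact hf.stp_right hu h1
  exfalso
  have hd := hl.2.1 (r + 1) (by omega) hr z' hz
  have c3 : ((rl e.c e.ℓ i (p + r)).1, !(rl e.c e.ℓ i (p + r)).2) ≠
      rl e.c e.ℓ i (p + (r + 1)) := by
    intro h7
    apply rl_red e.cw i (p + r)
    rw [Nat.add_assoc, ← h7]
    exact ⟨rfl, rfl⟩
  have h8 : ({ε, ((rl e.c e.ℓ i (p + r)).1, !(rl e.c e.ℓ i (p + r)).2),
      rl e.c e.ℓ i (p + (r + 1))} : Finset (Lab e.g × Bool)).card = 3 :=
    Finset.card_eq_three.mpr ⟨_, _, _, c1, c2, c3, rfl⟩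
  have h9 : ({ε, ((rl e.c e.ℓ i (p + r)).1, !(rl e.c e.ℓ i (p + r)).2),
      rl e.c e.ℓ i (p + (r + 1))} : Finset (Lab e.g × Bool)) ⊆
      Finset.univ.filter fun ε : Lab e.g × Bool => ∃ u, Stp (𝒢.G e.val) ε z' u := by
    intro x hx
    simp only [Finset.mem_insert, Finset.mem_singleton] at hx
    rw [Finset.mem_filter]
    refine ⟨Finset.mem_univ _, ?_⟩
    rcases hx with rfl | rfl | rfl
    · exact ⟨u, hu⟩
    · exact ⟨y, h6⟩
    · exact ⟨y', h1⟩
  have h10 := Finset.card_le_card h9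
  rw [h8] at h10
  have h11 : deg (𝒢.G e.val) z' = (Finset.univ.filter fun ε : Lab e.g × Bool =>
      ∃ u, Stp (𝒢.G e.val) ε z' u).card := by
    unfold deg
    congr
  omega

/-- at an interior vertex every edge is removed; -/
theorem co_interior_edges (hf : Folded (𝒢.G e.val)) {z : e.X × S} (hz : Interior e 𝒢 z)
    {a : Lab e.g} {u : e.X × S} :
    ((𝒢.G e.val) a z u → Removed e 𝒢 a z u) ∧ ((𝒢.G e.val) a u z → Removed e 𝒢 a u z) := by
  obtain ⟨i, v, p, r, h1, h2, hl, h3⟩ := hz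
  obtain ⟨r, rfl⟩ := Nat.exists_eq_add_of_le' h1
  obtain ⟨y, y', h4, h5, h6, h7⟩ := co_letters hf h2 hl h3
  constructor
  · intro h
    have h8 : Stp (𝒢.G e.val) (a, true) z u := by simpa [Stp] using h
    rcases h7 _ _ h8 with ⟨h9, rfl⟩ | ⟨h9, rfl⟩
    · refine ⟨i, v, p, r, by omega, hl, (onStep_of h4 h5).2 a ?_⟩
      have := Prod.ext_iff.mp h9
      simp only at this
      refine Prod.ext this.1.symm ?_
      have h10 := this.2
      simp only
      rw [Bool.eq_not] at h10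
      cases hb : (rl e.c e.ℓ i (p + r)).2 with
      | false => rfl
      | true => rw [hb] at h10; simp at h10
    · exact ⟨i, v, p, r + 1, h2, hl, (onStep_of h3 h6).1 a h9.symm⟩
  · intro h
    have h8 : Stp (𝒢.G e.val) (a, false) z u := by simpa [Stp] using h
    rcases h7 _ _ h8 with ⟨h9, rfl⟩ | ⟨h9, rfl⟩
    · refine ⟨i, v, p, r, by omega, hl, (onStep_of h4 h5).1 a ?_⟩
      have := Prod.ext_iff.mp h9
      simp only at this
      refine Prod.ext this.1.symm ?_
      have h10 := this.2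
      simp only
      cases hb : (rl e.c e.ℓ i (p + r)).2 with
      | true => rfl
      | false => rw [hb] at h10; simp at h10
    · exact ⟨i, v, p, r + 1, h2, hl, (onStep_of h3 h6).2 a h9.symm⟩

/-- two steps with the same letter from the same vertex traverse the same edge -/
theorem onStep_same {i i' : Fin e.g} {v v' y y' : e.X × S} {j j' : ℕ}
    (h1 : Rd (𝒢.G e.val) (seg e.c e.ℓ i 0 j) v y)
    (h2 : Stp (𝒢.G e.val) (rl e.c e.ℓ i j) y y')
    (h3 : Rd (𝒢.G e.val) (seg e.c e.ℓ i' 0 j') v' y)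
    (h4 : rl e.c e.ℓ i j = rl e.c e.ℓ i' j') :
    ∃ a u z, OnStep e 𝒢 i v j a u z ∧ OnStep e 𝒢 i' v' j' a u z := by
  have h5 := h2
  rw [h4] at h5
  cases hb : rl e.c e.ℓ i j with
  | mk a b =>
    cases b with
    | true => exact ⟨a, y, y', (onStep_of h1 h2).1 a hb, (onStep_of h3 h5).1 a (h4 ▸ hb)⟩
    | false => exact ⟨a, y', y, (onStep_of h1 h2).2 a hb, (onStep_of h3 h5).2 a (h4 ▸ hb)⟩

/-- two steps with inverse letters and exchanged end points traverse the same edge -/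
theorem onStep_opp {i i' : Fin e.g} {v v' y y' : e.X × S} {j j' : ℕ}
    (h1 : Rd (𝒢.G e.val) (seg e.c e.ℓ i 0 j) v y)
    (h2 : Stp (𝒢.G e.val) (rl e.c e.ℓ i j) y y')
    (h3 : Rd (𝒢.G e.val) (seg e.c e.ℓ i' 0 j') v' y')
    (h4 : rl e.c e.ℓ i j = ((rl e.c e.ℓ i' j').1, !(rl e.c e.ℓ i' j').2)) :
    ∃ a u z, OnStep e 𝒢 i v j a u z ∧ OnStep e 𝒢 i' v' j' a u z := by
  have h5 : Stp (𝒢.G e.val) (rl e.c e.ℓ i' j') y' y := by
    have h6 := h2
    rw [h4] at h6
    exact stp_inv.mp h6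
  cases hb : rl e.c e.ℓ i' j' with
  | mk a b =>
    rw [hb] at h4
    cases b with
    | true => exact ⟨a, y', y, (onStep_of h1 h2).2 a (by simpa using h4), (onStep_of h3 h5).1 a hb⟩
    | false => exact ⟨a, y, y', (onStep_of h1 h2).1 a (by simpa using h4), (onStep_of h3 h5).2 a hb⟩

/-- the end points of the run are not interior.
(Suppose the start `z_p` is interior.  The run edge at position `p` is incident to it, so it is
one of the two run edges at that interior vertex; by `co_excl` it is the same loop and the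
edge has position `p ≡ p + t - 1` or `p + t` with `z_p = z_{p+t}`, so `t = 1`, the edge is a loop edge
`z_p = z_{p+1}`; then the letter at position `p+1` traverses the same edge, contradiction to
`co_excl`.  Similarly for the end.) -/
theorem co_ends (hf : Folded (𝒢.G e.val)) {i : Fin e.g} {v z : e.X × S} {p : ℕ}
    (hl : LongMin e 𝒢 i v p) :
    (Rd (𝒢.G e.val) (seg e.c e.ℓ i 0 p) v z → ¬ Interior e 𝒢 z) ∧
    (Rd (𝒢.G e.val) (seg e.c e.ℓ i 0 (p + 62)) v z → ¬ Interior e 𝒢 z) := by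
  have hℓ := e.cw.big
  constructor
  · rintro hz ⟨i', v', p', r', h1, h2, hl', h3⟩
    obtain ⟨r', rfl⟩ := Nat.exists_eq_add_of_le' h1
    obtain ⟨y, y', h4, h5, h6, h7⟩ := co_letters hf h2 hl' h3
    obtain ⟨w, hw, -⟩ := co_next hf hl.1 hz
    rcases h7 _ _ hw with ⟨h9, rfl⟩ | ⟨h9, rfl⟩
    · -- opposite direction
      obtain ⟨a, u, t, h10, h11⟩ := onStep_opp hz hw h4 h9
      obtain ⟨rfl, rfl, h12⟩ := co_excl hf (r := 0) (by omega) hl h10 hl'.1 h11
      obtain rfl := hl.uniq hl'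
      have h13 := rl_modadd' p r' (e.ℓ + 3) (by omega)
      have h14 : p % (e.ℓ + 3) < e.ℓ + 3 := Nat.mod_lt _ (by omega)
      have h15 : r' = 0 := by
        rw [Nat.add_zero] at h12
        omega
      subst h15
      rw [Nat.add_zero] at h9
      have := congrArg Prod.snd h9
      simp only at this
      cases hb : (rl e.c e.ℓ i p).2 <;> rw [hb] at this <;> simp at this
    · obtain ⟨a, u, t, h10, h11⟩ := onStep_same hz hw h3 h9
      obtain ⟨rfl, rfl, h12⟩ := co_excl hf (r := 0) (by omega) hl h10 hl'.1 h11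
      obtain rfl := hl.uniq hl'
      have h13 := rl_modadd' p (r' + 1) (e.ℓ + 3) (by omega)
      have h14 : p % (e.ℓ + 3) < e.ℓ + 3 := Nat.mod_lt _ (by omega)
      rw [Nat.add_zero] at h12
      omega
  · rintro hz ⟨i', v', p', r', h1, h2, hl', h3⟩
    obtain ⟨r', rfl⟩ := Nat.exists_eq_add_of_le' h1
    obtain ⟨y, y', h4, h5, h6, h7⟩ := co_letters hf h2 hl' h3
    have hz' := hz
    rw [show p + 62 = p + 61 + 1 by omega, seg_succ_right, rd_append] at hz'
    obtain ⟨q, hq, z', hqz, hzz⟩ := hz'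
    have hzz' : z' = z := hzz
    subst hzz'
    rw [Nat.zero_add] at hqz
    have hqi := stp_inv.mpr hqz
    have h13 := rl_modadd' p 61 (e.ℓ + 3) (by omega)
    have h14 : p % (e.ℓ + 3) < e.ℓ + 3 := Nat.mod_lt _ (by omega)
    rcases h7 _ _ hqi with ⟨h9, rfl⟩ | ⟨h9, rfl⟩
    · have h9' : rl e.c e.ℓ i (p + 61) = rl e.c e.ℓ i' (p' + r') := by
        have e1 := congrArg Prod.fst h9
        have e2 := congrArg Prod.snd h9
        simp only at e1 e2
        exact Prod.ext e1 (by simpa using e2)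
      obtain ⟨a, u, t, h10, h11⟩ := onStep_same hq hqz h4 h9'
      obtain ⟨rfl, rfl, h12⟩ := co_excl hf (r := 61) (by omega) hl h10 hl'.1 h11
      obtain rfl := hl.uniq hl'
      have h15 := rl_modadd' p r' (e.ℓ + 3) (by omega)
      omega
    · obtain ⟨a, u, t, h10, h11⟩ := onStep_opp (i := i) (v := v) (i' := i') (v' := v')
        (y := q) (y' := z') hq hqz h3 (by
          rw [← h9]
          exact Prod.ext rfl (by simp))
      obtain ⟨rfl, rfl, h12⟩ := co_excl hf (r := 61) (by omega) hl h10 hl'.1 h11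
      obtain rfl := hl.uniq hl'
      have h15 := rl_modadd' p (r' + 1) (e.ℓ + 3) (by omega)
      have h16 : r' = 60 := by omega
      subst h16
      have := congrArg Prod.snd h9
      simp only at this
      cases hb : (rl e.c e.ℓ i (p + 61)).2 <;>
        rw [show p + (60 + 1) = p + 61 by omega, hb] at this <;> simp at this

/-- base vertices are not interior, base `t`-edges are not removed -/
theorem co_base {b : S} (h : Base e 𝒢 b) (x : e.X) :
    ¬ Interior e 𝒢 (x, b) ∧ ¬ Removed e 𝒢 none (x, b) ((e.val none)⁻¹ • x, b) := by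
  have key : ∀ x : e.X, ¬ Interior e 𝒢 (x, b) := by
    rintro x ⟨i, v, p, r, h1, h2, hl, h3⟩
    obtain ⟨r, rfl⟩ := Nat.exists_eq_add_of_le' h1
    obtain ⟨y, y', h4, h5, h6, h7⟩ := co_letters h.folded h2 hl h3
    have a1 : Stp (𝒢.G e.val) (none, true) (x, b) ((e.val none)⁻¹ • x, b) := by
      simp only [Stp, if_true]
      exact ⟨rfl, h.base_t x⟩
    have a2 : Stp (𝒢.G e.val) (none, false) (x, b) (e.val none • x, b) := by
      simp only [Stp, Bool.false_eq_true, if_false]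
      refine ⟨?_, h.base_t _⟩
      simp
    have hno := rl_no_tt (c := e.c) (ℓ := e.ℓ) i (p + r)
    rw [Nat.add_assoc] at hno
    have hred := rl_red e.cw i (p + r)
    rw [Nat.add_assoc] at hred
    rcases h7 _ _ a1 with ⟨b1, -⟩ | ⟨b1, -⟩ <;> rcases h7 _ _ a2 with ⟨b2, -⟩ | ⟨b2, -⟩
    · rw [← b1] at b2
      simp at b2
    · apply hno
      have e1 := congrArg Prod.fst b1
      have e2 := congrArg Prod.snd b1
      simp only at e1 e2
      refine ⟨e1.symm, ?_⟩
      rw [← b2]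
      refine Prod.ext e1 ?_
      cases hb : (rl e.c e.ℓ i (p + r)).2
      · rfl
      · rw [hb] at e2; simp at e2
    · apply hno
      have e1 := congrArg Prod.fst b2
      have e2 := congrArg Prod.snd b2
      simp only at e1 e2
      refine ⟨e1.symm, ?_⟩
      rw [← b1]
      refine Prod.ext e1 ?_
      cases hb : (rl e.c e.ℓ i (p + r)).2
      · rw [hb] at e2; simp at e2
      · rfl
    · rw [← b1] at b2
      simp at b2
  refine ⟨key x, ?_⟩
  rintro ⟨i, v, p, r, hr, hl, y, y', h1, h2, h3⟩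
  have hy : ∃ q q', y = (q, b) ∧ y' = (q', b) := by
    rcases h3 with ⟨-, h4, h5⟩ | ⟨-, h4, h5⟩
    · exact ⟨_, _, h4, h5⟩
    · exact ⟨_, _, h4, h5⟩
  obtain ⟨q, q', rfl, rfl⟩ := hy
  rcases Nat.eq_zero_or_pos r with h0 | h0
  · subst h0
    apply key q'
    refine ⟨i, v, p, 1, le_rfl, by omega, hl, ?_⟩
    rw [seg_succ_right, rd_append]
    exact ⟨_, h1, _, by rw [Nat.zero_add]; exact h2, rfl⟩
  · exact key q ⟨i, v, p, r, h0, hr, hl, h1⟩

theorem stp_col {ε : Lab e.g × Bool} {y y' : e.X × S} :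
    Stp ((colF e 𝒢).G e.val) ε y y' ↔ Stp (𝒢.G e.val) ε y y' ∧
      ∀ a u z, ((ε = (a, true) ∧ y = u ∧ y' = z) ∨ (ε = (a, false) ∧ y = z ∧ y' = u)) →
        ¬ Removed e 𝒢 a u z := by
  obtain ⟨a, b⟩ := ε
  have key : ∀ y y' : e.X × S, ((colF e 𝒢).G e.val) a y y' ↔
      (𝒢.G e.val) a y y' ∧ ¬ Removed e 𝒢 a y y' := by
    intro y y'
    constructor
    · rintro ⟨h1, h2, h3⟩
      refine ⟨⟨h1, h2⟩, ?_⟩
      rw [← h1] at h3
      exact h3
    · rintro ⟨⟨h1, h2⟩, h3⟩
      refine ⟨h1, h2, ?_⟩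
      rw [← h1]
      exact h3
  cases b with
  | true =>
    simp only [Stp, if_true, key, Prod.mk.injEq, and_true, Bool.true_eq_false, and_false,
      false_and, or_false]
    constructor
    · rintro ⟨h1, h2⟩
      refine ⟨h1, ?_⟩
      rintro _ _ _ ⟨rfl, rfl, rfl⟩
      exact h2
    · rintro ⟨h1, h2⟩
      exact ⟨h1, h2 _ _ _ ⟨rfl, rfl, rfl⟩⟩
  | false =>
    simp only [Stp, Bool.false_eq_true, if_false, key, Prod.mk.injEq, and_true, and_false,
      false_and, false_or]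
    constructor
    · rintro ⟨h1, h2⟩
      refine ⟨h1, ?_⟩
      rintro _ _ _ ⟨rfl, rfl, rfl⟩
      exact h2
    · rintro ⟨h1, h2⟩
      exact ⟨h1, h2 _ _ _ ⟨rfl, rfl, rfl⟩⟩

/-- a segment of the relator survives if none of its steps is removed -/
theorem co_seg {f : Lab e.g → e.X × S → e.X × S → ℝ} {i : Fin e.g} {v : e.X × S} {len : ℕ} :
    ∀ {k : ℕ} {y z : e.X × S} {r : ℝ}, Rd (𝒢.G e.val) (seg e.c e.ℓ i 0 k) v y →
    RS (𝒢.G e.val) f (seg e.c e.ℓ i k len) y z r →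
    (∀ j, k ≤ j → j < k + len → ∀ a u z, OnStep e 𝒢 i v j a u z → ¬ Removed e 𝒢 a u z) →
    RS ((colF e 𝒢).G e.val) f (seg e.c e.ℓ i k len) y z r := by
  induction len with
  | zero => intro k y z r _ h2 _; exact h2
  | succ len ih =>
    intro k y z r h1 h2 h3
    rw [seg_succ] at h2 ⊢
    obtain ⟨y', r', h4, h5, h6⟩ := h2
    refine ⟨y', r', stp_col.mpr ⟨h4, ?_⟩, ih ?_ h5 ?_, h6⟩
    · intro a u z' h7
      exact h3 k le_rfl (by omega) a u z' ⟨y, y', h1, h4, h7⟩
    · rw [seg_succ_right, rd_append]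
      exact ⟨y, h1, y', by rw [Nat.zero_add]; exact h4, rfl⟩
    · intro j hj1 hj2
      exact h3 j (by omega) (by omega)

/-- short loops survive -/
theorem co_short (hf : Folded (𝒢.G e.val)) {f : Lab e.g → e.X × S → e.X × S → ℝ} {s : S}
    {i : Fin e.g} {x : e.X} {r : ℝ} (hx : x ∈ shortAt e 𝒢 (s, i))
    (hr : RS (𝒢.G e.val) f (seg e.c e.ℓ i 0 (e.ℓ + 3)) (x, s) (x, s) r) :
    RS ((colF e 𝒢).G e.val) f (seg e.c e.ℓ i 0 (e.ℓ + 3)) (x, s) (x, s) r := by
  refine co_seg (v := (x, s)) rfl hr ?_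
  rintro j - - a u z h1 ⟨i', v', p', r', h2, h3, h4⟩
  obtain ⟨rfl, rfl, -⟩ := co_excl hf h2 h3 h4 (v' := (x, s)) hx.1 h1
  exact hx.2 ⟨hx.1, p', h3.2.1⟩

/-- the complement of the run of a long loop survives -/
theorem co_compl (hf : Folded (𝒢.G e.val)) {f : Lab e.g → e.X × S → e.X × S → ℝ}
    {i : Fin e.g} {v z z' : e.X × S} {p : ℕ} {r : ℝ} (hl : LongMin e 𝒢 i v p)
    (hz : Rd (𝒢.G e.val) (seg e.c e.ℓ i 0 (p + 62)) v z)
    (hr : RS (𝒢.G e.val) f (seg e.c e.ℓ i (p + 62) (e.ℓ + 3 - 62)) z z' r) :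
    RS ((colF e 𝒢).G e.val) f (seg e.c e.ℓ i (p + 62) (e.ℓ + 3 - 62)) z z' r := by
  have hℓ := e.cw.big
  refine co_seg (v := v) hz hr ?_
  rintro j hj1 hj2 a u z h1 ⟨i', v', p', r', h2, h3, h4⟩
  obtain ⟨rfl, rfl, h5⟩ := co_excl hf h2 h3 h4 hl.1 h1
  obtain rfl := hl.uniq h3
  obtain ⟨d, rfl⟩ := Nat.exists_eq_add_of_le hj1
  have h6 := rl_modadd' p r' (e.ℓ + 3) (by omega)
  have h7 := rl_modadd' p (62 + d) (e.ℓ + 3) (by omega)
  rw [show p + (62 + d) = p + 62 + d by omega] at h7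
  have h14 : p % (e.ℓ + 3) < e.ℓ + 3 := Nat.mod_lt _ (by omega)
  omega

namespace COCaux

variable (e 𝒢) in
/-- measurability of readings to an arbitrary translate (the action is free) -/
theorem meas_rd_any [Countable S] (hm : FMeas 𝒢) (w : List (Lab e.g × Bool)) (s s' : S)
    (γ : e.Γ) : MeasurableSet {x : e.X | Rd (𝒢.G e.val) w (x, s) (γ • x, s')} := by
  have hms : ∀ γ : e.Γ, Measurable fun x : e.X => γ • x := fun γ => (e.pmp γ).measurable
  by_cases hγ : γ = (wval e.val w)⁻¹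
  · exact meas_rd (val := e.val) hms hm w s s' γ hγ
  · have : {x : e.X | Rd (𝒢.G e.val) w (x, s) (γ • x, s')} = ∅ := by
      ext x
      refine ⟨fun hx => hγ ?_, fun hx => hx.elim⟩
      have h1 : γ • x = (wval e.val w)⁻¹ • x := rd_point hx
      have h2 : ((wval e.val w) * γ) • x = x := by
        rw [mul_smul, h1, smul_inv_smul]
      have h3 := e.free _ _ h2
      exact eq_inv_of_mul_eq_one_right h3
    rw [this]
    exact MeasurableSet.empty

variable (e 𝒢) in
theorem meas_longMin [Countable S] (hm : FMeas 𝒢) (i : Fin e.g) (s : S) (p : ℕ) :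
    MeasurableSet {x : e.X | LongMin e 𝒢 i (x, s) p} := by
  have hms : ∀ γ : e.Γ, Measurable fun x : e.X => γ • x := fun γ => (e.pmp γ).measurable
  have hdeg : ∀ s : S, MeasurableSet {x : e.X | ¬ deg (𝒢.G e.val) (x, s) ≤ 2} := by
    intro s
    have : {x : e.X | ¬ deg (𝒢.G e.val) (x, s) ≤ 2} =
        ⋃ d, ⋃ (_ : ¬ d ≤ 2), {x : e.X | deg (𝒢.G e.val) (x, s) = d} := by
      ext x
      simp
    rw [this]
    exact MeasurableSet.iUnion fun d => MeasurableSet.iUnion fun _ =>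
      meas_deg (val := e.val) hms hm s d
  have hrun : ∀ p, MeasurableSet {x : e.X | RunAt e 𝒢 i (x, s) p} := by
    intro p
    have : {x : e.X | RunAt e 𝒢 i (x, s) p} = ⋂ r, ⋂ (_ : 1 ≤ r), ⋂ (_ : r ≤ 61),
        {x : e.X | ∃ v, Rd (𝒢.G e.val) (seg e.c e.ℓ i 0 (p + r)) (x, s) v ∧
          v.1 ∈ (fun s : S => {x : e.X | ¬ deg (𝒢.G e.val) (x, s) ≤ 2}) v.2}ᶜ := by
      ext x
      simp only [Set.mem_iInter, Set.mem_compl_iff]
      constructor
      · intro h r h1 h2 ⟨v, hv, hd⟩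
        exact hd (h r h1 h2 v hv)
      · intro h r h1 h2 z hz
        by_contra hd
        exact h r h1 h2 ⟨z, hz, hd⟩
    rw [this]
    exact MeasurableSet.iInter fun r => MeasurableSet.iInter fun _ => MeasurableSet.iInter
      fun _ => (meas_rd_prop (val := e.val) hms hm _ s _ hdeg).compl
  have : {x : e.X | LongMin e 𝒢 i (x, s) p} = closedAt e 𝒢 0 (s, i) ∩
      ({x : e.X | RunAt e 𝒢 i (x, s) p} ∩ ⋂ p', ⋂ (_ : p' < p),
        {x : e.X | RunAt e 𝒢 i (x, s) p'}ᶜ) := by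
    ext x
    simp only [Set.mem_inter_iff, Set.mem_iInter, Set.mem_compl_iff]
    rfl
  rw [this]
  exact (meas_closedAt e hm 0 (s, i)).inter ((hrun p).inter
    (MeasurableSet.iInter fun p' => MeasurableSet.iInter fun _ => (hrun p').compl))

variable (e 𝒢) in
theorem meas_onStep [Countable S] (hm : FMeas 𝒢) (i : Fin e.g) (s : S) (j : ℕ) (a : Lab e.g)
    (n m : S) (γ : e.Γ) :
    MeasurableSet {x : e.X | OnStep e 𝒢 i (x, s) j a (γ • x, n)
      ((e.val a)⁻¹ • γ • x, m)} := by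
  have hms : ∀ γ : e.Γ, Measurable fun x : e.X => γ • x := fun γ => (e.pmp γ).measurable
  have : {x : e.X | OnStep e 𝒢 i (x, s) j a (γ • x, n) ((e.val a)⁻¹ • γ • x, m)} =
      (fun x : e.X => γ • x) ⁻¹' (𝒢.E a n m) ∩
      ((⋃ (_ : rl e.c e.ℓ i j = (a, true)),
        {x : e.X | Rd (𝒢.G e.val) (seg e.c e.ℓ i 0 j) (x, s) (γ • x, n)}) ∪
      (⋃ (_ : rl e.c e.ℓ i j = (a, false)),
        {x : e.X | Rd (𝒢.G e.val) (seg e.c e.ℓ i 0 j) (x, s)
          (((e.val a)⁻¹ * γ) • x, m)})) := by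
    ext x
    simp only [Set.mem_inter_iff, Set.mem_union, Set.mem_iUnion, Set.mem_preimage, exists_prop]
    constructor
    · rintro ⟨y, y', h1, h2, (⟨h3, h4, h5⟩ | ⟨h3, h4, h5⟩)⟩
      · rw [h4] at h1 h2
        rw [h5, h3] at h2
        exact ⟨h2.2, Or.inl ⟨h3, h1⟩⟩
      · rw [h4] at h1 h2
        rw [h5, h3] at h2
        refine ⟨h2.2, Or.inr ⟨h3, ?_⟩⟩
        show Rd (𝒢.G e.val) (seg e.c e.ℓ i 0 j) (x, s) (((e.val a)⁻¹ * γ) • x, m)
        rw [mul_smul]
        exact h1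
    · rintro ⟨h0, (⟨h3, h1⟩ | ⟨h3, h1⟩)⟩
      · refine ⟨_, _, h1, ?_, Or.inl ⟨h3, rfl, rfl⟩⟩
        rw [h3]
        exact ⟨rfl, h0⟩
      · have h1' : Rd (𝒢.G e.val) (seg e.c e.ℓ i 0 j) (x, s)
            (((e.val a)⁻¹ * γ) • x, m) := h1
        rw [mul_smul] at h1'
        refine ⟨_, _, h1', ?_, Or.inr ⟨h3, rfl, rfl⟩⟩
        rw [h3]
        exact ⟨rfl, h0⟩
  rw [this]
  exact (hms γ (hm a n m)).inter ((MeasurableSet.iUnion fun _ => meas_rd_any e 𝒢 hm _ _ _ _).union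
    (MeasurableSet.iUnion fun _ => meas_rd_any e 𝒢 hm _ _ _ _))

/-- the start vertex of a removing loop is a translate of the source of the edge -/
theorem onStep_start {i : Fin e.g} {v : e.X × S} {j : ℕ} {a : Lab e.g} {u z : e.X × S}
    (h : OnStep e 𝒢 i v j a u z) : ∃ γ : e.Γ, v.1 = γ⁻¹ • u.1 ∧ z.1 = (e.val a)⁻¹ • u.1 := by
  obtain ⟨y, y', h1, h2, (⟨h3, rfl, rfl⟩ | ⟨h3, rfl, rfl⟩)⟩ := h
  · rw [h3] at h2
    have h4 := rd_point h1
    refine ⟨(wval e.val (seg e.c e.ℓ i 0 j))⁻¹, ?_, h2.1⟩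
    rw [h4, inv_inv, smul_inv_smul]
  · rw [h3] at h2
    have h4 := rd_point h1
    have h5 : y.1 = (e.val a)⁻¹ • y'.1 := h2.1
    refine ⟨(wval e.val (seg e.c e.ℓ i 0 j) * (e.val a)⁻¹)⁻¹, ?_, h5⟩
    rw [inv_inv, mul_smul, ← h5, h4, smul_inv_smul]

variable (e 𝒢) in
theorem meas_removed [Countable S] (hm : FMeas 𝒢) (a : Lab e.g) (n m : S) :
    MeasurableSet {x : e.X | Removed e 𝒢 a (x, n) ((e.val a)⁻¹ • x, m)} := by
  have hms : ∀ γ : e.Γ, Measurable fun x : e.X => γ • x := fun γ => (e.pmp γ).measurable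
  have : {x : e.X | Removed e 𝒢 a (x, n) ((e.val a)⁻¹ • x, m)} =
      ⋃ i : Fin e.g, ⋃ s : S, ⋃ γ : e.Γ, ⋃ p : ℕ, ⋃ r : ℕ, ⋃ (_ : r ≤ 61),
        (fun x : e.X => γ⁻¹ • x) ⁻¹' ({x | LongMin e 𝒢 i (x, s) p} ∩
          {x : e.X | OnStep e 𝒢 i (x, s) (p + r) a (γ • x, n)
            ((e.val a)⁻¹ • γ • x, m)}) := by
    ext x
    simp only [Set.mem_inter_iff, Set.mem_iUnion, Set.mem_preimage, exists_prop]
    constructor
    · rintro ⟨i, v, p, r, h1, h2, h3⟩
      obtain ⟨γ, h4, -⟩ := onStep_start h3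
      refine ⟨i, v.2, γ, p, r, h1, ?_, ?_⟩
      · show LongMin e 𝒢 i (γ⁻¹ • x, v.2) p
        rw [← h4]; exact h2
      · show OnStep e 𝒢 i (γ⁻¹ • x, v.2) (p + r) a (γ • γ⁻¹ • x, n)
            ((e.val a)⁻¹ • γ • γ⁻¹ • x, m)
        rw [smul_inv_smul, ← h4]; exact h3
    · rintro ⟨i, s, γ, p, r, h1, h2, h3⟩
      refine ⟨i, (γ⁻¹ • x, s), p, r, h1, h2, ?_⟩
      have h4 : OnStep e 𝒢 i (γ⁻¹ • x, s) (p + r) a (γ • γ⁻¹ • x, n)
            ((e.val a)⁻¹ • γ • γ⁻¹ • x, m) := h3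
      rwa [smul_inv_smul] at h4
  rw [this]
  exact MeasurableSet.iUnion fun i => MeasurableSet.iUnion fun s => MeasurableSet.iUnion fun γ =>
    MeasurableSet.iUnion fun p => MeasurableSet.iUnion fun r => MeasurableSet.iUnion fun _ =>
      hms _ ((meas_longMin e 𝒢 hm i s p).inter (meas_onStep e 𝒢 hm i s (p + r) a n m γ))

end COCaux

theorem co_meas [Countable S] (hm : FMeas 𝒢) : FMeas (colF e 𝒢) := by
  intro a n m
  exact (hm a n m).inter (COCaux.meas_removed e 𝒢 hm a n m).compl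

/-- CO2, COUNT (`mt_le` with `c = 62`): the `62` run edges of a long loop are distinct and
belong to no other long loop. -/
theorem co_count [Countable S] (hm : FMeas 𝒢) (hf : Folded (𝒢.G e.val)) :
    cnt e.μ (colF e 𝒢).Es + 62 * cnt e.μ (longAt e 𝒢) ≤ cnt e.μ 𝒢.Es := by
  classical
  have hms : ∀ γ : e.Γ, Measurable fun x : e.X => γ • x := fun γ => (e.pmp γ).measurable
  set B : EI (Lab e.g) S → Set e.X := fun ed =>
    {x | x ∈ 𝒢.Es ed ∧ Removed e 𝒢 ed.1 (x, ed.2.1) ((e.val ed.1)⁻¹ • x, ed.2.2)} with hB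
  have hBm : ∀ ed, MeasurableSet (B ed) := fun ed =>
    (hm _ _ _).inter (COCaux.meas_removed e 𝒢 hm _ _ _)
  have hsplit : cnt e.μ (colF e 𝒢).Es + cnt e.μ B = cnt e.μ 𝒢.Es := by
    rw [← cnt_inter_add_diff (μ := e.μ) 𝒢.Es (B := (colF e 𝒢).Es)
      (fun ed => co_meas hm _ _ _)]
    congr 1
    · congr 1
      funext ed
      ext x
      exact ⟨fun h => ⟨h.1, h⟩, fun h => h.2⟩
    · congr 1
      funext ed
      ext x
      constructor
      · rintro ⟨h1, h2⟩
        exact ⟨h1, fun h3 => h3.2 h2⟩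
      · rintro ⟨h1, h2⟩
        refine ⟨h1, ?_⟩
        by_contra h3
        exact h2 ⟨h1, h3⟩
  rw [← hsplit]
  refine add_le_add le_rfl ?_
  have hℓ : 1000 ≤ e.ℓ := e.cw.big
  have hh := mt_le (Γ := e.Γ) (P := S × Fin e.g) (Q := EI (Lab e.g) S) e.pmp
    (A := longAt e 𝒢) (B := B) hBm
    (fun q γ ed => {x | ∃ p r, r ≤ 61 ∧ LongMin e 𝒢 q.2 (x, q.1) p ∧
      OnStep e 𝒢 q.2 (x, q.1) (p + r) ed.1 (γ • x, ed.2.1) ((e.val ed.1)⁻¹ • γ • x, ed.2.2)})
    (by
      rintro ⟨s, i⟩ γ ⟨a, n, m⟩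
      have : {x : e.X | ∃ p r, r ≤ 61 ∧ LongMin e 𝒢 i (x, s) p ∧
          OnStep e 𝒢 i (x, s) (p + r) a (γ • x, n) ((e.val a)⁻¹ • γ • x, m)} =
          ⋃ p : ℕ, ⋃ r : ℕ, ⋃ (_ : r ≤ 61), ({x | LongMin e 𝒢 i (x, s) p} ∩
            {x : e.X | OnStep e 𝒢 i (x, s) (p + r) a (γ • x, n)
              ((e.val a)⁻¹ • γ • x, m)}) := by
        ext x
        simp only [Set.mem_inter_iff, Set.mem_iUnion, exists_prop]
        rfl
      show MeasurableSet {x : e.X | ∃ p r, r ≤ 61 ∧ LongMin e 𝒢 i (x, s) p ∧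
          OnStep e 𝒢 i (x, s) (p + r) a (γ • x, n) ((e.val a)⁻¹ • γ • x, m)}
      rw [this]
      exact MeasurableSet.iUnion fun p => MeasurableSet.iUnion fun r => MeasurableSet.iUnion
        fun _ => (COCaux.meas_longMin e 𝒢 hm i s p).inter
          (COCaux.meas_onStep e 𝒢 hm i s (p + r) a n m γ))
    62 1
    (by
      rintro ⟨s, i⟩ x ⟨hx1, hx2⟩
      -- the first run
      have hex : ∃ p, RunAt e 𝒢 i (x, s) p := hx2
      have hl : LongMin e 𝒢 i (x, s) (Nat.find hex) :=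
        ⟨hx1, Nat.find_spec hex, fun p' hp' => Nat.find_min hex hp'⟩
      set p := Nat.find hex with hp
      have hc' : Rd (𝒢.G e.val) (seg e.c e.ℓ i 0 (e.ℓ + 3)) (x, s) (x, s) := hx1
      -- for every `r` there is an edge
      have hed : ∀ r : ℕ, ∃ gq : e.Γ × EI (Lab e.g) S,
          OnStep e 𝒢 i (x, s) (p + r) gq.2.1 (gq.1 • x, gq.2.2.1)
            ((e.val gq.2.1)⁻¹ • gq.1 • x, gq.2.2.2) := by
        intro r
        obtain ⟨z, hz, -⟩ := closed_read hf hc' (p + r + 1)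
        rw [seg_add, rd_append] at hz
        obtain ⟨y, hy1, hy2⟩ := hz
        rw [show (1 : ℕ) = 0 + 1 from rfl, seg_succ] at hy2
        obtain ⟨y', hy3, hy4⟩ := hy2
        rw [zero_add] at hy3
        have hpy : y.1 = (wval e.val (seg e.c e.ℓ i 0 (p + r)))⁻¹ • x := rd_point hy1
        rcases hrl : rl e.c e.ℓ i (p + r) with ⟨a, σ⟩
        cases σ
        · rw [hrl] at hy3
          have h5 : y.1 = (e.val a)⁻¹ • y'.1 := hy3.1
          have h6 : y'.1 = (e.val a * (wval e.val (seg e.c e.ℓ i 0 (p + r)))⁻¹) • x := by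
            rw [mul_smul, ← hpy, h5, smul_inv_smul]
          refine ⟨(e.val a * (wval e.val (seg e.c e.ℓ i 0 (p + r)))⁻¹, (a, y'.2, y.2)),
            y, y', hy1, ?_, Or.inr ⟨hrl, ?_, ?_⟩⟩
          · rw [hrl]; exact hy3
          · refine Prod.ext ?_ rfl
            show y.1 = _
            simp only []
            rw [← h6]; exact h5
          · exact Prod.ext h6 rfl
        · rw [hrl] at hy3
          refine ⟨((wval e.val (seg e.c e.ℓ i 0 (p + r)))⁻¹, (a, y.2, y'.2)),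
            y, y', hy1, ?_, Or.inl ⟨hrl, ?_, ?_⟩⟩
          · rw [hrl]; exact hy3
          · exact Prod.ext hpy rfl
          · refine Prod.ext ?_ rfl
            show y'.1 = _
            simp only []
            rw [← hpy]
            exact hy3.1
      choose E hE using hed
      have hinj : Set.InjOn E (Set.Iic 61) := by
        intro r hr r' hr' hrr
        have h1 := hE r
        have h2 := hE r'
        rw [← hrr] at h2
        have h3 := (co_excl hf (Set.mem_Iic.1 hr) hl h1 hx1 h2).2.2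
        have h4 : r % (e.ℓ + 3) = r' % (e.ℓ + 3) := (Nat.ModEq.add_left_cancel' p h3 : _)
        have hr1 := Set.mem_Iic.1 hr
        have hr2 := Set.mem_Iic.1 hr'
        rwa [Nat.mod_eq_of_lt (by omega), Nat.mod_eq_of_lt (by omega)] at h4
      have hsub : E '' (Set.Iic 61) ⊆ {gq : e.Γ × EI (Lab e.g) S |
          x ∈ {x : e.X | ∃ p r, r ≤ 61 ∧ LongMin e 𝒢 i (x, s) p ∧
          OnStep e 𝒢 i (x, s) (p + r) gq.2.1 (gq.1 • x, gq.2.2.1)
            ((e.val gq.2.1)⁻¹ • gq.1 • x, gq.2.2.2)}} := by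
        rintro _ ⟨r, hr, rfl⟩
        exact ⟨p, r, Set.mem_Iic.1 hr, hl, hE r⟩
      refine le_trans ?_ (Set.encard_le_encard hsub)
      rw [hinj.encard_image]
      have : (Set.Iic 61 : Set ℕ) = ((Finset.Iic 61 : Finset ℕ) : Set ℕ) := by simp
      rw [this, Set.encard_coe_eq_coe_finsetCard]
      simp)
    (by
      rintro ⟨s, i⟩ γ ⟨a, n, m⟩ x ⟨p, r, hr, hl, ho⟩
      refine ⟨?_, i, (x, s), p, r, hr, hl, ho⟩
      obtain ⟨y, y', h1, h2, (⟨h3, h4, h5⟩ | ⟨h3, h4, h5⟩)⟩ := ho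
      · rw [h3, h4, h5] at h2
        exact h2.2
      · rw [h3, h4, h5] at h2
        exact h2.2)
    (by
      rintro ⟨a, n, m⟩ y
      rw [Nat.cast_one, Set.encard_le_one_iff]
      rintro ⟨γ, s, i⟩ ⟨γ', s', i'⟩ ⟨p, r, hr, hl, ho⟩ ⟨p', r', hr', hl', ho'⟩
      simp only [smul_inv_smul] at hl ho hl' ho'
      obtain ⟨h1, h2, -⟩ := co_excl hf hr hl ho hl'.1 ho'
      subst h1
      have h3 := (Prod.ext_iff.1 h2).1
      have h4 := (Prod.ext_iff.1 h2).2
      simp only at h3 h4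
      subst h4
      have h5 : (γ' * γ⁻¹) • y = y := by
        rw [mul_smul, h3, smul_inv_smul]
      have h6 := e.free _ _ h5
      have h7 : γ' = γ := by
        rwa [mul_inv_eq_one] at h6
      rw [h7])
  simpa using hh

namespace COD

theorem longMin_unique {i : Fin e.g} {v : e.X × S} {p p' : ℕ} (h : LongMin e 𝒢 i v p)
    (h' : LongMin e 𝒢 i v p') : p = p' := by
  rcases lt_trichotomy p p' with hlt | heq | hgt
  · exact absurd h.2.1 (h'.2.2 p hlt)
  · exact heq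
  · exact absurd h'.2.1 (h.2.2 p' hgt)

theorem meas_runAt [Countable S] (hm : FMeas 𝒢) (i : Fin e.g) (p : ℕ) (s : S) :
    MeasurableSet {x : e.X | RunAt e 𝒢 i (x, s) p} := by
  have hms : ∀ γ : e.Γ, Measurable fun x : e.X => γ • x := fun γ => e.meas_smul γ
  have hW : ∀ s : S, MeasurableSet {x : e.X | ¬ deg (𝒢.G e.val) (x, s) ≤ 2} := by
    intro s
    have : {x : e.X | ¬ deg (𝒢.G e.val) (x, s) ≤ 2} =
        (⋃ d, ⋃ (_ : d ≤ 2), {x : e.X | deg (𝒢.G e.val) (x, s) = d})ᶜ := by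
      ext x
      simp only [Set.mem_setOf_eq, Set.mem_compl_iff, Set.mem_iUnion, exists_prop, not_exists,
        not_and]
      constructor
      · intro h d hd hd'
        exact h (hd' ▸ hd)
      · intro h h'
        exact h _ h' rfl
    rw [this]
    exact (MeasurableSet.iUnion fun d => MeasurableSet.iUnion fun _ =>
      meas_deg hms hm s d).compl
  have : {x : e.X | RunAt e 𝒢 i (x, s) p} =
      (⋃ r, ⋃ (_ : 1 ≤ r ∧ r ≤ 61), {x : e.X | ∃ v, Rd (𝒢.G e.val) (seg e.c e.ℓ i 0 (p + r)) (x, s) v ∧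
        v.1 ∈ (fun s : S => {x : e.X | ¬ deg (𝒢.G e.val) (x, s) ≤ 2}) v.2})ᶜ := by
    ext x
    simp only [RunAt, Set.mem_setOf_eq, Set.mem_compl_iff, Set.mem_iUnion, exists_prop, not_exists,
      not_and, not_not]
    constructor
    · rintro h r ⟨h1, h2⟩ v hv
      exact h r h1 h2 v hv
    · intro h r h1 h2 v hv
      exact h r ⟨h1, h2⟩ v hv
  rw [this]
  exact (MeasurableSet.iUnion fun r => MeasurableSet.iUnion fun _ =>
    meas_rd_prop hms hm _ s _ hW).compl

theorem meas_longMin [Countable S] (hm : FMeas 𝒢) (i : Fin e.g) (p : ℕ) (s : S) :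
    MeasurableSet {x : e.X | LongMin e 𝒢 i (x, s) p} := by
  have : {x : e.X | LongMin e 𝒢 i (x, s) p} = closedAt e 𝒢 0 (s, i) ∩
      ({x : e.X | RunAt e 𝒢 i (x, s) p} ∩
        ⋂ p', ⋂ (_ : p' < p), {x : e.X | RunAt e 𝒢 i (x, s) p'}ᶜ) := by
    ext x
    simp only [LongMin, Set.mem_setOf_eq, Set.mem_inter_iff, Set.mem_iInter, Set.mem_compl_iff]
  rw [this]
  exact (meas_closedAt e hm 0 _).inter ((meas_runAt hm i p s).inter
    (MeasurableSet.iInter fun p' => MeasurableSet.iInter fun _ => (meas_runAt hm i p' s).compl))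

/-- vertices at position `p` of a long loop whose first run is `p` -/
theorem meas_T [Countable S] (hm : FMeas 𝒢) (i : Fin e.g) (p : ℕ) (s : S) :
    MeasurableSet {y : e.X | ∃ v, LongMin e 𝒢 i v p ∧
      Rd (𝒢.G e.val) (seg e.c e.ℓ i 0 p) v (y, s)} := by
  have hms : ∀ γ : e.Γ, Measurable fun x : e.X => γ • x := fun γ => e.meas_smul γ
  set γ := wval e.val (seg e.c e.ℓ i 0 p) with hγ
  have : {y : e.X | ∃ v, LongMin e 𝒢 i v p ∧
      Rd (𝒢.G e.val) (seg e.c e.ℓ i 0 p) v (y, s)} =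
      ⋃ s', (fun y : e.X => γ • y) ⁻¹' ({x : e.X | LongMin e 𝒢 i (x, s') p} ∩
        {x : e.X | Rd (𝒢.G e.val) (seg e.c e.ℓ i 0 p) (x, s') (γ⁻¹ • x, s)}) := by
    ext y
    simp only [Set.mem_setOf_eq, Set.mem_iUnion, Set.mem_preimage, Set.mem_inter_iff,
      inv_smul_smul]
    constructor
    · rintro ⟨⟨x', s'⟩, h1, h2⟩
      have h3 := rd_point h2
      simp only at h3
      have h4 : γ • y = x' := by rw [h3, smul_inv_smul]
      exact ⟨s', by rw [h4]; exact h1, by rw [h4]; exact h2⟩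
    · rintro ⟨s', h1, h2⟩
      exact ⟨_, h1, h2⟩
  rw [this]
  exact MeasurableSet.iUnion fun s' => hms γ ((meas_longMin hm i p s').inter
    (meas_rd hms hm _ s' s _ rfl))

/-- the set over which the `a`-edge `n → m` is the step at position `p` of a long loop `i` with
first run `p` -/
def DD (e : Env) {S : Type} (𝒢 : Fld (Lab e.g) e.X S) (ed : EI (Lab e.g) S) (i : Fin e.g)
    (p : ℕ) : Set e.X :=
  {x | ∃ v, LongMin e 𝒢 i v p ∧
    OnStep e 𝒢 i v p ed.1 (x, ed.2.1) ((e.val ed.1)⁻¹ • x, ed.2.2)}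

theorem meas_DD [Countable S] (hm : FMeas 𝒢) (ed : EI (Lab e.g) S) (i : Fin e.g) (p : ℕ) :
    MeasurableSet (DD e 𝒢 ed i p) := by
  classical
  have hms : ∀ γ : e.Γ, Measurable fun x : e.X => γ • x := fun γ => e.meas_smul γ
  obtain ⟨a, n, m⟩ := ed
  have : DD e 𝒢 (a, n, m) i p =
      (⋃ (_ : rl e.c e.ℓ i p = (a, true)), (𝒢.E a n m ∩ {y : e.X | ∃ v, LongMin e 𝒢 i v p ∧
        Rd (𝒢.G e.val) (seg e.c e.ℓ i 0 p) v (y, n)})) ∪
      (⋃ (_ : rl e.c e.ℓ i p = (a, false)), (𝒢.E a n m ∩ (fun x : e.X => (e.val a)⁻¹ • x) ⁻¹'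
        {y : e.X | ∃ v, LongMin e 𝒢 i v p ∧
        Rd (𝒢.G e.val) (seg e.c e.ℓ i 0 p) v (y, m)})) := by
    ext x
    simp only [DD, OnStep, Set.mem_setOf_eq, Set.mem_union, Set.mem_iUnion, Set.mem_inter_iff,
      Set.mem_preimage, exists_prop]
    constructor
    · rintro ⟨v, h1, y, y', h2, h3, (⟨h4, rfl, rfl⟩ | ⟨h4, rfl, rfl⟩)⟩
      · left
        refine ⟨h4, ?_, v, h1, h2⟩
        rw [h4] at h3
        exact h3.2
      · right
        refine ⟨h4, ?_, v, h1, h2⟩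
        rw [h4] at h3
        exact h3.2
    · rintro (⟨h4, h5, v, h1, h2⟩ | ⟨h4, h5, v, h1, h2⟩)
      · refine ⟨v, h1, (x, n), ((e.val a)⁻¹ • x, m), h2, ?_, Or.inl ⟨h4, rfl, rfl⟩⟩
        rw [h4]
        exact ⟨rfl, h5⟩
      · refine ⟨v, h1, ((e.val a)⁻¹ • x, m), (x, n), h2, ?_, Or.inr ⟨h4, rfl, rfl⟩⟩
        rw [h4]
        exact ⟨rfl, h5⟩
  rw [this]
  exact (MeasurableSet.iUnion fun _ => (hm a n m).inter (meas_T hm i p n)).union
    (MeasurableSet.iUnion fun _ => (hm a n m).inter (hms _ (meas_T hm i p m)))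

/-- uniqueness: an edge on position `p + r` of the first run of a long loop, and at position `p'`
of another long loop with first run `p'` -/
theorem DD_unique (hf : Folded (𝒢.G e.val)) {a : Lab e.g} {n m : S} {x : e.X} {i i' : Fin e.g}
    {v : e.X × S} {p r p' : ℕ} (hr : r ≤ 61) (hl : LongMin e 𝒢 i v p)
    (h1 : OnStep e 𝒢 i v (p + r) a (x, n) ((e.val a)⁻¹ • x, m))
    (h : x ∈ DD e 𝒢 (a, n, m) i' p') : i = i' ∧ p = p' ∧ r = 0 := by
  obtain ⟨v', hl', h2⟩ := h
  obtain ⟨rfl, rfl, h3⟩ := co_excl hf hr hl h1 hl'.1 h2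
  have hp := longMin_unique hl hl'
  subst hp
  refine ⟨rfl, rfl, ?_⟩
  have hℓ := e.cw.big
  have h4 := rl_modadd p r (e.ℓ + 3) (by omega)
  have h5 : p % (e.ℓ + 3) < e.ℓ + 3 := Nat.mod_lt _ (by omega)
  split_ifs at h4 <;> omega

theorem onStep_edge {i : Fin e.g} {v : e.X × S} {j : ℕ} {a : Lab e.g} {u z : e.X × S}
    (h : OnStep e 𝒢 i v j a u z) : (𝒢.G e.val) a u z := by
  obtain ⟨y, y', -, h3, (⟨h4, rfl, rfl⟩ | ⟨h4, rfl, rfl⟩)⟩ := h
  · rw [h4] at h3
    exact h3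
  · rw [h4] at h3
    exact h3

end COD

/-- The extension of an edge function from the collapsed field.  It is specified by:
(1) it agrees with `F` on surviving edges, (2) it vanishes on the run edges at positions `p+r`,
`1 ≤ r ≤ 61`, (3) the (signed) value of the step at position `p` is minus the sum of `F` over the
complement, (4) it vanishes off the edges of `𝒢`.
It is a row map (`isRow_psum` for the field `colF`, `isRow_piecewise` over the countable data
`(i, v.2, p, group element)` describing the long loop through the edge, unique by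
`co_excl`, `isRow_shift`). -/
theorem co_ext [Countable S] (hm : FMeas 𝒢) (hf : Folded (𝒢.G e.val)) :
    ∃ ρ : EI (Lab e.g) S → (e.X → EI (Lab e.g) S → ℝ) → e.X → ℝ,
      (∀ ed, IsRow e.Γ (ρ ed)) ∧
      ∀ F : e.X → EI (Lab e.g) S → ℝ,
        (∀ x a n m, x ∈ (colF e 𝒢).E a n m → ρ (a, n, m) F x = F x (a, n, m)) ∧
        (∀ x a n m, x ∉ 𝒢.E a n m → ρ (a, n, m) F x = 0) ∧
        (∀ i v p r y y', 1 ≤ r → r ≤ 61 → LongMin e 𝒢 i v p →
          Rd (𝒢.G e.val) (seg e.c e.ℓ i 0 (p + r)) v y →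
          Stp (𝒢.G e.val) (rl e.c e.ℓ i (p + r)) y y' →
          sgn (efun fun x ed => ρ ed F x) (rl e.c e.ℓ i (p + r)) y y' = 0) ∧
        (∀ i v p y y' z t, LongMin e 𝒢 i v p →
          Rd (𝒢.G e.val) (seg e.c e.ℓ i 0 p) v y →
          Stp (𝒢.G e.val) (rl e.c e.ℓ i p) y y' →
          Rd (𝒢.G e.val) (seg e.c e.ℓ i 0 (p + 62)) v z →
          RS ((colF e 𝒢).G e.val) (efun F) (seg e.c e.ℓ i (p + 62) (e.ℓ + 3 - 62)) z y t →
          sgn (efun fun x ed => ρ ed F x) (rl e.c e.ℓ i p) y y' = -t) := by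
  classical
  have hms : ∀ γ : e.Γ, Measurable fun x : e.X => γ • x := fun γ => e.meas_smul γ
  have hcm : FMeas (colF e 𝒢) := co_meas hm
  have hcf : Folded ((colF e 𝒢).G e.val) := by
    refine ⟨fun a u v v' h h' => hf.1 a u v v' ⟨h.1, h.2.1⟩ ⟨h'.1, h'.2.1⟩,
      fun a u u' v h h' => hf.2 a u u' v ⟨h.1, h.2.1⟩ ⟨h'.1, h'.2.1⟩⟩
  -- path sums
  have hps := fun (i : Fin e.g) (p : ℕ) (s : S) =>
    isRow_psum (Γ := e.Γ) (val := e.val) hms hcm hcf
      (winv (seg e.c e.ℓ i (p + 62) (e.ℓ + 3 - 62))) s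
  choose Φ hΦ hΦ' using hps
  -- the data
  let j : EI (Lab e.g) S → e.X → Option (Fin e.g × ℕ) := fun ed x =>
    if h : ∃ ip : Fin e.g × ℕ, x ∈ COD.DD e 𝒢 ed ip.1 ip.2 then some h.choose else none
  have hj_some : ∀ ed x i p, x ∈ COD.DD e 𝒢 ed i p → j ed x = some (i, p) := by
    intro ed x i p hx
    have hex : ∃ ip : Fin e.g × ℕ, x ∈ COD.DD e 𝒢 ed ip.1 ip.2 := ⟨(i, p), hx⟩
    simp only [j, dif_pos hex]
    have h1 := hex.choose_spec
    obtain ⟨v, hl, h2⟩ := hx
    have h3 := COD.DD_unique (r := 0) hf (by norm_num) hl h2 h1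
    have h4 : ((i, p) : Fin e.g × ℕ) = hex.choose := Prod.ext h3.1 h3.2.1
    rw [← h4]
  have hj_none : ∀ ed x, (∀ i p, x ∉ COD.DD e 𝒢 ed i p) → j ed x = none := by
    intro ed x hx
    have : ¬ ∃ ip : Fin e.g × ℕ, x ∈ COD.DD e 𝒢 ed ip.1 ip.2 := by
      rintro ⟨ip, h⟩
      exact hx _ _ h
    simp only [j, dif_neg this]
  have hj_iff : ∀ ed x i p, j ed x = some (i, p) ↔ x ∈ COD.DD e 𝒢 ed i p := by
    intro ed x i p
    refine ⟨fun h => ?_, hj_some ed x i p⟩
    by_cases hex : ∃ ip : Fin e.g × ℕ, x ∈ COD.DD e 𝒢 ed ip.1 ip.2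
    · obtain ⟨⟨i', p'⟩, h'⟩ := hex
      rw [hj_some ed x i' p' h'] at h
      simp only [Option.some.injEq, Prod.mk.injEq] at h
      obtain ⟨rfl, rfl⟩ := h
      exact h'
    · simp only [j, dif_neg hex] at h
      exact absurd h (by simp)
  have hjm : ∀ ed k, MeasurableSet {x | j ed x = k} := by
    intro ed k
    cases k with
    | some ip =>
      obtain ⟨i, p⟩ := ip
      have : {x | j ed x = some (i, p)} = COD.DD e 𝒢 ed i p := by
        ext x
        exact hj_iff ed x i p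
      rw [this]
      exact COD.meas_DD hm ed i p
    | none =>
      have : {x | j ed x = none} = (⋃ i, ⋃ p, COD.DD e 𝒢 ed i p)ᶜ := by
        ext x
        simp only [Set.mem_setOf_eq, Set.mem_compl_iff, Set.mem_iUnion, not_exists]
        constructor
        · intro h i p hx
          rw [hj_some ed x i p hx] at h
          exact absurd h (by simp)
        · intro h
          exact hj_none ed x h
      rw [this]
      exact (MeasurableSet.iUnion fun i => MeasurableSet.iUnion fun p =>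
        COD.meas_DD hm ed i p).compl
  let Ψ : EI (Lab e.g) S → Option (Fin e.g × ℕ) → (e.X → EI (Lab e.g) S → ℝ) → e.X → ℝ :=
    fun ed k => match k with
      | none => fun _ _ => 0
      | some (i, p) => if rl e.c e.ℓ i p = (ed.1, true) then fun F x => Φ i p ed.2.1 F x
          else fun F x => - Φ i p ed.2.2 F ((e.val ed.1)⁻¹ • x)
  have hΨ : ∀ ed k, IsRow e.Γ (Ψ ed k) := by
    intro ed k
    cases k with
    | none => exact isRow_zero
    | some ip =>
      obtain ⟨i, p⟩ := ip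
      simp only [Ψ]
      split_ifs
      · exact hΦ i p ed.2.1
      · exact isRow_neg (isRow_shift hms (hΦ i p ed.2.2) _)
  refine ⟨fun ed F x => if x ∈ (colF e 𝒢).Es ed then F x ed else
    if x ∈ 𝒢.Es ed then Ψ ed (j ed x) F x else 0, ?_, ?_⟩
  · intro ed
    obtain ⟨a, n, m⟩ := ed
    refine isRow_ite ((colF e 𝒢).Es (a, n, m)) (hcm a n m) (isRow_eval (a, n, m)) ?_
    refine isRow_ite (𝒢.Es (a, n, m)) (hm a n m) ?_ isRow_zero
    exact isRow_piecewise (j (a, n, m)) (hjm (a, n, m)) (hΨ (a, n, m))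
  · intro F
    refine ⟨?_, ?_, ?_, ?_⟩
    · intro x a n m hx
      exact if_pos hx
    · intro x a n m hx
      have h1 : x ∉ (colF e 𝒢).Es (a, n, m) := fun h => hx h.1
      have h2 : x ∉ 𝒢.Es (a, n, m) := hx
      simp only [if_neg h1, if_neg h2]
    · intro i v p r y y' hr1 hr2 hl hrd hst
      -- the edge
      have key : ∀ (a : Lab e.g) (u z : e.X × S), OnStep e 𝒢 i v (p + r) a u z →
          (efun (fun x ed => if x ∈ (colF e 𝒢).Es ed then F x ed else
            if x ∈ 𝒢.Es ed then Ψ ed (j ed x) F x else 0)) a u z = 0 := by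
        intro a u z hos
        obtain ⟨hz, hE⟩ := COD.onStep_edge hos
        obtain ⟨x, n⟩ := u
        obtain ⟨x', m⟩ := z
        simp only at hz hE
        subst hz
        have h1 : x ∉ (colF e 𝒢).Es (a, n, m) := fun h => h.2 ⟨i, v, p, r, hr2, hl, hos⟩
        have h2 : x ∈ 𝒢.Es (a, n, m) := hE
        have h3 : j (a, n, m) x = none := by
          apply hj_none
          intro i' p' hx
          have := COD.DD_unique hf hr2 hl hos hx
          omega
        simp only [efun, if_neg h1, if_pos h2, h3]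
        rfl
      rcases hrl : rl e.c e.ℓ i (p + r) with ⟨a, β⟩
      have hst' := hst
      rw [hrl] at hst'
      cases β with
      | true =>
        have hos : OnStep e 𝒢 i v (p + r) a y y' := ⟨y, y', hrd, hst, Or.inl ⟨hrl, rfl, rfl⟩⟩
        simp only [sgn, if_true]
        exact key a y y' hos
      | false =>
        have hos : OnStep e 𝒢 i v (p + r) a y' y := ⟨y, y', hrd, hst, Or.inr ⟨hrl, rfl, rfl⟩⟩
        simp only [sgn, Bool.false_eq_true, if_false]
        rw [key a y' y hos, neg_zero]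
    · intro i v p y y' z t hl hrd hst hz hrs
      have hrs' := rs_winv hrs
      have hΦv := hΦ' i p y.2 F y.1 z (-t) hrs'
      rcases hrl : rl e.c e.ℓ i p with ⟨a, β⟩
      have hst' := hst
      rw [hrl] at hst'
      cases β with
      | true =>
        have hos : OnStep e 𝒢 i v p a y y' := ⟨y, y', hrd, hst, Or.inl ⟨hrl, rfl, rfl⟩⟩
        obtain ⟨hz', hE⟩ := COD.onStep_edge hos
        obtain ⟨x, n⟩ := y
        obtain ⟨x', m⟩ := y'
        simp only at hz' hE hΦv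
        subst hz'
        have h1 : x ∉ (colF e 𝒢).Es (a, n, m) := fun h =>
          h.2 ⟨i, v, p, 0, by norm_num, hl, hos⟩
        have h2 : x ∈ 𝒢.Es (a, n, m) := hE
        have h3 : j (a, n, m) x = some (i, p) := hj_some _ _ _ _ ⟨v, hl, hos⟩
        simp only [sgn, if_true, efun, if_neg h1, if_pos h2, h3, Ψ, hrl]
        exact hΦv
      | false =>
        have hos : OnStep e 𝒢 i v p a y' y := ⟨y, y', hrd, hst, Or.inr ⟨hrl, rfl, rfl⟩⟩
        obtain ⟨hz', hE⟩ := COD.onStep_edge hos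
        obtain ⟨x, n⟩ := y'
        obtain ⟨x', m⟩ := y
        simp only at hz' hE hΦv
        subst hz'
        have h1 : x ∉ (colF e 𝒢).Es (a, n, m) := fun h =>
          h.2 ⟨i, v, p, 0, by norm_num, hl, hos⟩
        have h2 : x ∈ 𝒢.Es (a, n, m) := hE
        have h3 : j (a, n, m) x = some (i, p) := hj_some _ _ _ _ ⟨v, hl, hos⟩
        have h4 : ¬ ((a, false) = (a, true)) := by simp
        simp only [sgn, Bool.false_eq_true, if_false, efun, if_neg h1, if_pos h2, h3, Ψ, hrl,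
          if_neg h4, neg_neg]
        exact hΦv

/-- at most two signed letters are readable from a vertex of degree `≤ 2` -/
theorem coe_deg2 {L V : Type} [Fintype L] {G : L → V → V → Prop} {z : V} (h : deg G z ≤ 2)
    {e₁ e₂ e₃ : L × Bool} {y₁ y₂ y₃ : V} (h1 : Stp G e₁ z y₁) (h2 : Stp G e₂ z y₂)
    (h3 : Stp G e₃ z y₃) (h12 : e₁ ≠ e₂) : e₃ = e₁ ∨ e₃ = e₂ := by
  classical
  by_contra hcon
  push Not at hcon
  obtain ⟨h31, h32⟩ := hcon
  have hsub : ({e₁, e₂, e₃} : Finset (L × Bool)) ⊆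
      Finset.univ.filter fun d : L × Bool => ∃ y, Stp G d z y := by
    intro d hd
    simp only [Finset.mem_insert, Finset.mem_singleton] at hd
    simp only [Finset.mem_filter, Finset.mem_univ, true_and]
    rcases hd with rfl | rfl | rfl
    · exact ⟨_, h1⟩
    · exact ⟨_, h2⟩
    · exact ⟨_, h3⟩
  have hcard : ({e₁, e₂, e₃} : Finset (L × Bool)).card = 3 := by
    rw [Finset.card_eq_three]
    exact ⟨e₁, e₂, e₃, h12, Ne.symm h31, Ne.symm h32, rfl⟩
  have h4 := Finset.card_le_card hsub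
  rw [hcard] at h4
  unfold deg at h
  have h5 : (Finset.univ.filter fun d : L × Bool => ∃ y, Stp G d z y).card ≤ 2 := by
    convert h using 2
  omega

/-- reading one more letter of the relator -/
theorem coe_succ {V : Type} {G : Lab e.g → V → V → Prop} {i : Fin e.g} {k j : ℕ} {v z : V} :
    Rd G (seg e.c e.ℓ i k (j + 1)) v z ↔
      ∃ y, Rd G (seg e.c e.ℓ i k j) v y ∧ Stp G (rl e.c e.ℓ i (k + j)) y z := by
  rw [seg_add, rd_append]
  have h1 : seg e.c e.ℓ i (k + j) 1 = [rl e.c e.ℓ i (k + j)] := by simp [seg]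
  rw [h1]
  constructor
  · rintro ⟨y, h, y', h2, h3⟩
    have : y' = z := h3
    subst this
    exact ⟨y, h, h2⟩
  · rintro ⟨y, h, h2⟩
    exact ⟨y, h, z, h2, rfl⟩

/-- the outgoing step of a closed loop at position `j` -/
theorem coe_out {V : Type} {G : Lab e.g → V → V → Prop} (hG : Folded G) {i : Fin e.g} {v z : V}
    (h : Rd G (seg e.c e.ℓ i 0 (e.ℓ + 3)) v v) {j : ℕ} (hj : Rd G (seg e.c e.ℓ i 0 j) v z) :
    ∃ z', Stp G (rl e.c e.ℓ i j) z z' := by
  obtain ⟨z', h1, -⟩ := closed_read hG h (j + 1)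
  rw [coe_succ] at h1
  obtain ⟨y, h2, h3⟩ := h1
  rw [hG.rd_unique h2 hj, Nat.zero_add] at h3
  exact ⟨z', h3⟩

/-- the only letters readable at an interior vertex of a run -/
theorem coe_at (hf : Folded (𝒢.G e.val)) {i : Fin e.g} {v : e.X × S} {p r : ℕ}
    {y y' : e.X × S} (hl : LongMin e 𝒢 i v p) (hr : r < 61)
    (hy : Rd (𝒢.G e.val) (seg e.c e.ℓ i 0 (p + (r + 1))) v y) {d : Lab e.g × Bool}
    (hd : Stp (𝒢.G e.val) d y y') :
    d = rl e.c e.ℓ i (p + (r + 1)) ∨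
      (d = ((rl e.c e.ℓ i (p + r)).1, !(rl e.c e.ℓ i (p + r)).2) ∧
        Rd (𝒢.G e.val) (seg e.c e.ℓ i 0 (p + r)) v y' ∧
        Stp (𝒢.G e.val) (rl e.c e.ℓ i (p + r)) y' y) := by
  have hdeg := hl.2.1 (r + 1) (by omega) (by omega) y hy
  obtain ⟨y1, hy1⟩ := coe_out hf hl.1 hy
  have hy' := hy
  rw [show p + (r + 1) = (p + r) + 1 by ring, coe_succ, Nat.zero_add] at hy'
  obtain ⟨y0, hy0, hs0⟩ := hy'
  have hs0' := (stp_inv (G := 𝒢.G e.val)).mpr hs0
  have hne : rl e.c e.ℓ i (p + (r + 1)) ≠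
      ((rl e.c e.ℓ i (p + r)).1, !(rl e.c e.ℓ i (p + r)).2) := by
    intro hcon
    apply rl_red e.cw i (p + r)
    rw [show p + r + 1 = p + (r + 1) by ring, hcon]
    exact ⟨rfl, rfl⟩
  rcases coe_deg2 hdeg hy1 hs0' hd hne with h | h
  · exact Or.inl h
  · right
    subst h
    have h6 : y' = y0 := hf.stp_right hd hs0'
    subst h6
    exact ⟨rfl, hy0, hs0⟩

/-- the complement of the run can be read in `𝒢` -/
theorem coe_compl_rd (hf : Folded (𝒢.G e.val)) {i : Fin e.g} {v y z : e.X × S} {p : ℕ}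
    (hc : v.1 ∈ closedAt e 𝒢 0 (v.2, i)) (hy : Rd (𝒢.G e.val) (seg e.c e.ℓ i 0 p) v y)
    (hz : Rd (𝒢.G e.val) (seg e.c e.ℓ i 0 (p + 62)) v z) :
    Rd (𝒢.G e.val) (seg e.c e.ℓ i (p + 62) (e.ℓ + 3 - 62)) z y := by
  have hbig := e.cw.big
  have h1 := (closed_period hf (j := p) (z := y) hc).mpr hy
  rw [show p + (e.ℓ + 3) = (p + 62) + (e.ℓ + 3 - 62) by omega, seg_add, rd_append,
    Nat.zero_add] at h1
  obtain ⟨z', h2, h3⟩ := h1
  rwa [hf.rd_unique h2 hz] at h3

theorem coe_sgn_inv {L V : Type} (f : L → V → V → ℝ) (d : L × Bool) (u v : V) :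
    sgn f (d.1, !d.2) u v = - sgn f d v u := by
  obtain ⟨a, b⟩ := d
  cases b <;> simp [sgn]

/-- relation used in `co_reroute` -/
def CoeP (u u' : e.X × S) : Prop :=
  (¬ Interior e 𝒢 u ∧ u' = u) ∨ ∃ i v p r, r < 61 ∧ LongMin e 𝒢 i v p ∧
    Rd (𝒢.G e.val) (seg e.c e.ℓ i 0 (p + (r + 1))) v u ∧
    Rd (𝒢.G e.val) (seg e.c e.ℓ i 0 (p + 62)) v u'

theorem coe_step (hf : Folded (𝒢.G e.val)) (F F' : e.X → EI (Lab e.g) S → ℝ)
    (h1 : ∀ x a n m, x ∈ (colF e 𝒢).E a n m → F' x (a, n, m) = F x (a, n, m))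
    (h2 : ∀ i v p r y y', 1 ≤ r → r ≤ 61 → LongMin e 𝒢 i v p →
          Rd (𝒢.G e.val) (seg e.c e.ℓ i 0 (p + r)) v y →
          Stp (𝒢.G e.val) (rl e.c e.ℓ i (p + r)) y y' →
          sgn (efun F') (rl e.c e.ℓ i (p + r)) y y' = 0)
    (h3 : ∀ i v p y y' z t, LongMin e 𝒢 i v p →
          Rd (𝒢.G e.val) (seg e.c e.ℓ i 0 p) v y →
          Stp (𝒢.G e.val) (rl e.c e.ℓ i p) y y' →
          Rd (𝒢.G e.val) (seg e.c e.ℓ i 0 (p + 62)) v z →
          RS ((colF e 𝒢).G e.val) (efun F) (seg e.c e.ℓ i (p + 62) (e.ℓ + 3 - 62)) z y t →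
          sgn (efun F') (rl e.c e.ℓ i p) y y' = -t)
    {d : Lab e.g × Bool} {u z u' : e.X × S} (hP : CoeP (e := e) (𝒢 := 𝒢) u u')
    (hd : Stp (𝒢.G e.val) d u z) :
    ∃ z' w', CoeP (e := e) (𝒢 := 𝒢) z z' ∧
      RS ((colF e 𝒢).G e.val) (efun F) w' u' z' (sgn (efun F') d u z) := by
  -- the first step of a run, forward direction
  have first : ∀ i v p y y' q, LongMin e 𝒢 i v p →
      Rd (𝒢.G e.val) (seg e.c e.ℓ i 0 p) v y → Stp (𝒢.G e.val) (rl e.c e.ℓ i p) y y' →
      Rd (𝒢.G e.val) (seg e.c e.ℓ i 0 (p + 62)) v q →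
      RS ((colF e 𝒢).G e.val) (efun F) (seg e.c e.ℓ i (p + 62) (e.ℓ + 3 - 62)) q y
        (- sgn (efun F') (rl e.c e.ℓ i p) y y') := by
    intro i v p y y' q hl hy hs hq
    obtain ⟨t, ht⟩ := rs_of_rd (f := efun F) (coe_compl_rd hf hl.1 hy hq)
    have ht' := co_compl hf hl hq ht
    rw [h3 i v p y y' q t hl hy hs hq ht', neg_neg]
    exact ht'
  rcases hP with ⟨hu, rfl⟩ | ⟨i, v, p, r, hr, hl, hyu, hq⟩
  · -- `u` not interior
    obtain ⟨a, s⟩ := d
    -- run case: a helper for both orientations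
    have run : ∀ (a' : Lab e.g) (x x' : e.X × S), Removed e 𝒢 a' x x' →
        ((a, s) = (a', true) ∧ u' = x ∧ z = x' ∨ (a, s) = (a', false) ∧ u' = x' ∧ z = x) →
        ∃ z' w', CoeP (e := e) (𝒢 := 𝒢) z z' ∧
          RS ((colF e 𝒢).G e.val) (efun F) w' u' z' (sgn (efun F') (a, s) u' z) := by
      rintro a' x x' ⟨i, v, p, r, hr, hl, y, y', hy, hs, hor⟩ hcase
      obtain ⟨q, hq, -⟩ := closed_read hf hl.1 (p + 62)
      -- either same or opposite direction
      have hdir : ((a, s) = rl e.c e.ℓ i (p + r) ∧ u' = y ∧ z = y') ∨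
          ((a, s) = ((rl e.c e.ℓ i (p + r)).1, !(rl e.c e.ℓ i (p + r)).2) ∧ u' = y' ∧ z = y) := by
        rcases hor with ⟨ho, rfl, rfl⟩ | ⟨ho, rfl, rfl⟩ <;> rcases hcase with ⟨hc, rfl, rfl⟩ | ⟨hc, rfl, rfl⟩
        · left; exact ⟨by rw [hc, ho], rfl, rfl⟩
        · right; exact ⟨by rw [hc, ho]; rfl, rfl, rfl⟩
        · right; exact ⟨by rw [hc, ho]; rfl, rfl, rfl⟩
        · left; exact ⟨by rw [hc, ho], rfl, rfl⟩
      rcases hdir with ⟨hd', rfl, rfl⟩ | ⟨hd', rfl, rfl⟩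
      · -- same direction; `r = 0`
        rcases Nat.eq_zero_or_pos r with rfl | hrpos
        · simp only [Nat.add_zero] at hy hs hd'
          have hz : Rd (𝒢.G e.val) (seg e.c e.ℓ i 0 (p + (0 + 1))) v z := by
            rw [show p + (0 + 1) = p + 1 by ring, coe_succ, Nat.zero_add]
            exact ⟨u', hy, hs⟩
          refine ⟨q, winv (seg e.c e.ℓ i (p + 62) (e.ℓ + 3 - 62)),
            Or.inr ⟨i, v, p, 0, by omega, hl, hz, hq⟩, ?_⟩
          have := rs_winv (first i v p u' z q hl hy hs hq)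
          rw [neg_neg] at this
          rw [hd']
          exact this
        · exact absurd ⟨i, v, p, r, hrpos, hr, hl, hy⟩ hu
      · -- opposite direction
        have hu2 : Rd (𝒢.G e.val) (seg e.c e.ℓ i 0 (p + r + 1)) v u' := by
          rw [coe_succ, Nat.zero_add]
          exact ⟨z, hy, hs⟩
        rcases Nat.lt_or_ge r 61 with hlt | hge
        · exact absurd ⟨i, v, p, r + 1, by omega, by omega, hl, hu2⟩ hu
        · obtain rfl : r = 61 := by omega
          have : u' = q := hf.rd_unique hu2 hq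
          subst this
          refine ⟨u', [], Or.inr ⟨i, v, p, 60, by omega, hl, hy, hq⟩, ?_⟩
          rw [hd', coe_sgn_inv, h2 i v p 61 z u' (by omega) (by omega) hl hy hs, neg_zero]
          exact ⟨rfl, rfl⟩
    cases s with
    | true =>
      have hd2 : (𝒢.G e.val) a u' z := hd
      by_cases hrem : Removed e 𝒢 a u' z
      · exact run a u' z hrem (Or.inl ⟨rfl, rfl, rfl⟩)
      · have hz : ¬ Interior e 𝒢 z := fun hi => hrem ((co_interior_edges hf hi).2 hd2)
        refine ⟨z, [(a, true)], Or.inl ⟨hz, rfl⟩, z, 0, ?_, ⟨rfl, rfl⟩, ?_⟩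
        · show ((colF e 𝒢).G e.val) a u' z
          refine ⟨hd2.1, hd2.2, ?_⟩
          rw [show ((e.val a)⁻¹ • u'.1, z.2) = z from Prod.ext hd2.1.symm rfl]
          exact hrem
        · have hmem : u'.1 ∈ (colF e 𝒢).E a u'.2 z.2 := by
            refine ⟨hd2.2, ?_⟩
            rw [show ((e.val a)⁻¹ • u'.1, z.2) = z from Prod.ext hd2.1.symm rfl]
            exact hrem
          have := h1 u'.1 a u'.2 z.2 hmem
          simp only [sgn, if_true, efun, add_zero]
          exact this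
    | false =>
      have hd2 : (𝒢.G e.val) a z u' := hd
      by_cases hrem : Removed e 𝒢 a z u'
      · exact run a z u' hrem (Or.inr ⟨rfl, rfl, rfl⟩)
      · have hz : ¬ Interior e 𝒢 z := fun hi => hrem ((co_interior_edges hf hi).1 hd2)
        have hmem : z.1 ∈ (colF e 𝒢).E a z.2 u'.2 := by
          refine ⟨hd2.2, ?_⟩
          rw [show ((e.val a)⁻¹ • z.1, u'.2) = u' from Prod.ext hd2.1.symm rfl]
          exact hrem
        refine ⟨z, [(a, false)], Or.inl ⟨hz, rfl⟩, z, 0, ?_, ⟨rfl, rfl⟩, ?_⟩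
        · show ((colF e 𝒢).G e.val) a z u'
          exact ⟨hd2.1, hmem⟩
        · have := h1 z.1 a z.2 u'.2 hmem
          simp only [sgn, Bool.false_eq_true, if_false, efun, add_zero, this]
  · -- `u` interior at position `p + (r + 1)`
    rcases coe_at hf hl hr hyu hd with hd' | ⟨hd', hz, hs⟩
    · -- forward
      subst hd'
      have hz : Rd (𝒢.G e.val) (seg e.c e.ℓ i 0 (p + (r + 1) + 1)) v z := by
        rw [coe_succ, Nat.zero_add]
        exact ⟨u, hyu, hd⟩
      have hzero := h2 i v p (r + 1) u z (by omega) (by omega) hl hyu hd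
      rcases Nat.lt_or_ge (r + 1) 61 with hlt | hge
      · refine ⟨u', [], Or.inr ⟨i, v, p, r + 1, hlt, hl, hz, hq⟩, ?_⟩
        rw [hzero]
        exact ⟨rfl, rfl⟩
      · obtain rfl : r = 60 := by omega
        have : z = u' := hf.rd_unique hz hq
        subst this
        refine ⟨z, [], Or.inl ⟨(co_ends hf hl).2 hq, rfl⟩, ?_⟩
        rw [hzero]
        exact ⟨rfl, rfl⟩
    · -- backward
      subst hd'
      rcases Nat.eq_zero_or_pos r with rfl | hrpos
      · simp only [Nat.add_zero] at hz hs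
        refine ⟨z, seg e.c e.ℓ i (p + 62) (e.ℓ + 3 - 62),
          Or.inl ⟨(co_ends hf hl).1 hz, rfl⟩, ?_⟩
        have := first i v p z u u' hl hz hs hq
        rw [Nat.add_zero, coe_sgn_inv]
        exact this
      · obtain ⟨r, rfl⟩ : ∃ r', r = r' + 1 := ⟨r - 1, by omega⟩
        refine ⟨u', [], Or.inr ⟨i, v, p, r, by omega, hl, hz, hq⟩, ?_⟩
        rw [coe_sgn_inv, h2 i v p (r + 1) z u (by omega) (by omega) hl hz hs, neg_zero]
        exact ⟨rfl, rfl⟩

/-- CO5, REROUTING.  For a function `F' ` on the edges of `𝒢` satisfying (1), (2), (3) relative to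
`F`, every reading of `𝒢` between non-interior vertices can be replaced by a reading of the
collapsed field with the same end points and the same sum.
Proof: let `ρ z = z` for non-interior vertices and `ρ z =` end `z_{p+62}` of the run for interior ones;
show for every single step `y → y'` of `𝒢` that there is a reading of `colF` from `ρ y` to
`ρ y'` with the same sum (surviving edge: itself, its end points are not interior;
run edge at position `p`: the inverse of the complement; other run edges: empty word);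
concatenate. -/
theorem co_reroute (hf : Folded (𝒢.G e.val)) (F F' : e.X → EI (Lab e.g) S → ℝ)
    (h1 : ∀ x a n m, x ∈ (colF e 𝒢).E a n m → F' x (a, n, m) = F x (a, n, m))
    (h2 : ∀ i v p r y y', 1 ≤ r → r ≤ 61 → LongMin e 𝒢 i v p →
          Rd (𝒢.G e.val) (seg e.c e.ℓ i 0 (p + r)) v y →
          Stp (𝒢.G e.val) (rl e.c e.ℓ i (p + r)) y y' →
          sgn (efun F') (rl e.c e.ℓ i (p + r)) y y' = 0)
    (h3 : ∀ i v p y y' z t, LongMin e 𝒢 i v p →
          Rd (𝒢.G e.val) (seg e.c e.ℓ i 0 p) v y →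
          Stp (𝒢.G e.val) (rl e.c e.ℓ i p) y y' →
          Rd (𝒢.G e.val) (seg e.c e.ℓ i 0 (p + 62)) v z →
          RS ((colF e 𝒢).G e.val) (efun F) (seg e.c e.ℓ i (p + 62) (e.ℓ + 3 - 62)) z y t →
          sgn (efun F') (rl e.c e.ℓ i p) y y' = -t)
    {w : List (Lab e.g × Bool)} {u v : e.X × S} {r : ℝ} (hu : ¬ Interior e 𝒢 u)
    (hv : ¬ Interior e 𝒢 v) (h : RS (𝒢.G e.val) (efun F') w u v r) :
    ∃ w', RS ((colF e 𝒢).G e.val) (efun F) w' u v r := by
  suffices H : ∀ (w : List (Lab e.g × Bool)) (u u' : e.X × S) (r : ℝ),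
      CoeP (e := e) (𝒢 := 𝒢) u u' → RS (𝒢.G e.val) (efun F') w u v r →
      ∃ w', RS ((colF e 𝒢).G e.val) (efun F) w' u' v r from
    H w u u r (Or.inl ⟨hu, rfl⟩) h
  intro w
  induction w with
  | nil =>
    rintro u u' r hP ⟨rfl, rfl⟩
    rcases hP with ⟨-, rfl⟩ | ⟨i, v', p, r, hr, hl, hy, -⟩
    · exact ⟨[], rfl, rfl⟩
    · exact absurd ⟨i, v', p, r + 1, by omega, by omega, hl, hy⟩ hv
  | cons d w ih =>
    rintro u u' r hP ⟨z, r', hd, hr', rfl⟩
    obtain ⟨z', w1, hP', hw1⟩ := coe_step hf F F' h1 h2 h3 hP hd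
    obtain ⟨w2, hw2⟩ := ih z z' r' hP' hr'
    exact ⟨w1 ++ w2, rs_append.mpr ⟨z', _, _, hw1, hw2, rfl⟩⟩

/-- readings of the collapsed field are readings of `𝒢` -/
theorem co_sub {f : Lab e.g → e.X × S → e.X × S → ℝ} {w : List (Lab e.g × Bool)}
    {u v : e.X × S} {r : ℝ} (h : RS ((colF e 𝒢).G e.val) f w u v r) :
    RS (𝒢.G e.val) f w u v r := by
  induction w generalizing u r with
  | nil => exact h
  | cons ε w ih =>
    obtain ⟨z, r', h1, h2, h3⟩ := h
    exact ⟨z, r', (stp_col.mp h1).1, ih h2, h3⟩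

theorem co_isBase [Countable S] {b : S} (h : Base e 𝒢 b) : Base e (colF e 𝒢) b := by
  have hrs0 : ∀ (w : List (Lab e.g × Bool)) (u v : e.X × S) (t : ℝ),
      RS ((colF e 𝒢).G e.val) (efun (0 : e.X → EI (Lab e.g) S → ℝ)) w u v t → t = 0 := by
    intro w
    induction w with
    | nil => rintro u v t ⟨-, rfl⟩; rfl
    | cons ε w ih =>
      rintro u v t ⟨z, r', -, h2, rfl⟩
      rw [ih _ _ _ h2]
      unfold sgn efun
      split_ifs <;> simp
  have hre : ∀ (w : List (Lab e.g × Bool)) (u v : e.X × S), ¬ Interior e 𝒢 u →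
      ¬ Interior e 𝒢 v → Rd (𝒢.G e.val) w u v → ∃ w', Rd ((colF e 𝒢).G e.val) w' u v := by
    intro w u v hu hv hr
    obtain ⟨r, hr⟩ := rs_of_rd (f := efun (0 : e.X → EI (Lab e.g) S → ℝ)) hr
    obtain ⟨w', hw'⟩ := co_reroute h.folded (0 : e.X → EI (Lab e.g) S → ℝ) 0
      (fun _ _ _ _ _ => rfl)
      (by
        intros
        unfold sgn efun
        split_ifs <;> simp)
      (by
        intro i v p y y' z t _ _ _ _ ht
        rw [hrs0 _ _ _ _ ht]
        unfold sgn efun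
        split_ifs <;> simp) hu hv hr
    exact ⟨w', rd_of_rs hw'⟩
  refine ⟨co_meas h.meas, ?_, ?_, ?_, ?_, ?_⟩
  · refine ⟨fun a u v v' h1 h2 => h.folded.1 a u v v' ⟨h1.1, h1.2.1⟩ ⟨h2.1, h2.2.1⟩,
      fun a u u' v h1 h2 => h.folded.2 a u u' v ⟨h1.1, h1.2.1⟩ ⟨h2.1, h2.2.1⟩⟩
  · exact fun x => ⟨h.base_t x, (co_base h x).2⟩
  · intro u hu
    have hint : ¬ Interior e 𝒢 u := by
      intro hI
      obtain ⟨a, v, (h1 | h1)⟩ := hu
      · have h2 : (𝒢.G e.val) a u v := ⟨h1.1, h1.2.1⟩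
        have h3 := (co_interior_edges h.folded hI).1 h2
        have h4 : v = ((e.val a)⁻¹ • u.1, v.2) := Prod.ext h1.1 rfl
        rw [h4] at h3
        exact h1.2.2 h3
      · have h2 : (𝒢.G e.val) a v u := ⟨h1.1, h1.2.1⟩
        have h3 := (co_interior_edges h.folded hI).2 h2
        have h4 : u = ((e.val a)⁻¹ • v.1, u.2) := Prod.ext h1.1 rfl
        rw [h4] at h3
        exact h1.2.2 h3
    have hu' : IsV (𝒢.G e.val) u := by
      obtain ⟨a, v, (h1 | h1)⟩ := hu
      · exact ⟨a, v, Or.inl ⟨h1.1, h1.2.1⟩⟩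
      · exact ⟨a, v, Or.inr ⟨h1.1, h1.2.1⟩⟩
    obtain ⟨w, x, hw⟩ := h.conn u hu'
    obtain ⟨w', hw'⟩ := hre w (x, b) u (co_base h x).1 hint hw
    exact ⟨w', x, hw'⟩
  · intro x γ
    obtain ⟨w, hw⟩ := h.gen x γ
    exact hre w _ _ (co_base h x).1 (co_base h (γ • x)).1 hw
  · exact ne_top_of_le_ne_top h.fin (cnt_mono fun ed x hx => hx.1)

/-- sums over readings only depend on the values on edges -/
theorem coe_rs_congr {L V : Type} {G : L → V → V → Prop} {f f' : L → V → V → ℝ}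
    (hff : ∀ a u v, G a u v → f a u v = f' a u v) {w : List (L × Bool)} {u v : V} {r : ℝ}
    (h : RS G f w u v r) : RS G f' w u v r := by
  induction w generalizing u r with
  | nil => exact h
  | cons d w ih =>
    obtain ⟨z, r', h1, h2, rfl⟩ := h
    refine ⟨z, r', h1, ih h2, ?_⟩
    obtain ⟨a, b⟩ := d
    cases b with
    | true =>
      have h1' : G a u z := h1
      simp only [sgn, if_true, hff a u z h1']
    | false =>
      have h1' : G a z u := h1
      simp only [sgn, Bool.false_eq_true, if_false, hff a z u h1']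

/-- a stretch of zero steps -/
theorem coe_zero {V : Type} {G : Lab e.g → V → V → Prop} {f : Lab e.g → V → V → ℝ}
    {i : Fin e.g} {v : V} (p : ℕ) (m : ℕ)
    (hz : ∀ r y y', r < m → Rd G (seg e.c e.ℓ i 0 (p + r)) v y →
      Stp G (rl e.c e.ℓ i (p + r)) y y' → sgn f (rl e.c e.ℓ i (p + r)) y y' = 0)
    {y z : V} {t : ℝ} (hy : Rd G (seg e.c e.ℓ i 0 p) v y)
    (h : RS G f (seg e.c e.ℓ i p m) y z t) : t = 0 := by
  induction m generalizing p y t with
  | zero =>
    have : seg e.c e.ℓ i p 0 = [] := by simp [seg]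
    rw [this] at h
    exact h.2
  | succ m ih =>
    rw [seg_succ] at h
    obtain ⟨y1, t', hs, ht', rfl⟩ := h
    have h0 := hz 0 y y1 (by omega) hy hs
    have hy1 : Rd G (seg e.c e.ℓ i 0 (p + 1)) v y1 := by
      rw [coe_succ, Nat.zero_add]; exact ⟨y, hy, hs⟩
    have := ih (p + 1) (fun r y y' hr h1 h2 => by
      have h3 := hz (r + 1) y y' (by omega)
      rw [show p + (r + 1) = p + 1 + r by ring] at h3
      exact h3 h1 h2) hy1 ht'
    rw [this, add_zero]
    simpa using h0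

/-- the cocycle condition for the collapsed field -/
theorem co_coc [Countable S] {b : S} (h : Good e 𝒢 b) :
    ∃ (Q : Type) (_ : Countable Q) (A : Q → Set e.X)
    (Φ : Q → (e.X → EI (Lab e.g) S → ℝ) → e.X → ℝ), (∀ q, MeasurableSet (A q)) ∧
    (∀ q, IsRow e.Γ (Φ q)) ∧ cnt e.μ A ≤ ENNReal.ofReal e.δ ∧
    Coc e (colF e 𝒢) b A Φ 0 (closedAt e (colF e 𝒢) 0) := by
  obtain ⟨Q, hQ, A, Φ, hA, hΦ, hcnt, hc⟩ := h.coc
  obtain ⟨ρ, hρ, hspec⟩ := co_ext (e := e) (𝒢 := 𝒢) h.meas h.folded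
  refine ⟨Q, hQ, A, fun q F x => Φ q (fun y p => ρ p F y) x, hA, fun q =>
    isRow_comp (fun γ => (e.pmp γ).measurable) (hΦ q) ρ hρ, hcnt, ?_⟩
  intro F hF1 hF2 hF3 hF4 w x y r hr
  obtain ⟨s1, s2, s3, s4⟩ := hspec F
  have hf := h.folded
  -- transfer between `F` and `ρ F` on the collapsed field
  have tr : ∀ a (u v : e.X × S), ((colF e 𝒢).G e.val) a u v →
      efun F a u v = efun (fun x ed => ρ ed F x) a u v := by
    intro a u v huv
    exact (s1 u.1 a u.2 v.2 huv.2).symm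
  have tr' : ∀ a (u v : e.X × S), ((colF e 𝒢).G e.val) a u v →
      efun (fun x ed => ρ ed F x) a u v = efun F a u v := fun a u v huv => (tr a u v huv).symm
  refine hc (fun x ed => ρ ed F x) s2 ?_ hF3 ?_ w x y r (co_sub (coe_rs_congr tr hr))
  · intro x
    have hx : x ∈ (colF e 𝒢).E none b b := ⟨h.base_t x, (co_base h.toBase x).2⟩
    exact (s1 x none b b hx).trans (hF2 x)
  · intro s i x r hx hrs
    by_cases hlong : x ∈ longAt e 𝒢 (s, i)
    · -- long loop
      have hex : ∃ p, RunAt e 𝒢 i (x, s) p := hlong.2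
      classical
      obtain ⟨p, hp, hpmin⟩ : ∃ p, RunAt e 𝒢 i (x, s) p ∧ ∀ p', p' < p →
          ¬ RunAt e 𝒢 i (x, s) p' :=
        ⟨Nat.find hex, Nat.find_spec hex, fun p' hp' => Nat.find_min hex hp'⟩
      have hl : LongMin e 𝒢 i (x, s) p := ⟨hx, hp, hpmin⟩
      obtain ⟨y0, hy0, -⟩ := closed_read hf hx p
      have hrot := closed_sum hf hrs hy0
      have hbig := e.cw.big
      rw [Nat.zero_add, show e.ℓ + 3 = 1 + (61 + (e.ℓ + 3 - 62)) by omega, seg_add, rs_append]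
        at hrot
      obtain ⟨y1, t1, t2, ht1, ht2, rfl⟩ := hrot
      rw [seg_add, rs_append] at ht2
      obtain ⟨y2, t3, t4, ht3, ht4, rfl⟩ := ht2
      rw [show p + 1 + 61 = p + 62 by ring] at ht4
      have e1 : seg e.c e.ℓ i p 1 = [rl e.c e.ℓ i p] := by simp [seg]
      rw [e1] at ht1
      obtain ⟨y1', t1', hs1, ⟨hy1, rfl⟩, rfl⟩ := ht1
      subst hy1
      have hy1 : Rd (𝒢.G e.val) (seg e.c e.ℓ i 0 (p + 1)) (x, s) y1' := by
        rw [coe_succ, Nat.zero_add]; exact ⟨y0, hy0, hs1⟩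
      have hz3 : t3 = 0 := by
        refine coe_zero (p + 1) 61 (fun r y y' hr h1 h2 => ?_) hy1 ht3
        have h3 := s3 i (x, s) p (r + 1) y y' (by omega) (by omega) hl
        rw [show p + (r + 1) = p + 1 + r by ring] at h3
        exact h3 h1 h2
      have hy2 : Rd (𝒢.G e.val) (seg e.c e.ℓ i 0 (p + 62)) (x, s) y2 := by
        rw [show p + 62 = (p + 1) + 61 by ring, seg_add, rd_append]
        exact ⟨y1', hy1, by rw [Nat.zero_add]; exact rd_of_rs ht3⟩
      have ht4' := coe_rs_congr tr' (co_compl hf hl hy2 ht4)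
      have := s4 i (x, s) p y0 y1' y2 t4 hl hy0 hs1 hy2 ht4'
      rw [this, hz3]
      ring
    · -- short loop
      have hshort : x ∈ shortAt e 𝒢 (s, i) := ⟨hx, hlong⟩
      have h1 := coe_rs_congr tr' (co_short hf hshort hrs)
      exact hF4 s i x r (rd_of_rs h1) h1

/-- COLLAPSE. -/
theorem collapse [Countable S] {b : S} (h : Good e 𝒢 b) :
    ∃ 𝒢' : Fld (Lab e.g) e.X S, Good e 𝒢' b ∧
      cnt e.μ 𝒢'.Es + 62 * cnt e.μ (longAt e 𝒢) ≤ cnt e.μ 𝒢.Es ∧
      cnt e.μ (closedAt e 𝒢 0) ≤ cnt e.μ (closedAt e 𝒢' 0) + cnt e.μ (longAt e 𝒢) := by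
  refine ⟨colF e 𝒢, ⟨co_isBase h.toBase, co_coc h, ?_⟩, co_count h.meas h.folded, ?_⟩
  · exact mono_cap e 𝒢 b h _ (co_meas h.meas) (fun a n m x hx => hx.1)
      (co_isBase h.toBase).base_t
  · calc cnt e.μ (closedAt e 𝒢 0)
        = cnt e.μ (fun p => closedAt e 𝒢 0 p ∩ longAt e 𝒢 p) +
          cnt e.μ (fun p => closedAt e 𝒢 0 p \ longAt e 𝒢 p) :=
          (cnt_inter_add_diff _ (fun p => meas_longAt e h.meas p)).symm
      _ ≤ cnt e.μ (longAt e 𝒢) + cnt e.μ (closedAt e (colF e 𝒢) 0) := by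
          refine add_le_add (cnt_mono fun p => Set.inter_subset_right) (cnt_mono fun p x hx => ?_)
          obtain ⟨r, hr⟩ := rs_of_rd (f := fun _ _ _ => 0) (G := 𝒢.G e.val) hx.1
          exact rd_of_rs (co_short h.folded hx hr)
      _ = _ := add_comm _ _

end Crest.Agent.R191
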