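import Mathlib
import Crest.Prelude.Def_Cost

/-!
# Row 191 (S0291): failure of fixed price.  Definitions.

See `Crest/Agent/R191/README.md` (and `research` id 352) for the complete paper proof.
-/

set_option autoImplicit false

namespace Crest.Agent.R191

open MeasureTheory
open scoped Classical

/-! ## Deterministic labelled graphs -/

/-- letters: `none` is `t`, `some i` is `s_i` -/
abbrev Lab (g : ℕ) := Option (Fin g)

/-- group value of a signed letter -/
def lval {L Γ : Type} [Group Γ] (val : L → Γ) (e : L × Bool) : Γ :=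
  if e.2 = true then val e.1 else (val e.1)⁻¹

/-- group value of a word (list of signed letters), product from left to right -/
def wval {L Γ : Type} [Group Γ] (val : L → Γ) (w : List (L × Bool)) : Γ :=
  (w.map (lval val)).prod

/-- inverse word -/
def winv {L : Type} (w : List (L × Bool)) : List (L × Bool) :=
  (w.map fun e => (e.1, !e.2)).reverse

/-- one step: `G a u v` means there is an edge labelled `a` from `u` to `v`; a signed letter
`(a, true)` travels it forward, `(a, false)` backward. -/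
def Stp {L V : Type} (G : L → V → V → Prop) (e : L × Bool) (u v : V) : Prop :=
  if e.2 = true then G e.1 u v else G e.1 v u

/-- reading a word -/
def Rd {L V : Type} (G : L → V → V → Prop) : List (L × Bool) → V → V → Prop
  | [], u, v => u = v
  | e :: w, u, v => ∃ z, Stp G e u z ∧ Rd G w z v

/-- reading a word, all visited vertices (with both ends) lying in `W` -/
def RdW {L V : Type} (G : L → V → V → Prop) (W : V → Prop) : List (L × Bool) → V → V → Prop
  | [], u, v => u = v ∧ W u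
  | e :: w, u, v => W u ∧ ∃ z, Stp G e u z ∧ RdW G W w z v

/-- signed value of an edge function `f` on a step -/
def sgn {L V : Type} (f : L → V → V → ℝ) (e : L × Bool) (u v : V) : ℝ :=
  if e.2 = true then f e.1 u v else - f e.1 v u

/-- reading a word, with the sum of the (signed) values of the edge function `f` -/
def RS {L V : Type} (G : L → V → V → Prop) (f : L → V → V → ℝ) :
    List (L × Bool) → V → V → ℝ → Prop
  | [], u, v, r => u = v ∧ r = 0
  | e :: w, u, v, r => ∃ z r', Stp G e u z ∧ RS G f w z v r' ∧ r = sgn f e u z + r'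

/-- folded: every label is a partial injection -/
def Folded {L V : Type} (G : L → V → V → Prop) : Prop :=
  (∀ a u v v', G a u v → G a u v' → v = v') ∧ (∀ a u u' v, G a u v → G a u' v → u = u')

/-- `u` is incident to an edge -/
def IsV {L V : Type} (G : L → V → V → Prop) (u : V) : Prop := ∃ a v, G a u v ∨ G a v u

/-- degree of a vertex of a folded graph: number of signed letters readable from it -/
noncomputable def deg {L V : Type} [Fintype L] (G : L → V → V → Prop) (u : V) : ℕ :=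
  (Finset.univ.filter fun e : L × Bool => ∃ z, Stp G e u z).card

/-- reduced words -/
def Red {L : Type} (w : List (L × Bool)) : Prop :=
  w.IsChain fun e e' => ¬ (e'.1 = e.1 ∧ e'.2 = !e.2)

/-! ## The relators -/

/-- `p`-th letter (periodic with period `ℓ + 3`) of the relator
`t s_i t⁻¹ c_{i,ℓ-1}⁻¹ ⋯ c_{i,0}⁻¹`. -/
def rl {g : ℕ} (c : Fin g → ℕ → Fin g) (ℓ : ℕ) (i : Fin g) (p : ℕ) : Lab g × Bool :=
  if p % (ℓ + 3) = 0 then (none, true)
  else if p % (ℓ + 3) = 1 then (some i, true)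
  else if p % (ℓ + 3) = 2 then (none, false)
  else (some (c i (ℓ + 2 - p % (ℓ + 3))), false)

/-- `len` letters of the periodic relator `i`, starting at position `k` -/
def seg {g : ℕ} (c : Fin g → ℕ → Fin g) (ℓ : ℕ) (i : Fin g) (k len : ℕ) : List (Lab g × Bool) :=
  (List.range len).map fun j => rl c ℓ i (k + j)

/-- The combinatorial properties of the words `C_i = c_{i,0} ⋯ c_{i,ℓ-1}`: first and last letter
are `i`, and the inner windows of length `4` determine `i` and the position. -/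
structure CWords {g : ℕ} (c : Fin g → ℕ → Fin g) (ℓ : ℕ) : Prop where
  big : 1000 ≤ ℓ
  head : ∀ i, c i 0 = i
  last : ∀ i, c i (ℓ - 1) = i
  win : ∀ i j p q, 1 ≤ p → p + 5 ≤ ℓ → 1 ≤ q → q + 5 ≤ ℓ →
    (∀ r, r < 4 → c i (p + r) = c j (q + r)) → i = j ∧ p = q

/-! ## Measured labelled graphs on `X × S` -/

/-- A field of labelled graphs with sheet set `S`: `x ∈ E a n m` means that there is an `a`-edge
from `(x, n)` to `((val a)⁻¹ • x, m)`. -/
structure Fld (L X S : Type) where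
  E : L → S → S → Set X

/-- the edge index type -/
abbrev EI (L S : Type) := L × S × S

/-- the labelled graph on `X × S` defined by a field -/
def Fld.G {L X S Γ : Type} [Group Γ] [MulAction Γ X] (𝒢 : Fld L X S) (val : L → Γ) :
    L → X × S → X × S → Prop :=
  fun a u v => v.1 = (val a)⁻¹ • u.1 ∧ u.1 ∈ 𝒢.E a u.2 v.2

/-- counting measure: `∑ p, μ (A p)` -/
noncomputable def cnt {X P : Type} [MeasurableSpace X] (μ : Measure X) (A : P → Set X) : ENNReal :=
  ∑' p, μ (A p)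

/-- edges of a field as a family -/
def Fld.Es {L X S : Type} (𝒢 : Fld L X S) : EI L S → Set X := fun e => 𝒢.E e.1 e.2.1 e.2.2

/-- vertices of a field as a family -/
def Fld.Vs {L X S Γ : Type} [Group Γ] [MulAction Γ X] (𝒢 : Fld L X S) (val : L → Γ) : S → Set X :=
  fun s => {x | IsV (𝒢.G val) (x, s)}

/-- edge function on `X × S` induced by a function of (source point, edge index) -/
def efun {L X S : Type} (F : X → EI L S → ℝ) : L → X × S → X × S → ℝ :=
  fun a u v => F u.1 (a, u.2, v.2)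

/-- The functional `Φ` is given by measurable finite integer rows. -/
def IsRow (Γ : Type) {X P : Type} [Group Γ] [MulAction Γ X] [MeasurableSpace X]
    (Φ : (X → P → ℝ) → X → ℝ) : Prop :=
  ∃ c : X → (Γ × P →₀ ℤ), (∀ y, MeasurableSet {x | c x = y}) ∧
    ∀ F x, Φ F x = (c x).sum fun gp z => (z : ℝ) * F (gp.1 • x) gp.2

/-- The spectral gap inequality for the generators `s_i`. -/
def SG {Γ X : Type} [Group Γ] [MulAction Γ X] [MeasurableSpace X] (μ : Measure X) (g : ℕ)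
    (s : Fin g → Γ) : Prop :=
  ∀ u v : X → ENNReal, Measurable u → Measurable v →
    ∑ i : Fin g, ∫⁻ x, u x * v ((s i)⁻¹ • x) ∂μ ≤
      ENNReal.ofReal (2 * Real.sqrt g) * (∫⁻ x, u x ^ 2 ∂μ) ^ (1 / 2 : ℝ) *
        (∫⁻ x, v x ^ 2 ∂μ) ^ (1 / 2 : ℝ) + g * (∫⁻ x, u x ∂μ) * (∫⁻ x, v x ∂μ)

/-- All data of the measured part of the argument.  `ℓ` = length of the words `C_i`,
`δ` = the cost gap. -/
structure Env where
  g : ℕ
  Γ : Type
  X : Type
  [grp : Group Γ]
  [cntb : Countable Γ]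
  [act : MulAction Γ X]
  [ms : MeasurableSpace X]
  [sb : StandardBorelSpace X]
  μ : Measure X
  [prob : IsProbabilityMeasure μ]
  val : Lab g → Γ
  c : Fin g → ℕ → Fin g
  ℓ : ℕ
  δ : ℝ
  i0 : Fin g
  pmp : ∀ γ : Γ, MeasurePreserving (fun x : X => γ • x) μ μ
  free : ∀ (γ : Γ) (x : X), γ • x = x → γ = 1
  cw : CWords c ℓ
  rel : ∀ i, wval val (seg c ℓ i 0 (ℓ + 3)) = 1
  sg : SG μ g (fun i => val (some i))
  dehn : ∀ w, Red w → wval val w = val (some i0) → w = [(some i0, true)] ∨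
    ∃ i k, seg c ℓ i k (ℓ - 57) <:+: w ∨ winv (seg c ℓ i k (ℓ - 57)) <:+: w
  small : ∀ ε : ℝ, 0 < ε → ∃ (N : ℕ) (P : Fin N → Set X), (∀ j, MeasurableSet (P j)) ∧
    (⋃ j, P j) = Set.univ ∧ ∀ j, μ (P j) ≤ ENNReal.ofReal ε
  δpos : 0 < δ
  num1 : 2000 * (2 * Real.sqrt g + 1) ^ 4 ≤ (ℓ : ℝ) - 68
  num2 : ((ℓ : ℝ) + 4) * δ * g ≤ 1
  num3 : 1000 * δ * g ≤ 1
  num4 : δ ≤ 1 / 100

attribute [instance] Env.grp Env.cntb Env.act Env.ms Env.sb Env.prob

/-- loops: points over which the `k`-rotated relator `i` reads a closed loop from sheet `s` -/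
def closedAt (e : Env) {S : Type} (𝒢 : Fld (Lab e.g) e.X S) (k : ℕ) : S × Fin e.g → Set e.X :=
  fun p => {x | Rd (𝒢.G e.val) (seg e.c e.ℓ p.2 k (e.ℓ + 3)) (x, p.1) (x, p.1)}

/-- near-complete, not closed readings -/
def nearAt (e : Env) {S : Type} (𝒢 : Fld (Lab e.g) e.X S) (k : ℕ) : S × Fin e.g → Set e.X :=
  fun p => {x | (∃ v, Rd (𝒢.G e.val) (seg e.c e.ℓ p.2 k (e.ℓ - 57)) (x, p.1) v) ∧
    ¬ Rd (𝒢.G e.val) (seg e.c e.ℓ p.2 k (e.ℓ + 3)) (x, p.1) (x, p.1)}

/-- long loops: closed loops with `61` consecutive vertices of degree `≤ 2` -/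
def longAt (e : Env) {S : Type} (𝒢 : Fld (Lab e.g) e.X S) : S × Fin e.g → Set e.X :=
  fun p => {x | x ∈ closedAt e 𝒢 0 p ∧ ∃ j : ℕ, ∀ r, 1 ≤ r → r ≤ 61 → ∀ z,
    Rd (𝒢.G e.val) (seg e.c e.ℓ p.2 0 (j + r)) (x, p.1) z → deg (𝒢.G e.val) z ≤ 2}

/-- short loops -/
def shortAt (e : Env) {S : Type} (𝒢 : Fld (Lab e.g) e.X S) : S × Fin e.g → Set e.X :=
  fun p => closedAt e 𝒢 0 p \ longAt e 𝒢 p

/-- The cocycle condition: an edge function which is killed by the rows `Φ` on the sets `A`,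
vanishes on the base `t`-edges and sums to `0` over the closed loops in `T` (read from position
`k`), sums to `0` over every path from a base vertex to a base vertex. -/
def Coc (e : Env) {S : Type} (𝒢 : Fld (Lab e.g) e.X S) (b : S) {Q : Type} (A : Q → Set e.X)
    (Φ : Q → (e.X → EI (Lab e.g) S → ℝ) → e.X → ℝ) (k : ℕ) (T : S × Fin e.g → Set e.X) : Prop :=
  ∀ F : e.X → EI (Lab e.g) S → ℝ,
    (∀ x a n m, x ∉ 𝒢.E a n m → F x (a, n, m) = 0) →
    (∀ x, F x (none, b, b) = 0) →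
    (∀ q x, x ∈ A q → Φ q F x = 0) →
    (∀ s i x r, x ∈ T (s, i) →
      RS (𝒢.G e.val) (efun F) (seg e.c e.ℓ i k (e.ℓ + 3)) (x, s) (x, s) r → r = 0) →
    ∀ w x y r, RS (𝒢.G e.val) (efun F) w (x, b) (y, b) r → r = 0

/-- Basic properties of the fields we use. -/
structure Base (e : Env) {S : Type} (𝒢 : Fld (Lab e.g) e.X S) (b : S) : Prop where
  meas : ∀ a n m, MeasurableSet (𝒢.E a n m)
  folded : Folded (𝒢.G e.val)
  base_t : ∀ x, x ∈ 𝒢.E none b b
  conn : ∀ u, IsV (𝒢.G e.val) u → ∃ w x, Rd (𝒢.G e.val) w (x, b) u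
  gen : ∀ (x : e.X) (γ : e.Γ), ∃ w, Rd (𝒢.G e.val) w (x, b) (γ • x, b)
  fin : cnt e.μ 𝒢.Es ≠ ⊤

/-- The class of fields over which we minimize. -/
structure Good (e : Env) {S : Type} (𝒢 : Fld (Lab e.g) e.X S) (b : S) : Prop
    extends Base e 𝒢 b where
  coc : ∃ (Q : Type) (_ : Countable Q) (A : Q → Set e.X)
    (Φ : Q → (e.X → EI (Lab e.g) S → ℝ) → e.X → ℝ), (∀ q, MeasurableSet (A q)) ∧
    (∀ q, IsRow e.Γ (Φ q)) ∧ cnt e.μ A ≤ ENNReal.ofReal e.δ ∧
    Coc e 𝒢 b A Φ 0 (closedAt e 𝒢 0)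
  cap : cnt e.μ 𝒢.Es ≤ cnt e.μ (𝒢.Vs e.val) + ENNReal.ofReal (2 * e.δ)

/-- all degrees are at least two -/
def D2 (e : Env) {S : Type} (𝒢 : Fld (Lab e.g) e.X S) : Prop :=
  ∀ u, IsV (𝒢.G e.val) u → 2 ≤ deg (𝒢.G e.val) u

/-! ## Folding -/

/-- two vertices over the same point are identified by folding -/
def frel {L X S Γ : Type} [Group Γ] [MulAction Γ X] (𝒴 : Fld L X S) (val : L → Γ) (x : X)
    (s s' : S) : Prop :=
  ∃ w, FreeGroup.mk w = 1 ∧ Rd (𝒴.G val) w (x, s) (x, s')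

/-- a measurable choice of representatives for folding, fixing the base sheet -/
structure Rep {L X S Γ : Type} [Group Γ] [MulAction Γ X] [MeasurableSpace X] (𝒴 : Fld L X S)
    (val : L → Γ) (b : S) (q : X → S → S) : Prop where
  rel : ∀ x s, frel 𝒴 val x s (q x s)
  eq : ∀ x s s', frel 𝒴 val x s s' → q x s = q x s'
  meas : ∀ s s', MeasurableSet {x | q x s = s'}
  base : ∀ x, q x b = b

/-- the folded field -/
def foldF {L X S Γ : Type} [Group Γ] [MulAction Γ X] (𝒴 : Fld L X S) (val : L → Γ)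
    (q : X → S → S) : Fld L X S :=
  ⟨fun a n' m' => {x | ∃ n m, x ∈ 𝒴.E a n m ∧ q x n = n' ∧ q ((val a)⁻¹ • x) m = m'}⟩

/-- pull back an edge function along the folding map -/
def pull {L X S Γ : Type} [Group Γ] [MulAction Γ X] (val : L → Γ) (q : X → S → S)
    (F : X → EI L S → ℝ) : X → EI L S → ℝ :=
  fun x ed => F x (ed.1, q x ed.2.1, q ((val ed.1)⁻¹ • x) ed.2.2)

/-! ## Attaching arcs -/

/-- data for attaching arcs: for `x ∈ A k` an arc reading `wd k` from `(x, src k)` to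
`((wval (wd k))⁻¹ • x, tgt k)` is attached. -/
structure Arcs (L X S K : Type) where
  src : K → S
  tgt : K → S
  wd : K → List (L × Bool)
  A : K → Set X

/-- sheet of the `j`-th vertex of an arc -/
def Arcs.pos {L X S K : Type} (𝒜 : Arcs L X S K) (k : K) (j : ℕ) : S ⊕ (K × ℕ) :=
  if j = 0 then Sum.inl (𝒜.src k) else if j = (𝒜.wd k).length then Sum.inl (𝒜.tgt k)
  else Sum.inr (k, j)

/-- point of the `j`-th vertex of the arc starting over `x` -/
def Arcs.pt {L X S K Γ : Type} [Group Γ] [MulAction Γ X] (𝒜 : Arcs L X S K) (val : L → Γ)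
    (k : K) (x : X) (j : ℕ) : X :=
  (wval val ((𝒜.wd k).take j))⁻¹ • x

/-- attach arcs to a field -/
def attach {L X S K Γ : Type} [Group Γ] [MulAction Γ X] (𝒢 : Fld L X S) (val : L → Γ)
    (𝒜 : Arcs L X S K) : Fld L X (S ⊕ (K × ℕ)) :=
  ⟨fun a n m => {y |
    (∃ n₀ m₀, n = Sum.inl n₀ ∧ m = Sum.inl m₀ ∧ y ∈ 𝒢.E a n₀ m₀) ∨
    ∃ k j x, ∃ h : j < (𝒜.wd k).length, x ∈ 𝒜.A k ∧
      (((𝒜.wd k)[j] = (a, true) ∧ y = 𝒜.pt val k x j ∧ n = 𝒜.pos k j ∧ m = 𝒜.pos k (j + 1)) ∨
      ((𝒜.wd k)[j] = (a, false) ∧ y = 𝒜.pt val k x (j + 1) ∧ n = 𝒜.pos k (j + 1) ∧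
        m = 𝒜.pos k j))}⟩

/-- the sum of an edge function along the attached arc -/
noncomputable def arcsum {L X S K Γ : Type} [Group Γ] [MulAction Γ X] (val : L → Γ)
    (𝒜 : Arcs L X S K) (F : X → EI L (S ⊕ (K × ℕ)) → ℝ) (k : K) (x : X) : ℝ :=
  ∑ j : Fin (𝒜.wd k).length,
    sgn (efun F) ((𝒜.wd k)[j.1]) (𝒜.pt val k x j.1, 𝒜.pos k j.1)
      (𝒜.pt val k x (j.1 + 1), 𝒜.pos k (j.1 + 1))

/-- the loops attached in a stage -/
def loopArcs (e : Env) {S : Type} (k : ℕ) (A : S × Fin e.g → Set e.X) :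
    Arcs (Lab e.g) e.X S (S × Fin e.g) :=
  ⟨fun p => p.1, fun p => p.1, fun p => seg e.c e.ℓ p.2 k (e.ℓ + 3), A⟩

/-- generation by `t` and arcs -/
def ArcStep {Γ X K : Type} [Group Γ] [MulAction Γ X] (t : Γ) (Ψ : K → Γ × Set X) (x y : X) :
    Prop :=
  y = t • x ∨ ∃ k, x ∈ (Ψ k).2 ∧ y = (Ψ k).1 • x

/-! ## The group -/

/-- the word `C_i` -/
def Cw {g : ℕ} (c : Fin g → ℕ → Fin g) (ℓ : ℕ) (i : Fin g) : List (Fin g × Bool) :=
  (List.range ℓ).map fun p => (c i p, true)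

/-- the endomorphism `φ(s_i) = C_i` -/
def phi {g : ℕ} (c : Fin g → ℕ → Fin g) (ℓ : ℕ) : FreeGroup (Fin g) →* FreeGroup (Fin g) :=
  FreeGroup.lift fun i => FreeGroup.mk (Cw c ℓ i)

/-- the block word of `v` -/
def blk {g : ℕ} (c : Fin g → ℕ → Fin g) (ℓ : ℕ) (v : List (Fin g × Bool)) :
    List (Fin g × Bool) :=
  v.flatMap fun e => if e.2 = true then Cw c ℓ e.1 else winv (Cw c ℓ e.1)

/-- embedding of letters of the base group -/
def emb {g : ℕ} (e : Fin g × Bool) : Lab g × Bool := (some e.1, e.2)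

/-- words making only positive excursions, with their value in the base group -/
inductive ExcV {g : ℕ} (c : Fin g → ℕ → Fin g) (ℓ : ℕ) :
    List (Lab g × Bool) → FreeGroup (Fin g) → Prop
  | nil : ExcV c ℓ [] 1
  | s (e : Fin g × Bool) {w : List (Lab g × Bool)} {f : FreeGroup (Fin g)} :
      ExcV c ℓ w f → ExcV c ℓ (emb e :: w) (FreeGroup.mk [e] * f)
  | blk {u w : List (Lab g × Bool)} {f f' : FreeGroup (Fin g)} :
      ExcV c ℓ u f → ExcV c ℓ w f' →
      ExcV c ℓ ((none, true) :: (u ++ (none, false) :: w)) (phi c ℓ f * f')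

/-- no near-complete relator subword -/
def NCfree {g : ℕ} (c : Fin g → ℕ → Fin g) (ℓ : ℕ) (w : List (Lab g × Bool)) : Prop :=
  ∀ i k, ¬ seg c ℓ i k (ℓ - 57) <:+: w ∧ ¬ winv (seg c ℓ i k (ℓ - 57)) <:+: w

end Crest.Agent.R191
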