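import Crest.Agent.R191.Graph

/-!
# R191 piece REL: facts on the periodic relator words `rl`, `seg`
-/

set_option autoImplicit false

namespace Crest.Agent.R191

variable {g : ℕ} {c : Fin g → ℕ → Fin g} {ℓ : ℕ}

/-- addition of a small number modulo `n` -/
theorem rl_modadd (p r n : ℕ) (h : r < n) :
    (p + r) % n = if p % n + r < n then p % n + r else p % n + r - n := by
  rw [Nat.add_mod_eq_ite, Nat.mod_eq_of_lt h]
  split_ifs <;> omega

theorem rl_modadd' (p r n : ℕ) (h : r < n) :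
    (p % n + r < n ∧ (p + r) % n = p % n + r) ∨
      (n ≤ p % n + r ∧ (p + r) % n + n = p % n + r) := by
  have h1 := rl_modadd p r n h
  split_ifs at h1 with h2
  · exact Or.inl ⟨h2, h1⟩
  · right
    omega

theorem rl_zero (i : Fin g) {p : ℕ} (h : p % (ℓ + 3) = 0) : rl c ℓ i p = (none, true) := by
  simp [rl, h]

theorem rl_one (i : Fin g) {p : ℕ} (h : p % (ℓ + 3) = 1) : rl c ℓ i p = (some i, true) := by
  simp [rl, h]

theorem rl_two (i : Fin g) {p : ℕ} (h : p % (ℓ + 3) = 2) : rl c ℓ i p = (none, false) := by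
  simp [rl, h]

theorem rl_three (i : Fin g) {p : ℕ} (h : 3 ≤ p % (ℓ + 3)) :
    rl c ℓ i p = (some (c i (ℓ + 2 - p % (ℓ + 3))), false) := by
  unfold rl
  rw [if_neg (by omega), if_neg (by omega), if_neg (by omega)]

theorem rl_eq_zero {i : Fin g} {p : ℕ} (h : rl c ℓ i p = (none, true)) : p % (ℓ + 3) = 0 := by
  by_contra h0
  by_cases h1 : p % (ℓ + 3) = 1
  · rw [rl_one i h1] at h; simp at h
  by_cases h2 : p % (ℓ + 3) = 2
  · rw [rl_two i h2] at h; simp at h
  · rw [rl_three i (by omega)] at h; simp at h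

theorem rl_eq_two {i : Fin g} {p : ℕ} (h : rl c ℓ i p = (none, false)) : p % (ℓ + 3) = 2 := by
  by_contra h2
  by_cases h0 : p % (ℓ + 3) = 0
  · rw [rl_zero i h0] at h; simp at h
  by_cases h1 : p % (ℓ + 3) = 1
  · rw [rl_one i h1] at h; simp at h
  · rw [rl_three i (by omega)] at h; simp at h

theorem rl_eq_one {i : Fin g} {p : ℕ} {a : Fin g} (h : rl c ℓ i p = (some a, true)) :
    p % (ℓ + 3) = 1 := by
  by_contra h1
  by_cases h0 : p % (ℓ + 3) = 0
  · rw [rl_zero i h0] at h; simp at h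
  by_cases h2 : p % (ℓ + 3) = 2
  · rw [rl_two i h2] at h; simp at h
  · rw [rl_three i (by omega)] at h; simp at h

theorem seg_length (i : Fin g) (k len : ℕ) : (seg c ℓ i k len).length = len := by
  simp [seg]

theorem seg_getElem (i : Fin g) (k len j : ℕ) (h : j < (seg c ℓ i k len).length) :
    (seg c ℓ i k len)[j] = rl c ℓ i (k + j) := by
  simp [seg]

theorem rl_period (i : Fin g) (p : ℕ) : rl c ℓ i (p + (ℓ + 3)) = rl c ℓ i p := by
  simp [rl]

theorem rl_mod (i : Fin g) (p q : ℕ) (h : p % (ℓ + 3) = q % (ℓ + 3)) :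
    rl c ℓ i p = rl c ℓ i q := by
  simp [rl, h]

theorem seg_mod (i : Fin g) (k k' len : ℕ) (h : k % (ℓ + 3) = k' % (ℓ + 3)) :
    seg c ℓ i k len = seg c ℓ i k' len := by
  unfold seg
  apply List.map_congr_left
  intro j _
  apply rl_mod
  rw [Nat.add_mod, h, ← Nat.add_mod]

theorem seg_add (i : Fin g) (k a b : ℕ) :
    seg c ℓ i k (a + b) = seg c ℓ i k a ++ seg c ℓ i (k + a) b := by
  unfold seg
  rw [List.range_add, List.map_append, List.map_map]
  congr 1
  apply List.map_congr_left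
  intro j _
  simp [Nat.add_assoc]

/-- `seg` of length `n+1` from the left -/
theorem seg_succ (i : Fin g) (k a : ℕ) :
    seg c ℓ i k (a + 1) = rl c ℓ i k :: seg c ℓ i (k + 1) a := by
  rw [Nat.add_comm a 1, seg_add]
  simp [seg]

theorem seg_succ_right (i : Fin g) (k a : ℕ) :
    seg c ℓ i k (a + 1) = seg c ℓ i k a ++ [rl c ℓ i (k + a)] := by
  rw [seg_add]
  simp [seg]

theorem seg_take (i : Fin g) (k len j : ℕ) (h : j ≤ len) :
    (seg c ℓ i k len).take j = seg c ℓ i k j := by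
  obtain ⟨d, rfl⟩ := Nat.exists_eq_add_of_le h
  rw [seg_add]
  exact List.take_left' (seg_length i k j)

/-- `6` consecutive letters of the cyclic relator determine `i` and the position.
Proof: if the window `p..p+5` contains a letter `(none, _)` (position `0` or `2` mod `ℓ+3`) then its
sign and place determine the position and a neighbouring letter in the window (`c_{i,0} = i` at
position `ℓ+2`, `i` at position `1`, `c_{i,ℓ-1} = i` at position `3`) determines `i`; otherwise both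
windows lie in the `C`-part (positions `3..ℓ+2`), the four middle letters are inner, use `win`. -/
theorem rl_win (hc : CWords c ℓ) {i j : Fin g} {p q : ℕ}
    (h : ∀ r, r < 6 → rl c ℓ i (p + r) = rl c ℓ j (q + r)) :
    i = j ∧ p % (ℓ + 3) = q % (ℓ + 3) := by
  have hℓ := hc.big
  have hpl : p % (ℓ + 3) < ℓ + 3 := Nat.mod_lt _ (by omega)
  have hql : q % (ℓ + 3) < ℓ + 3 := Nat.mod_lt _ (by omega)
  by_cases h0 : ∃ r, r < 6 ∧ (p + r) % (ℓ + 3) = 0
  · obtain ⟨r, hr, h0⟩ := h0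
    have h1 : (q + r) % (ℓ + 3) = 0 := by
      apply rl_eq_zero (c := c) (i := j)
      rw [← h r hr, rl_zero i h0]
    have hpr := rl_modadd p r (ℓ + 3) (by omega)
    have hqr := rl_modadd q r (ℓ + 3) (by omega)
    have hpq : p % (ℓ + 3) = q % (ℓ + 3) := by
      rw [h0] at hpr
      rw [h1] at hqr
      split_ifs at hpr hqr <;> omega
    refine ⟨?_, hpq⟩
    by_cases hr5 : r = 5
    · subst hr5
      have hp4 : (p + 4) % (ℓ + 3) = ℓ + 2 := by
        rw [rl_modadd p 4 (ℓ + 3) (by omega)]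
        rw [h0] at hpr
        split_ifs at hpr ⊢ <;> omega
      have hq4 : (q + 4) % (ℓ + 3) = ℓ + 2 := by
        rw [rl_modadd q 4 (ℓ + 3) (by omega)]
        rw [h1] at hqr
        split_ifs at hqr ⊢ <;> omega
      have h4 := h 4 (by omega)
      rw [rl_three i (by omega), rl_three j (by omega), hp4, hq4] at h4
      simp only [Nat.sub_self, hc.head] at h4
      simpa using h4
    · have hp1 : (p + (r + 1)) % (ℓ + 3) = 1 := by
        rw [rl_modadd p (r + 1) (ℓ + 3) (by omega)]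
        rw [h0] at hpr
        split_ifs at hpr ⊢ <;> omega
      have hq1 : (q + (r + 1)) % (ℓ + 3) = 1 := by
        rw [rl_modadd q (r + 1) (ℓ + 3) (by omega)]
        rw [h1] at hqr
        split_ifs at hqr ⊢ <;> omega
      have h4 := h (r + 1) (by omega)
      rw [rl_one i hp1, rl_one j hq1] at h4
      simpa using h4
  by_cases h2 : ∃ r, r < 6 ∧ (p + r) % (ℓ + 3) = 2
  · obtain ⟨r, hr, h2⟩ := h2
    have h1 : (q + r) % (ℓ + 3) = 2 := by
      apply rl_eq_two (c := c) (i := j)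
      rw [← h r hr, rl_two i h2]
    have hpr := rl_modadd p r (ℓ + 3) (by omega)
    have hqr := rl_modadd q r (ℓ + 3) (by omega)
    have hpq : p % (ℓ + 3) = q % (ℓ + 3) := by
      rw [h2] at hpr
      rw [h1] at hqr
      split_ifs at hpr hqr <;> omega
    refine ⟨?_, hpq⟩
    by_cases hr0 : r = 0
    · subst hr0
      have hp4 : (p + 1) % (ℓ + 3) = 3 := by
        rw [rl_modadd p 1 (ℓ + 3) (by omega)]
        rw [h2] at hpr
        split_ifs at hpr ⊢ <;> omega
      have hq4 : (q + 1) % (ℓ + 3) = 3 := by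
        rw [rl_modadd q 1 (ℓ + 3) (by omega)]
        rw [h1] at hqr
        split_ifs at hqr ⊢ <;> omega
      have h4 := h 1 (by omega)
      rw [rl_three i (by omega), rl_three j (by omega), hp4, hq4] at h4
      have e : ℓ + 2 - 3 = ℓ - 1 := by omega
      simp only [e, hc.last] at h4
      simpa using h4
    · obtain ⟨r, rfl⟩ := Nat.exists_eq_succ_of_ne_zero hr0
      have hp1 : (p + r) % (ℓ + 3) = 1 := by
        rw [rl_modadd p r (ℓ + 3) (by omega)]
        rw [h2] at hpr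
        split_ifs at hpr ⊢ <;> omega
      have hq1 : (q + r) % (ℓ + 3) = 1 := by
        rw [rl_modadd q r (ℓ + 3) (by omega)]
        rw [h1] at hqr
        split_ifs at hqr ⊢ <;> omega
      have h4 := h r (by omega)
      rw [rl_one i hp1, rl_one j hq1] at h4
      simpa using h4
  · push Not at h0 h2
    have h0q : ∀ r, r < 6 → (q + r) % (ℓ + 3) ≠ 0 := by
      intro r hr h1
      apply h0 r hr
      apply rl_eq_zero (c := c) (i := i)
      rw [h r hr, rl_zero j h1]
    have h2q : ∀ r, r < 6 → (q + r) % (ℓ + 3) ≠ 2 := by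
      intro r hr h1
      apply h2 r hr
      apply rl_eq_two (c := c) (i := i)
      rw [h r hr, rl_two j h1]
    have key : ∀ x : ℕ, (∀ r, r < 6 → (x + r) % (ℓ + 3) ≠ 0) →
        (∀ r, r < 6 → (x + r) % (ℓ + 3) ≠ 2) → 3 ≤ x % (ℓ + 3) ∧ x % (ℓ + 3) + 5 ≤ ℓ + 2 := by
      intro x hx0 hx2
      have hxl : x % (ℓ + 3) < ℓ + 3 := Nat.mod_lt _ (by omega)
      have a0 := hx0 0 (by omega)
      have a1 := hx0 1 (by omega)
      have a2 := hx0 2 (by omega)
      have a3 := hx0 3 (by omega)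
      have a4 := hx0 4 (by omega)
      have a5 := hx0 5 (by omega)
      have b0 := hx2 0 (by omega)
      have b1 := hx2 1 (by omega)
      have m0 := rl_modadd' x 0 (ℓ + 3) (by omega)
      have m1 := rl_modadd' x 1 (ℓ + 3) (by omega)
      have m2 := rl_modadd' x 2 (ℓ + 3) (by omega)
      have m3 := rl_modadd' x 3 (ℓ + 3) (by omega)
      have m4 := rl_modadd' x 4 (ℓ + 3) (by omega)
      have m5 := rl_modadd' x 5 (ℓ + 3) (by omega)
      omega
    obtain ⟨hp3, hp5⟩ := key p h0 h2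
    obtain ⟨hq3, hq5⟩ := key q h0q h2q
    have hw := hc.win i j (ℓ + 2 - p % (ℓ + 3) - 4) (ℓ + 2 - q % (ℓ + 3) - 4) (by omega) (by omega)
      (by omega) (by omega) ?_
    · refine ⟨hw.1, ?_⟩
      have := hw.2
      omega
    · intro r hr
      have hpr := rl_modadd p (4 - r) (ℓ + 3) (by omega)
      have hqr := rl_modadd q (4 - r) (ℓ + 3) (by omega)
      rw [if_pos (by omega)] at hpr hqr
      have h4 := h (4 - r) (by omega)
      rw [rl_three i (by omega), rl_three j (by omega), hpr, hqr] at h4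
      simp only [Prod.mk.injEq, Option.some.injEq, and_true] at h4
      have e1 : ℓ + 2 - p % (ℓ + 3) - 4 + r = ℓ + 2 - (p % (ℓ + 3) + (4 - r)) := by omega
      have e2 : ℓ + 2 - q % (ℓ + 3) - 4 + r = ℓ + 2 - (q % (ℓ + 3) + (4 - r)) := by omega
      rw [e1, e2]
      exact h4

/-- no window of length `6` is the inverse of a window of a relator (count the letters
`(some _, true)`: at most one in a window, at least three in the inverse of a window) -/
theorem rl_win_inv (hc : CWords c ℓ) {i j : Fin g} {p q : ℕ} :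
    ¬ ∀ r, r < 6 → rl c ℓ i (p + r) = ((rl c ℓ j (q + (5 - r))).1, !(rl c ℓ j (q + (5 - r))).2) := by
  intro h
  have hℓ := hc.big
  have hpl : p % (ℓ + 3) < ℓ + 3 := Nat.mod_lt _ (by omega)
  have hql : q % (ℓ + 3) < ℓ + 3 := Nat.mod_lt _ (by omega)
  have key : ∀ r, r < 6 → 3 ≤ (q + (5 - r)) % (ℓ + 3) → (p + r) % (ℓ + 3) = 1 := by
    intro r hr h3
    have h1 := h r hr
    rw [rl_three j h3] at h1
    exact rl_eq_one h1
  have two : ∀ r s, r < s → s < 6 → ¬ ((p + r) % (ℓ + 3) = 1 ∧ (p + s) % (ℓ + 3) = 1) := by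
    rintro r s hrs hs ⟨h1, h2⟩
    have m1 := rl_modadd' p r (ℓ + 3) (by omega)
    have m2 := rl_modadd' p s (ℓ + 3) (by omega)
    omega
  by_cases hy : q % (ℓ + 3) + 5 < ℓ + 3
  · have q0 := rl_modadd' q 5 (ℓ + 3) (by omega)
    have q1 := rl_modadd' q 4 (ℓ + 3) (by omega)
    exact two 0 1 (by omega) (by omega) ⟨key 0 (by omega) (by
      show 3 ≤ (q + 5) % (ℓ + 3)
      omega), key 1 (by omega) (by
      show 3 ≤ (q + 4) % (ℓ + 3)
      omega)⟩
  by_cases hy1 : q % (ℓ + 3) + 1 < ℓ + 3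
  · have q0 := rl_modadd' q 0 (ℓ + 3) (by omega)
    have q1 := rl_modadd' q 1 (ℓ + 3) (by omega)
    exact two 4 5 (by omega) (by omega) ⟨key 4 (by omega) (by
      show 3 ≤ (q + 1) % (ℓ + 3)
      omega), key 5 (by omega) (by
      show 3 ≤ (q + 0) % (ℓ + 3)
      omega)⟩
  · have q0 := rl_modadd' q 0 (ℓ + 3) (by omega)
    have q1 := rl_modadd' q 5 (ℓ + 3) (by omega)
    exact two 0 5 (by omega) (by omega) ⟨key 0 (by omega) (by
      show 3 ≤ (q + 5) % (ℓ + 3)
      omega), key 5 (by omega) (by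
      show 3 ≤ (q + 0) % (ℓ + 3)
      omega)⟩

/-- consecutive letters never cancel -/
theorem rl_red (hc : CWords c ℓ) (i : Fin g) (p : ℕ) :
    ¬ ((rl c ℓ i (p + 1)).1 = (rl c ℓ i p).1 ∧ (rl c ℓ i (p + 1)).2 = !(rl c ℓ i p).2) := by
  have hℓ := hc.big
  have hpl : p % (ℓ + 3) < ℓ + 3 := Nat.mod_lt _ (by omega)
  have h1 := rl_modadd p 1 (ℓ + 3) (by omega)
  by_cases e0 : p % (ℓ + 3) = 0
  · have : (p + 1) % (ℓ + 3) = 1 := by rw [h1, if_pos (by omega)]; omega
    rw [rl_zero i e0, rl_one i this]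
    simp
  by_cases e1 : p % (ℓ + 3) = 1
  · have : (p + 1) % (ℓ + 3) = 2 := by rw [h1, if_pos (by omega)]; omega
    rw [rl_one i e1, rl_two i this]
    simp
  by_cases e2 : p % (ℓ + 3) = 2
  · have : (p + 1) % (ℓ + 3) = 3 := by rw [h1, if_pos (by omega)]; omega
    rw [rl_two i e2, rl_three i (by omega)]
    simp
  by_cases e3 : p % (ℓ + 3) = ℓ + 2
  · have : (p + 1) % (ℓ + 3) = 0 := by rw [h1, if_neg (by omega)]; omega
    rw [rl_three i (p := p) (by omega), rl_zero i this]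
    simp
  · have : (p + 1) % (ℓ + 3) = p % (ℓ + 3) + 1 := by rw [h1, if_pos (by omega)]
    rw [rl_three i (p := p) (by omega), rl_three i (by omega)]
    simp

theorem seg_red (hc : CWords c ℓ) (i : Fin g) (k len : ℕ) : Red (seg c ℓ i k len) := by
  unfold Red
  rw [List.isChain_iff_getElem]
  intro j hj
  rw [seg_getElem, seg_getElem]
  exact rl_red hc i (k + j)

/-- two consecutive letters are never `t t` or `t⁻¹ t⁻¹` -/
theorem rl_no_tt (i : Fin g) (p : ℕ) :
    ¬ ((rl c ℓ i p).1 = none ∧ rl c ℓ i (p + 1) = rl c ℓ i p) := by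
  rintro ⟨h1, h2⟩
  have hpl : p % (ℓ + 3) < ℓ + 3 := Nat.mod_lt _ (by omega)
  have hm := rl_modadd p 1 (ℓ + 3) (by omega)
  by_cases e0 : p % (ℓ + 3) = 0
  · have : (p + 1) % (ℓ + 3) = 1 := by rw [hm, if_pos (by omega)]; omega
    rw [rl_zero i e0, rl_one i this] at h2
    simp at h2
  by_cases e1 : p % (ℓ + 3) = 1
  · rw [rl_one i e1] at h1
    simp at h1
  by_cases e2 : p % (ℓ + 3) = 2
  · rw [rl_two i e2] at h2
    have := rl_eq_two h2
    rw [hm] at this
    split_ifs at this <;> omega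
  · rw [rl_three i (by omega)] at h1
    simp at h1

/-- inner windows: if `4 ≤ q ≤ ℓ - 2` then `rl i (q+r) = (some (c i (ℓ+2-q-r)), false)` for `r < 4`,
and these four letters determine `i` and `q` among such `(i, q)`. -/
theorem rl_inner (hc : CWords c ℓ) {i : Fin g} {p : ℕ} (h1 : 4 ≤ p % (ℓ + 3))
    (h2 : p % (ℓ + 3) ≤ ℓ - 2) (r : ℕ) (hr : r < 4) :
    rl c ℓ i (p + r) = (some (c i (ℓ + 2 - p % (ℓ + 3) - r)), false) := by
  have hℓ := hc.big
  have hm := rl_modadd p r (ℓ + 3) (by omega)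
  rw [if_pos (by omega)] at hm
  rw [rl_three i (by omega), hm]
  rw [show ℓ + 2 - (p % (ℓ + 3) + r) = ℓ + 2 - p % (ℓ + 3) - r by omega]

theorem rl_inner_win (hc : CWords c ℓ) {i j : Fin g} {p q : ℕ} (hp1 : 4 ≤ p % (ℓ + 3))
    (hp2 : p % (ℓ + 3) ≤ ℓ - 2) (hq1 : 4 ≤ q % (ℓ + 3)) (hq2 : q % (ℓ + 3) ≤ ℓ - 2)
    (h : ∀ r, r < 4 → rl c ℓ i (p + r) = rl c ℓ j (q + r)) :
    i = j ∧ p % (ℓ + 3) = q % (ℓ + 3) := by
  have hℓ := hc.big
  have hw := hc.win i j (ℓ + 2 - p % (ℓ + 3) - 3) (ℓ + 2 - q % (ℓ + 3) - 3) (by omega) (by omega)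
    (by omega) (by omega) ?_
  · refine ⟨hw.1, ?_⟩
    have := hw.2
    omega
  · intro r hr
    have h4 := h (3 - r) (by omega)
    rw [rl_inner hc hp1 hp2 _ (by omega), rl_inner hc hq1 hq2 _ (by omega)] at h4
    simp only [Prod.mk.injEq, Option.some.injEq, and_true] at h4
    have e1 : ℓ + 2 - p % (ℓ + 3) - 3 + r = ℓ + 2 - p % (ℓ + 3) - (3 - r) := by omega
    have e2 : ℓ + 2 - q % (ℓ + 3) - 3 + r = ℓ + 2 - q % (ℓ + 3) - (3 - r) := by omega
    rw [e1, e2]
    exact h4

/-- the rotated relators are trivial -/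
theorem wval_seg {Γ : Type} [Group Γ] (val : Lab g → Γ)
    (hrel : ∀ i, wval val (seg c ℓ i 0 (ℓ + 3)) = 1) (i : Fin g) (k : ℕ) :
    wval val (seg c ℓ i k (ℓ + 3)) = 1 := by
  have hk : k % (ℓ + 3) < ℓ + 3 := Nat.mod_lt _ (by omega)
  rw [seg_mod i k (k % (ℓ + 3)) (ℓ + 3) (Nat.mod_mod _ _).symm]
  generalize k % (ℓ + 3) = m at hk
  obtain ⟨d, hd⟩ := Nat.exists_eq_add_of_le hk.le
  have h1 := hrel i
  have h2 : seg c ℓ i 0 (ℓ + 3) = seg c ℓ i 0 m ++ seg c ℓ i m d := by
    conv_lhs => rw [hd]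
    rw [seg_add, Nat.zero_add]
  have h3 : seg c ℓ i m (ℓ + 3) = seg c ℓ i m d ++ seg c ℓ i 0 m := by
    conv_lhs => rw [hd, Nat.add_comm m d]
    rw [seg_add, seg_mod i (m + d) 0 m (by rw [← hd]; simp)]
  rw [h2, wval_append] at h1
  rw [h3, wval_append]
  exact mul_eq_one_comm.mp h1

/-- In a folded graph, if the relator closes at `v` from position `k` then it can be read forever:
for every `j` there is exactly one `z` with `Rd G (seg i k j) v z`, and for this `z` the relator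
closes from position `k + j`. -/
theorem closed_read {V : Type} {G : Lab g → V → V → Prop} (hG : Folded G) {i : Fin g} {k : ℕ}
    {v : V} (h : Rd G (seg c ℓ i k (ℓ + 3)) v v) (j : ℕ) :
    ∃ z, Rd G (seg c ℓ i k j) v z ∧ Rd G (seg c ℓ i (k + j) (ℓ + 3)) z z := by
  induction j with
  | zero => exact ⟨v, rfl, h⟩
  | succ j ih =>
    obtain ⟨z, h1, h2⟩ := ih
    have h2' := h2
    rw [show ℓ + 3 = (ℓ + 2) + 1 by omega, seg_succ] at h2'
    obtain ⟨z', h3, h4⟩ := h2'
    refine ⟨z', ?_, ?_⟩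
    · rw [seg_succ_right, rd_append]
      exact ⟨z, h1, z', h3, rfl⟩
    · rw [show ℓ + 3 = (ℓ + 2) + 1 by omega, seg_succ_right, rd_append]
      refine ⟨z, h4, z', ?_, rfl⟩
      rw [show k + (j + 1) + (ℓ + 2) = (k + j) + (ℓ + 3) by omega, rl_period]
      exact h3

/-- rotation of a closed loop does not change its sum -/
theorem closed_sum {V : Type} {G : Lab g → V → V → Prop} {f : Lab g → V → V → ℝ}
    (hG : Folded G) {i : Fin g} {k j : ℕ} {v z : V} {r : ℝ}
    (h : RS G f (seg c ℓ i k (ℓ + 3)) v v r) (hj : Rd G (seg c ℓ i k j) v z) :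
    RS G f (seg c ℓ i (k + j) (ℓ + 3)) z z r := by
  induction j generalizing z with
  | zero =>
    have : v = z := hj
    subst this
    exact h
  | succ j ih =>
    rw [seg_succ_right, rd_append] at hj
    obtain ⟨y, h1, z', h2, h2'⟩ := hj
    have h2'' : z' = z := h2'
    subst h2''
    have h3 := ih h1
    rw [show ℓ + 3 = (ℓ + 2) + 1 by omega, seg_succ] at h3
    obtain ⟨z1, r', h4, h5, rfl⟩ := h3
    obtain rfl := hG.stp_right h2 h4
    rw [show ℓ + 3 = (ℓ + 2) + 1 by omega, seg_succ_right, rs_append]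
    refine ⟨y, r', sgn f (rl c ℓ i (k + j)) y z', h5, ?_, by ring⟩
    rw [show k + (j + 1) + (ℓ + 2) = (k + j) + (ℓ + 3) by omega, rl_period]
    exact ⟨z', 0, h4, ⟨rfl, rfl⟩, by ring⟩

/-- periodicity: after a full turn one is back -/
theorem closed_period {V : Type} {G : Lab g → V → V → Prop} (hG : Folded G) {i : Fin g} {k j : ℕ}
    {v z : V} (h : Rd G (seg c ℓ i k (ℓ + 3)) v v) :
    Rd G (seg c ℓ i k (j + (ℓ + 3))) v z ↔ Rd G (seg c ℓ i k j) v z := by
  rw [Nat.add_comm j, seg_add, rd_append, seg_mod i (k + (ℓ + 3)) k j (by simp)]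
  constructor
  · rintro ⟨y, h1, h2⟩
    obtain rfl := hG.rd_unique h h1
    exact h2
  · intro h2
    exact ⟨v, h, h2⟩

end Crest.Agent.R191
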