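import Crest.Agent.R191.Global
import Crest.Agent.R191.Rel

/-!
# R191 piece EXC: words with positive excursions

`excQ`: a reduced `NCfree` word with positive excursions only is either literal (no letter `t`)
or its value has norm `≥ 2`.
`excP`: if moreover the value is in `φ(F)` and the word does not start with `t`, it is empty.

Decompose `w = emb f₀ ++ t u₁ t⁻¹ ++ emb f₁ ++ ⋯ ++ t u_n t⁻¹ ++ emb f_n` (first-level blocks), value
`f₀ φ(y₁) f₁ ⋯ φ(y_n) f_n`, `y_j` = value of `u_j`, `v_j` = reduced word of `y_j`.
By induction (on the length) `u_j = emb v_j` literal, nonempty as `w` is reduced, or `|v_j| ≥ 2`.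
`Ok c ℓ f₀ [(v₁,f₁),…,(v_n,f_n)]` holds:
* `f_j ≠ []` for `0 < j < n` because `w` is reduced;
* `NoC f_j`: a subword of `C_b⁻¹` of length `ℓ-57` is `seg c ℓ b k (ℓ-57)` (`3 ≤ k`), one of `C_b` is
  its `winv`;
* `|v_j| ≥ 2`: cut `p = ℓ`; a cancellation `≥ ℓ - 57` with `f_{j-1}` or `f_j` gives a subword of
  `C_b^{±1}` of length `ℓ - 57` in `w`, so `α, β ≤ ℓ - 58`;
* `v_j = [(b,ε)]`: let `α`, `β` be the maximal cancellations on the left and right; if
  `α + β ≥ ℓ - 60` take `α' ≤ α`, `β' ≤ β` with `α' + β' = ℓ - 60`; then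
  `(last α' letters of f_{j-1}) t s_b^ε t⁻¹ (first β' letters of f_j)` is `seg c ℓ b k (ℓ-57)`
  (if `ε = true`), `k = ℓ + 3 - α'`, or its `winv`-analogue if `ε = false`:
  contradiction with `NCfree`.  So the cut `p = α + 30` works.
Then `ok_norm` gives `norm ≥ 24 n ≥ 2` if `n ≥ 1`; and `ok_first`, `noC_range` give `f₀ = []`, so
`w` starts with `t` if `n ≥ 1`, and `w = []` if `n = 0`. -/

set_option autoImplicit false

namespace Crest.Agent.R191

variable {g : ℕ} {c : Fin g → ℕ → Fin g} {ℓ : ℕ}

/-! ### infixes -/

theorem exc_red_infix {L : Type} {v w : List (L × Bool)} (hw : Red w) (h : v <:+: w) : Red v :=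
  List.IsChain.infix hw h

theorem exc_nc_infix {v w : List (Lab g × Bool)} (hw : NCfree c ℓ w) (h : v <:+: w) :
    NCfree c ℓ v :=
  fun i k => ⟨fun h' => (hw i k).1 (h'.trans h), fun h' => (hw i k).2 (h'.trans h)⟩

theorem exc_red_emb {f : List (Fin g × Bool)} (h : Red (f.map emb)) : Red f := by
  unfold Red at h ⊢
  rw [List.isChain_map] at h
  refine h.imp ?_
  intro a b hab h
  apply hab
  simp [emb, h]

theorem exc_isReduced {f : List (Fin g × Bool)} (h : Red f) : FreeGroup.IsReduced f := by
  refine List.IsChain.imp ?_ h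
  intro a b hab h
  by_contra hne
  apply hab
  refine ⟨h.symm, ?_⟩
  revert hne
  cases a.2 <;> cases b.2 <;> simp

theorem exc_of_isReduced {f : List (Fin g × Bool)} (h : FreeGroup.IsReduced f) : Red f := by
  refine List.IsChain.imp ?_ h
  intro a b hab h
  have h1 := hab h.1.symm
  rw [h.2] at h1
  exact absurd h1 (by cases a.2 <;> simp)

theorem exc_toWord_red (y : FreeGroup (Fin g)) : Red y.toWord :=
  exc_of_isReduced FreeGroup.isReduced_toWord

theorem exc_toWord_mk {f : List (Fin g × Bool)} (h : Red f) : (FreeGroup.mk f).toWord = f := by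
  rw [FreeGroup.toWord_mk]
  exact FreeGroup.IsReduced.reduce_eq (exc_isReduced h)

theorem exc_winv_emb (f : List (Fin g × Bool)) : winv (f.map emb) = (winv f).map emb := by
  unfold winv
  rw [List.map_reverse, List.map_map, List.map_map]
  rfl

theorem exc_winv_append {L : Type} (v w : List (L × Bool)) :
    winv (v ++ w) = winv w ++ winv v := by
  simp [winv]

theorem exc_winv_infix {L : Type} {v w : List (L × Bool)} (h : v <:+: w) :
    winv v <:+: winv w := by
  obtain ⟨s, t, rfl⟩ := h
  exact ⟨winv t, winv s, by simp [exc_winv_append]⟩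

theorem exc_winv_take {L : Type} (w : List (L × Bool)) (a : ℕ) :
    winv (w.take a) = (winv w).drop (w.length - a) := by
  unfold winv
  rw [List.map_take, List.reverse_take, List.length_map]

theorem exc_winv_drop {L : Type} (w : List (L × Bool)) (a : ℕ) :
    winv (w.drop a) = (winv w).take (w.length - a) := by
  unfold winv
  rw [List.map_drop, List.reverse_drop, List.length_map]

/-- infixes of segments are segments -/
theorem exc_seg_infix {i : Fin g} {k len : ℕ} {x : List (Lab g × Bool)}
    (h : x <:+: seg c ℓ i k len) : ∃ k', x = seg c ℓ i k' x.length := by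
  obtain ⟨s, t, h⟩ := h
  refine ⟨k + s.length, ?_⟩
  apply List.ext_getElem
  · rw [seg_length]
  · intro j h1 h2
    rw [seg_getElem]
    have h3 : s.length + j < (s ++ x ++ t).length := by
      simp only [List.length_append]; omega
    have h4 : x[j] = (s ++ x ++ t)[s.length + j] := by
      rw [List.getElem_append_left (by simp only [List.length_append]; omega)]
      rw [List.getElem_append_right (by omega)]
      simp
    rw [h4]
    have h5 : s.length + j < (seg c ℓ i k len).length := by rw [← h]; exact h3
    have h6 : (s ++ x ++ t)[s.length + j] = (seg c ℓ i k len)[s.length + j] := by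
      congr 1
    rw [h6, seg_getElem]
    congr 1
    omega

theorem exc_winv_Cw (b : Fin g) : (winv (Cw c ℓ b)).map emb = seg c ℓ b 3 ℓ := by
  apply List.ext_getElem
  · simp [seg_length, winv_length, Cw_length]
  · intro j h1 h2
    rw [seg_getElem]
    have h3 : j < ℓ := by simpa [seg_length] using h2
    have h4 : (3 + j) % (ℓ + 3) = 3 + j := Nat.mod_eq_of_lt (by omega)
    unfold rl
    rw [h4, if_neg (by omega), if_neg (by omega), if_neg (by omega)]
    simp only [winv, Cw, List.getElem_map, List.getElem_reverse, List.length_map,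
      List.length_range, List.getElem_range, emb]
    have : ℓ + 2 - (3 + j) = ℓ - 1 - j := by omega
    rw [this]
    simp

/-- the relator read around `t s_b t⁻¹` -/
theorem exc_seg_mid (hc : CWords c ℓ) (b : Fin g) {α β : ℕ} (hα : α ≤ ℓ) (hβ : β ≤ ℓ) :
    (winv ((Cw c ℓ b).take α)).map emb ++ [(none, true), (some b, true), (none, false)] ++
      (winv ((Cw c ℓ b).drop (ℓ - β))).map emb = seg c ℓ b (ℓ + 3 - α) (α + 3 + β) := by
  have hb := hc.big
  rw [seg_add, seg_add]
  congr 1
  · congr 1
    · apply List.ext_getElem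
      · simp [seg_length, winv_length, Cw_length, hα]
      · intro j h1 h2
        rw [seg_getElem]
        have h3 : j < α := by simpa [seg_length] using h2
        have h4 : (ℓ + 3 - α + j) % (ℓ + 3) = ℓ + 3 - α + j := Nat.mod_eq_of_lt (by omega)
        unfold rl
        rw [h4, if_neg (by omega), if_neg (by omega), if_neg (by omega)]
        simp only [winv, Cw, List.getElem_map, List.getElem_reverse, List.length_map,
          List.length_range, List.getElem_range, emb, List.length_take, List.getElem_take]
        have : ℓ + 2 - (ℓ + 3 - α + j) = min α ℓ - 1 - j := by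
          rw [min_eq_left hα]; omega
        rw [this]
        simp
    · have e : ℓ + 3 - α + α = ℓ + 3 := by omega
      rw [e]
      have m1 : 1 % (ℓ + 3) = 1 := Nat.mod_eq_of_lt (by omega)
      have m2 : 2 % (ℓ + 3) = 2 := Nat.mod_eq_of_lt (by omega)
      unfold seg rl
      simp [List.range_succ, m1, m2]
  · apply List.ext_getElem
    · simp [seg_length, winv_length, Cw_length]; omega
    · intro j h1 h2
      rw [seg_getElem]
      have h3 : j < β := by simpa [seg_length] using h2
      have h4 : (ℓ + 3 - α + (α + 3) + j) % (ℓ + 3) = 3 + j := by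
        have : ℓ + 3 - α + (α + 3) + j = (ℓ + 3) + (3 + j) := by omega
        rw [this, Nat.add_mod_left]
        exact Nat.mod_eq_of_lt (by omega)
      unfold rl
      rw [h4, if_neg (by omega), if_neg (by omega), if_neg (by omega)]
      simp only [winv, Cw, List.getElem_map, List.getElem_reverse, List.length_map,
        List.length_range, List.getElem_range, emb, List.length_drop, List.getElem_drop]
      have : ℓ + 2 - (3 + j) = ℓ - β + (ℓ - (ℓ - β) - 1 - j) := by omega
      rw [this]
      simp

/-- literal parts contain no long subword of `C_b^{±1}` -/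
theorem exc_noC {w : List (Lab g × Bool)} (hn : NCfree c ℓ w)
    {f : List (Fin g × Bool)} (hf : f.map emb <:+: w) : NoC c ℓ f := by
  have key : ∀ x : List (Fin g × Bool), x.length = ℓ - 57 → ∀ b, x <:+: winv (Cw c ℓ b) →
      ∃ k, x.map emb = seg c ℓ b k (ℓ - 57) := by
    intro x hx b hb
    have h1 : x.map emb <:+: seg c ℓ b 3 ℓ := by
      rw [← exc_winv_Cw]; exact hb.map emb
    obtain ⟨k, hk⟩ := exc_seg_infix h1
    rw [List.length_map, hx] at hk
    exact ⟨k, hk⟩
  intro x hx hl b
  have hx2 : (x.take (ℓ - 57)).length = ℓ - 57 := by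
    rw [List.length_take]; omega
  have hx3 : x.take (ℓ - 57) <:+: x := (List.take_prefix _ _).isInfix
  have hx4 : (x.take (ℓ - 57)).map emb <:+: w := ((hx3.trans hx).map emb).trans hf
  constructor
  · intro hb
    have h1 : winv (x.take (ℓ - 57)) <:+: winv (Cw c ℓ b) := exc_winv_infix (hx3.trans hb)
    obtain ⟨k, hk⟩ := key _ (by rw [winv_length, hx2]) b h1
    apply (hn b k).2
    rw [← hk, exc_winv_emb, winv_winv]
    exact hx4
  · intro hb
    obtain ⟨k, hk⟩ := key _ hx2 b (hx3.trans hb)
    apply (hn b k).1
    rw [← hk]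
    exact hx4

/-! ### first level decomposition -/

/-- the word of a decomposition -/
def excW (f₀ : List (Fin g × Bool))
    (B : List (List (Lab g × Bool) × FreeGroup (Fin g) × List (Fin g × Bool))) :
    List (Lab g × Bool) :=
  f₀.map emb ++ B.flatMap fun x => (none, true) :: (x.1 ++ (none, false) :: x.2.2.map emb)

theorem exc_dec {w : List (Lab g × Bool)} {f : FreeGroup (Fin g)} (h : ExcV c ℓ w f) :
    ∃ (f₀ : List (Fin g × Bool))
      (B : List (List (Lab g × Bool) × FreeGroup (Fin g) × List (Fin g × Bool))),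
      (∀ x ∈ B, ExcV c ℓ x.1 x.2.1) ∧ w = excW f₀ B ∧
      f = FreeGroup.mk f₀ * vprod c ℓ (B.map fun x => (x.2.1.toWord, x.2.2)) := by
  induction h with
  | nil => exact ⟨[], [], by simp, by simp [excW], by simp [vprod, ← FreeGroup.one_eq_mk]⟩
  | @s e w f h ih =>
    obtain ⟨f₀, B, hB, rfl, rfl⟩ := ih
    refine ⟨e :: f₀, B, hB, by simp [excW], ?_⟩
    rw [← mul_assoc, FreeGroup.mul_mk]
    rfl
  | @blk u w f f' hu hw ihu ihw =>
    obtain ⟨f₀, B, hB, rfl, rfl⟩ := ihw
    refine ⟨[], (u, f, f₀) :: B, ?_, by simp [excW], ?_⟩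
    · intro x hx
      rcases List.mem_cons.1 hx with rfl | hx
      · exact hu
      · exact hB x hx
    · simp [vprod, ← FreeGroup.one_eq_mk, FreeGroup.mk_toWord, mul_assoc]

/-- the two possible shapes of an inner value -/
def excIH (u : List (Lab g × Bool)) (y : FreeGroup (Fin g)) : Prop :=
  (∃ v : List (Fin g × Bool), u = v.map emb ∧ y = FreeGroup.mk v) ∨ 2 ≤ y.norm

theorem exc_cut_long (hc : CWords c ℓ) {f f' v : List (Fin g × Bool)}
    (hf : NoC c ℓ f) (hf' : NoC c ℓ f') (hv : 2 ≤ v.length) :
    CutL c ℓ f v ℓ ∧ CutR c ℓ v f' ℓ := by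
  have hb := hc.big
  have hlen : (blk c ℓ v).length = ℓ * v.length := blk_length v
  have hlen2 : 2 * ℓ ≤ (blk c ℓ v).length := by
    rw [hlen, Nat.mul_comm 2 ℓ]
    exact Nat.mul_le_mul_left ℓ hv
  have hwi : ∀ (x : List (Fin g × Bool)) (e : Fin g × Bool),
      x <:+: (if e.2 = true then Cw c ℓ e.1 else winv (Cw c ℓ e.1)) →
      winv x <:+: Cw c ℓ e.1 ∨ winv x <:+: winv (Cw c ℓ e.1) := by
    intro x e hx
    split_ifs at hx with h
    · exact Or.inr (exc_winv_infix hx)
    · left
      have := exc_winv_infix hx
      rwa [winv_winv] at this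
  have hClen : ∀ e : Fin g × Bool,
      (if e.2 = true then Cw c ℓ e.1 else winv (Cw c ℓ e.1)).length = ℓ := by
    intro e
    split_ifs <;> simp [winv_length, Cw_length]
  refine ⟨⟨by omega, ?_⟩, ?_⟩
  · intro α h1 h2 h3
    by_contra hlt
    cases v with
    | nil => simp at hv
    | cons e v =>
      have e1 : (blk c ℓ (e :: v)).take (ℓ - 57) <:+:
          (if e.2 = true then Cw c ℓ e.1 else winv (Cw c ℓ e.1)) := by
        have : blk c ℓ (e :: v) =
          (if e.2 = true then Cw c ℓ e.1 else winv (Cw c ℓ e.1)) ++ blk c ℓ v := by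
          simp [blk]
        rw [this, List.take_append_of_le_length (by rw [hClen]; omega)]
        exact (List.take_prefix _ _).isInfix
      have e2 : winv ((blk c ℓ (e :: v)).take (ℓ - 57)) <:+: f := by
        have e3 : (blk c ℓ (e :: v)).take (ℓ - 57) <:+: (blk c ℓ (e :: v)).take α := by
          refine List.IsPrefix.isInfix ?_
          exact List.take_prefix_take_left (by omega)
        have e4 := exc_winv_infix e3
        rw [← h3] at e4
        exact e4.trans (List.drop_suffix _ _).isInfix
      have e5 := hf _ e2 (by rw [winv_length, List.length_take]; omega) e.1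
      rcases hwi _ _ e1 with h | h
      · exact e5.1 h
      · exact e5.2 h
  · intro β h1 h2 h3
    by_contra hlt
    rcases List.eq_nil_or_concat v with rfl | ⟨v', e, rfl⟩
    · simp at hv
    · have hb0 : blk c ℓ (v'.concat e) = blk c ℓ v' ++
          (if e.2 = true then Cw c ℓ e.1 else winv (Cw c ℓ e.1)) := by
        rw [List.concat_eq_append, blk_append]
        simp [blk]
      have e1 : (blk c ℓ (v'.concat e)).drop ((blk c ℓ (v'.concat e)).length - (ℓ - 57)) <:+:
          (if e.2 = true then Cw c ℓ e.1 else winv (Cw c ℓ e.1)) := by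
        rw [hb0, List.length_append, hClen]
        have : (blk c ℓ v').length + ℓ - (ℓ - 57) = (blk c ℓ v').length + 57 := by omega
        rw [this, List.drop_length_add_append]
        exact (List.drop_suffix _ _).isInfix
      have e2 : winv ((blk c ℓ (v'.concat e)).drop
          ((blk c ℓ (v'.concat e)).length - (ℓ - 57))) <:+: f' := by
        have e3 : (blk c ℓ (v'.concat e)).drop ((blk c ℓ (v'.concat e)).length - (ℓ - 57)) <:+:
            (blk c ℓ (v'.concat e)).drop ((blk c ℓ (v'.concat e)).length - β) := by
          refine List.IsSuffix.isInfix ?_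
          exact List.drop_suffix_drop_left _ (by omega)
        have e4 := exc_winv_infix e3
        rw [← h3] at e4
        exact e4.trans (List.take_prefix _ _).isInfix
      have e5 := hf' _ e2 (by rw [winv_length, List.length_drop]; omega) e.1
      rcases hwi _ _ e1 with h | h
      · exact e5.1 h
      · exact e5.2 h

theorem exc_cut_short (hc : CWords c ℓ) {f f' : List (Fin g × Bool)} {b : Fin g} {ε : Bool}
    {w : List (Lab g × Bool)} (hn : NCfree c ℓ w)
    (hw : f.map emb ++ [(none, true), (some b, ε), (none, false)] ++ f'.map emb <:+: w) :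
    ∃ p, CutL c ℓ f [(b, ε)] p ∧ CutR c ℓ [(b, ε)] f' p := by
  have hb := hc.big
  have hC : (blk c ℓ [(b, ε)]).length = ℓ := by
    rw [blk_length]; simp
  set C := blk c ℓ [(b, ε)] with hCdef
  let P : ℕ → Prop := fun α => α ≤ f.length ∧ α ≤ ℓ ∧ f.drop (f.length - α) = winv (C.take α)
  let Q : ℕ → Prop := fun β => β ≤ f'.length ∧ β ≤ ℓ ∧ f'.take β = winv (C.drop (ℓ - β))
  have hP0 : P 0 := by
    refine ⟨by omega, by omega, ?_⟩
    simp [winv]
  have hPd : ∀ α α', α' ≤ α → P α → P α' := by
    rintro α α' h ⟨h1, h2, h3⟩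
    refine ⟨by omega, by omega, ?_⟩
    have e1 : f.drop (f.length - α') = (f.drop (f.length - α)).drop (α - α') := by
      rw [List.drop_drop]; congr 1; omega
    have e2 : C.take α' = (C.take α).take α' := by
      rw [List.take_take, min_eq_left h]
    rw [e1, h3, e2, exc_winv_take (C.take α) α']
    congr 1
    rw [List.length_take]; omega
  have hQd : ∀ β β', β' ≤ β → Q β → Q β' := by
    rintro β β' h ⟨h1, h2, h3⟩
    refine ⟨by omega, by omega, ?_⟩
    have e1 : f'.take β' = (f'.take β).take β' := by
      rw [List.take_take, min_eq_left h]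
    have e2 : C.drop (ℓ - β') = (C.drop (ℓ - β)).drop (β - β') := by
      rw [List.drop_drop]; congr 1; omega
    rw [e1, h3, e2, exc_winv_drop (C.drop (ℓ - β)) (β - β')]
    congr 1
    rw [List.length_drop]; omega
  have claim : ∀ α β, P α → Q β → α + β + 60 ≤ ℓ := by
    intro α β hPα hQβ
    by_contra hlt
    obtain ⟨α', β', hα', hβ', hsum⟩ : ∃ α' β', α' ≤ α ∧ β' ≤ β ∧ α' + β' = ℓ - 60 := by
      by_cases h : ℓ - 60 ≤ α
      · exact ⟨ℓ - 60, 0, h, by omega, by omega⟩
      · exact ⟨α, ℓ - 60 - α, le_refl _, by omega, by omega⟩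
    obtain ⟨p1, p2, p3⟩ := hPd _ _ hα' hPα
    obtain ⟨q1, q2, q3⟩ := hQd _ _ hβ' hQβ
    have hin : (winv (C.take α')).map emb ++ [(none, true), (some b, ε), (none, false)] ++
        (winv (C.drop (ℓ - β'))).map emb <:+: w := by
      refine List.IsInfix.trans ?_ hw
      rw [← p3, ← q3]
      refine ⟨(f.take (f.length - α')).map emb, (f'.drop β').map emb, ?_⟩
      simp only [← List.append_assoc]
      rw [← List.map_append, List.take_append_drop]
      rw [List.append_assoc, ← List.map_append, List.take_append_drop]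
    have hlen : α' + 3 + β' = ℓ - 57 := by omega
    have hlen' : β' + 3 + α' = ℓ - 57 := by omega
    cases ε with
    | true =>
      have hCC : C = Cw c ℓ b := by simp [hCdef, blk]
      rw [hCC, exc_seg_mid hc b p2 q2, hlen] at hin
      exact (hn _ _).1 hin
    | false =>
      have hCC : C = winv (Cw c ℓ b) := by simp [hCdef, blk]
      have hCl : (Cw c ℓ b).length = ℓ := Cw_length b
      have e1 : winv (C.take α') = (Cw c ℓ b).drop (ℓ - α') := by
        have := exc_winv_drop (Cw c ℓ b) (ℓ - α')
        rw [hCl, show ℓ - (ℓ - α') = α' by omega] at this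
        rw [hCC, ← this, winv_winv]
      have e2 : winv (C.drop (ℓ - β')) = (Cw c ℓ b).take β' := by
        have := exc_winv_take (Cw c ℓ b) β'
        rw [hCl] at this
        rw [hCC, ← this, winv_winv]
      have e3 := exc_seg_mid hc b q2 p2
      rw [hlen'] at e3
      apply (hn b (ℓ + 3 - β')).2
      rw [← e3]
      have e4 : winv ((winv ((Cw c ℓ b).take β')).map emb ++
          [(none, true), (some b, true), (none, false)] ++
          (winv ((Cw c ℓ b).drop (ℓ - α'))).map emb) =
          (winv (C.take α')).map emb ++ [(none, true), (some b, false), (none, false)] ++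
            (winv (C.drop (ℓ - β'))).map emb := by
        rw [exc_winv_append, exc_winv_append, exc_winv_emb, exc_winv_emb, winv_winv, winv_winv,
          e1, e2]
        simp [winv]
      rw [e4]
      exact hin
  classical
  have hmax : P (Nat.findGreatest P ℓ) := Nat.findGreatest_spec (m := 0) (by omega) hP0
  have hle : ∀ α, P α → α ≤ Nat.findGreatest P ℓ := fun α h => Nat.le_findGreatest h.2.1 h
  have hQ0 : Q 0 := by
    refine ⟨by omega, by omega, ?_⟩
    simp [winv, hC]
  refine ⟨Nat.findGreatest P ℓ + 30, ⟨?_, ?_⟩, ?_⟩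
  · have := claim _ _ hmax hQ0
    rw [← hCdef, hC]; omega
  · intro α h1 h2 h3
    rw [← hCdef] at h2 h3
    rw [hC] at h2
    have := hle α ⟨h1, h2, h3⟩
    omega
  · intro β h1 h2 h3
    rw [← hCdef] at h2 h3 ⊢
    rw [hC] at h2 h3 ⊢
    have := claim _ β hmax ⟨h1, h2, h3⟩
    omega

theorem exc_ok (hc : CWords c ℓ)
    (B : List (List (Lab g × Bool) × FreeGroup (Fin g) × List (Fin g × Bool))) :
    ∀ f₀ : List (Fin g × Bool), (∀ x ∈ B, excIH x.1 x.2.1) →
      Red (excW f₀ B) → NCfree c ℓ (excW f₀ B) →
      Ok c ℓ f₀ (B.map fun x => (x.2.1.toWord, x.2.2)) := by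
  induction B with
  | nil =>
    intro f₀ _ hr hn
    have h1 : f₀.map emb <:+: excW f₀ [] := by simp [excW]
    exact ⟨exc_red_emb (exc_red_infix hr h1), exc_noC hn h1⟩
  | cons x B ih =>
    obtain ⟨u, y, f₁⟩ := x
    intro f₀ hB hr hn
    have hsplit : excW f₀ ((u, y, f₁) :: B) =
        f₀.map emb ++ (none, true) :: (u ++ (none, false) :: excW f₁ B) := by
      simp [excW]
    have h1 : f₀.map emb <:+: excW f₀ ((u, y, f₁) :: B) := by
      rw [hsplit]; exact (List.prefix_append _ _).isInfix
    have h2 : excW f₁ B <:+: excW f₀ ((u, y, f₁) :: B) := by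
      rw [hsplit]
      refine ⟨f₀.map emb ++ (none, true) :: (u ++ [(none, false)]), [], ?_⟩
      simp
    have h3 : (none, true) :: (u ++ (none, false) :: excW f₁ B) <:+:
        excW f₀ ((u, y, f₁) :: B) := by
      rw [hsplit]; exact (List.suffix_append _ _).isInfix
    have h4 : u <:+: excW f₀ ((u, y, f₁) :: B) := by
      refine List.IsInfix.trans ⟨[(none, true)], (none, false) :: excW f₁ B, ?_⟩ h3
      simp
    have h5 : f₁.map emb <:+: excW f₀ ((u, y, f₁) :: B) := by
      refine List.IsInfix.trans ?_ h2
      exact (List.prefix_append _ _).isInfix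
    have hu : u ≠ [] := by
      rintro rfl
      have := exc_red_infix hr h3
      unfold Red at this
      rw [List.nil_append, List.isChain_cons_cons] at this
      exact this.1 (by simp)
    have hIH := hB (u, y, f₁) (by simp)
    have hok := ih f₁ (fun z hz => hB z (by simp [hz])) (exc_red_infix hr h2)
      (exc_nc_infix hn h2)
    refine ⟨exc_red_emb (exc_red_infix hr h1), exc_noC hn h1, exc_toWord_red y, ?_, ?_, hok⟩
    · by_cases hlong : 2 ≤ y.toWord.length
      · exact ⟨ℓ, exc_cut_long hc (exc_noC hn h1) (exc_noC hn h5) hlong⟩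
      · rcases hIH with ⟨v, hv1, hv2⟩ | h
        · simp only at hv1 hv2
          have hvr : Red v := by
            apply exc_red_emb
            rw [← hv1]
            exact exc_red_infix hr h4
          have hy : y.toWord = v := by rw [hv2]; exact exc_toWord_mk hvr
          rw [hy] at hlong ⊢
          rcases v with _ | ⟨⟨b, ε⟩, _ | ⟨e', v⟩⟩
          · simp at hv1; exact absurd hv1 hu
          · apply exc_cut_short hc hn
            subst hv1
            refine List.IsInfix.trans ?_ (List.infix_refl _)
            rw [hsplit]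
            refine ⟨[], (B.flatMap fun x => (none, true) :: (x.1 ++ (none, false) ::
              x.2.2.map emb)), ?_⟩
            simp [excW, emb]
          · exfalso
            apply hlong
            simp
        · exact absurd h hlong
    · intro hB0 hf1
      subst hf1
      cases B with
      | nil => simp at hB0
      | cons z B =>
        have := exc_red_infix hr h3
        have h6 : [((none, false) : Lab g × Bool), (none, true)] <:+:
            (none, true) :: (u ++ (none, false) :: excW [] (z :: B)) := by
          refine ⟨(none, true) :: u, z.1 ++ (none, false) :: (z.2.2.map emb ++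
            B.flatMap fun x => (none, true) :: (x.1 ++ (none, false) :: x.2.2.map emb)), ?_⟩
          simp [excW]
        have h7 := exc_red_infix this h6
        unfold Red at h7
        rw [List.isChain_cons_cons] at h7
        exact h7.1 (by simp)

theorem excQ (hc : CWords c ℓ) {w : List (Lab g × Bool)} {f : FreeGroup (Fin g)}
    (h : ExcV c ℓ w f) (hr : Red w) (hn : NCfree c ℓ w) :
    (∃ v : List (Fin g × Bool), w = v.map emb ∧ f = FreeGroup.mk v) ∨ 2 ≤ f.norm := by
  induction hlen : w.length using Nat.strong_induction_on generalizing w f with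
  | _ n IH =>
    subst hlen
    obtain ⟨f₀, B, hB, rfl, rfl⟩ := exc_dec h
    have hIH : ∀ x ∈ B, excIH x.1 x.2.1 := by
      intro x hx
      have hin : x.1 <:+: excW f₀ B := by
        obtain ⟨s, t, rfl⟩ := List.append_of_mem hx
        refine ⟨f₀.map emb ++ (s.flatMap fun x => (none, true) :: (x.1 ++ (none, false) ::
          x.2.2.map emb)) ++ [(none, true)], (none, false) :: x.2.2.map emb ++
          (t.flatMap fun x => (none, true) :: (x.1 ++ (none, false) ::
          x.2.2.map emb)), ?_⟩
        simp [excW]
      have hlt : x.1.length < (excW f₀ B).length := by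
        obtain ⟨s, t, rfl⟩ := List.append_of_mem hx
        simp only [excW, List.flatMap_append, List.flatMap_cons, List.length_append,
          List.length_cons]
        omega
      exact IH _ hlt (hB x hx) (exc_red_infix hr hin) (exc_nc_infix hn hin) rfl
    have hok := exc_ok hc B f₀ hIH hr hn
    by_cases hB0 : B = []
    · left
      subst hB0
      exact ⟨f₀, by simp [excW], by simp [vprod]⟩
    · right
      have h1 := ok_norm hc hok
      have h2 : 1 ≤ B.length := List.length_pos_iff.2 hB0
      rw [List.length_map] at h1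
      omega

theorem excP (hc : CWords c ℓ) {w : List (Lab g × Bool)} {f : FreeGroup (Fin g)}
    (h : ExcV c ℓ w f) (hr : Red w) (hn : NCfree c ℓ w) (hh : w.head? ≠ some (none, true))
    (hf : f ∈ (phi c ℓ).range) : w = [] := by
  obtain ⟨f₀, B, hB, rfl, rfl⟩ := exc_dec h
  have hIH : ∀ x ∈ B, excIH x.1 x.2.1 := by
    intro x hx
    have hin : x.1 <:+: excW f₀ B := by
      obtain ⟨s, t, rfl⟩ := List.append_of_mem hx
      refine ⟨f₀.map emb ++ (s.flatMap fun x => (none, true) :: (x.1 ++ (none, false) ::
        x.2.2.map emb)) ++ [(none, true)], (none, false) :: x.2.2.map emb ++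
        (t.flatMap fun x => (none, true) :: (x.1 ++ (none, false) ::
        x.2.2.map emb)), ?_⟩
      simp [excW]
    exact excQ hc (hB x hx) (exc_red_infix hr hin) (exc_nc_infix hn hin)
  have hok := exc_ok hc B f₀ hIH hr hn
  have hf0 : Red f₀ ∧ NoC c ℓ f₀ := by
    have h1 : f₀.map emb <:+: excW f₀ B := (List.prefix_append _ _).isInfix
    exact ⟨exc_red_emb (exc_red_infix hr h1), exc_noC hn h1⟩
  by_cases hB0 : B = []
  · subst hB0
    have h1 : FreeGroup.mk f₀ ∈ (phi c ℓ).range := by simpa [vprod] using hf
    have h2 := noC_range hc hf0.1 hf0.2 h1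
    simp [excW, h2]
  · exfalso
    have h1 : FreeGroup.mk f₀ ∈ (phi c ℓ).range := ok_first hc hok (by simpa using hB0) hf
    have h2 := noC_range hc hf0.1 hf0.2 h1
    subst h2
    cases B with
    | nil => exact hB0 rfl
    | cons x B =>
      apply hh
      simp [excW]

end Crest.Agent.R191
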