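import Crest.Agent.R191.Graph

/-!
# R191 piece FOLD-B: attaching arcs, auxiliary lemmas
-/

set_option autoImplicit false

namespace Crest.Agent.R191.FoldB

variable {L Γ X S : Type} [Group Γ] [MulAction Γ X] {val : L → Γ}
  {K : Type} {𝒢 : Fld L X S} {𝒜 : Arcs L X S K}

theorem pt_zero (k : K) (x : X) : 𝒜.pt val k x 0 = x := by
  simp [Arcs.pt, wval]

theorem pt_length (k : K) (x : X) :
    𝒜.pt val k x (𝒜.wd k).length = (wval val (𝒜.wd k))⁻¹ • x := by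
  simp [Arcs.pt]

theorem pt_succ (k : K) (x : X) {j : ℕ} (h : j < (𝒜.wd k).length) :
    𝒜.pt val k x (j + 1) = (lval val ((𝒜.wd k)[j]))⁻¹ • 𝒜.pt val k x j := by
  unfold Arcs.pt
  rw [← List.take_append_getElem h, wval_append, mul_inv_rev, mul_smul]
  simp [wval]

theorem pos_zero (k : K) : 𝒜.pos k 0 = Sum.inl (𝒜.src k) := by simp [Arcs.pos]

theorem pos_length {k : K} (h0 : 𝒜.wd k ≠ []) :
    𝒜.pos k (𝒜.wd k).length = Sum.inl (𝒜.tgt k) := by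
  have : (𝒜.wd k).length ≠ 0 := by simpa using h0
  simp [Arcs.pos, h0]

theorem pos_mid {k : K} {j : ℕ} (h1 : j ≠ 0) (h2 : j ≠ (𝒜.wd k).length) :
    𝒜.pos k j = Sum.inr (k, j) := by
  simp [Arcs.pos, h1, h2]

/-- vertex of an arc -/
def vt (𝒜 : Arcs L X S K) (val : L → Γ) (k : K) (x : X) (j : ℕ) : X × (S ⊕ (K × ℕ)) :=
  (𝒜.pt val k x j, 𝒜.pos k j)

/-- value of the `j`-th step -/
noncomputable def gj (𝒜 : Arcs L X S K) (val : L → Γ) (F : X → EI L (S ⊕ (K × ℕ)) → ℝ) (k : K)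
    (x : X) (j : ℕ) : ℝ :=
  if h : j < (𝒜.wd k).length then
    sgn (efun F) ((𝒜.wd k)[j]) (vt 𝒜 val k x j) (vt 𝒜 val k x (j + 1)) else 0

/-- partial sums -/
noncomputable def ps (𝒜 : Arcs L X S K) (val : L → Γ) (F : X → EI L (S ⊕ (K × ℕ)) → ℝ) (k : K)
    (x : X) (j : ℕ) : ℝ :=
  ∑ i ∈ Finset.range j, gj 𝒜 val F k x i

theorem ps_zero (F : X → EI L (S ⊕ (K × ℕ)) → ℝ) (k : K) (x : X) :
    ps 𝒜 val F k x 0 = 0 := by simp [ps]

theorem ps_succ (F : X → EI L (S ⊕ (K × ℕ)) → ℝ) (k : K) (x : X) (j : ℕ) :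
    ps 𝒜 val F k x (j + 1) = ps 𝒜 val F k x j + gj 𝒜 val F k x j := by
  simp [ps, Finset.sum_range_succ]

theorem ps_length (F : X → EI L (S ⊕ (K × ℕ)) → ℝ) (k : K) (x : X) :
    ps 𝒜 val F k x (𝒜.wd k).length = arcsum val 𝒜 F k x := by
  unfold ps arcsum
  rw [Finset.sum_range]
  refine Finset.sum_congr rfl fun j _ => ?_
  simp only [gj, j.2, dif_pos]
  rfl

/-- steps along an arc -/
theorem stp_arc {k : K} {x : X} (hx : x ∈ 𝒜.A k) {j : ℕ} (h : j < (𝒜.wd k).length) :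
    Stp ((attach 𝒢 val 𝒜).G val) ((𝒜.wd k)[j]) (vt 𝒜 val k x j) (vt 𝒜 val k x (j + 1)) := by
  have hp := pt_succ (val := val) (𝒜 := 𝒜) k x h
  rcases hw : (𝒜.wd k)[j] with ⟨a, b⟩
  rw [hw] at hp
  cases b with
  | true =>
    simp only [Stp, if_true]
    refine ⟨?_, Or.inr ⟨k, j, x, h, hx, Or.inl ⟨hw, rfl, rfl, rfl⟩⟩⟩
    simpa [lval, vt] using hp
  | false =>
    simp only [Stp, Bool.false_eq_true, if_false]
    refine ⟨?_, Or.inr ⟨k, j, x, h, hx, Or.inr ⟨hw, rfl, rfl, rfl⟩⟩⟩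
    have hp' : 𝒜.pt val k x (j + 1) = val a • 𝒜.pt val k x j := by simpa [lval] using hp
    simp only [vt]
    rw [hp', inv_smul_smul]

theorem rs_prefix (F : X → EI L (S ⊕ (K × ℕ)) → ℝ) {k : K} {x : X} (hx : x ∈ 𝒜.A k) {j : ℕ}
    (hj : j ≤ (𝒜.wd k).length) :
    RS ((attach 𝒢 val 𝒜).G val) (efun F) ((𝒜.wd k).take j) (vt 𝒜 val k x 0)
      (vt 𝒜 val k x j) (ps 𝒜 val F k x j) := by
  induction j with
  | zero => exact ⟨rfl, ps_zero F k x⟩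
  | succ j ih =>
    rw [← List.take_append_getElem hj, rs_append]
    refine ⟨_, _, gj 𝒜 val F k x j, ih (by omega), ?_, ps_succ F k x j⟩
    refine ⟨_, 0, stp_arc hx hj, ⟨rfl, rfl⟩, ?_⟩
    have hj' : j < (𝒜.wd k).length := hj
    simp [gj, hj']

theorem vt_zero (k : K) (x : X) : vt 𝒜 val k x 0 = (x, Sum.inl (𝒜.src k)) := by
  simp [vt, pt_zero, pos_zero]

theorem vt_length {k : K} (h0 : 𝒜.wd k ≠ []) (x : X) : vt 𝒜 val k x (𝒜.wd k).length =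
    ((wval val (𝒜.wd k))⁻¹ • x, Sum.inl (𝒜.tgt k)) := by
  simp [vt, pt_length, pos_length h0]

/-- classification of edges -/
theorem edge_cases (F : X → EI L (S ⊕ (K × ℕ)) → ℝ) {a : L} {u v : X × (S ⊕ (K × ℕ))}
    (h : ((attach 𝒢 val 𝒜).G val) a u v) :
    (∃ s s', u.2 = Sum.inl s ∧ v.2 = Sum.inl s' ∧ (𝒢.G val) a (u.1, s) (v.1, s')) ∨
    ∃ k x i i', x ∈ 𝒜.A k ∧ i ≤ (𝒜.wd k).length ∧ i' ≤ (𝒜.wd k).length ∧
      u = vt 𝒜 val k x i ∧ v = vt 𝒜 val k x i' ∧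
      efun F a u v = ps 𝒜 val F k x i' - ps 𝒜 val F k x i := by
  obtain ⟨h1, h2⟩ := h
  rcases h2 with ⟨s, s', h2, h3, h4⟩ | ⟨k, j, x, hj, hx, h2 | h2⟩
  · exact Or.inl ⟨s, s', h2, h3, h1, h4⟩
  · obtain ⟨hw, h3, h4, h5⟩ := h2
    have hp := pt_succ (val := val) (𝒜 := 𝒜) k x hj
    rw [hw] at hp
    have hp' : 𝒜.pt val k x (j + 1) = (val a)⁻¹ • 𝒜.pt val k x j := by simpa [lval] using hp
    have hu : u = vt 𝒜 val k x j := Prod.ext h3 h4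
    have hv : v = vt 𝒜 val k x (j + 1) := by
      refine Prod.ext ?_ h5
      rw [h1, h3, ← hp']
      rfl
    refine Or.inr ⟨k, x, j, j + 1, hx, hj.le, hj, hu, hv, ?_⟩
    rw [ps_succ, add_sub_cancel_left, hu, hv]
    simp [gj, hj, hw, sgn]
  · obtain ⟨hw, h3, h4, h5⟩ := h2
    have hp := pt_succ (val := val) (𝒜 := 𝒜) k x hj
    rw [hw] at hp
    have hp' : 𝒜.pt val k x (j + 1) = val a • 𝒜.pt val k x j := by simpa [lval] using hp
    have hu : u = vt 𝒜 val k x (j + 1) := Prod.ext h3 h4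
    have hv : v = vt 𝒜 val k x j := by
      refine Prod.ext ?_ h5
      rw [h1, h3, hp', inv_smul_smul]
      rfl
    refine Or.inr ⟨k, x, j + 1, j, hx, hj, hj.le, hu, hv, ?_⟩
    rw [ps_succ, hu, hv]
    simp [gj, hj, hw, sgn]

/-- classification of signed steps -/
theorem stp_cases (F : X → EI L (S ⊕ (K × ℕ)) → ℝ) {e : L × Bool} {u v : X × (S ⊕ (K × ℕ))}
    (h : Stp ((attach 𝒢 val 𝒜).G val) e u v) :
    (∃ s s', u.2 = Sum.inl s ∧ v.2 = Sum.inl s' ∧ Stp (𝒢.G val) e (u.1, s) (v.1, s')) ∨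
    ∃ k x i i', x ∈ 𝒜.A k ∧ i ≤ (𝒜.wd k).length ∧ i' ≤ (𝒜.wd k).length ∧
      u = vt 𝒜 val k x i ∧ v = vt 𝒜 val k x i' ∧
      sgn (efun F) e u v = ps 𝒜 val F k x i' - ps 𝒜 val F k x i := by
  obtain ⟨a, b⟩ := e
  cases b with
  | true =>
    simp only [Stp, if_true, sgn] at h ⊢
    exact edge_cases F h
  | false =>
    simp only [Stp, Bool.false_eq_true, if_false, sgn] at h ⊢
    rcases edge_cases F h with ⟨s, s', h1, h2, h3⟩ | ⟨k, x, i, i', hx, h1, h2, h3, h4, h5⟩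
    · exact Or.inl ⟨s', s, h2, h1, h3⟩
    · exact Or.inr ⟨k, x, i', i, hx, h2, h1, h4, h3, by rw [h5]; ring⟩

/-- the vertex `c` is joined to the old vertex `y`, sum from `y` to `c` equal to `ρ` -/
def At (𝒜 : Arcs L X S K) (val : L → Γ) (F : X → EI L (S ⊕ (K × ℕ)) → ℝ)
    (c : X × (S ⊕ (K × ℕ))) (y : X × S) (ρ : ℝ) : Prop :=
  (c = (y.1, Sum.inl y.2) ∧ ρ = 0) ∨
  ∃ k x j, x ∈ 𝒜.A k ∧ c = (𝒜.pt val k x j, Sum.inr (k, j)) ∧ y = (x, 𝒜.src k) ∧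
    ρ = ps 𝒜 val F k x j

theorem At_uniq {F : X → EI L (S ⊕ (K × ℕ)) → ℝ} {c : X × (S ⊕ (K × ℕ))} {y y' : X × S}
    {ρ ρ' : ℝ} (h : At 𝒜 val F c y ρ) (h' : At 𝒜 val F c y' ρ') : y = y' ∧ ρ = ρ' := by
  rcases h with ⟨h1, h2⟩ | ⟨k, x, j, hx, h1, h2, h3⟩ <;>
  rcases h' with ⟨h1', h2'⟩ | ⟨k', x', j', hx', h1', h2', h3'⟩
  · rw [h1] at h1'
    have e1 := congrArg Prod.fst h1'
    have e2 := congrArg Prod.snd h1'
    simp only [Sum.inl.injEq] at e1 e2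
    exact ⟨Prod.ext e1 e2, by rw [h2, h2']⟩
  · rw [h1] at h1'
    have e2 := congrArg Prod.snd h1'
    simp at e2
  · rw [h1] at h1'
    have e2 := congrArg Prod.snd h1'
    simp at e2
  · rw [h1] at h1'
    have e1 := congrArg Prod.fst h1'
    have e2 := congrArg Prod.snd h1'
    simp only [Sum.inr.injEq, Prod.mk.injEq] at e1 e2
    obtain ⟨rfl, rfl⟩ := e2
    have e3 : x = x' := by
      unfold Arcs.pt at e1
      exact smul_left_cancel _ e1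
    subst e3
    exact ⟨by rw [h2, h2'], by rw [h3, h3']⟩

theorem At_vt (h0 : ∀ k, 𝒜.wd k ≠ []) (F : X → EI L (S ⊕ (K × ℕ)) → ℝ)
    (Z : X × S → X × S → ℝ → Prop) (hrefl : ∀ u, Z u u 0)
    (harc : ∀ k x, x ∈ 𝒜.A k →
      Z (x, 𝒜.src k) ((wval val (𝒜.wd k))⁻¹ • x, 𝒜.tgt k) (arcsum val 𝒜 F k x))
    {k : K} {x : X} (hx : x ∈ 𝒜.A k) {j : ℕ} :
    ∃ y ρ, At 𝒜 val F (vt 𝒜 val k x j) y ρ ∧ Z (x, 𝒜.src k) y (ps 𝒜 val F k x j - ρ) := by
  by_cases h1 : j = 0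
  · subst h1
    refine ⟨(x, 𝒜.src k), 0, Or.inl ⟨vt_zero k x, rfl⟩, ?_⟩
    rw [ps_zero, sub_zero]
    exact hrefl _
  · by_cases h2 : j = (𝒜.wd k).length
    · subst h2
      refine ⟨((wval val (𝒜.wd k))⁻¹ • x, 𝒜.tgt k), 0, Or.inl ⟨vt_length (h0 k) x, rfl⟩, ?_⟩
      rw [ps_length, sub_zero]
      exact harc k x hx
    · refine ⟨(x, 𝒜.src k), ps 𝒜 val F k x j, Or.inr ⟨k, x, j, hx, ?_, rfl, rfl⟩, ?_⟩
      · simp [vt, pos_mid h1 h2]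
      · rw [sub_self]
        exact hrefl _

theorem decomp (h0 : ∀ k, 𝒜.wd k ≠ []) (F : X → EI L (S ⊕ (K × ℕ)) → ℝ)
    (Z : X × S → X × S → ℝ → Prop) (hrefl : ∀ u, Z u u 0)
    (hsymm : ∀ u v r, Z u v r → Z v u (-r))
    (htrans : ∀ u v w r r', Z u v r → Z v w r' → Z u w (r + r'))
    (hedge : ∀ a u v, (𝒢.G val) a u v → Z u v (F u.1 (a, Sum.inl u.2, Sum.inl v.2)))
    (harc : ∀ k x, x ∈ 𝒜.A k →
      Z (x, 𝒜.src k) ((wval val (𝒜.wd k))⁻¹ • x, 𝒜.tgt k) (arcsum val 𝒜 F k x))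
    {w : List (L × Bool)} {c : X × (S ⊕ (K × ℕ))} {v : X × S} {r : ℝ}
    (h : RS ((attach 𝒢 val 𝒜).G val) (efun F) w c (v.1, Sum.inl v.2) r) {y : X × S} {ρ : ℝ}
    (hc : At 𝒜 val F c y ρ) : Z y v (ρ + r) := by
  induction w generalizing c r y ρ with
  | nil =>
    obtain ⟨h1, rfl⟩ := h
    obtain ⟨h2, h3⟩ := At_uniq hc (Or.inl ⟨h1, rfl⟩)
    rw [h2, h3, add_zero]
    exact hrefl _
  | cons e w ih =>
    obtain ⟨z, r', h1, h2, rfl⟩ := h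
    rcases stp_cases F h1 with ⟨s, s', h3, h4, h5⟩ | ⟨k, x, i, i', hx, -, -, h3, h4, h5⟩
    · have hz : At 𝒜 val F z (z.1, s') 0 := Or.inl ⟨Prod.ext rfl h4, rfl⟩
      obtain ⟨h6, h7⟩ := At_uniq hc (Or.inl ⟨(Prod.ext rfl h3 : c = ((c.1, s).1, Sum.inl (c.1, s).2)), rfl⟩)
      have h8 := ih h2 hz
      rw [h6, h7]
      have h9 : Z (c.1, s) (z.1, s') (sgn (efun F) e c z) := by
        obtain ⟨a, b⟩ := e
        cases b with
        | true =>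
          simp only [Stp, if_true] at h5
          have := hedge a _ _ h5
          simpa [sgn, efun, h3, h4] using this
        | false =>
          simp only [Stp, Bool.false_eq_true, if_false] at h5
          have := hsymm _ _ _ (hedge a _ _ h5)
          simpa [sgn, efun, h3, h4] using this
      have h10 := htrans _ _ _ _ _ h9 h8
      rw [zero_add] at h10 ⊢
      exact h10
    · obtain ⟨y₀, ρ₀, h6, h7⟩ := At_vt (val := val) h0 F Z hrefl harc hx (j := i)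
      obtain ⟨y₁, ρ₁, h8, h9⟩ := At_vt (val := val) h0 F Z hrefl harc hx (j := i')
      rw [h3] at hc
      obtain ⟨rfl, rfl⟩ := At_uniq hc h6
      rw [h4] at h2
      have h10 := ih h2 h8
      have h11 := htrans _ _ _ _ _ (htrans _ _ _ _ _ (hsymm _ _ _ h7) h9) h10
      rw [h5]
      convert h11 using 1
      ring

end Crest.Agent.R191.FoldB
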