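import Crest.Agent.R191.Meas
import Crest.Agent.R191.FoldBAux

/-!
# R191 piece FOLD: the folded field
-/

set_option autoImplicit false

namespace Crest.Agent.R191

open MeasureTheory

variable {L Γ X S : Type} [Group Γ] [MulAction Γ X] [MeasurableSpace X]
  {𝒴 : Fld L X S} {val : L → Γ} {b : S} {q : X → S → S}

theorem frel_symm' {x : X} {s s' : S} (h : frel 𝒴 val x s s') : frel 𝒴 val x s' s := by
  obtain ⟨w, hw, h⟩ := h
  refine ⟨winv w, ?_, rd_winv h⟩
  change FreeGroup.mk (FreeGroup.invRev w) = 1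
  rw [← FreeGroup.inv_mk, hw, inv_one]

theorem frel_trans' {x : X} {s s' s'' : S} (h : frel 𝒴 val x s s')
    (h' : frel 𝒴 val x s' s'') : frel 𝒴 val x s s'' := by
  obtain ⟨w, hw, h⟩ := h
  obtain ⟨w', hw', h'⟩ := h'
  refine ⟨w ++ w', ?_, rd_append.mpr ⟨_, h, h'⟩⟩
  rw [← FreeGroup.mul_mk, hw, hw', one_mul]

theorem frel_of_q (hq : Rep 𝒴 val b q) {x : X} {s s' : S} (h : q x s = q x s') :
    frel 𝒴 val x s s' := by
  refine frel_trans' (hq.rel x s) ?_
  rw [h]
  exact frel_symm' (hq.rel x s')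

/-- The folded field is folded: if `u' → v'` and `u' → v''` are `a`-edges, they come from
`u₁ → v₁`, `u₂ → v₂` with `u₁ ~ u₂` (`q u₁ = q u₂ = u'`), so `v₁ ~ v₂` by the word
`(a,false) :: w ++ [(a,true)]`. -/
theorem foldF_folded (hq : Rep 𝒴 val b q) : Folded ((foldF 𝒴 val q).G val) := by
  constructor
  · rintro a u v v' ⟨h1, n, m, h2, h3, h4⟩ ⟨h1', n', m', h2', h3', h4'⟩
    have hn : frel 𝒴 val u.1 n n' := frel_of_q hq (h3.trans h3'.symm)
    obtain ⟨w, hw, hr⟩ := hn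
    have hm : frel 𝒴 val ((val a)⁻¹ • u.1) m m' := by
      refine ⟨(a, false) :: (w ++ [(a, true)]), ?_, ?_⟩
      · have e1 : (a, false) :: (w ++ [(a, true)]) = [(a, false)] ++ w ++ [(a, true)] := by simp
        rw [e1, ← FreeGroup.mul_mk, ← FreeGroup.mul_mk, hw, mul_one, FreeGroup.mul_mk]
        have : ([(a, false)] ++ [(a, true)] : List (L × Bool)) = [(a, false)] ++ FreeGroup.invRev [(a, false)] := by
          simp [FreeGroup.invRev]
        rw [this, ← FreeGroup.mul_mk, ← FreeGroup.inv_mk, mul_inv_cancel]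
      · refine ⟨(u.1, n), ⟨rfl, h2⟩, rd_append.mpr ⟨(u.1, n'), hr, ⟨((val a)⁻¹ • u.1, m'), ⟨rfl, h2'⟩, rfl⟩⟩⟩
    have := hq.eq _ _ _ hm
    exact Prod.ext (h1.trans h1'.symm) (h4.symm.trans (this.trans h4'))
  · rintro a u u' v ⟨h1, n, m, h2, h3, h4⟩ ⟨h1', n', m', h2', h3', h4'⟩
    have hx : u.1 = u'.1 := by
      have := h1.symm.trans h1'
      exact smul_left_cancel _ this
    have hm : frel 𝒴 val ((val a)⁻¹ • u.1) m m' := by
      refine frel_of_q hq ?_
      rw [h4, hx, h4']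
    obtain ⟨w, hw, hr⟩ := hm
    have hn : frel 𝒴 val u.1 n n' := by
      refine ⟨(a, true) :: (w ++ [(a, false)]), ?_, ?_⟩
      · have e1 : (a, true) :: (w ++ [(a, false)]) = [(a, true)] ++ w ++ [(a, false)] := by simp
        rw [e1, ← FreeGroup.mul_mk, ← FreeGroup.mul_mk, hw, mul_one, FreeGroup.mul_mk]
        have : ([(a, true)] ++ [(a, false)] : List (L × Bool)) = [(a, true)] ++ FreeGroup.invRev [(a, true)] := by
          simp [FreeGroup.invRev]
        rw [this, ← FreeGroup.mul_mk, ← FreeGroup.inv_mk, mul_inv_cancel]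
      · refine ⟨((val a)⁻¹ • u.1, m), ⟨rfl, h2⟩, rd_append.mpr ⟨((val a)⁻¹ • u.1, m'), hr,
          ⟨(u.1, n'), ⟨rfl, ?_⟩, rfl⟩⟩⟩
        rw [← hx] at h2'
        exact h2'
    have := hq.eq _ _ _ hn
    rw [← hx] at h3'
    exact Prod.ext hx (h3.symm.trans (this.trans h3'))

theorem q_idem (hq : Rep 𝒴 val b q) (x : X) (s : S) : q x (q x s) = q x s :=
  (hq.eq x s (q x s) (hq.rel x s)).symm

/-- the folding map is a morphism -/
theorem foldF_edge {a : L} {u v : X × S} (h : (𝒴.G val) a u v) :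
    ((foldF 𝒴 val q).G val) a (u.1, q u.1 u.2) (v.1, q v.1 v.2) := by
  obtain ⟨h1, h2⟩ := h
  refine ⟨h1, u.2, v.2, h2, rfl, ?_⟩
  change q ((val a)⁻¹ • u.1) v.2 = q v.1 v.2
  rw [h1]

theorem pull_sgn {F : X → EI L S → ℝ} {e : L × Bool} {u z : X × S}
    (h1 : Stp (𝒴.G val) e u z) :
    sgn (efun (pull val q F)) e u z =
      sgn (efun F) e (u.1, q u.1 u.2) (z.1, q z.1 z.2) := by
  obtain ⟨a, t⟩ := e
  cases t with
  | true =>
    simp only [Stp, if_true] at h1
    simp only [sgn, if_true, efun, pull]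
    rw [← h1.1]
  | false =>
    simp only [Stp, Bool.false_eq_true, if_false] at h1
    simp only [sgn, Bool.false_eq_true, if_false, efun, pull]
    rw [← h1.1]

/-- readings are mapped to readings, with sums of the pulled back function -/
theorem foldF_rs {F : X → EI L S → ℝ} {w : List (L × Bool)} {u v : X × S} {r : ℝ}
    (h : RS (𝒴.G val) (efun (pull val q F)) w u v r) :
    RS ((foldF 𝒴 val q).G val) (efun F) w (u.1, q u.1 u.2) (v.1, q v.1 v.2) r := by
  induction w generalizing u r with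
  | nil =>
    obtain ⟨rfl, rfl⟩ := h
    exact ⟨rfl, rfl⟩
  | cons e w ih =>
    obtain ⟨z, r', h1, h2, rfl⟩ := h
    refine ⟨(z.1, q z.1 z.2), r', ?_, ih h2, ?_⟩
    · obtain ⟨a, t⟩ := e
      cases t with
      | true =>
        simp only [Stp, if_true] at h1 ⊢
        exact foldF_edge h1
      | false =>
        simp only [Stp, Bool.false_eq_true, if_false] at h1 ⊢
        exact foldF_edge h1
    · congr 1
      exact pull_sgn h1

/-- `frel` pairs are joined by a path of sum zero (its image is a closed path in the folded graph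
with trivial word; use `Folded.rs_mk` with the empty word). -/
theorem frel_sum (hq : Rep 𝒴 val b q) (F : X → EI L S → ℝ) {x : X} {s s' : S}
    (h : frel 𝒴 val x s s') :
    ∃ w, FreeGroup.mk w = 1 ∧ RS (𝒴.G val) (efun (pull val q F)) w (x, s) (x, s') 0 := by
  have h' := h
  obtain ⟨w, hw, hr⟩ := h
  obtain ⟨r, hr'⟩ := rs_of_rd (f := efun (pull val q F)) hr
  have h1 := foldF_rs hr'
  have h2 : RS ((foldF 𝒴 val q).G val) (efun F) [] (x, q x s) (x, q x s) 0 := ⟨rfl, rfl⟩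
  have h3 := (foldF_folded hq).rs_mk h1 h2 (by rw [hw, FreeGroup.one_eq_mk])
  refine ⟨w, hw, ?_⟩
  rw [← h3.2]
  exact hr'

/-- LIFTING: a reading in the folded graph between images of vertices lifts to a reading between
these vertices of a word which is equal in the free group, with the same sum.
Induction on `w`: lift the first edge to an edge `u₁ → z₁` of `𝒴`, `u ~ u₁`; join `u` to `u₁` by
`frel_sum`. -/
theorem foldF_lift (hq : Rep 𝒴 val b q) {F : X → EI L S → ℝ} {w : List (L × Bool)}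
    {u v : X × S} {r : ℝ}
    (h : RS ((foldF 𝒴 val q).G val) (efun F) w (u.1, q u.1 u.2) (v.1, q v.1 v.2) r) :
    ∃ w', FreeGroup.mk w' = FreeGroup.mk w ∧
      RS (𝒴.G val) (efun (pull val q F)) w' u v r := by
  induction w generalizing u r with
  | nil =>
    obtain ⟨h1, rfl⟩ := h
    obtain ⟨x, s⟩ := u
    obtain ⟨y, s'⟩ := v
    simp only [Prod.mk.injEq] at h1
    obtain ⟨rfl, h2⟩ := h1
    obtain ⟨w, hw, hr⟩ := frel_sum hq F (frel_of_q hq h2)
    exact ⟨w, by rw [hw, FreeGroup.one_eq_mk], hr⟩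
  | cons e w ih =>
    obtain ⟨z, r', h1, h2, rfl⟩ := h
    obtain ⟨x, s⟩ := u
    obtain ⟨a, t⟩ := e
    cases t with
    | true =>
      simp only [Stp, if_true] at h1
      obtain ⟨hz, n, m, hE, hn, hm⟩ := h1
      obtain ⟨z1, z2⟩ := z
      simp only at hz hn hm hE
      subst hz
      subst hm
      obtain ⟨w1, hw1, hr1⟩ := ih (u := ((val a)⁻¹ • x, m)) h2
      obtain ⟨w0, hw0, hr0⟩ := frel_sum hq F (frel_of_q hq hn.symm)
      have hst : Stp (𝒴.G val) (a, true) (x, n) ((val a)⁻¹ • x, m) := by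
        simp only [Stp, if_true]
        exact ⟨rfl, hE⟩
      refine ⟨w0 ++ (a, true) :: w1, ?_, ?_⟩
      · rw [← FreeGroup.mul_mk, hw0, one_mul]
        have e1 : (a, true) :: w1 = [(a, true)] ++ w1 := rfl
        have e2 : (a, true) :: w = [(a, true)] ++ w := rfl
        rw [e1, e2, ← FreeGroup.mul_mk, ← FreeGroup.mul_mk, hw1]
      · rw [rs_append]
        refine ⟨(x, n), 0, _, hr0, ⟨((val a)⁻¹ • x, m), r', hst, hr1, rfl⟩, ?_⟩
        rw [pull_sgn hst, zero_add]
        simp only [hn]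
    | false =>
      simp only [Stp, Bool.false_eq_true, if_false] at h1
      obtain ⟨hz, n, m, hE, hn, hm⟩ := h1
      obtain ⟨z1, z2⟩ := z
      simp only at hz hn hm hE
      subst hz
      subst hn
      obtain ⟨w1, hw1, hr1⟩ := ih (u := (z1, n)) h2
      obtain ⟨w0, hw0, hr0⟩ := frel_sum hq F (frel_of_q hq hm.symm)
      have hst : Stp (𝒴.G val) (a, false) ((val a)⁻¹ • z1, m) (z1, n) := by
        simp only [Stp, Bool.false_eq_true, if_false]
        exact ⟨rfl, hE⟩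
      refine ⟨w0 ++ (a, false) :: w1, ?_, ?_⟩
      · rw [← FreeGroup.mul_mk, hw0, one_mul]
        have e1 : (a, false) :: w1 = [(a, false)] ++ w1 := rfl
        have e2 : (a, false) :: w = [(a, false)] ++ w := rfl
        rw [e1, e2, ← FreeGroup.mul_mk, ← FreeGroup.mul_mk, hw1]
      · rw [rs_append]
        refine ⟨((val a)⁻¹ • z1, m), 0, _, hr0, ⟨(z1, n), r', hst, hr1, rfl⟩, ?_⟩
        rw [pull_sgn hst, zero_add]
        simp only [hm]

/-- every vertex of the folded graph is the image of a vertex of `𝒴` -/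
theorem foldF_isV {u : X × S} (h : IsV ((foldF 𝒴 val q).G val) u) :
    ∃ s, IsV (𝒴.G val) (u.1, s) ∧ q u.1 s = u.2 := by
  obtain ⟨a, v, h | h⟩ := h
  · obtain ⟨h1, n, m, h2, h3, h4⟩ := h
    exact ⟨n, ⟨a, ((val a)⁻¹ • u.1, m), Or.inl ⟨rfl, h2⟩⟩, h3⟩
  · obtain ⟨h1, n, m, h2, h3, h4⟩ := h
    refine ⟨m, ⟨a, (v.1, n), Or.inr ⟨h1, h2⟩⟩, ?_⟩
    rw [h1, h4]

/-- readable letters are preserved, so degrees do not decrease under folding -/
theorem foldF_deg [Fintype L] (u : X × S) :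
    deg (𝒴.G val) u ≤ deg ((foldF 𝒴 val q).G val) (u.1, q u.1 u.2) := by
  unfold deg
  apply Finset.card_le_card
  intro e he
  simp only [Finset.mem_filter, Finset.mem_univ, true_and] at he ⊢
  obtain ⟨z, hz⟩ := he
  refine ⟨(z.1, q z.1 z.2), ?_⟩
  obtain ⟨a, t⟩ := e
  cases t with
  | true =>
    simp only [Stp, if_true] at hz ⊢
    exact foldF_edge hz
  | false =>
    simp only [Stp, Bool.false_eq_true, if_false] at hz ⊢
    exact foldF_edge hz

/-! ### Attaching arcs -/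

variable {K : Type} {𝒢 : Fld L X S} {𝒜 : Arcs L X S K}

/-- old edges -/
theorem attach_old {a : L} {u v : X × S} (h : (𝒢.G val) a u v) :
    ((attach 𝒢 val 𝒜).G val) a (u.1, Sum.inl u.2) (v.1, Sum.inl v.2) :=
  ⟨h.1, Or.inl ⟨u.2, v.2, rfl, rfl, h.2⟩⟩

/-- the arc is readable, with sum `arcsum` -/
theorem attach_arc (h0 : ∀ k, 𝒜.wd k ≠ []) (F : X → EI L (S ⊕ (K × ℕ)) → ℝ) {k : K} {x : X}
    (hx : x ∈ 𝒜.A k) :
    RS ((attach 𝒢 val 𝒜).G val) (efun F) (𝒜.wd k) (x, Sum.inl (𝒜.src k))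
      ((wval val (𝒜.wd k))⁻¹ • x, Sum.inl (𝒜.tgt k)) (arcsum val 𝒜 F k x) := by
  have h := FoldB.rs_prefix (𝒢 := 𝒢) (val := val) F hx (le_refl (𝒜.wd k).length)
  rw [List.take_length, FoldB.vt_zero, FoldB.vt_length (h0 k), FoldB.ps_length] at h
  exact h

/-- prefixes of the arc -/
theorem attach_arc_prefix {k : K} {x : X} (hx : x ∈ 𝒜.A k) (h0 : 𝒜.wd k ≠ []) {j : ℕ}
    (hj : j ≤ (𝒜.wd k).length) :
    Rd ((attach 𝒢 val 𝒜).G val) ((𝒜.wd k).take j) (x, Sum.inl (𝒜.src k))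
      (𝒜.pt val k x j, 𝒜.pos k j) := by
  have h := FoldB.rs_prefix (𝒢 := 𝒢) (val := val) (fun _ _ => 0) hx hj
  rw [FoldB.vt_zero] at h
  exact rd_of_rs h

/-- DECOMPOSITION of readings after attaching arcs: if `Z` contains the old edges and the full arcs
and is closed under concatenation and reversal, it contains all readings between old vertices.
Induction over the reading from an old vertex `u` with the statement: if the current vertex is
old, `Z u v r`; if it is the `j`-th vertex of the arc `(k,x)`, `0 < j < length`, then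
`Z u (x, src k) (r - (partial arc sum up to j))`. -/
theorem attach_decomp (h0 : ∀ k, 𝒜.wd k ≠ []) (F : X → EI L (S ⊕ (K × ℕ)) → ℝ)
    (Z : X × S → X × S → ℝ → Prop) (hrefl : ∀ u, Z u u 0)
    (hsymm : ∀ u v r, Z u v r → Z v u (-r))
    (htrans : ∀ u v w r r', Z u v r → Z v w r' → Z u w (r + r'))
    (hedge : ∀ a u v, (𝒢.G val) a u v → Z u v (F u.1 (a, Sum.inl u.2, Sum.inl v.2)))
    (harc : ∀ k x, x ∈ 𝒜.A k →
      Z (x, 𝒜.src k) ((wval val (𝒜.wd k))⁻¹ • x, 𝒜.tgt k) (arcsum val 𝒜 F k x))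
    {w : List (L × Bool)} {u v : X × S} {r : ℝ}
    (h : RS ((attach 𝒢 val 𝒜).G val) (efun F) w (u.1, Sum.inl u.2) (v.1, Sum.inl v.2) r) :
    Z u v r := by
  have := FoldB.decomp h0 F Z hrefl hsymm htrans hedge harc h (y := u) (ρ := 0)
    (Or.inl ⟨rfl, rfl⟩)
  simpa using this

/-- every vertex of the attached graph is an old vertex, an endpoint `inl` of an arc, or an interior
vertex of an arc; in particular it is joined to some `inl` vertex which is an old vertex or
the start of an arc -/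
theorem attach_isV {u : X × (S ⊕ (K × ℕ))} (h : IsV ((attach 𝒢 val 𝒜).G val) u) :
    (∃ s, u.2 = Sum.inl s ∧ IsV (𝒢.G val) (u.1, s)) ∨
    ∃ k j x, x ∈ 𝒜.A k ∧ j ≤ (𝒜.wd k).length ∧ u = (𝒜.pt val k x j, 𝒜.pos k j) := by
  obtain ⟨a, v, h | h⟩ := h
  · rcases FoldB.edge_cases (fun _ _ => 0) h with ⟨s, s', h1, -, h3⟩ | ⟨k, x, i, -, hx, hi, -, h1, -⟩
    · exact Or.inl ⟨s, h1, a, _, Or.inl h3⟩
    · exact Or.inr ⟨k, i, x, hx, hi, h1⟩
  · rcases FoldB.edge_cases (fun _ _ => 0) h with ⟨s, s', -, h1, h3⟩ | ⟨k, x, -, i, hx, -, hi, -, h1, -⟩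
    · exact Or.inl ⟨s', h1, a, _, Or.inr h3⟩
    · exact Or.inr ⟨k, i, x, hx, hi, h1⟩

end Crest.Agent.R191
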