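import Crest.Agent.R191.Local

/-!
# R191 piece GLOBAL: products `f₀ φ(v₁) f₁ φ(v₂) ⋯ φ(v_n) f_n` with controlled cancellation
-/

set_option autoImplicit false

namespace Crest.Agent.R191

variable {g : ℕ} {c : Fin g → ℕ → Fin g} {ℓ : ℕ}

/-- left condition at the cut `p'` of `blk v'` -/
def CutL (c : Fin g → ℕ → Fin g) (ℓ : ℕ) (f v' : List (Fin g × Bool)) (p' : ℕ) : Prop :=
  p' ≤ (blk c ℓ v').length ∧ ∀ α, α ≤ f.length → α ≤ (blk c ℓ v').length →
    f.drop (f.length - α) = winv ((blk c ℓ v').take α) → α + 30 ≤ p'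

/-- right condition at the cut `p` of `blk v` -/
def CutR (c : Fin g → ℕ → Fin g) (ℓ : ℕ) (v f : List (Fin g × Bool)) (p : ℕ) : Prop :=
  ∀ β, β ≤ f.length → β ≤ (blk c ℓ v).length →
      f.take β = winv ((blk c ℓ v).drop ((blk c ℓ v).length - β)) →
      β + p + 30 ≤ (blk c ℓ v).length

/-- admissible products -/
def Ok (c : Fin g → ℕ → Fin g) (ℓ : ℕ) : List (Fin g × Bool) →
    List (List (Fin g × Bool) × List (Fin g × Bool)) → Prop
  | f₀, [] => Red f₀ ∧ NoC c ℓ f₀
  | f₀, (v, f) :: B => Red f₀ ∧ NoC c ℓ f₀ ∧ Red v ∧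
      (∃ p, CutL c ℓ f₀ v p ∧ CutR c ℓ v f p) ∧ (B ≠ [] → f ≠ []) ∧ Ok c ℓ f B

/-- value of `φ(v₁) f₁ ⋯ φ(v_n) f_n` -/
def vprod (c : Fin g → ℕ → Fin g) (ℓ : ℕ)
    (B : List (List (Fin g × Bool) × List (Fin g × Bool))) : FreeGroup (Fin g) :=
  (B.map fun vf => phi c ℓ (FreeGroup.mk vf.1) * FreeGroup.mk vf.2).prod

namespace Global_aux

open Blk_aux Local_aux

theorem red_unique {L : Type} [DecidableEq L] {a b : List (L × Bool)} (ha : Red a) (hb : Red b)
    (h : FreeGroup.mk a = FreeGroup.mk b) : a = b := by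
  have h1 : (FreeGroup.mk a).toWord = a := by
    rw [FreeGroup.toWord_mk]
    exact (red_isReduced.1 ha).reduce_eq
  have h2 : (FreeGroup.mk b).toWord = b := by
    rw [FreeGroup.toWord_mk]
    exact (red_isReduced.1 hb).reduce_eq
  rw [← h1, h, h2]

theorem range_blk (hc : CWords c ℓ) {W : List (Fin g × Bool)} (hW : Red W)
    (h : FreeGroup.mk W ∈ (phi c ℓ).range) : ∃ y, Red y ∧ W = blk c ℓ y := by
  obtain ⟨x, hx⟩ := h
  have h2 : Red x.toWord := red_isReduced.2 FreeGroup.isReduced_toWord
  refine ⟨x.toWord, h2, red_unique hW (blk_red hc h2) ?_⟩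
  rw [mk_blk, FreeGroup.mk_toWord, hx]

theorem glue {L : Type} {X A B Y : List (L × Bool)} (h1 : Red (X ++ A)) (h2 : Red (A ++ B))
    (h3 : Red (B ++ Y)) (hA : A ≠ []) (hB : B ≠ []) : Red (X ++ A ++ (B ++ Y)) := by
  unfold Red at *
  rw [← List.append_assoc]
  have h4 := h1.append_overlap h2 hA
  exact h4.append_overlap h3 hB

theorem cutR_len {v f : List (Fin g × Bool)} {p : ℕ} (h : CutR c ℓ v f p) :
    p + 30 ≤ (blk c ℓ v).length := by
  have := h 0 (by omega) (by omega) (by simp [winv])
  omega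

theorem cutL_len {v f : List (Fin g × Bool)} {p : ℕ} (h : CutL c ℓ f v p) :
    30 ≤ p := by
  have := h.2 0 (by omega) (by omega) (by simp [winv])
  omega

theorem mid_red (hc : CWords c ℓ) {v : List (Fin g × Bool)} (hv : Red v) {p : ℕ} :
    Red (((blk c ℓ v).take p).drop (p - 12) ++ ((blk c ℓ v).drop p).take 12) := by
  have h1 : ((blk c ℓ v).take p).drop (p - 12) ++ ((blk c ℓ v).drop p).take 12 =
      ((blk c ℓ v).take (p + 12)).drop (p - 12) := by
    rw [List.take_add, List.drop_append]
    rcases Nat.lt_or_ge (blk c ℓ v).length p with h | h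
    · have e1 : (blk c ℓ v).drop p = [] := List.drop_of_length_le (by omega)
      rw [e1]
      simp
    · congr 1
      have e1 : p - 12 - ((blk c ℓ v).take p).length = 0 := by
        rw [List.length_take]; omega
      rw [e1, List.drop_zero]
  rw [h1]
  exact red_drop (red_take (blk_red hc hv) _) _

theorem vprod_cons (v f : List (Fin g × Bool))
    (B : List (List (Fin g × Bool) × List (Fin g × Bool))) :
    vprod c ℓ ((v, f) :: B) = FreeGroup.mk (blk c ℓ v) * FreeGroup.mk f * vprod c ℓ B := by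
  rw [mk_blk]
  simp [vprod]

theorem vprod_nil : vprod c ℓ [] = 1 := by
  simp [vprod]

end Global_aux

open Blk_aux Local_aux Global_aux

/-- Induction on `B` with `local_cancel` (if `B ≠ []`) / `local_right` (if `B = []`):
overlapping reduced pieces `mid ++ L`, `L ++ R` (infix of the reduced word `blk v'`), `R ++ mid'` with
`|L| = |R| = 12` concatenate to a reduced word. -/
theorem ok_tail (hc : CWords c ℓ) {B : List (List (Fin g × Bool) × List (Fin g × Bool))}
    {v f : List (Fin g × Bool)} (hv : Red v) {p : ℕ} (hp : CutR c ℓ v f p)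
    (hB : B ≠ [] → f ≠ []) (hok : Ok c ℓ f B) :
    ∃ mid : List (Fin g × Bool), 24 * B.length ≤ mid.length ∧
      Red (((blk c ℓ v).drop p).take 12 ++ mid) ∧
      FreeGroup.mk (((blk c ℓ v).drop p).take 12 ++ mid) =
        FreeGroup.mk ((blk c ℓ v).drop p) * FreeGroup.mk f * vprod c ℓ B := by
  induction B generalizing v f p with
  | nil =>
    obtain ⟨mid, h1, h2⟩ := local_right hc hv hok.1 hp
    exact ⟨mid, by simp, h1, by rw [h2, vprod_nil, mul_one]⟩
  | cons vf B ih =>
    obtain ⟨v', f'⟩ := vf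
    obtain ⟨hf, hNC, hv', ⟨p', hL', hR'⟩, hB', hok'⟩ := hok
    obtain ⟨mid', h1, h2, h3⟩ := ih hv' hR' hB' hok'
    obtain ⟨mid₀, h4, h5⟩ := local_cancel hc hv hv' hf (hB (by simp)) hNC hL'.1 hp hL'.2
    have hl1 := cutR_len hR'
    have hl2 := cutL_len hL'
    obtain ⟨L, hL⟩ : ∃ L, L = ((blk c ℓ v').take p').drop (p' - 12) := ⟨_, rfl⟩
    obtain ⟨R, hR⟩ : ∃ R, R = ((blk c ℓ v').drop p').take 12 := ⟨_, rfl⟩
    have hLl : L.length = 12 := by
      rw [hL, List.length_drop, List.length_take]; omega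
    have hRl : R.length = 12 := by
      rw [hR, List.length_take, List.length_drop]; omega
    have hm : Red (L ++ R) := by rw [hL, hR]; exact mid_red hc hv'
    rw [← hL] at h4 h5
    rw [← hR] at h2 h3
    have e1 : ((blk c ℓ v).drop p).take 12 ++ (mid₀ ++ L ++ (R ++ mid')) =
        ((blk c ℓ v).drop p).take 12 ++ mid₀ ++ L ++ (R ++ mid') := by
      simp [List.append_assoc]
    refine ⟨mid₀ ++ L ++ (R ++ mid'), ?_, ?_, ?_⟩
    · simp only [List.length_append, List.length_cons, hLl, hRl]
      omega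
    · rw [e1]
      exact glue h4 hm h2 (by intro h; rw [h] at hLl; simp at hLl)
        (by intro h; rw [h] at hRl; simp at hRl)
    · rw [e1, mk_append, h5, h3, vprod_cons]
      have e2 : FreeGroup.mk (blk c ℓ v') =
          FreeGroup.mk ((blk c ℓ v').take p') * FreeGroup.mk ((blk c ℓ v').drop p') := by
        rw [← mk_append, List.take_append_drop]
      rw [e2]
      group

/-- the reduced word of the whole product, around the first cut -/
theorem Global_aux.ok_word (hc : CWords c ℓ) {B : List (List (Fin g × Bool) × List (Fin g × Bool))}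
    {f₀ v f : List (Fin g × Bool)} (hok : Ok c ℓ f₀ ((v, f) :: B)) :
    ∃ (p : ℕ) (mid₀ mid' : List (Fin g × Bool)), 30 ≤ p ∧ p + 30 ≤ (blk c ℓ v).length ∧
      24 * B.length ≤ mid'.length ∧
      Red (mid₀ ++ ((blk c ℓ v).take p).drop (p - 12) ++
        (((blk c ℓ v).drop p).take 12 ++ mid')) ∧
      FreeGroup.mk (mid₀ ++ ((blk c ℓ v).take p).drop (p - 12)) =
        FreeGroup.mk f₀ * FreeGroup.mk ((blk c ℓ v).take p) ∧
      FreeGroup.mk (mid₀ ++ ((blk c ℓ v).take p).drop (p - 12) ++
        (((blk c ℓ v).drop p).take 12 ++ mid')) =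
        FreeGroup.mk f₀ * vprod c ℓ ((v, f) :: B) := by
  obtain ⟨hf, hNC, hv, ⟨p, hL', hR'⟩, hB', hok'⟩ := hok
  obtain ⟨mid', h1, h2, h3⟩ := ok_tail hc hv hR' hB' hok'
  obtain ⟨mid₀, h4, h5⟩ := local_left hc hv hf hL'.1 hL'.2
  have hl1 := cutR_len hR'
  have hl2 := cutL_len hL'
  refine ⟨p, mid₀, mid', hl2, hl1, h1, ?_, h5, ?_⟩
  · refine glue h4 (mid_red hc hv) h2 ?_ ?_
    · intro h
      have h' := congrArg List.length h
      rw [List.length_drop, List.length_take, List.length_nil] at h'
      omega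
    · intro h
      have h' := congrArg List.length h
      rw [List.length_take, List.length_drop, List.length_nil] at h'
      omega
  · rw [mk_append, h5, h3, vprod_cons]
    have e2 : FreeGroup.mk (blk c ℓ v) =
        FreeGroup.mk ((blk c ℓ v).take p) * FreeGroup.mk ((blk c ℓ v).drop p) := by
      rw [← mk_append, List.take_append_drop]
    rw [e2]
    group

/-- the whole product -/
theorem ok_norm (hc : CWords c ℓ) {B : List (List (Fin g × Bool) × List (Fin g × Bool))}
    {f₀ : List (Fin g × Bool)} (hok : Ok c ℓ f₀ B) :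
    24 * B.length ≤ (FreeGroup.mk f₀ * vprod c ℓ B).norm := by
  cases B with
  | nil => simp
  | cons vf B =>
    obtain ⟨v, f⟩ := vf
    obtain ⟨p, mid₀, mid', h1, h2, h3, h4, h5, h6⟩ := ok_word hc hok
    rw [← h6, FreeGroup.norm, FreeGroup.toWord_mk, (red_isReduced.1 h4).reduce_eq]
    simp only [List.length_append, List.length_drop, List.length_take, List.length_cons]
    omega

/-- If the product is in the image of `φ` and `B ≠ []` then `f₀` is in the image of `φ`:
the reduced word of the product is `blk y`; it contains the `24` letters of `blk v₁` around the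
cut; apply `align` at the positions `p₁ + 12` and `|mid₀| + 24`. -/
theorem ok_first (hc : CWords c ℓ) {B : List (List (Fin g × Bool) × List (Fin g × Bool))}
    {f₀ : List (Fin g × Bool)} (hok : Ok c ℓ f₀ B) (hB : B ≠ [])
    (h : FreeGroup.mk f₀ * vprod c ℓ B ∈ (phi c ℓ).range) :
    FreeGroup.mk f₀ ∈ (phi c ℓ).range := by
  cases B with
  | nil => exact absurd rfl hB
  | cons vf B =>
    obtain ⟨v, f⟩ := vf
    obtain ⟨p, mid₀, mid', h1, h2, h3, h4, h5, h6⟩ := ok_word hc hok
    have hv : Red v := hok.2.2.1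
    rw [← h6] at h
    obtain ⟨y, hy, hW⟩ := range_blk hc h4 h
    obtain ⟨L, hL⟩ : ∃ L, L = ((blk c ℓ v).take p).drop (p - 12) := ⟨_, rfl⟩
    obtain ⟨R, hR⟩ : ∃ R, R = ((blk c ℓ v).drop p).take 12 := ⟨_, rfl⟩
    have hLl : L.length = 12 := by
      rw [hL, List.length_drop, List.length_take]; omega
    have hRl : R.length = 12 := by
      rw [hR, List.length_take, List.length_drop]; omega
    rw [← hL] at h5 hW
    rw [← hR] at hW
    have hWt : (blk c ℓ y).take (mid₀.length + 24) = mid₀ ++ L ++ R := by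
      have e1 : mid₀ ++ L ++ (R ++ mid') = (mid₀ ++ L ++ R) ++ mid' := by
        simp [List.append_assoc]
      have e2 : mid₀.length + 24 = (mid₀ ++ L ++ R).length := by
        simp only [List.length_append, hLl, hRl]
      rw [← hW, e1, e2, List.take_append_length]
    have hUt : (blk c ℓ v).take (p + 12) = (blk c ℓ v).take p ++ R := by
      rw [List.take_add, hR]
    have hUt' : (blk c ℓ v).take (p + 12) = (blk c ℓ v).take (p - 12) ++ (L ++ R) := by
      rw [hUt, ← List.append_assoc]
      congr 1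
      have e1 : (blk c ℓ v).take (p - 12) = ((blk c ℓ v).take p).take (p - 12) := by
        rw [List.take_take, min_eq_left (by omega)]
      rw [e1, hL, List.take_append_drop]
    have hWl : mid₀.length + 24 ≤ (blk c ℓ y).length := by
      rw [← hW]
      simp only [List.length_append, hLl, hRl]
      omega
    obtain ⟨-, -, hal⟩ := align hc hv hy (k := p + 12) (k' := mid₀.length + 24) (by omega)
      (by omega) (by omega) hWl (by
        intro r hr
        have e1 : (blk c ℓ v)[p + 12 - 18 + r]? = ((blk c ℓ v).take (p + 12))[p + 12 - 18 + r]? := by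
          rw [List.getElem?_take, if_pos (by omega)]
        have e2 : (blk c ℓ y)[mid₀.length + 24 - 18 + r]? =
            ((blk c ℓ y).take (mid₀.length + 24))[mid₀.length + 24 - 18 + r]? := by
          rw [List.getElem?_take, if_pos (by omega)]
        have e3 : ((blk c ℓ v).take (p - 12)).length = p - 12 := by
          rw [List.length_take]; omega
        have e5 : ((blk c ℓ v).take (p - 12) ++ (L ++ R))[p + 12 - 18 + r]? = (L ++ R)[6 + r]? := by
          rw [List.getElem?_append_right (by omega), e3]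
          congr 1
          omega
        have e6 : (mid₀ ++ (L ++ R))[mid₀.length + 24 - 18 + r]? = (L ++ R)[6 + r]? := by
          rw [List.getElem?_append_right (by omega)]
          congr 1
          omega
        rw [e1, e2, hWt, hUt', List.append_assoc, e5, e6])
    rw [hWt, hUt, mk_append, mk_append, h5] at hal
    have e4 : FreeGroup.mk ((blk c ℓ v).take p) * FreeGroup.mk R *
        (FreeGroup.mk f₀ * FreeGroup.mk ((blk c ℓ v).take p) * FreeGroup.mk R)⁻¹ =
        (FreeGroup.mk f₀)⁻¹ := by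
      group
    rw [e4] at hal
    exact (Subgroup.inv_mem_iff _).1 hal

/-- a reduced word in the image of `φ` without long subwords of `C_b^{±1}` is empty -/
theorem noC_range (hc : CWords c ℓ) {f : List (Fin g × Bool)} (hf : Red f) (hN : NoC c ℓ f)
    (h : FreeGroup.mk f ∈ (phi c ℓ).range) : f = [] := by
  obtain ⟨y, hy, hW⟩ := range_blk hc hf h
  by_cases hy0 : y = []
  · rw [hW, hy0]
    simp [blk]
  · exact (noC_blk hN hy0 (by rw [← hW])).elim

end Crest.Agent.R191
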