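import Crest.Agent.R191.Defs

/-!
# R191 piece GR: deterministic facts on reading words in labelled graphs
-/

set_option autoImplicit false

namespace Crest.Agent.R191

variable {L V : Type} {G : L → V → V → Prop} {f : L → V → V → ℝ}

theorem rd_append {w w' : List (L × Bool)} {u v : V} :
    Rd G (w ++ w') u v ↔ ∃ z, Rd G w u z ∧ Rd G w' z v := by
  induction w generalizing u with
  | nil => simp [Rd]
  | cons e w ih =>
    simp only [List.cons_append, Rd, ih]
    constructor
    · rintro ⟨z, h, z', h1, h2⟩; exact ⟨z', ⟨z, h, h1⟩, h2⟩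
    · rintro ⟨z', ⟨z, h, h1⟩, h2⟩; exact ⟨z, h, z', h1, h2⟩

theorem rs_append {w w' : List (L × Bool)} {u v : V} {r : ℝ} :
    RS G f (w ++ w') u v r ↔ ∃ z r₁ r₂, RS G f w u z r₁ ∧ RS G f w' z v r₂ ∧ r = r₁ + r₂ := by
  induction w generalizing u r with
  | nil =>
    simp only [List.nil_append, RS]
    constructor
    · intro h; exact ⟨u, 0, r, ⟨rfl, rfl⟩, h, by simp⟩
    · rintro ⟨z, r₁, r₂, ⟨rfl, rfl⟩, h, rfl⟩; simpa using h
  | cons e w ih =>
    simp only [List.cons_append, RS, ih]
    constructor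
    · rintro ⟨z, r', h, ⟨z', r₁, r₂, h1, h2, rfl⟩, rfl⟩
      exact ⟨z', sgn f e u z + r₁, r₂, ⟨z, r₁, h, h1, rfl⟩, h2, by ring⟩
    · rintro ⟨z', r₁, r₂, ⟨z, r₃, h, h1, rfl⟩, h2, rfl⟩
      exact ⟨z, r₃ + r₂, h, ⟨z', r₃, r₂, h1, h2, rfl⟩, by ring⟩

/-- a reading has a sum -/
theorem rs_of_rd {w : List (L × Bool)} {u v : V} (h : Rd G w u v) : ∃ r, RS G f w u v r := by
  induction w generalizing u with
  | nil => exact ⟨0, h, rfl⟩
  | cons e w ih =>
    obtain ⟨z, h1, h2⟩ := h
    obtain ⟨r, hr⟩ := ih h2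
    exact ⟨_, z, r, h1, hr, rfl⟩

theorem rd_of_rs {w : List (L × Bool)} {u v : V} {r : ℝ} (h : RS G f w u v r) : Rd G w u v := by
  induction w generalizing u r with
  | nil => exact h.1
  | cons e w ih =>
    obtain ⟨z, r', h1, h2, -⟩ := h
    exact ⟨z, h1, ih h2⟩

theorem stp_inv {e : L × Bool} {u v : V} : Stp G (e.1, !e.2) v u ↔ Stp G e u v := by
  obtain ⟨a, b⟩ := e
  cases b <;> simp [Stp]

/-- reading the inverse word backwards -/
theorem rs_winv {w : List (L × Bool)} {u v : V} {r : ℝ} (h : RS G f w u v r) :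
    RS G f (winv w) v u (-r) := by
  induction w generalizing u r with
  | nil =>
    obtain ⟨rfl, rfl⟩ := h
    exact ⟨rfl, by simp⟩
  | cons e w ih =>
    obtain ⟨z, r', h1, h2, rfl⟩ := h
    have hw : winv (e :: w) = winv w ++ [(e.1, !e.2)] := by simp [winv]
    rw [hw, rs_append]
    refine ⟨z, -r', - sgn f e u z, ih h2, ⟨u, 0, stp_inv.mpr h1, ⟨rfl, rfl⟩, ?_⟩, by ring⟩
    obtain ⟨a, b⟩ := e
    cases b <;> simp [sgn]

theorem rd_winv {w : List (L × Bool)} {u v : V} (h : Rd G w u v) : Rd G (winv w) v u := by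
  obtain ⟨r, hr⟩ := rs_of_rd (f := fun _ _ _ => 0) h
  exact rd_of_rs (rs_winv hr)

/-- In a folded graph a signed step is a partial injection. -/
theorem Folded.stp_right (hG : Folded G) {e : L × Bool} {u v v' : V} (h : Stp G e u v)
    (h' : Stp G e u v') : v = v' := by
  unfold Stp at h h'
  split_ifs at h h'
  · exact hG.1 _ _ _ _ h h'
  · exact hG.2 _ _ _ _ h h'

theorem Folded.stp_left (hG : Folded G) {e : L × Bool} {u u' v : V} (h : Stp G e u v)
    (h' : Stp G e u' v) : u = u' := by
  unfold Stp at h h'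
  split_ifs at h h'
  · exact hG.2 _ _ _ _ h h'
  · exact hG.1 _ _ _ _ h h'

/-- In a folded graph the end and the sum of a reading are determined by the word. -/
theorem Folded.rs_unique (hG : Folded G) {w : List (L × Bool)} {u v v' : V} {r r' : ℝ}
    (h : RS G f w u v r) (h' : RS G f w u v' r') : v = v' ∧ r = r' := by
  induction w generalizing u r r' with
  | nil =>
    obtain ⟨rfl, rfl⟩ := h
    obtain ⟨rfl, rfl⟩ := h'
    exact ⟨rfl, rfl⟩
  | cons e w ih =>
    obtain ⟨z, r₁, h1, h2, rfl⟩ := h
    obtain ⟨z', r₂, h1', h2', rfl⟩ := h'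
    obtain rfl := hG.stp_right h1 h1'
    obtain ⟨h3, rfl⟩ := ih h2 h2'
    exact ⟨h3, rfl⟩

theorem Folded.rd_unique (hG : Folded G) {w : List (L × Bool)} {u v v' : V}
    (h : Rd G w u v) (h' : Rd G w u v') : v = v' := by
  obtain ⟨r, hr⟩ := rs_of_rd (f := fun _ _ _ => 0) h
  obtain ⟨r', hr'⟩ := rs_of_rd (f := fun _ _ _ => 0) h'
  exact (hG.rs_unique hr hr').1

theorem Folded.rd_left (hG : Folded G) {w : List (L × Bool)} {u u' v : V}
    (h : Rd G w u v) (h' : Rd G w u' v) : u = u' :=
  hG.rd_unique (rd_winv h) (rd_winv h')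

/-- In a folded graph readings survive free reduction, with the same sum.
(Induction over `FreeGroup.Red.Step`, then `Relation.ReflTransGen`.) -/
theorem Folded.rs_red (hG : Folded G) {w w' : List (L × Bool)} {u v : V} {r : ℝ}
    (h : RS G f w u v r) (hw : FreeGroup.Red w w') : RS G f w' u v r := by
  induction hw with
  | refl => exact h
  | tail _ hs ih =>
    cases hs with
    | not =>
      rename_i L₁ L₂ x b _
      rw [rs_append] at ih ⊢
      obtain ⟨z, r₁, r₂, h1, ⟨z₁, r₃, h2, ⟨z₂, r₄, h3, h4, rfl⟩, rfl⟩, rfl⟩ := ih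
      have h5 : Stp G (x, b) z₂ z₁ := by
        have := (stp_inv (G := G) (e := (x, b)) (u := z₂) (v := z₁)).mp h3
        exact this
      obtain rfl := hG.stp_left h2 h5
      refine ⟨z, r₁, r₄, h1, h4, ?_⟩
      cases b <;> simp [sgn]

/-- In a folded graph the end and sum of a reading only depend on the free group element:
reduce both words to the common reduced word. -/
theorem Folded.rs_mk (hG : Folded G) {w w' : List (L × Bool)} {u v v' : V} {r r' : ℝ}
    (h : RS G f w u v r) (h' : RS G f w' u v' r') (hw : FreeGroup.mk w = FreeGroup.mk w') :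
    v = v' ∧ r = r' := by
  classical
  have h1 := hG.rs_red h (FreeGroup.reduce.red (L := w))
  have h2 := hG.rs_red h' (FreeGroup.reduce.red (L := w'))
  rw [FreeGroup.reduce.sound hw] at h1
  exact hG.rs_unique h1 h2

theorem red_iff_isReduced {w : List (L × Bool)} : Red w ↔ FreeGroup.IsReduced w := by
  unfold Red FreeGroup.IsReduced
  have : (fun e e' : L × Bool => ¬ (e'.1 = e.1 ∧ e'.2 = !e.2)) =
      fun a b : L × Bool => a.1 = b.1 → a.2 = b.2 := by
    funext a b
    obtain ⟨a1, a2⟩ := a
    obtain ⟨b1, b2⟩ := b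
    simp only [eq_iff_iff, not_and]
    constructor
    · intro h h1
      have h2 := h h1.symm
      cases a2 <;> cases b2 <;> simp_all
    · intro h h1
      have h2 := h h1.symm
      cases a2 <;> cases b2 <;> simp_all
  rw [this]

/-- the reduced word of a reading is readable -/
theorem Folded.rs_reduce (hG : Folded G) {w : List (L × Bool)} {u v : V} {r : ℝ}
    (h : RS G f w u v r) :
    ∃ w', Red w' ∧ FreeGroup.mk w' = FreeGroup.mk w ∧ w'.length ≤ w.length ∧
      RS G f w' u v r := by
  classical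
  refine ⟨FreeGroup.reduce w, ?_, FreeGroup.reduce.self, ?_,
    hG.rs_red h (FreeGroup.reduce.red (L := w))⟩
  · rw [red_iff_isReduced]
    exact FreeGroup.IsReduced.of_reduce_eq FreeGroup.reduce.idem
  · exact (FreeGroup.Red.sublist (FreeGroup.reduce.red (L := w))).length_le

/-- `Red` is the same as being reduced in the sense of `FreeGroup`. -/
theorem red_iff {w : List (L × Bool)} [DecidableEq L] : Red w ↔ FreeGroup.reduce w = w := by
  rw [red_iff_isReduced]
  exact FreeGroup.isReduced_iff_reduce_eq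

theorem RdW.rd {W : V → Prop} {w : List (L × Bool)} {u v : V} (h : RdW G W w u v) :
    Rd G w u v := by
  induction w generalizing u with
  | nil => exact h.1
  | cons e w ih =>
    obtain ⟨-, z, h1, h2⟩ := h
    exact ⟨z, h1, ih h2⟩

/-- `RdW` in terms of prefixes -/
theorem rdW_iff {W : V → Prop} (hG : Folded G) {w : List (L × Bool)} {u v : V} :
    RdW G W w u v ↔ Rd G w u v ∧ ∀ j, j ≤ w.length → ∀ z, Rd G (w.take j) u z → W z := by
  induction w generalizing u with
  | nil =>
    simp only [RdW, Rd, List.length_nil, nonpos_iff_eq_zero, List.take_nil]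
    constructor
    · rintro ⟨h1, h2⟩
      exact ⟨h1, fun j _ z hz => hz ▸ h2⟩
    · rintro ⟨h1, h2⟩
      exact ⟨h1, h2 0 rfl u rfl⟩
  | cons e w ih =>
    simp only [RdW, Rd]
    constructor
    · rintro ⟨hu, z, h1, h2⟩
      obtain ⟨h3, h4⟩ := ih.mp h2
      refine ⟨⟨z, h1, h3⟩, ?_⟩
      intro j hj y hy
      cases j with
      | zero =>
        have : u = y := hy
        exact this ▸ hu
      | succ j =>
        rw [List.take_succ_cons] at hy
        obtain ⟨z', h5, h6⟩ := hy
        obtain rfl := hG.stp_right h1 h5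
        exact h4 j (by simpa using hj) y h6
    · rintro ⟨⟨z, h1, h2⟩, h3⟩
      refine ⟨h3 0 (Nat.zero_le _) u rfl, z, h1, ih.mpr ⟨h2, ?_⟩⟩
      intro j hj y hy
      refine h3 (j + 1) (by simpa using hj) y ?_
      rw [List.take_succ_cons]
      exact ⟨z, h1, hy⟩

/-- group value -/
theorem wval_mk {Γ : Type} [Group Γ] (val : L → Γ) (w : List (L × Bool)) :
    wval val w = FreeGroup.lift val (FreeGroup.mk w) := by
  rw [FreeGroup.lift_mk]
  unfold wval
  congr 1
  apply List.map_congr_left
  rintro ⟨a, b⟩ _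
  cases b <;> simp [lval]

theorem wval_append {Γ : Type} [Group Γ] (val : L → Γ) (w w' : List (L × Bool)) :
    wval val (w ++ w') = wval val w * wval val w' := by
  simp [wval]

theorem wval_winv {Γ : Type} [Group Γ] (val : L → Γ) (w : List (L × Bool)) :
    wval val (winv w) = (wval val w)⁻¹ := by
  induction w with
  | nil => simp [wval, winv]
  | cons e w ih =>
    have hw : winv (e :: w) = winv w ++ [(e.1, !e.2)] := by simp [winv]
    have h1 : wval val (e :: w) = lval val e * wval val w := by simp [wval]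
    have h2 : wval val [(e.1, !e.2)] = (lval val e)⁻¹ := by
      obtain ⟨a, b⟩ := e
      cases b <;> simp [wval, lval]
    rw [hw, wval_append, ih, h1, mul_inv_rev, h2]

/-- in a field, the point moves by the group value -/
theorem rd_point {X S Γ : Type} [Group Γ] [MulAction Γ X] {𝒢 : Fld L X S} {val : L → Γ}
    {w : List (L × Bool)} {u v : X × S} (h : Rd (𝒢.G val) w u v) :
    v.1 = (wval val w)⁻¹ • u.1 := by
  induction w generalizing u with
  | nil =>
    have : u = v := h
    subst this
    simp [wval]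
  | cons e w ih =>
    obtain ⟨z, h1, h2⟩ := h
    have h3 := ih h2
    have h4 : wval val (e :: w) = lval val e * wval val w := by simp [wval]
    have h5 : z.1 = (lval val e)⁻¹ • u.1 := by
      obtain ⟨a, b⟩ := e
      cases b with
      | true => 
        simp only [Stp, if_true] at h1
        simp only [lval, if_true]
        exact h1.1
      | false =>
        simp only [Stp, Bool.false_eq_true, if_false] at h1
        simp only [lval, Bool.false_eq_true, if_false, inv_inv]
        rw [h1.1, smul_inv_smul]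
    rw [h4, mul_inv_rev, mul_smul, ← h5, h3]

end Crest.Agent.R191
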