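import Crest.Agent.R191.Meas

/-!
# R191 piece ROT: rotation of closed loops
-/

set_option autoImplicit false

namespace Crest.Agent.R191

open MeasureTheory

theorem closedAt_mod (e : Env) {S : Type} (𝒢 : Fld (Lab e.g) e.X S) {k k' : ℕ}
    (h : k % (e.ℓ + 3) = k' % (e.ℓ + 3)) : closedAt e 𝒢 k = closedAt e 𝒢 k' := by
  funext p
  unfold closedAt
  rw [seg_mod p.2 k k' _ h]

theorem cnt_closedAt_le (e : Env) {S : Type} [Countable S] (𝒢 : Fld (Lab e.g) e.X S)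
    (hm : FMeas 𝒢) (hf : Folded (𝒢.G e.val)) (k j : ℕ) :
    cnt e.μ (closedAt e 𝒢 k) ≤ cnt e.μ (closedAt e 𝒢 (k + j)) := by
  classical
  let K : S × Fin e.g → e.Γ → S × Fin e.g → Set e.X := fun p γ q =>
    {x | (p.2 = q.2 ∧ γ = (wval e.val (seg e.c e.ℓ p.2 k j))⁻¹) ∧ x ∈ closedAt e 𝒢 k p ∧
      Rd (𝒢.G e.val) (seg e.c e.ℓ p.2 k j) (x, p.1) (γ • x, q.1)}
  refine mt_inj (Γ := e.Γ) e.pmp (fun q => meas_closedAt e hm _ q) K ?_ ?_ ?_ ?_
  · intro p γ q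
    by_cases h : p.2 = q.2 ∧ γ = (wval e.val (seg e.c e.ℓ p.2 k j))⁻¹
    · have h1 : K p γ q = closedAt e 𝒢 k p ∩
          {x | Rd (𝒢.G e.val) (seg e.c e.ℓ p.2 k j) (x, p.1) (γ • x, q.1)} := by
        ext x
        simp only [K, Set.mem_ofPred_eq, Set.mem_inter_iff, h, true_and, and_self]
      rw [h1]
      exact (meas_closedAt e hm k p).inter (meas_rd (Env.meas_smul e) hm _ _ _ _ h.2)
    · have h1 : K p γ q = ∅ := by
        ext x
        simp only [K, Set.mem_ofPred_eq, Set.mem_empty_iff_false, iff_false]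
        intro h2
        exact h h2.1
      rw [h1]
      exact MeasurableSet.empty
  · rintro ⟨s, i⟩ x hx
    obtain ⟨z, h1, -⟩ := closed_read hf hx j
    have h2 := rd_point h1
    refine ⟨(wval e.val (seg e.c e.ℓ i k j))⁻¹, (z.2, i), ⟨rfl, rfl⟩, hx, ?_⟩
    have h3 : z = ((wval e.val (seg e.c e.ℓ i k j))⁻¹ • x, z.2) := Prod.ext h2 rfl
    rw [← h3]
    exact h1
  · rintro ⟨s, i⟩ γ ⟨s', i'⟩ x ⟨⟨h1, h2⟩, h3, h4⟩
    simp only at h1 h4
    subst h1
    obtain ⟨z, h5, h6⟩ := closed_read hf h3 j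
    have h7 := hf.rd_unique h5 h4
    rw [h7] at h6
    exact h6
  · rintro ⟨s', i'⟩ y γ γ' ⟨s, i⟩ ⟨s₂, i₂⟩ ⟨⟨h1, h2⟩, h3, h4⟩ ⟨⟨h1', h2'⟩, h3', h4'⟩
    simp only at h1 h1' h2 h2' h4 h4'
    subst h1 h1'
    have h5 : γ = γ' := by rw [h2, h2']
    subst h5
    have h6 := hf.rd_left h4 h4'
    exact ⟨rfl, by rw [(Prod.mk.inj h6).2]⟩

/-- The number of closed loops does not depend on the starting position `k`: the map
`(x,s,i) ↦` (vertex after reading `seg i k j`, `i`) is a bijection from the loops at position `k` to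
the loops at position `k + j` (`closed_read`), moving along orbits: `mt_inj` both ways
(`k ↦ k+1` suffices for one direction; go around with `ℓ+3` for the other, `seg_mod`). -/
theorem cnt_closedAt (e : Env) {S : Type} [Countable S] (𝒢 : Fld (Lab e.g) e.X S)
    (hm : FMeas 𝒢) (hf : Folded (𝒢.G e.val)) (k : ℕ) :
    cnt e.μ (closedAt e 𝒢 k) = cnt e.μ (closedAt e 𝒢 0) := by
  refine le_antisymm ?_ ?_
  · have h := cnt_closedAt_le e 𝒢 hm hf k ((e.ℓ + 2) * k)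
    rwa [closedAt_mod e 𝒢 (k := k + (e.ℓ + 2) * k) (k' := 0)] at h
    have h1 : k + (e.ℓ + 2) * k = (e.ℓ + 3) * k := by ring
    rw [h1, Nat.mul_mod_right, Nat.zero_mod]
  · have h := cnt_closedAt_le e 𝒢 hm hf 0 k
    rwa [zero_add] at h

/-- A function which sums to zero over all closed loops read from position `k` does so for
position `k'`. (`closed_sum`) -/
theorem loops_rot (e : Env) {S : Type} (𝒢 : Fld (Lab e.g) e.X S)
    (hf : Folded (𝒢.G e.val)) (F : e.X → EI (Lab e.g) S → ℝ) (k k' : ℕ)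
    (h : ∀ s i x r, x ∈ closedAt e 𝒢 k (s, i) →
      RS (𝒢.G e.val) (efun F) (seg e.c e.ℓ i k (e.ℓ + 3)) (x, s) (x, s) r → r = 0) :
    ∀ s i x r, x ∈ closedAt e 𝒢 k' (s, i) →
      RS (𝒢.G e.val) (efun F) (seg e.c e.ℓ i k' (e.ℓ + 3)) (x, s) (x, s) r → r = 0 := by
  intro s i x r hx hr
  obtain ⟨z, h1, h2⟩ := closed_read hf hx (k + (e.ℓ + 2) * k')
  have h3 := closed_sum hf hr h1
  have h4 : (k' + (k + (e.ℓ + 2) * k')) % (e.ℓ + 3) = k % (e.ℓ + 3) := by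
    have : k' + (k + (e.ℓ + 2) * k') = k + (e.ℓ + 3) * k' := by ring
    rw [this, Nat.add_mul_mod_self_left]
  rw [seg_mod i _ k _ h4] at h2 h3
  exact h z.2 i z.1 r h2 h3

/-- hence the cocycle condition does not depend on the position -/
theorem coc_rot (e : Env) {S : Type} (𝒢 : Fld (Lab e.g) e.X S) (b : S)
    (hf : Folded (𝒢.G e.val)) {Q : Type} (A : Q → Set e.X)
    (Φ : Q → (e.X → EI (Lab e.g) S → ℝ) → e.X → ℝ) (k k' : ℕ)
    (h : Coc e 𝒢 b A Φ k (closedAt e 𝒢 k)) : Coc e 𝒢 b A Φ k' (closedAt e 𝒢 k') :=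
  fun F h1 h2 h3 h4 => h F h1 h2 h3 (loops_rot e 𝒢 hf F k' k h4)

/-- the cocycle condition is monotone in the set of loops -/
theorem coc_mono (e : Env) {S : Type} (𝒢 : Fld (Lab e.g) e.X S) (b : S)
    {Q : Type} (A : Q → Set e.X)
    (Φ : Q → (e.X → EI (Lab e.g) S → ℝ) → e.X → ℝ) (k : ℕ) {T T' : S × Fin e.g → Set e.X}
    (hT : ∀ p, T p ⊆ T' p) (h : Coc e 𝒢 b A Φ k T) : Coc e 𝒢 b A Φ k T' :=
  fun F h1 h2 h3 h4 => h F h1 h2 h3 (fun s i x r hx => h4 s i x r (hT _ hx))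

end Crest.Agent.R191
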