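import Crest.Agent.R191.Fold
import Crest.Agent.R191.Star
import Crest.Agent.R191.Rot

/-!
# R191 piece INIT: the initial field

`t`-lines with finitely many arcs attached, folded.
-/

set_option autoImplicit false

namespace Crest.Agent.R191

open MeasureTheory
open scoped ENNReal

/-- the field of `t`-lines -/
def lineF (g : ℕ) (X : Type) : Fld (Lab g) X Unit := ⟨fun a _ _ => {_x | a = none}⟩

namespace InitAux

set_option linter.unusedSectionVars false

variable (e : Env) {N : ℕ} (wd : Fin N → List (Lab e.g × Bool)) (A : Fin N → Set e.X)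

/-- arcs -/
def iA : Arcs (Lab e.g) e.X Unit (Fin N) := ⟨fun _ => (), fun _ => (), wd, A⟩

/-- the unfolded field -/
def iY : Fld (Lab e.g) e.X (Unit ⊕ (Fin N × ℕ)) := attach (lineF e.g e.X) e.val (iA e wd A)

theorem lineF_meas : FMeas (lineF e.g e.X) := fun _ _ _ => MeasurableSet.const _

theorem iY_meas (hA : ∀ k, MeasurableSet (A k)) : FMeas (iY e wd A) :=
  meas_attach e.meas_smul (lineF_meas e) (iA e wd A) hA

/-- the possible edge indices -/
def kind : Option (Σ k : Fin N, Fin (wd k).length) → EI (Lab e.g) (Unit ⊕ (Fin N × ℕ))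
  | none => (none, Sum.inl (), Sum.inl ())
  | some ⟨k, j⟩ => if ((wd k)[j.1]).2 = true then
      (((wd k)[j.1]).1, (iA e wd A).pos k j.1, (iA e wd A).pos k (j.1 + 1)) else
      (((wd k)[j.1]).1, (iA e wd A).pos k (j.1 + 1), (iA e wd A).pos k j.1)

theorem iY_finite : {ed | ((iY e wd A).Es ed).Nonempty}.Finite := by
  refine (Set.finite_range (kind e wd A)).subset ?_
  rintro ⟨a, n, m⟩ ⟨y, hy⟩
  rcases hy with ⟨n₀, m₀, h1, h2, h⟩ | ⟨k, j, x, h, hx, h1 | h1⟩
  · simp only at h1 h2 h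
    refine ⟨none, ?_⟩
    have h3 : a = none := h
    rw [h1, h2, h3]
    rfl
  · refine ⟨some ⟨k, ⟨j, h⟩⟩, ?_⟩
    obtain ⟨h2, h3, h4, h5⟩ := h1
    simp only at h2 h3 h4 h5
    have h6 : (wd k)[j]'h = (a, true) := h2
    rw [h4, h5]
    change (if ((wd k)[j]'h).2 = true then
      (((wd k)[j]'h).1, (iA e wd A).pos k j, (iA e wd A).pos k (j + 1)) else
      (((wd k)[j]'h).1, (iA e wd A).pos k (j + 1), (iA e wd A).pos k j)) = _
    rw [h6]
    simp
  · refine ⟨some ⟨k, ⟨j, h⟩⟩, ?_⟩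
    obtain ⟨h2, h3, h4, h5⟩ := h1
    simp only at h2 h3 h4 h5
    have h6 : (wd k)[j]'h = (a, false) := h2
    rw [h4, h5]
    change (if ((wd k)[j]'h).2 = true then
      (((wd k)[j]'h).1, (iA e wd A).pos k j, (iA e wd A).pos k (j + 1)) else
      (((wd k)[j]'h).1, (iA e wd A).pos k (j + 1), (iA e wd A).pos k j)) = _
    rw [h6]
    simp

theorem iY_fin : cnt e.μ (iY e wd A).Es ≠ ⊤ := by
  rw [cnt, tsum_eq_sum (s := (iY_finite e wd A).toFinset)]
  · exact (ENNReal.sum_lt_top.2 (fun _ _ => measure_lt_top _ _)).ne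
  · intro ed hed
    have : (iY e wd A).Es ed = ∅ := by
      by_contra h
      exact hed ((iY_finite e wd A).mem_toFinset.2 (Set.nonempty_iff_ne_empty.2 h))
    rw [this, measure_empty]

variable {e wd A}

section fold

variable {q : e.X → (Unit ⊕ (Fin N × ℕ)) → (Unit ⊕ (Fin N × ℕ))}

variable (e wd A q) in
/-- the folded field -/
def iG : Fld (Lab e.g) e.X (Unit ⊕ (Fin N × ℕ)) := foldF (iY e wd A) e.val q

theorem iG_fin (hA : ∀ k, MeasurableSet (A k)) (hq : Rep (iY e wd A) e.val (Sum.inl ()) q) :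
    cnt e.μ (iG e wd A q).Es ≠ ⊤ := by
  refine ne_top_of_le_ne_top (iY_fin e wd A) ?_
  refine le_trans (cnt_mono ?_) (fib_image_le (μ := e.μ) (A := (iY e wd A).Es)
    (fun ed => iY_meas e wd A hA _ _ _)
    (fun x ed => (ed.1, q x ed.2.1, q ((e.val ed.1)⁻¹ • x) ed.2.2)) ?_)
  · rintro ⟨a, n', m'⟩ x ⟨n, m, h1, h2, h3⟩
    exact ⟨(a, n, m), h1, by simp only [h2, h3]⟩
  · rintro ⟨a, n, m⟩ ⟨a', n', m'⟩
    by_cases ha : a = a'
    · subst ha
      have : {x | (fun (x : e.X) (ed : EI (Lab e.g) (Unit ⊕ (Fin N × ℕ))) =>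
          (ed.1, q x ed.2.1, q ((e.val ed.1)⁻¹ • x) ed.2.2)) x (a, n, m) = (a, n', m')} =
          {x | q x n = n'} ∩ (fun x : e.X => (e.val a)⁻¹ • x) ⁻¹' {x | q x m = m'} := by
        ext x
        simp
      rw [this]
      exact (hq.meas _ _).inter (e.meas_smul _ (hq.meas _ _))
    · have : {x | (fun (x : e.X) (ed : EI (Lab e.g) (Unit ⊕ (Fin N × ℕ))) =>
          (ed.1, q x ed.2.1, q ((e.val ed.1)⁻¹ • x) ed.2.2)) x (a, n, m) = (a', n', m')} = ∅ := by
        ext x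
        simp [ha]
      rw [this]
      exact MeasurableSet.empty

theorem line_rd (x : e.X) : ((lineF e.g e.X).G e.val) none (x, ()) ((e.val none)⁻¹ • x, ()) :=
  ⟨rfl, rfl⟩

/-- base `t`-edges -/
theorem iG_t (hq : Rep (iY e wd A) e.val (Sum.inl ()) q) (x : e.X) :
    x ∈ (iG e wd A q).E none (Sum.inl ()) (Sum.inl ()) :=
  ⟨Sum.inl (), Sum.inl (), Or.inl ⟨(), (), rfl, rfl, rfl⟩, hq.base _, hq.base _⟩

/-- reading an arc in the folded field -/
theorem iG_arc (hwd : ∀ k, wd k ≠ []) (hq : Rep (iY e wd A) e.val (Sum.inl ()) q)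
    (F : e.X → EI (Lab e.g) (Unit ⊕ (Fin N × ℕ)) → ℝ) {k : Fin N} {x : e.X} (hx : x ∈ A k) :
    RS ((iG e wd A q).G e.val) (efun F) (wd k) (x, Sum.inl ())
      ((wval e.val (wd k))⁻¹ • x, Sum.inl ()) (arcsum e.val (iA e wd A) (pull e.val q F) k x) := by
  have h1 := attach_arc (𝒢 := lineF e.g e.X) (val := e.val) (𝒜 := iA e wd A) hwd
    (pull e.val q F) (k := k) (x := x) hx
  have h2 := foldF_rs (q := q) h1
  have h3 := hq.base x
  have h4 := hq.base ((wval e.val (wd k))⁻¹ • x)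
  simp only [iA] at h2
  rw [h3, h4] at h2
  exact h2

theorem iG_conn (hwd : ∀ k, wd k ≠ []) (hq : Rep (iY e wd A) e.val (Sum.inl ()) q)
    (u : e.X × (Unit ⊕ (Fin N × ℕ))) (hu : IsV ((iG e wd A q).G e.val) u) :
    ∃ w x, Rd ((iG e wd A q).G e.val) w (x, Sum.inl ()) u := by
  obtain ⟨s, hs, hsu⟩ := foldF_isV hu
  rcases attach_isV hs with ⟨s₀, h1, h2⟩ | ⟨k, j, x, hx, hj, h⟩
  · simp only at h1
    refine ⟨[], u.1, ?_⟩
    have : u = (u.1, Sum.inl ()) := by
      refine Prod.ext rfl ?_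
      rw [← hsu, h1]
      exact hq.base u.1
    exact this.symm
  · obtain ⟨r, hr⟩ := rs_of_rd (f := efun (pull e.val q (fun _ _ => 0)))
      (attach_arc_prefix (𝒢 := lineF e.g e.X) (val := e.val) (𝒜 := iA e wd A) hx (hwd k) hj)
    have h2 := rd_of_rs (foldF_rs (q := q) hr)
    have h3 := hq.base x
    refine ⟨(wd k).take j, x, ?_⟩
    · have h4 : u = ((iA e wd A).pt e.val k x j, q ((iA e wd A).pt e.val k x j)
          ((iA e wd A).pos k j)) := by
        have h5 := congrArg Prod.fst h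
        have h6 := congrArg Prod.snd h
        simp only at h5 h6
        refine Prod.ext h5 ?_
        rw [← hsu, h6, h5]
      rw [h4]
      simp only [iA] at h2
      rw [h3] at h2
      exact h2

theorem iG_gen (hwd : ∀ k, wd k ≠ []) (hq : Rep (iY e wd A) e.val (Sum.inl ()) q) {x y : e.X}
    (h : Relation.EqvGen
      (fun x y : e.X => y = (e.val none)⁻¹ • x ∨ ∃ k, x ∈ A k ∧ y = (wval e.val (wd k))⁻¹ • x)
      x y) : ∃ w, Rd ((iG e wd A q).G e.val) w (x, Sum.inl ()) (y, Sum.inl ()) := by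
  induction h with
  | rel x y h =>
    rcases h with rfl | ⟨k, hx, rfl⟩
    · refine ⟨[(none, true)], _, ?_, rfl⟩
      simp only [Stp, if_true]
      exact ⟨rfl, iG_t hq x⟩
    · exact ⟨wd k, rd_of_rs (iG_arc hwd hq (fun _ _ => 0) hx)⟩
  | refl x => exact ⟨[], rfl⟩
  | symm x y _ ih =>
    obtain ⟨w, hw⟩ := ih
    exact ⟨winv w, rd_winv hw⟩
  | trans x y z _ _ ih ih' =>
    obtain ⟨w, hw⟩ := ih
    obtain ⟨w', hw'⟩ := ih'
    exact ⟨w ++ w', rd_append.2 ⟨_, hw, hw'⟩⟩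

theorem iG_base (hwd : ∀ k, wd k ≠ []) (hA : ∀ k, MeasurableSet (A k))
    (hq : Rep (iY e wd A) e.val (Sum.inl ()) q)
    (hgen : ∀ (x : e.X) (γ : e.Γ), Relation.EqvGen
      (fun x y : e.X => y = (e.val none)⁻¹ • x ∨ ∃ k, x ∈ A k ∧ y = (wval e.val (wd k))⁻¹ • x)
      x (γ • x)) : Base e (iG e wd A q) (Sum.inl ()) where
  meas := meas_foldF e.meas_smul (iY_meas e wd A hA) hq
  folded := foldF_folded hq
  base_t := iG_t hq
  conn := iG_conn hwd hq
  gen := fun x γ => iG_gen hwd hq (hgen x γ)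
  fin := iG_fin hA hq

theorem iG_coc (hwd : ∀ k, wd k ≠ []) (hq : Rep (iY e wd A) e.val (Sum.inl ()) q)
    (Φ : Fin N → (e.X → EI (Lab e.g) (Unit ⊕ (Fin N × ℕ)) → ℝ) → e.X → ℝ)
    (hΦ : ∀ k F x v r, RS ((iG e wd A q).G e.val) (efun F) (wd k) (x, Sum.inl ()) v r →
      Φ k F x = r) :
    Coc e (iG e wd A q) (Sum.inl ()) A Φ 0 (fun _ => ∅) := by
  intro F hsupp hbase hrow _ w x y r hr
  have hr' : RS ((iG e wd A q).G e.val) (efun F) w (x, q x (Sum.inl ())) (y, q y (Sum.inl ())) r := by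
    rwa [hq.base, hq.base]
  obtain ⟨w', -, hw'⟩ := foldF_lift hq (u := (x, Sum.inl ())) (v := (y, Sum.inl ())) hr'
  refine attach_decomp (𝒢 := lineF e.g e.X) (val := e.val) (𝒜 := iA e wd A) hwd
    (pull e.val q F) (fun _ _ r => r = 0) (fun _ => rfl) (fun _ _ r h => by simp [h])
    (fun _ _ _ r r' h h' => by simp [h, h']) ?_ ?_ (u := (x, ())) (v := (y, ())) hw'
  · intro a u v huv
    have ha : a = none := huv.2
    subst ha
    simp only [pull]
    rw [hq.base, hq.base]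
    exact hbase _
  · intro k x hx
    rw [← hΦ k F x _ _ (iG_arc hwd hq F hx)]
    exact hrow k x hx

end fold

end InitAux

/-- INIT.  `N` arcs: for `x ∈ A k` an arc from `x` to `(wval (wd k))⁻¹ • x` reading `wd k`.

Let `𝒴 = attach (lineF) 𝒜`, `q` representatives, `𝒢 = foldF 𝒴 q`, base sheet `inl ()`.
* folded: `foldF_folded`; `conn`, `gen`: from `hgen` (images of `t`-edges and arcs);
* `fin`: `cnt Es ≤ 1 + ∑_k |wd k| μ (A k) < ∞`;
* cocycle condition with the `N` rows "sum along the image of the arc `k`" on `A k`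
  (`isRow_psum` for `𝒢`, word `wd k`, sheet `q x (inl ()) = inl ()`), total measure `≤ δ`, and `T = ∅`:
  a base-base reading of `𝒢` lifts to `𝒴` (`foldF_lift`); `attach_decomp` with `Z u v r := r = 0`
  (`t`-edges have value `0` because their images are the base `t`-edges; the arcs have
  sum `0` by hypothesis); so its sum is `0`;
* `cap`: `star` with `T = ∅` gives `E ≤ V + δ`;
* the cocycle condition with all closed loops: `coc_mono`. -/
theorem init_good (e : Env) (N : ℕ) (wd : Fin N → List (Lab e.g × Bool))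
    (hwd : ∀ k, wd k ≠ []) (A : Fin N → Set e.X)
    (hA : ∀ k, MeasurableSet (A k)) (hAc : ∑ k, e.μ (A k) ≤ ENNReal.ofReal e.δ)
    (hgen : ∀ (x : e.X) (γ : e.Γ), Relation.EqvGen
      (fun x y : e.X => y = (e.val none)⁻¹ • x ∨ ∃ k, x ∈ A k ∧ y = (wval e.val (wd k))⁻¹ • x)
      x (γ • x)) :
    ∃ (S : Type) (_ : Countable S) (𝒢 : Fld (Lab e.g) e.X S) (b : S), Good e 𝒢 b := by
  obtain ⟨q, hq⟩ := exists_rep (val := e.val) e.meas_smul (InitAux.iY_meas e wd A hA)
    (Sum.inl () : Unit ⊕ (Fin N × ℕ))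
  have hb := InitAux.iG_base hwd hA hq hgen
  have hrow : ∀ k, ∃ Φ : (e.X → EI (Lab e.g) (Unit ⊕ (Fin N × ℕ)) → ℝ) → e.X → ℝ,
      IsRow e.Γ Φ ∧ ∀ F x v r, RS ((InitAux.iG e wd A q).G e.val) (efun F) (wd k)
        (x, Sum.inl ()) v r → Φ F x = r := fun k =>
    isRow_psum e.meas_smul hb.meas hb.folded (wd k) (Sum.inl ())
  choose Φ hΦ hΦ' using hrow
  have hcoc := InitAux.iG_coc hwd hq Φ hΦ'
  have hcA : cnt e.μ A ≤ ENNReal.ofReal e.δ := by
    rw [cnt, tsum_fintype]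
    exact hAc
  refine ⟨Unit ⊕ (Fin N × ℕ), inferInstance, InitAux.iG e wd A q, Sum.inl (), hb, ?_, ?_⟩
  · exact ⟨Fin N, inferInstance, A, Φ, hA, hΦ, hcA, coc_mono e _ _ A Φ 0 (fun _ => Set.empty_subset _)
      hcoc⟩
  · refine (star e _ _ hb A Φ hA hΦ 0 (fun _ => ∅) (fun _ => MeasurableSet.empty)
      (fun _ => Set.empty_subset _) hcoc).trans ?_
    have h0 : cnt e.μ (fun _ : (Unit ⊕ (Fin N × ℕ)) × Fin e.g => (∅ : Set e.X)) = 0 := by
      simp [cnt]
    rw [h0, add_zero]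
    gcongr
    refine hcA.trans (ENNReal.ofReal_le_ofReal ?_)
    linarith [e.δpos]

end Crest.Agent.R191
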