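import Crest.Agent.R191.Blk

/-!
# R191 piece LOCAL: cancellation in `U⁺ · f · U'⁻`
-/

set_option autoImplicit false

namespace Crest.Agent.R191

variable {g : ℕ} {c : Fin g → ℕ → Fin g} {ℓ : ℕ}

/-- `f` contains no subword of `C_b^{±1}` of length `≥ ℓ - 57` -/
def NoC (c : Fin g → ℕ → Fin g) (ℓ : ℕ) (f : List (Fin g × Bool)) : Prop :=
  ∀ x : List (Fin g × Bool), x <:+: f → ℓ - 57 ≤ x.length →
    ∀ b, ¬ x <:+: Cw c ℓ b ∧ ¬ x <:+: winv (Cw c ℓ b)

namespace Local_aux

open Blk_aux

theorem winv_append {L : Type} (a b : List (L × Bool)) : winv (a ++ b) = winv b ++ winv a := by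
  simp [winv]

theorem winv_cons {L : Type} (e : L × Bool) (a : List (L × Bool)) :
    winv (e :: a) = winv a ++ [(e.1, !e.2)] := by
  simp [winv]

theorem winv_inj {L : Type} {a b : List (L × Bool)} (h : winv a = winv b) : a = b := by
  rw [← winv_winv a, h, winv_winv]

theorem winv_get {L : Type} (w : List (L × Bool)) {i : ℕ} (hi : i < w.length) :
    (winv w)[i]? = (w[w.length - 1 - i]?).map fun e => (e.1, !e.2) := by
  unfold winv
  rw [List.getElem?_reverse (by simpa using hi)]
  simp

theorem red_take {L : Type} {w : List (L × Bool)} (h : Red w) (n : ℕ) : Red (w.take n) := by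
  unfold Red at h ⊢
  exact h.take n

theorem red_drop {L : Type} {w : List (L × Bool)} (h : Red w) (n : ℕ) : Red (w.drop n) := by
  unfold Red at h ⊢
  exact h.drop n

/-- maximal cancellation -/
theorem cancel {L : Type} {X Y : List (L × Bool)} (hX : Red X) (hY : Red Y) :
    ∃ e, e ≤ X.length ∧ e ≤ Y.length ∧ Y.take e = winv (X.drop (X.length - e)) ∧
      Red (X.take (X.length - e) ++ Y.drop e) ∧
      FreeGroup.mk (X.take (X.length - e) ++ Y.drop e) = FreeGroup.mk X * FreeGroup.mk Y := by
  classical
  let P : ℕ → Prop := fun e => e ≤ X.length ∧ e ≤ Y.length ∧ Y.take e = winv (X.drop (X.length - e))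
  have hP0 : P 0 := ⟨by omega, by omega, by simp [winv]⟩
  obtain ⟨e, he, hmax⟩ : ∃ e, P e ∧ ¬ P (e + 1) := by
    by_contra hcon
    push Not at hcon
    have : ∀ n, P n := by
      intro n
      induction n with
      | zero => exact hP0
      | succ n ih => exact hcon n ih
    have := (this (X.length + 1)).1
    omega
  obtain ⟨h1, h2, h3⟩ := he
  refine ⟨e, h1, h2, h3, ?_, ?_⟩
  · unfold Red
    rw [List.isChain_append]
    refine ⟨red_take hX _, red_drop hY _, ?_⟩
    intro x hx y hy hcon
    apply hmax
    have hy' : Y[e]? = some y := by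
      rw [List.head?_drop] at hy
      exact hy
    have he1 : e + 1 ≤ X.length := by
      by_contra hc
      have : X.length - e = 0 := by omega
      rw [this] at hx
      simp at hx
    have hx' : X[X.length - (e + 1)]? = some x := by
      rw [List.getLast?_eq_getElem?, List.length_take, List.getElem?_take] at hx
      have e1 : min (X.length - e) X.length - 1 = X.length - (e + 1) := by omega
      rw [e1, if_pos (by omega)] at hx
      exact hx
    have he2 : e < Y.length := by
      by_contra hc
      rw [List.getElem?_eq_none (by omega)] at hy'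
      simp at hy'
    refine ⟨he1, he2, ?_⟩
    rw [List.take_add_one, h3, hy']
    have e2 : X.drop (X.length - (e + 1)) = x :: X.drop (X.length - e) := by
      have hlt : X.length - (e + 1) < X.length := by omega
      rw [List.drop_eq_getElem_cons hlt]
      rw [List.getElem?_eq_getElem hlt] at hx'
      rw [Option.some.inj hx']
      congr 2
      omega
    rw [e2, winv_cons]
    simp only [Option.toList_some]
    congr 2
    obtain ⟨y1, y2⟩ := y
    simp only at hcon
    rw [hcon.1, hcon.2]
  · have hX' : FreeGroup.mk X = FreeGroup.mk (X.take (X.length - e)) *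
        FreeGroup.mk (X.drop (X.length - e)) := by
      rw [← mk_append, List.take_append_drop]
    have hY' : FreeGroup.mk Y = FreeGroup.mk (Y.take e) * FreeGroup.mk (Y.drop e) := by
      rw [← mk_append, List.take_append_drop]
    rw [mk_append, hX', hY', h3, mk_winv]
    group

theorem winv_drop {L : Type} (w : List (L × Bool)) {n : ℕ} (_hn : n ≤ w.length) :
    (winv w).drop (w.length - n) = winv (w.take n) := by
  have h1 : winv w = winv (w.drop n) ++ winv (w.take n) := by
    rw [← winv_append, List.take_append_drop]
  have h2 : w.length - n = (winv (w.drop n)).length := by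
    rw [winv_length, List.length_drop]
  rw [h1, h2, List.drop_append_length]

theorem winv_infix {L : Type} {x y : List (L × Bool)} (h : x <:+: y) : winv x <:+: winv y := by
  obtain ⟨s, t, rfl⟩ := h
  exact ⟨winv t, winv s, by simp [winv_append]⟩

theorem noC_blk {f y : List (Fin g × Bool)} (hN : NoC c ℓ f) (hy : y ≠ [])
    (h : blk c ℓ y <:+: f) : False := by
  obtain ⟨b, hb | hb⟩ := blk_infix (c := c) (ℓ := ℓ) hy
  · exact (hN _ (hb.trans h) (by rw [Cw_length]; omega) b).1 List.infix_rfl
  · exact (hN _ (hb.trans h) (by rw [winv_length, Cw_length]; omega) b).2 List.infix_rfl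

theorem red_get {L : Type} {f : List (L × Bool)} (hf : Red f) {i : ℕ} {x y : L × Bool}
    (hx : f[i]? = some x) (hy : f[i + 1]? = some y) : ¬ (y.1 = x.1 ∧ y.2 = !x.2) := by
  unfold Red at hf
  rw [List.isChain_iff_getElem] at hf
  obtain ⟨h1, h2⟩ := List.getElem?_eq_some_iff.1 hx
  obtain ⟨h3, h4⟩ := List.getElem?_eq_some_iff.1 hy
  have := hf i h3
  rw [h2, h4] at this
  exact this

theorem map_inv_inv {L : Type} (o : Option (L × Bool)) :
    (o.map fun e : L × Bool => (e.1, !e.2)).map (fun e : L × Bool => (e.1, !e.2)) = o := by
  cases o <;> simp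

/-- assembling -/
theorem assemble {L : Type} {A X A' : List (L × Bool)} {e : ℕ} (hXA : X.take 12 = A.take 12)
    (h1 : 12 ≤ X.length - e) (h2 : e + 12 ≤ A'.length) :
    A.take 12 ++ ((X.take (X.length - e)).drop 12 ++ (A'.drop e).take ((A'.drop e).length - 12)) ++
      A'.drop (A'.length - 12) = X.take (X.length - e) ++ A'.drop e := by
  have e1 : A.take 12 = (X.take (X.length - e)).take 12 := by
    rw [List.take_take, min_eq_left h1, hXA]
  have e2 : A'.drop (A'.length - 12) = (A'.drop e).drop ((A'.drop e).length - 12) := by
    rw [List.drop_drop]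
    congr 1
    rw [List.length_drop]
    omega
  rw [e1, e2, ← List.append_assoc, List.take_append_drop, List.append_assoc,
    List.take_append_drop]

end Local_aux

open Blk_aux Local_aux

/-- LOCAL LEMMA.  `U = blk v`, `U' = blk v'` reduced block words, `f` reduced, nonempty, without
long subwords of `C_b^{±1}`.  `p` is a cut in `U`, `p'` a cut in `U'`.  Suppose that the cancellation
between `U` and `f` on the right leaves at least `30` letters after the cut `p`, and the
cancellation between `f` and `U'` leaves at least `30` letters before the cut `p'`.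
Then the reduced form of `(U.drop p) f (U'.take p')` starts with the `12` letters of `U` after the
cut, ends with the `12` letters of `U'` before the cut `p'` (without overlap).

Proof.  Let `β` be maximal with `f.take β = winv` of the last `β` letters of `U` (`β ≤ |f|`,
`β + p + 30 ≤ |U|`), `α` maximal with
`f.drop (|f| - α) = winv (U'.take α)` (`α + 30 ≤ p'`).
If `α + β < |f|` the reduced form is `(U.drop p).take(..-β) ++ f-middle ++ (U'.take p').drop α`
(reduced by maximality).  Otherwise put `α' = |f| - β ≤ α`; `f = winv Y ++ X~`,
`Y = U.drop (|U|-β)`, `X~ = winv (U'.take α')`, and the product is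
`(U.drop p without its last β letters) · (U'.take p').drop α'`, both factors of length `≥ 30`.
Suppose `e ≥ 18` letters cancel there.  In the reduced block words `U` and
`Ũ := blk (winv v') = winv U'` the 18 letters before the positions `k₁ = |U| - β` and
`k₁' = |U'| - α'` agree, so `align` applies.  If `k₁ % ℓ ≠ 0`: the next letters agree and exist, so
`β, α' ≥ 1` and `f` contains `x⁻¹ x` at the junction: contradiction with `f` reduced.
If `k₁ % ℓ = k₁' % ℓ = 0`: `Y` and `X~` consist of full blocks, one of them is nonempty, so `f`
contains some `C_b^{±1}` (length `ℓ ≥ ℓ - 57`): contradiction with `NoC`.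
So fewer than `18` letters cancel on each side, leaving `≥ 12`. -/
theorem local_cancel (hc : CWords c ℓ) {v v' f : List (Fin g × Bool)} (hv : Red v)
    (hv' : Red v') (hf : Red f) (hf0 : f ≠ []) (hNC : NoC c ℓ f) {p p' : ℕ}
    (hp' : p' ≤ (blk c ℓ v').length)
    (hR : ∀ β, β ≤ f.length → β ≤ (blk c ℓ v).length →
      f.take β = winv ((blk c ℓ v).drop ((blk c ℓ v).length - β)) →
      β + p + 30 ≤ (blk c ℓ v).length)
    (hL : ∀ α, α ≤ f.length → α ≤ (blk c ℓ v').length →
      f.drop (f.length - α) = winv ((blk c ℓ v').take α) → α + 30 ≤ p') :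
    ∃ mid : List (Fin g × Bool),
      Red (((blk c ℓ v).drop p).take 12 ++ mid ++ ((blk c ℓ v').take p').drop (p' - 12)) ∧
      FreeGroup.mk (((blk c ℓ v).drop p).take 12 ++ mid ++
        ((blk c ℓ v').take p').drop (p' - 12)) =
      FreeGroup.mk ((blk c ℓ v).drop p) * FreeGroup.mk f * FreeGroup.mk ((blk c ℓ v').take p') := by
  have hUr : Red (blk c ℓ v) := blk_red hc hv
  have hUr' : Red (blk c ℓ v') := blk_red hc hv'
  have hbig := hc.big
  obtain ⟨U, hU⟩ : ∃ U, U = blk c ℓ v := ⟨_, rfl⟩
  obtain ⟨U', hU'⟩ : ∃ U', U' = blk c ℓ v' := ⟨_, rfl⟩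
  rw [← hU] at hR hUr ⊢
  rw [← hU'] at hL hUr' hp' ⊢
  obtain ⟨A, hA⟩ : ∃ A, A = U.drop p := ⟨_, rfl⟩
  obtain ⟨A', hA'⟩ : ∃ A', A' = U'.take p' := ⟨_, rfl⟩
  rw [← hA, ← hA']
  have hAl : A.length = U.length - p := by rw [hA, List.length_drop]
  have hAl' : A'.length = p' := by rw [hA', List.length_take]; omega
  have hAr : Red A := hA ▸ red_drop hUr p
  have hAr' : Red A' := hA' ▸ red_take hUr' p'
  have hb0 : p + 30 ≤ U.length := by
    have := hR 0 (by omega) (by omega) (by simp [winv])
    omega
  obtain ⟨β, hβ1, hβ2, hβ3, hβ4, hβ5⟩ := cancel hAr hf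
  have hβ3' : f.take β = winv (U.drop (U.length - β)) := by
    rw [hβ3, hA, List.drop_drop, List.length_drop]
    congr 2
    omega
  have hβ := hR β hβ2 (by omega) hβ3'
  obtain ⟨X, hX⟩ : ∃ X, X = A.take (A.length - β) ++ f.drop β := ⟨_, rfl⟩
  rw [← hX] at hβ4 hβ5
  obtain ⟨e, he1, he2, he3, he4, he5⟩ := cancel hβ4 hAr'
  have hXl : X.length = (U.length - p - β) + (f.length - β) := by
    rw [hX, List.length_append, List.length_take, List.length_drop]
    omega
  have htk : ∀ n, n ≤ p' → A'.take n = U'.take n := by
    intro n hn
    rw [hA', List.take_take, min_eq_left hn]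
  -- letters
  have hXA : ∀ m, m < U.length - p - β → X[m]? = U[p + m]? := by
    intro m hm
    rw [hX, List.getElem?_append_left (by rw [List.length_take]; omega), List.getElem?_take,
      if_pos (by omega), hA, List.getElem?_drop]
  have hXf : ∀ n, X[U.length - p - β + n]? = f[β + n]? := by
    intro n
    have e1 : (A.take (A.length - β)).length = U.length - p - β := by
      rw [List.length_take]; omega
    rw [hX, List.getElem?_append_right (by omega), e1, List.getElem?_drop]
    congr 2
    omega
  have hidx : ∀ n, n < e → U'[n]? = (X[X.length - 1 - n]?).map fun e => (e.1, !e.2) := by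
    intro n hn
    have h1 : U'[n]? = (A'.take e)[n]? := by
      rw [htk e (by omega), List.getElem?_take, if_pos hn]
    have h2 : (X.drop (X.length - e)).length = e := by rw [List.length_drop]; omega
    rw [h1, he3, winv_get _ (by omega), h2, List.getElem?_drop]
    congr 3
    omega
  have hidf : ∀ n, n < β → f[n]? = (U[U.length - 1 - n]?).map fun e => (e.1, !e.2) := by
    intro n hn
    have h1 : f[n]? = (f.take β)[n]? := by
      rw [List.getElem?_take, if_pos hn]
    have h2 : (U.drop (U.length - β)).length = β := by rw [List.length_drop]; omega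
    rw [h1, hβ3', winv_get _ (by omega), h2, List.getElem?_drop]
    congr 3
    omega
  have hsuf : ∀ n, n ≤ f.length - β → X.drop (X.length - n) = f.drop (f.length - n) := by
    intro n hn
    have e1 : X.length - n = (A.take (A.length - β)).length + (f.length - β - n) := by
      rw [List.length_take]; omega
    rw [e1]
    conv_lhs => rw [hX]
    rw [List.drop_length_add_append, List.drop_drop]
    congr 1
    omega
  -- the key estimate
  have key : 12 ≤ X.length - e ∧ e + 12 ≤ p' := by
    by_cases hcase : e ≤ f.length - β
    · have h1 : f.drop (f.length - e) = winv (U'.take e) := by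
        rw [← htk e (by omega), he3, winv_winv, hsuf e hcase]
      have h2 := hL e (by omega) (by omega) h1
      omega
    · -- `α' = f.length - β`
      obtain ⟨α, hα⟩ : ∃ α, α = f.length - β := ⟨_, rfl⟩
      have h3 : winv (f.drop (f.length - α)) = U'.take α := by
        rw [← hsuf α (by omega)]
        apply List.ext_getElem?
        intro i
        rcases Nat.lt_or_ge i α with hi | hi
        · have h4 : (X.drop (X.length - α)).length = α := by rw [List.length_drop]; omega
          rw [winv_get _ (by omega), h4, List.getElem?_drop, List.getElem?_take, if_pos hi,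
            hidx i (by omega)]
          congr 3
          omega
        · rw [List.getElem?_eq_none, List.getElem?_eq_none]
          · rw [List.length_take]; omega
          · rw [winv_length, List.length_drop]; omega
      have h4 : f.drop (f.length - α) = winv (U'.take α) := by rw [← h3, winv_winv]
      have h5 := hL α (by omega) (by omega) h4
      by_contra hkey
      have he18 : α + 18 ≤ e := by omega
      have hUt : winv U' = blk c ℓ (winv v') := by rw [hU', blk_winv]
      have hUtl : (blk c ℓ (winv v')).length = U'.length := by rw [← hUt, winv_length]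
      have hal := align hc hv hv'.winv (k := U.length - β) (k' := U'.length - α) (by omega)
        (by omega) (by rw [← hU]; omega) (by rw [hUtl]; omega) ?_
      · obtain ⟨ha1, ha2, -⟩ := hal
        rw [← hU, ← hUt] at ha2
        by_cases hz : (U.length - β) % ℓ = 0
        · by_cases hβ0 : β = 0
          · -- `f` is a block word
            have h6 : f = blk c ℓ ((winv v').drop ((U'.length - α) / ℓ)) := by
              have e1 : ℓ * ((U'.length - α) / ℓ) = U'.length - α := by
                have := Nat.div_add_mod (U'.length - α) ℓ
                omega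
              rw [← blk_drop, e1, ← hUt, winv_drop _ (by omega), ← h4]
              rw [hα, hβ0]
              simp
            refine noC_blk hNC (y := (winv v').drop ((U'.length - α) / ℓ)) ?_ ?_
            · intro h7
              rw [h7] at h6
              exact hf0 (by rw [h6]; simp [blk])
            · rw [← h6]
          · have h6 : f.take β = blk c ℓ (winv (v.drop ((U.length - β) / ℓ))) := by
              have e1 : ℓ * ((U.length - β) / ℓ) = U.length - β := by
                have := Nat.div_add_mod (U.length - β) ℓ
                omega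
              rw [blk_winv, ← blk_drop, e1, ← hU, hβ3']
            refine noC_blk hNC (y := winv (v.drop ((U.length - β) / ℓ))) ?_ ?_
            · intro h7
              rw [h7] at h6
              have h8 : (f.take β).length = 0 := by rw [h6]; simp [blk]
              rw [List.length_take] at h8
              omega
            · rw [← h6]
              exact (List.take_prefix _ _).isInfix
        · obtain ⟨hb1, hb2⟩ := ha2 hz
          have hβ1' : 1 ≤ β := by
            by_contra hcon
            apply hb2
            rw [List.getElem?_eq_none]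
            omega
          have hα1 : 1 ≤ α := by
            by_contra hcon
            apply hb2
            rw [hb1, List.getElem?_eq_none]
            rw [winv_length]
            omega
          have hlt : U'.length - α < U'.length := by omega
          rw [winv_get _ hlt] at hb1
          have e1 : U'.length - 1 - (U'.length - α) = α - 1 := by omega
          have e2 : X.length - 1 - (α - 1) = U.length - p - β + 0 := by omega
          rw [e1, hidx (α - 1) (by omega), e2, hXf 0, map_inv_inv, add_zero] at hb1
          have h6 := hidf (β - 1) (by omega)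
          have e3 : U.length - 1 - (β - 1) = U.length - β := by omega
          rw [e3] at h6
          obtain ⟨x, hx⟩ := Option.ne_none_iff_exists'.1 hb2
          rw [hx] at h6 hb1
          rw [Option.map_some] at h6
          have e4 : β - 1 + 1 = β := by omega
          refine red_get hf h6 (y := x) (by rw [e4, ← hb1]) ⟨rfl, by simp⟩
      · intro r hr
        rw [← hU, ← hUt, winv_get _ (by omega)]
        have e1 : U'.length - 1 - (U'.length - α - 18 + r) = α + 17 - r := by omega
        have e2 : X.length - 1 - (α + 17 - r) = U.length - p - β - 18 + r := by omega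
        rw [e1, hidx _ (by omega), e2, hXA _ (by omega), map_inv_inv]
        congr 1
        omega
  have hX12 : X.take 12 = A.take 12 := by
    rw [hX, List.take_append_of_le_length (by rw [List.length_take]; omega), List.take_take,
      min_eq_left (by omega)]
  have hW := assemble hX12 key.1 (by omega : e + 12 ≤ A'.length)
  rw [hAl'] at hW
  refine ⟨(X.take (X.length - e)).drop 12 ++ (A'.drop e).take ((A'.drop e).length - 12), ?_, ?_⟩
  · rw [hW]; exact he4
  · rw [hW, he5, hβ5]

/-- left end: the reduced form of `f (U'.take p')` ends with the `12` letters of `U'` before `p'` -/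
theorem local_left (hc : CWords c ℓ) {v' f : List (Fin g × Bool)}
    (hv' : Red v') (hf : Red f) {p' : ℕ} (hp' : p' ≤ (blk c ℓ v').length)
    (hL : ∀ α, α ≤ f.length → α ≤ (blk c ℓ v').length →
      f.drop (f.length - α) = winv ((blk c ℓ v').take α) → α + 30 ≤ p') :
    ∃ mid : List (Fin g × Bool),
      Red (mid ++ ((blk c ℓ v').take p').drop (p' - 12)) ∧
      FreeGroup.mk (mid ++ ((blk c ℓ v').take p').drop (p' - 12)) =
      FreeGroup.mk f * FreeGroup.mk ((blk c ℓ v').take p') := by
  have hUr' : Red (blk c ℓ v') := blk_red hc hv'
  obtain ⟨U', hU'⟩ : ∃ U', U' = blk c ℓ v' := ⟨_, rfl⟩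
  rw [← hU'] at hL hUr' hp' ⊢
  obtain ⟨A', hA'⟩ : ∃ A', A' = U'.take p' := ⟨_, rfl⟩
  rw [← hA']
  have hAl' : A'.length = p' := by rw [hA', List.length_take]; omega
  have hAr' : Red A' := hA' ▸ red_take hUr' p'
  obtain ⟨e, he1, he2, he3, he4, he5⟩ := cancel hf hAr'
  have h1 : f.drop (f.length - e) = winv (U'.take e) := by
    have : U'.take e = A'.take e := by rw [hA', List.take_take, min_eq_left (by omega)]
    rw [this, he3, winv_winv]
  have h2 := hL e (by omega) (by omega) h1
  have e2 : A'.drop (p' - 12) = (A'.drop e).drop ((A'.drop e).length - 12) := by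
    rw [List.drop_drop]
    congr 1
    rw [List.length_drop]
    omega
  refine ⟨f.take (f.length - e) ++ (A'.drop e).take ((A'.drop e).length - 12), ?_, ?_⟩
  · rw [e2, List.append_assoc, List.take_append_drop]; exact he4
  · rw [e2, List.append_assoc, List.take_append_drop]; exact he5

/-- right end -/
theorem local_right (hc : CWords c ℓ) {v f : List (Fin g × Bool)} (hv : Red v)
    (hf : Red f) {p : ℕ} 
    (hR : ∀ β, β ≤ f.length → β ≤ (blk c ℓ v).length →
      f.take β = winv ((blk c ℓ v).drop ((blk c ℓ v).length - β)) →
      β + p + 30 ≤ (blk c ℓ v).length) :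
    ∃ mid : List (Fin g × Bool),
      Red (((blk c ℓ v).drop p).take 12 ++ mid) ∧
      FreeGroup.mk (((blk c ℓ v).drop p).take 12 ++ mid) =
      FreeGroup.mk ((blk c ℓ v).drop p) * FreeGroup.mk f := by
  have hUr : Red (blk c ℓ v) := blk_red hc hv
  obtain ⟨U, hU⟩ : ∃ U, U = blk c ℓ v := ⟨_, rfl⟩
  rw [← hU] at hR hUr ⊢
  obtain ⟨A, hA⟩ : ∃ A, A = U.drop p := ⟨_, rfl⟩
  rw [← hA]
  have hAl : A.length = U.length - p := by rw [hA, List.length_drop]
  have hAr : Red A := hA ▸ red_drop hUr p
  have hb0 : p + 30 ≤ U.length := by
    have := hR 0 (by omega) (by omega) (by simp [winv])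
    omega
  obtain ⟨β, hβ1, hβ2, hβ3, hβ4, hβ5⟩ := cancel hAr hf
  have hβ3' : f.take β = winv (U.drop (U.length - β)) := by
    rw [hβ3, hA, List.drop_drop, List.length_drop]
    congr 2
    omega
  have hβ := hR β hβ2 (by omega) hβ3'
  have e1 : A.take 12 = (A.take (A.length - β)).take 12 := by
    rw [List.take_take, min_eq_left (by omega)]
  refine ⟨(A.take (A.length - β)).drop 12 ++ f.drop β, ?_, ?_⟩
  · rw [e1, ← List.append_assoc, List.take_append_drop]; exact hβ4
  · rw [e1, ← List.append_assoc, List.take_append_drop]; exact hβ5

end Crest.Agent.R191
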