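import Crest.Agent.R191.Main

/-!
# R191: lower bound for the Bernoulli shift (helper49)
-/

set_option autoImplicit false

namespace Crest.Agent.R191

open MeasureTheory
open scoped ENNReal

variable {g ℓ : ℕ} {c : Fin g → ℕ → Fin g}

theorem gam_t_pow (hc : CWords c ℓ) (n : ℕ) (hn : 0 < n) : (gval hc none) ^ n ≠ 1 := by
  obtain ⟨h, ht, -⟩ := gam_height hc
  intro h1
  have h2 : h (gval hc none ^ n) = 1 := by rw [h1, map_one]
  rw [map_pow, ht, ← ofAdd_nsmul] at h2
  have h3 : (n • (1 : ℤ)) = 0 := by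
    have := congrArg Multiplicative.toAdd h2
    simpa using this
  simp at h3
  omega

theorem gam_infinite (hc : CWords c ℓ) : Infinite (Gam hc) := by
  refine Infinite.of_injective (fun n : ℕ => (gval hc none) ^ n) ?_
  intro a b hab
  by_contra hne
  wlog hlt : a < b generalizing a b with H
  · exact H hab.symm (Ne.symm hne) (by omega)
  have : (gval hc none) ^ (b - a) = 1 := by
    have h1 : (gval hc none) ^ b = (gval hc none) ^ a * (gval hc none) ^ (b - a) := by
      rw [← pow_add]; congr 1; omega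
    have h2 : (gval hc none) ^ a = (gval hc none) ^ b := hab
    rw [h1] at h2
    exact (mul_eq_left.1 h2.symm)
  exact gam_t_pow hc (b - a) (by omega) this

theorem gam_lift_injective (hc : CWords c ℓ) :
    Function.Injective (FreeGroup.lift fun i => gval hc (some i)) := by
  have h : (FreeGroup.lift fun i => gval hc (some i)) =
      (HNNExtension.of : FreeGroup (Fin g) →* Gam hc) := by
    refine FreeGroup.ext_hom _ _ ?_
    intro i
    simp [gval]
  rw [h]
  exact HNNExtension.of_injective (phiEquiv hc)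

theorem lower' (hc : CWords c ℓ) (i0 : Fin g) (δ : ℝ)
    (δpos : 0 < δ) (num1 : 2000 * (2 * Real.sqrt g + 1) ^ 4 ≤ (ℓ : ℝ) - 68)
    (num2 : ((ℓ : ℝ) + 4) * δ * g ≤ 1) (num3 : 1000 * δ * g ≤ 1) (num4 : δ ≤ 1 / 100) :
    haveI := gam_countable hc
    1 + ENNReal.ofReal δ ≤
      Crest.Dynamics.actionCost (Gam hc) (Bern (Gam hc)) (bernM (Gam hc)) := by
  have := gam_countable hc
  have := gam_infinite hc
  by_contra hlt
  rw [not_le] at hlt
  unfold Crest.Dynamics.actionCost at hlt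
  obtain ⟨cc, ⟨Φ, hgen, rfl⟩, hcost⟩ := sInf_lt_iff.1 hlt
  have hact : Crest.Dynamics.IsFreePMPAction (Gam hc) (Bern (Gam hc)) (bernM (Gam hc)) :=
    bern_free
  obtain ⟨Ψ, hΨ, hΨc, hΨg⟩ := slide (bernM (Gam hc)) hact.1 (gval hc none) Φ hgen
    (ENNReal.ofReal δ) hcost (fun ε hε => bern_marker (gval hc none) (gam_t_pow hc) ε hε)
  have hcl : Subgroup.closure (Set.range (fun i => gval hc (some i)) ∪ {gval hc none}) = ⊤ := by
    rw [← gam_closure hc]
    congr 1
    ext y
    constructor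
    · rintro (⟨i, rfl⟩ | hy)
      · exact ⟨some i, rfl⟩
      · exact ⟨none, hy.symm⟩
    · rintro ⟨a, rfl⟩
      cases a with
      | none => right; rfl
      | some i => left; exact ⟨i, rfl⟩
  obtain ⟨N, Ψ', hΨ', hΨc', hΨg'⟩ := trunc (bernM (Gam hc)) hact.1 (gval hc none)
    (fun i => gval hc (some i)) hcl Ψ hΨ (ENNReal.ofReal δ) hΨc hΨg
  exact lower_core (bernM (Gam hc)) hact (gval hc) (gam_closure hc) c ℓ δ i0 hc
    (gam_rel hc) (sg_bern _ (gam_lift_injective hc)) (gam_dehn hc i0)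
    (fun ε hε => bern_small ε hε) δpos num1 num2 num3 num4 N Ψ' hΨ' hΨc' hΨg'

/-- the numerical conditions for `g = 40009`, `ℓ = 6·10^13` -/
theorem num_g : 2000 * (2 * Real.sqrt ((40009 : ℕ) : ℝ) + 1) ^ 4 ≤
    ((60000000000000 : ℕ) : ℝ) - 68 := by
  have h1 : Real.sqrt ((40009 : ℕ) : ℝ) ≤ 200.03 := by
    rw [show (200.03 : ℝ) = Real.sqrt (200.03 ^ 2) from (Real.sqrt_sq (by norm_num)).symm]
    exact Real.sqrt_le_sqrt (by norm_num)
  have h0 : 0 ≤ Real.sqrt ((40009 : ℕ) : ℝ) := Real.sqrt_nonneg _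
  calc 2000 * (2 * Real.sqrt ((40009 : ℕ) : ℝ) + 1) ^ 4 ≤ 2000 * (2 * 200.03 + 1) ^ 4 := by
        gcongr
    _ ≤ ((60000000000000 : ℕ) : ℝ) - 68 := by norm_num

theorem exists_cw : ∃ c : Fin 40009 → ℕ → Fin 40009, CWords c 60000000000000 := by
  refine exists_cwords 40009 60000000000000 prime_g (by norm_num) ?_
  norm_num

end Crest.Agent.R191
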