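import Crest.Agent.R191.Defs

/-!
# R191 piece MT: counting in `X × P`, mass transport

`cnt μ A = ∑' p, μ (A p)`; think of it as the measure of the subset `{(x,p) | x ∈ A p}` of `X × P`
for `μ ×` counting measure.
-/

set_option autoImplicit false

namespace Crest.Agent.R191

open MeasureTheory
open scoped ENNReal

variable {Γ X P Q : Type}

/-- the sum of the indicator of a set is its `encard` -/
theorem mt_tsum_ind {P : Type} (S : Set P) :
    ∑' p, S.indicator (fun _ => (1 : ℝ≥0∞)) p = ((S.encard : ℕ∞) : ℝ≥0∞) := by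
  rw [← tsum_subtype]
  exact ENNReal.tsum_set_one S

theorem mt_encard_eq {X P : Type} (A : P → Set X) (x : X) :
    ((({p | x ∈ A p} : Set P).encard : ℕ∞) : ℝ≥0∞) =
      ∑' p, (A p).indicator (fun _ => (1 : ℝ≥0∞)) x := by
  rw [← mt_tsum_ind]
  refine tsum_congr fun p => ?_
  by_cases h : x ∈ A p
  · rw [Set.indicator_of_mem (by exact h), Set.indicator_of_mem h]
  · rw [Set.indicator_of_notMem (by exact h), Set.indicator_of_notMem h]

theorem mt_encard_meas {X P : Type} [MeasurableSpace X] [Countable P] {A : P → Set X}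
    (hA : ∀ p, MeasurableSet (A p)) :
    Measurable fun x => ((({p | x ∈ A p} : Set P).encard : ℕ∞) : ℝ≥0∞) := by
  simp_rw [mt_encard_eq]
  exact Measurable.ennreal_tsum fun p => measurable_const.indicator (hA p)

theorem mt_cnt_eq {X P : Type} [MeasurableSpace X] [Countable P] {μ : Measure X} {A : P → Set X}
    (hA : ∀ p, MeasurableSet (A p)) :
    cnt μ A = ∫⁻ x, ((({p | x ∈ A p} : Set P).encard : ℕ∞) : ℝ≥0∞) ∂μ := by
  simp_rw [mt_encard_eq]
  rw [lintegral_tsum (fun p => (measurable_const.indicator (hA p)).aemeasurable)]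
  unfold cnt
  refine tsum_congr fun p => ?_
  rw [lintegral_indicator_const (hA p), one_mul]

/-- pointwise inequality: `2 #image + #dup ≤ 2 #S` -/
theorem mt_pt_two {P Q : Type} (S : Set P) (f : P → Q) :
    2 * (f '' S).encard + {p | p ∈ S ∧ ∃ p', p' ≠ p ∧ p' ∈ S ∧ f p' = f p}.encard ≤
      2 * S.encard := by
  classical
  by_cases hS : S.Finite
  · obtain ⟨s, rfl⟩ := hS.exists_finset_coe
    have e1 : (f '' (s : Set P)) = ((s.image f : Finset Q) : Set Q) := by simp
    have e2 : {p | p ∈ (s : Set P) ∧ ∃ p', p' ≠ p ∧ p' ∈ (s : Set P) ∧ f p' = f p} =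
        ((s.filter fun p => ∃ p' ∈ s, p' ≠ p ∧ f p' = f p : Finset P) : Set P) := by
      ext p
      simp only [Finset.coe_filter, Set.mem_setOf_eq, Finset.mem_coe]
      constructor
      · rintro ⟨h1, p', h2, h3, h4⟩
        exact ⟨h1, p', h3, h2, h4⟩
      · rintro ⟨h1, p', h3, h2, h4⟩
        exact ⟨h1, p', h2, h3, h4⟩
    rw [e1, e2, Set.encard_coe_eq_coe_finsetCard, Set.encard_coe_eq_coe_finsetCard,
      Set.encard_coe_eq_coe_finsetCard]
    have key : 2 * (s.image f).card + (s.filter fun p => ∃ p' ∈ s, p' ≠ p ∧ f p' = f p).card ≤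
        2 * s.card := by
      rw [Finset.card_eq_sum_card_image f s, Finset.card_eq_sum_card_fiberwise (f := f)
        (s := s.filter fun p => ∃ p' ∈ s, p' ≠ p ∧ f p' = f p) (t := s.image f)
        (fun p hp => Finset.mem_coe.2 (Finset.mem_image_of_mem f (Finset.mem_filter.1 hp).1)),
        Finset.mul_sum, Finset.card_eq_sum_ones (s.image f), Finset.mul_sum,
        ← Finset.sum_add_distrib]
      refine Finset.sum_le_sum fun q hq => ?_
      obtain ⟨p, hp, rfl⟩ := Finset.mem_image.1 hq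
      have hsub : (Finset.filter (fun a => f a = f p)
          (s.filter fun p => ∃ p' ∈ s, p' ≠ p ∧ f p' = f p)).card ≤
          (Finset.filter (fun a => f a = f p) s).card :=
        Finset.card_le_card (fun a ha => by
          simp only [Finset.mem_filter] at ha ⊢
          exact ⟨ha.1.1, ha.2⟩)
      have hpos : 1 ≤ (Finset.filter (fun a => f a = f p) s).card :=
        Finset.card_pos.2 ⟨p, Finset.mem_filter.2 ⟨hp, rfl⟩⟩
      by_cases hc : 2 ≤ (Finset.filter (fun a => f a = f p) s).card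
      · omega
      · have h1 : (Finset.filter (fun a => f a = f p) s).card = 1 := by omega
        have h0 : (Finset.filter (fun a => f a = f p)
            (s.filter fun p => ∃ p' ∈ s, p' ≠ p ∧ f p' = f p)).card = 0 := by
          rw [Finset.card_eq_zero, Finset.filter_eq_empty_iff]
          intro a ha hfa
          obtain ⟨ha1, a', ha', hne, hf⟩ := Finset.mem_filter.1 ha
          obtain ⟨z, hz⟩ := Finset.card_eq_one.1 h1
          have m1 : a ∈ ({z} : Finset P) := hz ▸ Finset.mem_filter.2 ⟨ha1, hfa⟩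
          have m2 : a' ∈ ({z} : Finset P) := hz ▸ Finset.mem_filter.2 ⟨ha', hf.trans hfa⟩
          rw [Finset.mem_singleton] at m1 m2
          exact hne (m2.trans m1.symm)
        omega
    exact_mod_cast key
  · have : S.encard = ⊤ := Set.encard_eq_top (Set.not_finite.1 hS)
    rw [this]
    simp

theorem mt_pt_le {P Q : Type} (S : Set P) (f : P → Q) :
    S.encard ≤ (f '' S).encard +
      {p | p ∈ S ∧ ∃ p', p' ≠ p ∧ p' ∈ S ∧ f p' = f p}.encard := by
  set D := {p | p ∈ S ∧ ∃ p', p' ≠ p ∧ p' ∈ S ∧ f p' = f p} with hD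
  have h1 : S ⊆ (S \ D) ∪ D := by
    intro p hp
    by_cases h : p ∈ D
    · exact Or.inr h
    · exact Or.inl ⟨hp, h⟩
  have h2 : Set.InjOn f (S \ D) := by
    intro p hp p' hp' hf
    by_contra hne
    exact hp.2 ⟨hp.1, p', fun h => hne h.symm, hp'.1, hf.symm⟩
  calc S.encard ≤ ((S \ D) ∪ D).encard := Set.encard_le_encard h1
    _ ≤ (S \ D).encard + D.encard := Set.encard_union_le _ _
    _ = (f '' (S \ D)).encard + D.encard := by rw [h2.encard_image]
    _ ≤ (f '' S).encard + D.encard := by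
        gcongr
        exact Set.diff_subset

theorem mt_img_eq {X P Q : Type} (A : P → Set X) (r : X → P → Q) (x : X) :
    {q | x ∈ {x | ∃ p, x ∈ A p ∧ r x p = q}} = (r x) '' {p | x ∈ A p} := by
  ext q
  simp only [Set.mem_setOf_eq, Set.mem_image]

theorem mt_img_meas {X P Q : Type} [MeasurableSpace X] [Countable P]
    {A : P → Set X} (hA : ∀ p, MeasurableSet (A p)) (r : X → P → Q)
    (hr : ∀ p q, MeasurableSet {x | r x p = q}) (q : Q) :
    MeasurableSet {x | ∃ p, x ∈ A p ∧ r x p = q} := by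
  have : {x | ∃ p, x ∈ A p ∧ r x p = q} = ⋃ p, (A p ∩ {x | r x p = q}) := by
    ext x; simp
  rw [this]
  exact MeasurableSet.iUnion fun p => (hA p).inter (hr p q)

theorem mt_dup_meas {X P Q : Type} [MeasurableSpace X] [Countable P] [Countable Q]
    {A : P → Set X} (hA : ∀ p, MeasurableSet (A p)) (r : X → P → Q)
    (hr : ∀ p q, MeasurableSet {x | r x p = q}) (p : P) :
    MeasurableSet {x | x ∈ A p ∧ ∃ p', p' ≠ p ∧ x ∈ A p' ∧ r x p' = r x p} := by
  have : {x | x ∈ A p ∧ ∃ p', p' ≠ p ∧ x ∈ A p' ∧ r x p' = r x p} =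
      A p ∩ ⋃ p', ⋃ (_ : p' ≠ p), (A p' ∩ ⋃ q, ({x | r x p' = q} ∩ {x | r x p = q})) := by
    ext x
    simp only [Set.mem_setOf_eq, Set.mem_inter_iff, Set.mem_iUnion, exists_prop]
    constructor
    · rintro ⟨h1, p', h2, h3, h4⟩
      exact ⟨h1, p', h2, h3, r x p, h4, rfl⟩
    · rintro ⟨h1, p', h2, h3, q, h4, h5⟩
      exact ⟨h1, p', h2, h3, h4.trans h5.symm⟩
  rw [this]
  refine (hA p).inter (MeasurableSet.iUnion fun p' => MeasurableSet.iUnion fun _ =>
    (hA p').inter (MeasurableSet.iUnion fun q => (hr p' q).inter (hr p q)))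

theorem cnt_mono [MeasurableSpace X] {μ : Measure X} {A B : P → Set X} (h : ∀ p, A p ⊆ B p) :
    cnt μ A ≤ cnt μ B :=
  ENNReal.tsum_le_tsum fun p => measure_mono (h p)

theorem cnt_union_le [MeasurableSpace X] {μ : Measure X} (A B : P → Set X) :
    cnt μ (fun p => A p ∪ B p) ≤ cnt μ A + cnt μ B := by
  unfold cnt
  rw [← ENNReal.tsum_add]
  exact ENNReal.tsum_le_tsum fun p => measure_union_le _ _

/-- `cnt A = cnt (A ∩ B) + cnt (A \ B)` -/
theorem cnt_inter_add_diff [MeasurableSpace X] {μ : Measure X} (A : P → Set X) {B : P → Set X}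
    (hB : ∀ p, MeasurableSet (B p)) :
    cnt μ (fun p => A p ∩ B p) + cnt μ (fun p => A p \ B p) = cnt μ A := by
  unfold cnt
  rw [← ENNReal.tsum_add]
  exact tsum_congr fun p => measure_inter_add_diff _ (hB p)

/-- MASS TRANSPORT.  `x ∈ K p γ q` means: `(x, p)` sends mass one to `(γ • x, q)`.
If every `(x,p) ∈ A` sends at least `c`, all mass arrives in `B`, and every `(y, q)` receives
at most `k`, then `c * cnt A ≤ k * cnt B`.

Proof: `c * μ (A p) ≤ ∫⁻ x, ∑' (γ,q), 1_{K p γ q} x = ∑' (γ,q), μ (K p γ q)`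
(`∑'` of indicators = encard, as `ENNReal`); sum over `p`, exchange sums, use
`μ (K p γ q) = μ {y | γ⁻¹ • y ∈ K p γ q}` (measure preserving), and bound for fixed `q`
`∑' (γ,p), μ {y | γ⁻¹ • y ∈ K p γ q} = ∫⁻ y, (encard ...) ≤ k * μ (B q)`. -/
theorem mt_le [Group Γ] [Countable Γ] [MulAction Γ X] [MeasurableSpace X] [Countable P]
    [Countable Q] {μ : Measure X}
    (hpmp : ∀ γ : Γ, MeasurePreserving (fun x : X => γ • x) μ μ)
    {A : P → Set X} {B : Q → Set X} (hBm : ∀ q, MeasurableSet (B q))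
    (K : P → Γ → Q → Set X) (hK : ∀ p γ q, MeasurableSet (K p γ q)) (c k : ℕ)
    (hA : ∀ p x, x ∈ A p → (c : ℕ∞) ≤ {gq : Γ × Q | x ∈ K p gq.1 gq.2}.encard)
    (hKB : ∀ p γ q x, x ∈ K p γ q → γ • x ∈ B q)
    (hB : ∀ q y, {gp : Γ × P | gp.1⁻¹ • y ∈ K gp.2 gp.1 q}.encard ≤ (k : ℕ∞)) :
    (c : ℝ≥0∞) * cnt μ A ≤ (k : ℝ≥0∞) * cnt μ B := by
  classical
  have step1 : ∀ p, (c : ℝ≥0∞) * μ (A p) ≤ ∑' gq : Γ × Q, μ (K p gq.1 gq.2) := by
    intro p
    have hm : Measurable fun x => ((({gq : Γ × Q | x ∈ K p gq.1 gq.2} : Set (Γ × Q)).encard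
        : ℕ∞) : ℝ≥0∞) :=
      mt_encard_meas (A := fun gq : Γ × Q => K p gq.1 gq.2) fun gq => hK p gq.1 gq.2
    calc (c : ℝ≥0∞) * μ (A p)
        ≤ (c : ℝ≥0∞) * μ {x | (c : ℝ≥0∞) ≤
            ((({gq : Γ × Q | x ∈ K p gq.1 gq.2} : Set (Γ × Q)).encard : ℕ∞) : ℝ≥0∞)} := by
          gcongr
          intro x hx
          have h := hA p x hx
          have h' : (((c : ℕ∞) : ℝ≥0∞)) ≤
              ((({gq : Γ × Q | x ∈ K p gq.1 gq.2} : Set (Γ × Q)).encard : ℕ∞) : ℝ≥0∞) :=
            ENat.toENNReal_le.2 h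
          simpa using h'
      _ ≤ ∫⁻ x, ((({gq : Γ × Q | x ∈ K p gq.1 gq.2} : Set (Γ × Q)).encard
            : ℕ∞) : ℝ≥0∞) ∂μ := mul_meas_ge_le_lintegral hm _
      _ = ∑' gq : Γ × Q, μ (K p gq.1 gq.2) :=
          (mt_cnt_eq (μ := μ) (A := fun gq : Γ × Q => K p gq.1 gq.2)
            fun gq => hK p gq.1 gq.2).symm
  have step2 : ∀ q, ∑' gp : Γ × P, μ (K gp.2 gp.1 q) ≤ (k : ℝ≥0∞) * μ (B q) := by
    intro q
    have hms : ∀ gp : Γ × P, MeasurableSet {y | gp.1⁻¹ • y ∈ K gp.2 gp.1 q} := fun gp =>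
      (hpmp gp.1⁻¹).measurable (hK gp.2 gp.1 q)
    calc ∑' gp : Γ × P, μ (K gp.2 gp.1 q)
        = ∑' gp : Γ × P, μ {y | gp.1⁻¹ • y ∈ K gp.2 gp.1 q} :=
          tsum_congr fun gp =>
            ((hpmp gp.1⁻¹).measure_preimage (hK gp.2 gp.1 q).nullMeasurableSet).symm
      _ = ∫⁻ y, ((({gp : Γ × P | gp.1⁻¹ • y ∈ K gp.2 gp.1 q} : Set (Γ × P)).encard
            : ℕ∞) : ℝ≥0∞) ∂μ :=
          mt_cnt_eq (μ := μ) (A := fun gp : Γ × P => {y | gp.1⁻¹ • y ∈ K gp.2 gp.1 q}) hms
      _ ≤ ∫⁻ y, (B q).indicator (fun _ => (k : ℝ≥0∞)) y ∂μ := by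
          refine lintegral_mono fun y => ?_
          by_cases hy : y ∈ B q
          · rw [Set.indicator_of_mem hy]
            have h' := ENat.toENNReal_le.2 (hB q y)
            simpa using h'
          · rw [Set.indicator_of_notMem hy]
            have : ({gp : Γ × P | gp.1⁻¹ • y ∈ K gp.2 gp.1 q} : Set (Γ × P)) = ∅ := by
              rw [Set.eq_empty_iff_forall_notMem]
              rintro ⟨γ, p⟩ h
              apply hy
              have := hKB p γ q _ h
              rwa [smul_inv_smul] at this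
            rw [this]
            simp
      _ = (k : ℝ≥0∞) * μ (B q) := by rw [lintegral_indicator_const (hBm q)]
  unfold cnt
  calc (c : ℝ≥0∞) * ∑' p, μ (A p) = ∑' p, (c : ℝ≥0∞) * μ (A p) := ENNReal.tsum_mul_left.symm
    _ ≤ ∑' p, ∑' gq : Γ × Q, μ (K p gq.1 gq.2) := ENNReal.tsum_le_tsum step1
    _ = ∑' q, ∑' gp : Γ × P, μ (K gp.2 gp.1 q) := by
        have e1 : ∀ p, ∑' gq : Γ × Q, μ (K p gq.1 gq.2) = ∑' q, ∑' γ, μ (K p γ q) := by
          intro p
          rw [ENNReal.tsum_prod', ENNReal.tsum_comm]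
        have e2 : ∀ q, ∑' gp : Γ × P, μ (K gp.2 gp.1 q) = ∑' p, ∑' γ, μ (K p γ q) := by
          intro q
          rw [ENNReal.tsum_prod', ENNReal.tsum_comm]
        simp_rw [e1, e2]
        rw [ENNReal.tsum_comm]
    _ ≤ ∑' q, (k : ℝ≥0∞) * μ (B q) := ENNReal.tsum_le_tsum step2
    _ = (k : ℝ≥0∞) * ∑' q, μ (B q) := ENNReal.tsum_mul_left

/-- Special case: a measurable injection moving along orbits. -/
theorem mt_inj [Group Γ] [Countable Γ] [MulAction Γ X] [MeasurableSpace X] [Countable P]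
    [Countable Q] {μ : Measure X}
    (hpmp : ∀ γ : Γ, MeasurePreserving (fun x : X => γ • x) μ μ)
    {A : P → Set X} {B : Q → Set X} (hBm : ∀ q, MeasurableSet (B q))
    (K : P → Γ → Q → Set X) (hK : ∀ p γ q, MeasurableSet (K p γ q))
    (hA : ∀ p x, x ∈ A p → ∃ γ q, x ∈ K p γ q)
    (hKB : ∀ p γ q x, x ∈ K p γ q → γ • x ∈ B q)
    (hB : ∀ q y γ γ' p p', γ⁻¹ • y ∈ K p γ q → γ'⁻¹ • y ∈ K p' γ' q → γ = γ' ∧ p = p') :
    cnt μ A ≤ cnt μ B := by
  have := mt_le hpmp hBm K hK 1 1 (A := A) (B := B)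
    (by
      intro p x hx
      obtain ⟨γ, q, h⟩ := hA p x hx
      have hne : ({gq : Γ × Q | x ∈ K p gq.1 gq.2}).Nonempty := ⟨(γ, q), h⟩
      simpa using Set.one_le_encard_iff_nonempty.2 hne) hKB
    (by
      intro q y
      rw [Nat.cast_one, Set.encard_le_one_iff]
      rintro ⟨γ, p⟩ ⟨γ', p'⟩ h h'
      obtain ⟨h1, h2⟩ := hB q y γ γ' p p' h h'
      rw [h1, h2])
  simpa using this

/-- Fibrewise map (no motion in `X`): the image family and the family of points with non-unique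
image. `2 * #image + #dup ≤ 2 * #A` -/
theorem fib_two [MeasurableSpace X] [Countable P] [Countable Q] {μ : Measure X}
    {A : P → Set X} (hA : ∀ p, MeasurableSet (A p)) (r : X → P → Q)
    (hr : ∀ p q, MeasurableSet {x | r x p = q}) :
    2 * cnt μ (fun q => {x | ∃ p, x ∈ A p ∧ r x p = q}) +
      cnt μ (fun p => {x | x ∈ A p ∧ ∃ p', p' ≠ p ∧ x ∈ A p' ∧ r x p' = r x p}) ≤
    2 * cnt μ A := by
  have hi := mt_img_meas hA r hr
  have hd := mt_dup_meas hA r hr
  rw [mt_cnt_eq hi, mt_cnt_eq hd, mt_cnt_eq hA, ← lintegral_const_mul' _ _ (by simp),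
    ← lintegral_const_mul' _ _ (by simp), ← lintegral_add_left ((mt_encard_meas hi).const_mul 2)]
  refine lintegral_mono fun x => ?_
  have h := ENat.toENNReal_le.2 (mt_pt_two {p | x ∈ A p} (r x))
  simp only [mt_img_eq]
  simpa using h

/-- `#A ≤ #image + #dup` -/
theorem fib_le [MeasurableSpace X] [Countable P] [Countable Q] {μ : Measure X}
    {A : P → Set X} (hA : ∀ p, MeasurableSet (A p)) (r : X → P → Q)
    (hr : ∀ p q, MeasurableSet {x | r x p = q}) :
    cnt μ A ≤ cnt μ (fun q => {x | ∃ p, x ∈ A p ∧ r x p = q}) +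
      cnt μ (fun p => {x | x ∈ A p ∧ ∃ p', p' ≠ p ∧ x ∈ A p' ∧ r x p' = r x p}) := by
  have hi := mt_img_meas hA r hr
  have hd := mt_dup_meas hA r hr
  rw [mt_cnt_eq hi, mt_cnt_eq hd, mt_cnt_eq hA, ← lintegral_add_left (mt_encard_meas hi)]
  refine lintegral_mono fun x => ?_
  have h := ENat.toENNReal_le.2 (mt_pt_le {p | x ∈ A p} (r x))
  simp only [mt_img_eq]
  simpa using h

/-- `#image ≤ #A` -/
theorem fib_image_le [MeasurableSpace X] [Countable P] [Countable Q] {μ : Measure X}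
    {A : P → Set X} (hA : ∀ p, MeasurableSet (A p)) (r : X → P → Q)
    (hr : ∀ p q, MeasurableSet {x | r x p = q}) :
    cnt μ (fun q => {x | ∃ p, x ∈ A p ∧ r x p = q}) ≤ cnt μ A := by
  have hi := mt_img_meas hA r hr
  rw [mt_cnt_eq hi, mt_cnt_eq hA]
  refine lintegral_mono fun x => ?_
  have h := ENat.toENNReal_le.2 (Set.encard_image_le (r x) {p | x ∈ A p})
  simp only [mt_img_eq]
  exact h

end Crest.Agent.R191
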