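import Crest.Agent.R191.Defs

/-!
# R191 piece SLIDE, auxiliary definitions and lemmas
-/

set_option autoImplicit false

namespace Crest.Agent.R191.SlideAux

open MeasureTheory
open scoped ENNReal

variable {Γ X : Type} [Group Γ] [MulAction Γ X] [MeasurableSpace X]

set_option linter.unusedSectionVars false
set_option linter.unusedVariables false

/-- letters of paths -/
abbrev E := ℕ × Bool

/-- group element of a letter -/
def gam (Φ : ℕ → Γ × Set X) (e : E) : Γ := if e.2 = true then (Φ e.1).1 else (Φ e.1).1⁻¹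

/-- domain of a letter -/
def dom (Φ : ℕ → Γ × Set X) (e : E) : Set X :=
  if e.2 = true then (Φ e.1).2 else {x | (Φ e.1).1⁻¹ • x ∈ (Φ e.1).2}

/-- value of a path -/
def val (Φ : ℕ → Γ × Set X) : List E → Γ
  | [] => 1
  | e :: w => val Φ w * gam Φ e

/-- valid paths ending in `A` -/
def V (Φ : ℕ → Γ × Set X) (A : Set X) : List E → Set X
  | [] => A
  | e :: w => {x | x ∈ dom Φ e ∧ gam Φ e • x ∈ V Φ A w}

/-- relation on letters -/
def lr : E → E → Prop := InvImage (· < ·) (Encodable.encode : E → ℕ)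

/-- shortlex relation on paths -/
def lt : List E → List E → Prop := List.Shortlex lr

instance : Std.Irrefl lr := ⟨fun a => by simp [lr, InvImage]⟩

instance : Std.Trichotomous lr :=
  ⟨(InvImage.trichotomous (Encodable.encode_injective)).trichotomous⟩

theorem lr_wf : WellFounded lr := InvImage.wf _ wellFounded_lt

theorem lt_wf : WellFounded lt := List.Shortlex.wf lr_wf

instance : Std.Trichotomous lt := List.Shortlex.trichotomous

/-- points whose minimal path is `w` -/
def W (Φ : ℕ → Γ × Set X) (A : Set X) (w : List E) : Set X :=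
  {x | x ∈ V Φ A w ∧ ∀ w', lt w' w → x ∉ V Φ A w'}

/-- points whose minimal path starts with `e` -/
def H (Φ : ℕ → Γ × Set X) (A : Set X) (e : E) : Set X := ⋃ w, W Φ A (e :: w)

section meas

variable {μ : Measure X} (hpmp : ∀ γ : Γ, MeasurePreserving (fun x : X => γ • x) μ μ)
  {Φ : ℕ → Γ × Set X} (hΦ : ∀ i, MeasurableSet (Φ i).2) {A : Set X} (hA : MeasurableSet A)

include hpmp hΦ in
theorem dom_meas (e : E) : MeasurableSet (dom Φ e) := by
  unfold dom
  split_ifs with h
  · exact hΦ _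
  · exact (hpmp _).measurable (hΦ _)

include hpmp hΦ hA in
theorem V_meas (w : List E) : MeasurableSet (V Φ A w) := by
  induction w with
  | nil => exact hA
  | cons e w ih =>
    exact (dom_meas hpmp hΦ e).inter ((hpmp _).measurable ih)

include hpmp hΦ hA in
theorem W_meas (w : List E) : MeasurableSet (W Φ A w) := by
  have : W Φ A w = V Φ A w ∩ ⋂ w', ⋂ _ : lt w' w, (V Φ A w')ᶜ := by
    ext x
    simp [W]
  rw [this]
  refine (V_meas hpmp hΦ hA w).inter ?_
  refine MeasurableSet.iInter fun w' => MeasurableSet.iInter fun _ => ?_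
  exact (V_meas hpmp hΦ hA w').compl

include hpmp hΦ hA in
theorem H_meas (e : E) : MeasurableSet (H Φ A e) :=
  MeasurableSet.iUnion fun w => W_meas hpmp hΦ hA _

end meas

variable {Φ : ℕ → Γ × Set X} {A : Set X}

theorem W_uniq {x : X} {v w : List E} (hv : x ∈ W Φ A v) (hw : x ∈ W Φ A w) : v = w := by
  by_contra hne
  rcases Std.Trichotomous.rel_or_eq_or_rel_swap (r := lt) (a := v) (b := w) with h | h | h
  · exact hw.2 _ h hv.1
  · exact hne h
  · exact hv.2 _ h hw.1

theorem exists_W {x : X} {v : List E} (hv : x ∈ V Φ A v) : ∃ w, x ∈ W Φ A w := by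
  have hne : {v | x ∈ V Φ A v}.Nonempty := ⟨v, hv⟩
  refine ⟨lt_wf.min _ hne, lt_wf.min_mem _ hne, fun w' hw' h => ?_⟩
  exact lt_wf.not_lt_min _ h hw'

theorem tail {x : X} {e : E} {w : List E} (h : x ∈ W Φ A (e :: w)) :
    x ∈ dom Φ e ∧ gam Φ e • x ∈ W Φ A w := by
  refine ⟨h.1.1, h.1.2, fun w' hw' hx => ?_⟩
  exact h.2 (e :: w') (List.Shortlex.cons hw') ⟨h.1.1, hx⟩

theorem W_nil {x : X} (h : x ∈ A) : x ∈ W Φ A [] :=
  ⟨h, fun w' hw' => (List.not_shortlex_nil_right hw').elim⟩

theorem W_val {x : X} {w : List E} (h : x ∈ V Φ A w) : val Φ w • x ∈ A := by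
  induction w generalizing x with
  | nil => simpa [val, V] using h
  | cons e w ih =>
    have := ih h.2
    rwa [smul_smul] at this

/-- used pairs -/
def U (Φ : ℕ → Γ × Set X) (A : Set X) (i : ℕ) (b : Bool) : Set X :=
  if b = true then H Φ A (i, true) else {x | (Φ i).1 • x ∈ H Φ A (i, false)}

theorem U_sub (i : ℕ) (b : Bool) : U Φ A i b ⊆ (Φ i).2 := by
  intro x hx
  cases b with
  | true =>
    simp only [U, if_true, H, Set.mem_iUnion] at hx
    obtain ⟨w, hw⟩ := hx
    simpa [dom] using (tail hw).1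
  | false =>
    simp only [U, Bool.false_eq_true, if_false, H, Set.mem_iUnion, Set.mem_ofPred_eq] at hx
    obtain ⟨w, hw⟩ := hx
    simpa [dom] using (tail hw).1

theorem U_disj (i : ℕ) : Disjoint (U Φ A i true) (U Φ A i false) := by
  rw [Set.disjoint_left]
  intro x hx hx'
  simp only [U, if_true, H, Set.mem_iUnion] at hx
  simp only [U, Bool.false_eq_true, if_false, H, Set.mem_iUnion, Set.mem_ofPred_eq] at hx'
  obtain ⟨w, hw⟩ := hx
  obtain ⟨w', hw'⟩ := hx'
  have h1 : (Φ i).1 • x ∈ W Φ A w := by simpa [gam] using (tail hw).2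
  have h2 : x ∈ W Φ A w' := by simpa [gam] using (tail hw').2
  have e1 := W_uniq h1 hw'
  have e2 := W_uniq h2 hw
  have l1 := congrArg List.length e1
  have l2 := congrArg List.length e2
  simp at l1 l2
  omega

section meas

variable {μ : Measure X} (hpmp : ∀ γ : Γ, MeasurePreserving (fun x : X => γ • x) μ μ)
  (hΦ : ∀ i, MeasurableSet (Φ i).2) (hA : MeasurableSet A)

include hpmp hΦ hA in
theorem U_meas (i : ℕ) (b : Bool) : MeasurableSet (U Φ A i b) := by
  unfold U
  split_ifs
  · exact H_meas hpmp hΦ hA _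
  · exact (hpmp _).measurable (H_meas hpmp hΦ hA _)

include hpmp hΦ hA in
theorem U_measure (i : ℕ) (b : Bool) : μ (U Φ A i b) = μ (H Φ A (i, b)) := by
  cases b with
  | true => simp [U]
  | false =>
    simp only [U, Bool.false_eq_true, if_false]
    exact (hpmp _).measure_preimage (H_meas hpmp hΦ hA _).nullMeasurableSet

/-- unused pairs -/
def A' (Φ : ℕ → Γ × Set X) (A : Set X) (i : ℕ) : Set X :=
  (Φ i).2 \ (U Φ A i true ∪ U Φ A i false)

include hpmp hΦ hA in
theorem A'_meas (i : ℕ) : MeasurableSet (A' Φ A i) :=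
  (hΦ i).diff ((U_meas hpmp hΦ hA i _).union (U_meas hpmp hΦ hA i _))

include hpmp hΦ hA in
theorem A'_measure (i : ℕ) :
    μ (A' Φ A i) + (μ (H Φ A (i, true)) + μ (H Φ A (i, false))) = μ (Φ i).2 := by
  rw [← U_measure hpmp hΦ hA i true, ← U_measure hpmp hΦ hA i false,
    ← measure_union (U_disj i) (U_meas hpmp hΦ hA i false)]
  have h := measure_sdiff_add_inter (μ := μ) (Φ i).2
    ((U_meas hpmp hΦ hA i true).union (U_meas hpmp hΦ hA i false))
  rwa [Set.inter_eq_right.2 (Set.union_subset (U_sub i _) (U_sub i _))] at h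

end meas

/-- index of arcs -/
abbrev K := ℕ × List E × List E

/-- the arcs -/
def Arc (Φ : ℕ → Γ × Set X) (A : Set X) (k : K) : Γ × Set X :=
  (val Φ k.2.2 * (Φ k.1).1 * (val Φ k.2.1)⁻¹,
    {z | (val Φ k.2.1)⁻¹ • z ∈ A' Φ A k.1 ∩ (W Φ A k.2.1 ∩ {x | (Φ k.1).1 • x ∈ W Φ A k.2.2})})

section meas

variable {μ : Measure X} (hpmp : ∀ γ : Γ, MeasurePreserving (fun x : X => γ • x) μ μ)
  (hΦ : ∀ i, MeasurableSet (Φ i).2) (hA : MeasurableSet A)

include hpmp hΦ hA in
theorem Arc_meas0 (k : K) : MeasurableSet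
    (A' Φ A k.1 ∩ (W Φ A k.2.1 ∩ {x | (Φ k.1).1 • x ∈ W Φ A k.2.2})) :=
  (A'_meas hpmp hΦ hA _).inter ((W_meas hpmp hΦ hA _).inter
    ((hpmp _).measurable (W_meas hpmp hΦ hA _)))

include hpmp hΦ hA in
theorem Arc_meas (k : K) : MeasurableSet (Arc Φ A k).2 :=
  (hpmp _).measurable (Arc_meas0 hpmp hΦ hA k)

include hpmp hΦ hA in
theorem Arc_measure (k : K) : μ (Arc Φ A k).2 =
    μ (A' Φ A k.1 ∩ (W Φ A k.2.1 ∩ {x | (Φ k.1).1 • x ∈ W Φ A k.2.2})) :=
  (hpmp _).measure_preimage (Arc_meas0 hpmp hΦ hA k).nullMeasurableSet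

include hpmp hΦ hA in
theorem Arc_sum : ∑' k, μ (Arc Φ A k).2 ≤ ∑' i, μ (A' Φ A i) := by
  rw [ENNReal.tsum_prod']
  refine ENNReal.tsum_le_tsum fun i => ?_
  simp_rw [Arc_measure hpmp hΦ hA]
  rw [← measure_iUnion]
  · exact measure_mono (Set.iUnion_subset fun _ => Set.inter_subset_left)
  · rintro ⟨v, w⟩ ⟨v', w'⟩ hne
    refine Set.disjoint_left.2 ?_
    rintro x ⟨_, h1, h2⟩ ⟨_, h3, h4⟩
    exact hne (Prod.ext (W_uniq h1 h3) (W_uniq h2 h4))
  · intro p
    exact Arc_meas0 hpmp hΦ hA (i, p)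

end meas

/-- joined by `t` and the arcs -/
abbrev J (t : Γ) (Φ : ℕ → Γ × Set X) (A : Set X) : X → X → Prop :=
  Relation.EqvGen (ArcStep t (Arc Φ A))

theorem J_root (t : Γ) {y z : X} (h : Relation.EqvGen (Crest.Dynamics.GraphingStep Φ) y z) :
    ((∃ v, y ∈ V Φ A v) ↔ (∃ v, z ∈ V Φ A v)) ∧
      ∀ v v', y ∈ W Φ A v → z ∈ W Φ A v' → J t Φ A (val Φ v • y) (val Φ v' • z) := by
  induction h with
  | rel y z h =>
    obtain ⟨i, hy, rfl⟩ := h
    constructor
    · constructor
      · rintro ⟨v, hv⟩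
        exact ⟨(i, false) :: v, by simpa [dom, V] using hy, by simpa [gam] using hv⟩
      · rintro ⟨v, hv⟩
        exact ⟨(i, true) :: v, by simpa [dom, V] using hy, by simpa [gam] using hv⟩
    · intro v v' hv hv'
      by_cases h1 : y ∈ U Φ A i true
      · simp only [U, if_true, H, Set.mem_iUnion] at h1
        obtain ⟨w, hw⟩ := h1
        obtain rfl := W_uniq hv hw
        have h2 := (tail hw).2
        simp only [gam, if_true] at h2
        obtain rfl := W_uniq h2 hv'
        have : val Φ ((i, true) :: w) • y = val Φ w • (Φ i).1 • y := by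
          simp [val, gam, mul_smul]
        rw [this]
        exact Relation.EqvGen.refl _
      · by_cases h2 : y ∈ U Φ A i false
        · simp only [U, Bool.false_eq_true, if_false, H, Set.mem_iUnion, Set.mem_ofPred_eq] at h2
          obtain ⟨w, hw⟩ := h2
          obtain rfl := W_uniq hv' hw
          have h2 := (tail hw).2
          simp only [gam, Bool.false_eq_true, if_false, inv_smul_smul] at h2
          obtain rfl := W_uniq h2 hv
          have : val Φ ((i, false) :: w) • (Φ i).1 • y = val Φ w • y := by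
            simp [val, gam, mul_smul]
          rw [this]
          exact Relation.EqvGen.refl _
        · refine Relation.EqvGen.rel _ _ (Or.inr ⟨(i, v, v'), ?_, ?_⟩)
          · simp only [Arc, Set.mem_ofPred_eq, inv_smul_smul]
            exact ⟨⟨hy, by simp [h1, h2]⟩, hv, hv'⟩
          · simp [Arc, mul_smul]
  | refl y =>
    refine ⟨Iff.rfl, fun v v' hv hv' => ?_⟩
    rw [W_uniq hv hv']
    exact Relation.EqvGen.refl _
  | symm y z _ ih =>
    exact ⟨ih.1.symm, fun v v' hv hv' => (ih.2 v' v hv' hv).symm⟩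
  | trans y z w _ _ ih ih' =>
    refine ⟨ih.1.trans ih'.1, fun v v' hv hv' => ?_⟩
    obtain ⟨u, hu⟩ := ih.1.1 ⟨v, hv.1⟩
    obtain ⟨u', hu'⟩ := exists_W hu
    exact (ih.2 v u' hv hu').trans _ _ _ (ih'.2 u' v' hu' hv')

theorem J_nat (t : Γ) (x : X) (n : ℕ) : J t Φ A x (t ^ n • x) := by
  induction n with
  | zero => simpa using Relation.EqvGen.refl x
  | succ n ih =>
    refine ih.trans _ _ _ (Relation.EqvGen.rel _ _ (Or.inl ?_))
    rw [smul_smul, pow_succ']

theorem J_zpow (t : Γ) (x : X) (n : ℤ) : J t Φ A x (t ^ n • x) := by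
  cases n with
  | ofNat n => simpa using J_nat t x n
  | negSucc n =>
    have := J_nat (Φ := Φ) (A := A) t (t ^ (Int.negSucc n) • x) (n + 1)
    rw [smul_smul, zpow_negSucc, mul_inv_cancel, one_smul] at this
    rw [zpow_negSucc]
    exact this.symm

end Crest.Agent.R191.SlideAux
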