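import Crest.Agent.R191.Defs

/-!
# R191 piece TRUNC, auxiliary lemmas
-/

set_option autoImplicit false
set_option linter.unusedSectionVars false
set_option linter.unusedVariables false

namespace Crest.Agent.R191.TruncAux

open MeasureTheory
open scoped ENNReal

variable {Γ X K : Type} [Group Γ] [MulAction Γ X] [MeasurableSpace X]

/-- group element of a letter -/
def gam0 (t : Γ) (Ψ : K → Γ × Set X) : Option K → Γ
  | none => t
  | some k => (Ψ k).1

/-- domain of a letter -/
def dom0 (Ψ : K → Γ × Set X) : Option K → Set X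
  | none => Set.univ
  | some k => (Ψ k).2

/-- group element of a signed letter -/
def gam (t : Γ) (Ψ : K → Γ × Set X) (e : Option K × Bool) : Γ :=
  if e.2 = true then gam0 t Ψ e.1 else (gam0 t Ψ e.1)⁻¹

/-- domain of a signed letter -/
def dom (t : Γ) (Ψ : K → Γ × Set X) (e : Option K × Bool) : Set X :=
  if e.2 = true then dom0 Ψ e.1 else {x | (gam0 t Ψ e.1)⁻¹ • x ∈ dom0 Ψ e.1}

/-- value of a path -/
def val (t : Γ) (Ψ : K → Γ × Set X) : List (Option K × Bool) → Γ
  | [] => 1
  | e :: w => val t Ψ w * gam t Ψ e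

/-- domain of a path -/
def V (t : Γ) (Ψ : K → Γ × Set X) : List (Option K × Bool) → Set X
  | [] => Set.univ
  | e :: w => {x | x ∈ dom t Ψ e ∧ gam t Ψ e • x ∈ V t Ψ w}

theorem step_iff (t : Γ) (Ψ : K → Γ × Set X) (x y : X) :
    ArcStep t Ψ x y ↔ ∃ k, x ∈ dom0 Ψ k ∧ y = gam0 t Ψ k • x := by
  constructor
  · rintro (h | ⟨k, h, h'⟩)
    · exact ⟨none, trivial, h⟩
    · exact ⟨some k, h, h'⟩
  · rintro ⟨k, h, h'⟩
    cases k with
    | none => exact Or.inl h'
    | some k => exact Or.inr ⟨k, h, h'⟩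

theorem eqv_iff (t : Γ) (Ψ : K → Γ × Set X) (x y : X) :
    Relation.EqvGen (ArcStep t Ψ) x y ↔ ∃ w, x ∈ V t Ψ w ∧ y = val t Ψ w • x := by
  constructor
  · intro h
    rw [← Relation.EqvGen.reflTransGen_symmGen] at h
    induction h using Relation.ReflTransGen.head_induction_on with
    | refl => exact ⟨[], trivial, by simp [val]⟩
    | head h _ ih =>
      rename_i a b
      obtain ⟨w, hw, hw'⟩ := ih
      rcases h with h | h
      · obtain ⟨k, hk, rfl⟩ := (step_iff _ _ _ _).1 h
        exact ⟨(k, true) :: w, ⟨by simpa [dom] using hk, by simpa [gam] using hw⟩,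
          by rw [hw']; simp [val, gam, mul_smul]⟩
      · obtain ⟨k, hk, rfl⟩ := (step_iff _ _ _ _).1 h
        exact ⟨(k, false) :: w, ⟨by simpa [dom] using hk, by simpa [gam] using hw⟩,
          by rw [hw']; simp [val, gam, mul_smul]⟩
  · rintro ⟨w, hw, rfl⟩
    induction w generalizing x with
    | nil => simpa [val] using Relation.EqvGen.refl x
    | cons e w ih =>
      obtain ⟨h1, h2⟩ := hw
      have h3 := ih _ h2
      rw [val, mul_smul]
      refine Relation.EqvGen.trans _ _ _ ?_ h3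
      obtain ⟨k, b⟩ := e
      cases b with
      | true =>
        refine Relation.EqvGen.rel _ _ ((step_iff _ _ _ _).2 ⟨k, ?_, ?_⟩)
        · simpa [dom] using h1
        · simp [gam]
      | false =>
        refine Relation.EqvGen.symm _ _ (Relation.EqvGen.rel _ _ ((step_iff _ _ _ _).2 ⟨k, ?_, ?_⟩))
        · simpa [dom, gam] using h1
        · simp [gam]

theorem V_meas {μ : Measure X} (hpmp : ∀ γ : Γ, MeasurePreserving (fun x : X => γ • x) μ μ)
    (t : Γ) (Ψ : K → Γ × Set X) (hΨ : ∀ k, MeasurableSet (Ψ k).2) (w : List (Option K × Bool)) :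
    MeasurableSet (V t Ψ w) := by
  induction w with
  | nil => exact MeasurableSet.univ
  | cons e w ih =>
    refine MeasurableSet.inter ?_ ((hpmp _).measurable ih)
    have h0 : ∀ k, MeasurableSet (dom0 Ψ k) := by
      intro k
      cases k with
      | none => exact MeasurableSet.univ
      | some k => exact hΨ k
    change MeasurableSet (dom t Ψ e)
    unfold dom
    split_ifs
    · exact h0 _
    · exact (hpmp _).measurable (h0 _)

theorem eqv_meas [Countable K] [StandardBorelSpace X] {μ : Measure X}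
    (hpmp : ∀ γ : Γ, MeasurePreserving (fun x : X => γ • x) μ μ)
    (t : Γ) (Ψ : K → Γ × Set X) (hΨ : ∀ k, MeasurableSet (Ψ k).2) (γ : Γ) :
    MeasurableSet {x | Relation.EqvGen (ArcStep t Ψ) x (γ • x)} := by
  have : {x | Relation.EqvGen (ArcStep t Ψ) x (γ • x)} =
      ⋃ w, V t Ψ w ∩ {x | γ • x = val t Ψ w • x} := by
    ext x
    simp [eqv_iff]
  rw [this]
  refine MeasurableSet.iUnion fun w => (V_meas hpmp t Ψ hΨ w).inter ?_
  exact measurableSet_eq_fun (hpmp _).measurable (hpmp _).measurable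

/-- the first `N` arcs -/
def first (Ψ : ℕ → Γ × Set X) (N : ℕ) : Fin N → Γ × Set X := fun i => Ψ i

theorem first_mono (t : Γ) (Ψ : ℕ → Γ × Set X) {N M : ℕ} (h : N ≤ M) (x y : X)
    (hxy : Relation.EqvGen (ArcStep t (first Ψ N)) x y) :
    Relation.EqvGen (ArcStep t (first Ψ M)) x y := by
  refine Relation.EqvGen.mono (fun a b hab => ?_) _ _ hxy
  rcases hab with h1 | ⟨k, h1, h2⟩
  · exact Or.inl h1
  · exact Or.inr ⟨⟨k, k.2.trans_le h⟩, h1, h2⟩

theorem exists_first (t : Γ) (Ψ : ℕ → Γ × Set X) (x y : X)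
    (h : Relation.EqvGen (ArcStep t Ψ) x y) :
    ∃ N, Relation.EqvGen (ArcStep t (first Ψ N)) x y := by
  induction h with
  | rel x y h =>
    rcases h with h1 | ⟨k, h1, h2⟩
    · exact ⟨0, Relation.EqvGen.rel _ _ (Or.inl h1)⟩
    · exact ⟨k + 1, Relation.EqvGen.rel _ _ (Or.inr ⟨⟨k, k.lt_succ_self⟩, h1, h2⟩)⟩
  | refl x => exact ⟨0, Relation.EqvGen.refl _⟩
  | symm x y _ ih =>
    obtain ⟨N, h⟩ := ih
    exact ⟨N, h.symm⟩
  | trans x y z _ _ ih ih' =>
    obtain ⟨N, h⟩ := ih
    obtain ⟨M, h'⟩ := ih'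
    exact ⟨max N M, (first_mono t Ψ (le_max_left _ _) _ _ h).trans _ _ _
      (first_mono t Ψ (le_max_right _ _) _ _ h')⟩

end Crest.Agent.R191.TruncAux
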