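import Crest.Agent.R191.Defs
import Crest.Agent.R191.SlideAux
import Crest.Agent.R191.TruncAux

/-!
# R191 pieces SLIDE, TRUNC
-/

set_option autoImplicit false
set_option linter.unusedSectionVars false

namespace Crest.Agent.R191

open MeasureTheory
open scoped ENNReal

variable {Γ X : Type} [Group Γ] [Countable Γ] [MulAction Γ X] [MeasurableSpace X]
  [StandardBorelSpace X]

/-- SLIDE.  A generating graphing of cost `< 1 + c` can be replaced by `t` (everywhere) and arcs of
total measure `< c`.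

Proof.  (If `c = 0` the same computation gives a contradiction.)
Take a marker set `A` with `cost(Φ) + μ(A) < 1 + c`.  Work on the conull invariant set where
everything generates and every `⟨t⟩`-orbit meets `A`.  Signed steps: `(i, true)` from `y` to `g_i • y` if
`y ∈ A_i`, `(i, false)` from `y` to `g_i⁻¹ • y` if `g_i⁻¹ • y ∈ A_i`.  Let `d(y)` be the least number of
signed steps from `y` to a point of `A` (finite: `y` is joined to its whole orbit, which
meets `A`).  For `y ∉ A` let `par(y)` be the first signed step (in an enumeration) leading to a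
point with smaller `d`; it uses the pair `(i, x')`, `x' ∈ A_i` (`x' = y` or `x' = g_i⁻¹ y`).  Distinct `y ∉ A`
use distinct pairs `(i, x')` (`d` decreases), so the set of used pairs has total measure
`1 - μ(A)` (transport), the set `A_i' ⊆ A_i` of non-used pairs has total measure
`cost(Φ) - (1 - μ(A)) < c`.  Let `ρ : X → Γ` measurable, `ρ(y) • y ∈ A` the end of the parent path.
For a non-used pair `(i, x')` put an arc from `ρ(x') • x'` to `ρ(g_i x') g_i • x'`: on
`{x' ∈ A_i' | ρ(x') = σ, ρ(g_i x') = τ}` moved by `σ`, group element `τ g_i σ⁻¹`; countably many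
arcs (reindex by `ℕ`), total measure the same.
Generation: two points joined by a used pair have the same root; by a non-used pair have
roots joined by an arc.  So all roots in an orbit are connected by arcs; and every point is
joined by `t` steps to a point of `A`, which is its own root (`ρ = 1` on `A`). -/
theorem slide (μ : Measure X) [IsProbabilityMeasure μ]
    (hpmp : ∀ γ : Γ, MeasurePreserving (fun x : X => γ • x) μ μ) (t : Γ)
    (Φ : ℕ → Γ × Set X) (hgen : Crest.Dynamics.Generates μ Φ) (c : ℝ≥0∞)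
    (hcost : Crest.Dynamics.graphingCost μ Φ < 1 + c)
    (hmark : ∀ ε : ℝ≥0∞, 0 < ε → ∃ A : Set X, MeasurableSet A ∧ μ A ≤ ε ∧
      ∀ᵐ x ∂μ, ∃ n : ℤ, t ^ n • x ∈ A) :
    ∃ Ψ : ℕ → Γ × Set X, (∀ i, MeasurableSet (Ψ i).2) ∧ ∑' i, μ (Ψ i).2 < c ∧
      ∀ᵐ x ∂μ, ∀ γ : Γ, Relation.EqvGen (ArcStep t Ψ) x (γ • x) := by
  classical
  obtain ⟨hΦ, N, hN, hgenN⟩ := hgen
  obtain ⟨r, hr, hr2⟩ := ENNReal.lt_iff_exists_add_pos_lt.1 hcost
  obtain ⟨A, hA, hAr, hAt⟩ := hmark r (by exact_mod_cast hr)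
  -- the conull invariant set
  have hN' : ∀ᵐ x ∂μ, x ∉ N := by
    rw [ae_iff]
    simpa using hN
  have hinv : ∀ᵐ x ∂μ, ∀ γ : Γ, (γ • x ∉ N ∧ ∃ n : ℤ, t ^ n • (γ • x) ∈ A) := by
    rw [ae_all_iff]
    intro γ
    exact (hpmp γ).quasiMeasurePreserving.ae (hN'.and hAt)
  -- joined points
  have hjoin : ∀ x, (∀ γ : Γ, (γ • x ∉ N ∧ ∃ n : ℤ, t ^ n • (γ • x) ∈ A)) →
      ∀ γ : Γ, ∃ v, γ • x ∈ SlideAux.V Φ A v := by
    intro x hx γ
    obtain ⟨h1, n, hn⟩ := hx γ
    have h2 := hgenN _ h1 (t ^ n)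
    exact (SlideAux.J_root t h2).1.2 ⟨[], hn⟩
  -- accounting
  have hcover : (1 : ℝ≥0∞) ≤ μ A + ∑' e, μ (SlideAux.H Φ A e) := by
    have h1 : μ Set.univ ≤ μ (A ∪ ⋃ e, SlideAux.H Φ A e) := by
      refine measure_mono_ae ?_
      filter_upwards [hinv] with x hx _
      obtain ⟨v, hv⟩ := hjoin x hx 1
      rw [one_smul] at hv
      obtain ⟨w, hw⟩ := SlideAux.exists_W hv
      cases w with
      | nil => exact Or.inl hw.1
      | cons e w => exact Or.inr (Set.mem_iUnion.2 ⟨e, Set.mem_iUnion.2 ⟨w, hw⟩⟩)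
    rw [measure_univ] at h1
    exact h1.trans ((measure_union_le _ _).trans (by gcongr; exact measure_iUnion_le _))
  have hsum : ∑' i, μ (SlideAux.A' Φ A i) + ∑' e, μ (SlideAux.H Φ A e) =
      Crest.Dynamics.graphingCost μ Φ := by
    rw [Crest.Dynamics.graphingCost, ENNReal.tsum_prod', ← ENNReal.tsum_add]
    refine tsum_congr fun i => ?_
    rw [tsum_bool, ← SlideAux.A'_measure hpmp hΦ hA i, add_comm (μ (SlideAux.H Φ A (i, false)))]
  have hlt : ∑' i, μ (SlideAux.A' Φ A i) < c := by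
    have h1 : 1 + ∑' i, μ (SlideAux.A' Φ A i) < 1 + c := by
      calc 1 + ∑' i, μ (SlideAux.A' Φ A i)
          ≤ (μ A + ∑' e, μ (SlideAux.H Φ A e)) + ∑' i, μ (SlideAux.A' Φ A i) := by gcongr
        _ = (∑' i, μ (SlideAux.A' Φ A i) + ∑' e, μ (SlideAux.H Φ A e)) + μ A := by ring
        _ ≤ Crest.Dynamics.graphingCost μ Φ + r := by rw [hsum]; gcongr
        _ < 1 + c := hr2
    exact (ENNReal.add_lt_add_iff_left ENNReal.one_ne_top).1 h1
  -- reindexing
  obtain ⟨eqv⟩ : Nonempty (SlideAux.K ≃ ℕ) := by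
    have : Infinite SlideAux.K := inferInstance
    obtain ⟨hd⟩ := nonempty_denumerable SlideAux.K
    exact ⟨Denumerable.eqv _⟩
  refine ⟨fun n => SlideAux.Arc Φ A (eqv.symm n), fun i => SlideAux.Arc_meas hpmp hΦ hA _, ?_, ?_⟩
  · rw [eqv.symm.tsum_eq (fun k => μ (SlideAux.Arc Φ A k).2)]
    exact (SlideAux.Arc_sum hpmp hΦ hA).trans_lt hlt
  · have hmono : ∀ x y, SlideAux.J t Φ A x y →
        Relation.EqvGen (ArcStep t (fun n => SlideAux.Arc Φ A (eqv.symm n))) x y := by
      intro x y h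
      refine Relation.EqvGen.mono (fun a b hab => ?_) _ _ h
      rcases hab with h | ⟨k, hk, hk'⟩
      · exact Or.inl h
      · exact Or.inr ⟨eqv k, by simpa using hk, by simpa using hk'⟩
    filter_upwards [hinv] with x hx γ
    refine hmono _ _ ?_
    obtain ⟨n, hn⟩ := (hx 1).2
    obtain ⟨m, hm⟩ := (hx γ).2
    rw [one_smul] at hn
    have h1 : SlideAux.J t Φ A x (t ^ n • x) := SlideAux.J_zpow t x n
    have h2 : SlideAux.J t Φ A (γ • x) (t ^ m • γ • x) := SlideAux.J_zpow t _ m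
    have h3 : SlideAux.J t Φ A (t ^ n • x) (t ^ m • γ • x) := by
      have h4 := hgenN _ (hx (t ^ n)).1 (t ^ m * γ * (t ^ n)⁻¹)
      have h5 : (t ^ m * γ * (t ^ n)⁻¹) • t ^ n • x = t ^ m • γ • x := by
        rw [mul_smul, mul_smul, inv_smul_smul]
      rw [h5] at h4
      have h6 := (SlideAux.J_root (A := A) t h4).2 [] [] (SlideAux.W_nil hn) (SlideAux.W_nil hm)
      simpa [SlideAux.val] using h6
    exact (h1.trans _ _ _ h3).trans _ _ _ h2.symm

/-- TRUNC.  Finitely many arcs suffice: keep the first `N` arcs and add the arcs `(s_i, B)`, where `B`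
is the set of points `x` such that some `s_i • x` is not joined to `x` by `t` and the
first `N` arcs; `μ(B) → 0`. -/
theorem trunc (μ : Measure X) [IsProbabilityMeasure μ]
    (hpmp : ∀ γ : Γ, MeasurePreserving (fun x : X => γ • x) μ μ) (t : Γ) {r : ℕ}
    (s : Fin r → Γ) (hs : Subgroup.closure (Set.range s ∪ {t}) = ⊤)
    (Ψ : ℕ → Γ × Set X) (hΨ : ∀ i, MeasurableSet (Ψ i).2) (c : ℝ≥0∞)
    (hc : ∑' i, μ (Ψ i).2 < c)
    (hgen : ∀ᵐ x ∂μ, ∀ γ : Γ, Relation.EqvGen (ArcStep t Ψ) x (γ • x)) :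
    ∃ (N : ℕ) (Ψ' : Fin N → Γ × Set X), (∀ i, MeasurableSet (Ψ' i).2) ∧
      ∑ i, μ (Ψ' i).2 < c ∧
      ∀ᵐ x ∂μ, ∀ γ : Γ, Relation.EqvGen (ArcStep t Ψ') x (γ • x) := by
  classical
  -- the bad sets
  let B : ℕ → Fin r → Set X := fun N i =>
    {x | Relation.EqvGen (ArcStep t (TruncAux.first Ψ N)) x (s i • x)}ᶜ
  have hBm : ∀ N i, MeasurableSet (B N i) := fun N i =>
    (TruncAux.eqv_meas hpmp t _ (fun k => hΨ _) (s i)).compl
  have hBlim : ∀ i, Filter.Tendsto (fun N => μ (B N i)) Filter.atTop (nhds 0) := by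
    intro i
    have h0 : μ (⋂ N, B N i) = 0 := by
      have : ∀ᵐ x ∂μ, x ∉ ⋂ N, B N i := by
        filter_upwards [hgen] with x hx hmem
        obtain ⟨N, hN⟩ := TruncAux.exists_first t Ψ x _ (hx (s i))
        exact (Set.mem_iInter.1 hmem N) hN
      exact measure_eq_zero_iff_ae_notMem.2 this
    rw [← h0]
    refine tendsto_measure_iInter_atTop (fun N => (hBm N i).nullMeasurableSet) ?_
      ⟨0, measure_ne_top _ _⟩
    intro N M hNM x hx hx'
    exact hx (TruncAux.first_mono t Ψ hNM _ _ hx')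
  have hsum : Filter.Tendsto (fun N => ∑ i, μ (B N i)) Filter.atTop (nhds 0) := by
    have := tendsto_finsetSum (Finset.univ : Finset (Fin r)) (fun i _ => hBlim i)
    simpa using this
  obtain ⟨ε, hε, hε2⟩ := ENNReal.lt_iff_exists_add_pos_lt.1 hc
  obtain ⟨N, hN⟩ := ((ENNReal.tendsto_nhds_zero.1 hsum) ε (by exact_mod_cast hε)).exists
  let Ψ' : Fin (N + r) → Γ × Set X :=
    Fin.addCases (fun i => TruncAux.first Ψ N i) (fun i => (s i, B N i))
  refine ⟨N + r, Ψ', ?_, ?_, ?_⟩
  · intro i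
    refine Fin.addCases (fun i => ?_) (fun i => ?_) i
    · simpa [Ψ', TruncAux.first] using hΨ i
    · simpa [Ψ'] using hBm N i
  · rw [Fin.sum_univ_add]
    have h1 : ∑ i : Fin N, μ (Ψ' (Fin.castAdd r i)).2 ≤ ∑' i, μ (Ψ i).2 := by
      simp only [Ψ', Fin.addCases_left]
      have h2 : ∑ i : Fin N, μ (TruncAux.first Ψ N i).2 = ∑ i ∈ Finset.range N, μ (Ψ i).2 := by
        rw [Finset.sum_range]
        rfl
      rw [h2]
      exact ENNReal.sum_le_tsum _
    have h2 : ∑ i : Fin r, μ (Ψ' (Fin.natAdd N i)).2 ≤ ε := by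
      simpa only [Ψ', Fin.addCases_right] using hN
    exact (add_le_add h1 h2).trans_lt hε2
  · refine Filter.Eventually.of_forall fun x γ => ?_
    have hmem : γ ∈ Subgroup.closure (Set.range s ∪ {t}) := by rw [hs]; trivial
    induction hmem using Subgroup.closure_induction generalizing x with
    | mem g hg =>
      rcases hg with ⟨i, rfl⟩ | hg
      · by_cases hx : x ∈ B N i
        · refine Relation.EqvGen.rel _ _ (Or.inr ⟨Fin.natAdd N i, ?_, ?_⟩)
          · simpa [Ψ'] using hx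
          · simp [Ψ']
        · have hx' : Relation.EqvGen (ArcStep t (TruncAux.first Ψ N)) x (s i • x) := by
            simpa [B] using hx
          refine Relation.EqvGen.mono (fun a b hab => ?_) _ _ hx'
          rcases hab with h1 | ⟨k, h1, h2⟩
          · exact Or.inl h1
          · exact Or.inr ⟨Fin.castAdd r k, by simpa [Ψ'] using h1, by simpa [Ψ'] using h2⟩
      · rw [Set.mem_singleton_iff] at hg
        rw [hg]
        exact Relation.EqvGen.rel _ _ (Or.inl rfl)
    | one => simpa using Relation.EqvGen.refl x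
    | mul a b _ _ iha ihb =>
      rw [mul_smul]
      exact (ihb x).trans _ _ _ (iha (b • x))
    | inv a _ ih =>
      have := ih (a⁻¹ • x)
      rw [smul_inv_smul] at this
      exact this.symm

end Crest.Agent.R191
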