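import Crest.Agent.R191.Defs

/-!
# R191 piece WORDS: the words `C_i` from a finite field

`g` prime, `K = GaloisField g 4` (`Fact g.Prime`), `ω` a generator of `Kˣ` (cyclic of order
`g^4 - 1`), `λ : K → ZMod g` linear, nonzero (e.g. a coordinate / trace).  `u(n) = λ(ω^n)`.
`K = 𝔽_g[ω]`, so `1, ω, ω², ω³` is a basis of `K` (the degree of `ω` over `𝔽_g` is `4` since
`𝔽_g(ω) = K`), and `y ↦ (λ(y), λ(ω y), λ(ω² y), λ(ω³ y))` is injective `K → 𝔽_g^4`: if all four vanish
then `λ(z y) = 0` for all `z ∈ K`, so `y = 0`.  Hence the windows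
`(u(n), …, u(n+3))`, `n < g^4 - 1`, are distinct.
Put `ℓ₀ = ℓ - 2`, `c i p = i` if `p = 0` or `p ≥ ℓ - 1`, and `c i p = u(i ℓ₀ + (p - 1))` for
`1 ≤ p ≤ ℓ - 2` (identify `ZMod g ≃ Fin g`).  An inner window of `c i` at `p` (`1 ≤ p`, `p + 5 ≤ ℓ`,
so `p + 3 ≤ ℓ - 2`) is the window of `u` at `i ℓ₀ + (p-1) < g ℓ₀ ≤ g^4 - 1`.
-/

set_option autoImplicit false

namespace Crest.Agent.R191

/-- an injective window sequence -/
theorem exists_window_seq (g : ℕ) [Fact g.Prime] :
    ∃ u : ℕ → Fin g, ∀ n m, n < g ^ 4 - 1 → m < g ^ 4 - 1 →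
      (∀ r, r < 4 → u (n + r) = u (m + r)) → n = m := by
  classical
  set K := GaloisField g 4 with hK
  have : Fintype K := Fintype.ofFinite K
  obtain ⟨w, hw⟩ := IsCyclic.exists_generator (α := Kˣ)
  have hcard : Fintype.card K = g ^ 4 := by
    rw [← Nat.card_eq_fintype_card, GaloisField.card g 4 (by norm_num)]
  have hord : orderOf w = g ^ 4 - 1 := by
    rw [orderOf_eq_card_of_forall_mem_zpowers hw, Nat.card_eq_fintype_card, Fintype.card_units,
      hcard]
  set ω : K := (w : K) with hω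
  -- a functional not vanishing at 1
  obtain ⟨φ, hφ⟩ : ∃ φ : Module.Dual (ZMod g) K, φ 1 ≠ 0 := by
    by_contra hcon
    push Not at hcon
    exact one_ne_zero ((Module.forall_dual_apply_eq_zero_iff (ZMod g) (1 : K)).mp hcon)
  have hint : IsIntegral (ZMod g) ω := Algebra.IsIntegral.isIntegral ω
  have hdeg : (minpoly (ZMod g) ω).natDegree ≤ 4 := by
    have h1 := minpoly.natDegree_le (A := ZMod g) ω
    rwa [GaloisField.finrank g (by norm_num)] at h1
  have hmonic := minpoly.monic hint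
  -- every element is a polynomial of degree < 4 in ω
  have hspan : ∀ z : K, ∃ c : ℕ → ZMod g, z = ∑ i ∈ Finset.range 4, c i • ω ^ i := by
    intro z
    by_cases hz : z = 0
    · exact ⟨fun _ => 0, by simp [hz]⟩
    · obtain ⟨k, hk⟩ := (Submonoid.mem_powers_iff _ _).mp
        ((mem_powers_iff_mem_zpowers).mpr (hw (Units.mk0 z hz)))
      have hzk : z = ω ^ k := by
        have := congrArg (Units.val) hk
        rw [Units.val_pow_eq_pow_val] at this
        exact this.symm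
      set p : Polynomial (ZMod g) := Polynomial.X ^ k %ₘ minpoly (ZMod g) ω with hp
      refine ⟨fun i => p.coeff i, ?_⟩
      have h1 : Polynomial.aeval ω p = ω ^ k := by
        rw [hp, Polynomial.aeval_modByMonic_eq_self_of_root (minpoly.aeval _ _)]
        simp
      have hpd : p.natDegree < 4 := by
        by_cases hm : minpoly (ZMod g) ω = 1
        · exfalso
          have := minpoly.aeval (ZMod g) ω
          rw [hm] at this
          simp at this
        · have := Polynomial.natDegree_modByMonic_lt (Polynomial.X ^ k) hmonic hm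
          exact lt_of_lt_of_le this hdeg
      rw [hzk, ← h1, Polynomial.aeval_eq_sum_range' hpd]
  have hinj : ∀ y : K, (∀ r, r < 4 → φ (ω ^ r * y) = 0) → y = 0 := by
    intro y hy
    by_contra hne
    obtain ⟨c, hc⟩ := hspan y⁻¹
    apply hφ
    have h1 : (1 : K) = y⁻¹ * y := (inv_mul_cancel₀ hne).symm
    rw [h1, hc, Finset.sum_mul, map_sum]
    refine Finset.sum_eq_zero fun i hi => ?_
    rw [smul_mul_assoc, map_smul, hy i (Finset.mem_range.mp hi), smul_zero]
  refine ⟨fun n => (ZMod.finEquiv g).symm (φ (ω ^ n)), ?_⟩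
  intro n m hn hm h
  have h1 : ω ^ n - ω ^ m = 0 := by
    apply hinj
    intro r hr
    have h2 := (ZMod.finEquiv g).symm.injective (h r hr)
    rw [mul_sub, map_sub, ← pow_add, ← pow_add, add_comm r n, add_comm r m, h2, sub_self]
  have h2 : w ^ n = w ^ m := by
    apply Units.ext
    rw [Units.val_pow_eq_pow_val, Units.val_pow_eq_pow_val]
    exact sub_eq_zero.mp h1
  exact pow_injOn_Iio_orderOf (by rw [Set.mem_Iio, hord]; exact hn)
    (by rw [Set.mem_Iio, hord]; exact hm) h2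

theorem exists_cwords (g ℓ : ℕ) (hg : g.Prime) (hℓ : 1000 ≤ ℓ) (h : g * (ℓ - 2) ≤ g ^ 4 - 1) :
    ∃ c : Fin g → ℕ → Fin g, CWords c ℓ := by
  classical
  have : Fact g.Prime := ⟨hg⟩
  obtain ⟨u, hu⟩ := exists_window_seq g
  refine ⟨fun i p => if p = 0 ∨ ℓ - 1 ≤ p then i else u (i * (ℓ - 2) + (p - 1)), hℓ, ?_, ?_, ?_⟩
  · intro i; simp
  · intro i; simp
  · intro i j p q hp1 hp5 hq1 hq5 hr
    have key : ∀ r, r < 4 → u (i * (ℓ - 2) + (p - 1) + r) = u (j * (ℓ - 2) + (q - 1) + r) := by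
      intro r hr4
      have h1 := hr r hr4
      rw [if_neg (by omega), if_neg (by omega)] at h1
      have e1 : (i : ℕ) * (ℓ - 2) + (p - 1) + r = i * (ℓ - 2) + (p + r - 1) := by omega
      have e2 : (j : ℕ) * (ℓ - 2) + (q - 1) + r = j * (ℓ - 2) + (q + r - 1) := by omega
      rw [e1, e2]
      exact h1
    have hlt : ∀ (i : Fin g) (p : ℕ), 1 ≤ p → p + 5 ≤ ℓ → i * (ℓ - 2) + (p - 1) < g ^ 4 - 1 := by
      intro i p hp1 hp5
      have h1 : (i : ℕ) + 1 ≤ g := i.2
      have h2 : ((i : ℕ) + 1) * (ℓ - 2) ≤ g * (ℓ - 2) := Nat.mul_le_mul_right _ h1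
      have h3 : ((i : ℕ) + 1) * (ℓ - 2) = i * (ℓ - 2) + (ℓ - 2) := by ring
      omega
    have heq := hu _ _ (hlt i p hp1 hp5) (hlt j q hq1 hq5) key
    have hpos : 0 < ℓ - 2 := by omega
    have hp : p - 1 < ℓ - 2 := by omega
    have hq : q - 1 < ℓ - 2 := by omega
    have h1 : (i : ℕ) = j := by
      have e1 : ((i : ℕ) * (ℓ - 2) + (p - 1)) / (ℓ - 2) = i := by
        rw [mul_comm, Nat.mul_add_div hpos, Nat.div_eq_of_lt hp, add_zero]
      have e2 : ((j : ℕ) * (ℓ - 2) + (q - 1)) / (ℓ - 2) = j := by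
        rw [mul_comm, Nat.mul_add_div hpos, Nat.div_eq_of_lt hq, add_zero]
      rw [← e1, ← e2, heq]
    refine ⟨Fin.ext h1, ?_⟩
    rw [h1] at heq
    omega

end Crest.Agent.R191
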