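import Crest.Agent.R191.Near
import Crest.Agent.R191.Init
import Crest.Agent.R191.Slide
import Crest.Agent.R191.Bern
import Crest.Agent.R191.Cheap
import Crest.Agent.R191.Britton
import Crest.Agent.R191.Words

/-!
# R191: building the environment (helper49)
-/

set_option autoImplicit false

namespace Crest.Agent.R191

open MeasureTheory
open scoped ENNReal

/-- RESTR: a conull set contains a conull invariant Borel set. -/
theorem exists_invariant {Γ X : Type} [Group Γ] [Countable Γ] [MulAction Γ X]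
    [MeasurableSpace X] (μ : Measure X)
    (hpmp : ∀ γ : Γ, MeasurePreserving (fun x : X => γ • x) μ μ) {p : X → Prop}
    (hp : ∀ᵐ x ∂μ, p x) :
    ∃ X₀ : Set X, MeasurableSet X₀ ∧ μ X₀ᶜ = 0 ∧ (∀ x ∈ X₀, ∀ γ : Γ, γ • x ∈ X₀) ∧
      ∀ x ∈ X₀, p x := by
  have h0 : μ (toMeasurable μ {x | ¬ p x}) = 0 := by
    rw [measure_toMeasurable]; exact hp
  have hNm : MeasurableSet (toMeasurable μ {x | ¬ p x}) := measurableSet_toMeasurable _ _
  refine ⟨⋂ γ : Γ, (fun x : X => γ • x) ⁻¹' (toMeasurable μ {x | ¬ p x})ᶜ,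
    MeasurableSet.iInter fun γ => (hpmp γ).measurable hNm.compl, ?_, ?_, ?_⟩
  · rw [Set.compl_iInter, measure_iUnion_null_iff]
    intro γ
    rw [← Set.preimage_compl, compl_compl, (hpmp γ).measure_preimage hNm.nullMeasurableSet, h0]
  · intro x hx γ
    rw [Set.mem_iInter] at hx ⊢
    intro γ'
    have := hx (γ' * γ)
    simpa only [Set.mem_preimage, mul_smul] using this
  · intro x hx
    rw [Set.mem_iInter] at hx
    have h1 := hx 1
    rw [Set.mem_preimage, one_smul] at h1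
    by_contra hn
    exact h1 (subset_toMeasurable μ _ hn)

/-- every group element is the value of a nonempty word -/
theorem exists_word {Γ : Type} [Group Γ] {g : ℕ} (val : Lab g → Γ)
    (hcl : Subgroup.closure (Set.range val) = ⊤) (γ : Γ) :
    ∃ w : List (Lab g × Bool), w ≠ [] ∧ wval val w = γ := by
  have h1 : γ ∈ (FreeGroup.lift val).range := by
    rw [FreeGroup.range_lift_eq_closure, hcl]; trivial
  obtain ⟨f, rfl⟩ := h1
  refine ⟨(none, true) :: (none, false) :: f.toWord, by simp, ?_⟩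
  rw [wval_mk]
  have h2 : FreeGroup.mk (((none : Lab g), true) :: (none, false) :: f.toWord) = f := by
    have h3 : FreeGroup.mk (((none : Lab g), true) :: (none, false) :: f.toWord) =
        FreeGroup.mk [((none : Lab g), true), (none, false)] * FreeGroup.mk f.toWord := by
      rw [FreeGroup.mul_mk]; rfl
    rw [h3, FreeGroup.mk_toWord]
    have h4 : FreeGroup.mk [((none : Lab g), true), (none, false)] = 1 := by
      rw [FreeGroup.one_eq_mk]
      exact Quot.sound (FreeGroup.Red.Step.not (L₁ := []) (L₂ := []))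
    rw [h4, one_mul]
  rw [h2]

/-- transfer of an orbit relation to an invariant subset -/
theorem eqvGen_restrict {Γ X : Type} [Group Γ] [MulAction Γ X] {X₀ : Set X}
    (hinv : ∀ x ∈ X₀, ∀ γ : Γ, γ • x ∈ X₀) {N : ℕ} (t : Γ) (Ψ : Fin N → Γ × Set X)
    {R : X₀ → X₀ → Prop} (hR1 : ∀ x y : X₀, y.1 = t • x.1 → Relation.EqvGen R x y)
    (hR2 : ∀ (x y : X₀) (k : Fin N), x.1 ∈ (Ψ k).2 → y.1 = (Ψ k).1 • x.1 → Relation.EqvGen R x y)
    {x y : X} (h : Relation.EqvGen (ArcStep t Ψ) x y) :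
    (x ∈ X₀ ↔ y ∈ X₀) ∧ ∀ (hx : x ∈ X₀) (hy : y ∈ X₀), Relation.EqvGen R ⟨x, hx⟩ ⟨y, hy⟩ := by
  have hback : ∀ (γ : Γ) (x : X), γ • x ∈ X₀ → x ∈ X₀ := by
    intro γ x hx
    have := hinv _ hx γ⁻¹
    rwa [inv_smul_smul] at this
  induction h with
  | rel x y h =>
    rcases h with rfl | ⟨k, hk, rfl⟩
    · exact ⟨⟨fun hx => hinv x hx t, hback t x⟩, fun hx hy => hR1 _ _ rfl⟩
    · exact ⟨⟨fun hx => hinv x hx _, hback _ x⟩, fun hx hy => hR2 _ _ k hk rfl⟩
  | refl x => exact ⟨Iff.rfl, fun _ _ => Relation.EqvGen.refl _⟩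
  | symm x y _ ih => exact ⟨ih.1.symm, fun hx hy => (ih.2 hy hx).symm⟩
  | trans x y z _ _ ih1 ih2 =>
    exact ⟨ih1.1.trans ih2.1, fun hx hz => (ih1.2 hx (ih1.1.1 hx)).trans _ _ _
      (ih2.2 (ih1.1.1 hx) hz)⟩

/-- ENVMK: build the environment on the invariant set and apply `init_good`, `no_good`. -/
theorem lower_core {Γ X : Type} [Group Γ] [Countable Γ] [MulAction Γ X] [MeasurableSpace X]
    [StandardBorelSpace X] (μ : Measure X) [IsProbabilityMeasure μ]
    (hact : Crest.Dynamics.IsFreePMPAction Γ X μ) {g : ℕ} (val : Lab g → Γ)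
    (hcl : Subgroup.closure (Set.range val) = ⊤)
    (c : Fin g → ℕ → Fin g) (ℓ : ℕ) (δ : ℝ) (i0 : Fin g) (cw : CWords c ℓ)
    (rel : ∀ i, wval val (seg c ℓ i 0 (ℓ + 3)) = 1) (sg : SG μ g (fun i => val (some i)))
    (dehn : ∀ w, Red w → wval val w = val (some i0) → w = [(some i0, true)] ∨
      ∃ i k, seg c ℓ i k (ℓ - 57) <:+: w ∨ winv (seg c ℓ i k (ℓ - 57)) <:+: w)
    (small : ∀ ε : ℝ, 0 < ε → ∃ (N : ℕ) (P : Fin N → Set X), (∀ j, MeasurableSet (P j)) ∧
      (⋃ j, P j) = Set.univ ∧ ∀ j, μ (P j) ≤ ENNReal.ofReal ε)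
    (δpos : 0 < δ) (num1 : 2000 * (2 * Real.sqrt g + 1) ^ 4 ≤ (ℓ : ℝ) - 68)
    (num2 : ((ℓ : ℝ) + 4) * δ * g ≤ 1) (num3 : 1000 * δ * g ≤ 1) (num4 : δ ≤ 1 / 100)
    (N : ℕ) (Ψ : Fin N → Γ × Set X) (hΨ : ∀ i, MeasurableSet (Ψ i).2)
    (hΨc : ∑ i, μ (Ψ i).2 < ENNReal.ofReal δ)
    (hgen : ∀ᵐ x ∂μ, ∀ γ : Γ, Relation.EqvGen (ArcStep (val none) Ψ) x (γ • x)) : False := by
  classical
  have hfree : ∀ᵐ x ∂μ, ∀ γ : Γ, γ ≠ 1 → γ • x ≠ x := by
    rw [ae_all_iff]
    intro γ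
    by_cases hγ : γ = 1
    · exact Filter.Eventually.of_forall fun x h => absurd hγ h
    · have h1 := hact.2 γ hγ
      have h2 : ∀ᵐ x ∂μ, γ • x ≠ x := by
        rw [ae_iff]
        simpa using h1
      filter_upwards [h2] with x hx _
      exact hx
  obtain ⟨X₀, hX₀m, hX₀c, hX₀inv, hX₀⟩ := exists_invariant μ hact.1 (hfree.and hgen)
  have hX₀1 : μ X₀ = 1 := by
    rw [← prob_compl_eq_zero_iff hX₀m]; exact hX₀c
  -- the action on the invariant set
  let act₀ : MulAction Γ X₀ :=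
    { smul := fun γ x => ⟨γ • x.1, hX₀inv x.1 x.2 γ⟩
      one_smul := fun x => Subtype.ext (one_smul Γ x.1)
      mul_smul := fun γ γ' x => Subtype.ext (mul_smul γ γ' x.1) }
  have hsm : ∀ (γ : Γ) (x : X₀), (γ • x).1 = γ • x.1 := fun _ _ => rfl
  have sb₀ : StandardBorelSpace X₀ := hX₀m.standardBorel
  let μ₀ : Measure X₀ := μ.comap Subtype.val
  have hμ₀ : ∀ s : Set X₀, μ₀ s = μ (Subtype.val '' s) := fun s =>
    comap_subtype_coe_apply hX₀m μ s
  have prob₀ : IsProbabilityMeasure μ₀ := ⟨by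
    rw [hμ₀, Set.image_univ, Subtype.range_coe, hX₀1]⟩
  have hmsm : ∀ γ : Γ, Measurable fun x : X₀ => γ • x := fun γ =>
    Measurable.subtype_mk ((hact.1 γ).measurable.comp measurable_subtype_coe)
  have pmp₀ : ∀ γ : Γ, MeasurePreserving (fun x : X₀ => γ • x) μ₀ μ₀ := by
    intro γ
    refine ⟨hmsm γ, ?_⟩
    ext s hs
    rw [Measure.map_apply (hmsm γ) hs, hμ₀, hμ₀]
    have h1 : (Subtype.val '' ((fun x : X₀ => γ • x) ⁻¹' s) : Set X) =
        (fun x : X => γ • x) ⁻¹' (Subtype.val '' s) := by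
      ext x
      constructor
      · rintro ⟨y, hy, rfl⟩
        exact ⟨γ • y, hy, rfl⟩
      · rintro ⟨y, hy, hyx⟩
        have hx : x ∈ X₀ := by
          have := hX₀inv y.1 y.2 γ⁻¹
          have h2 : y.1 = γ • x := hyx
          rwa [h2, inv_smul_smul] at this
        refine ⟨⟨x, hx⟩, ?_, rfl⟩
        have : γ • (⟨x, hx⟩ : X₀) = y := Subtype.ext hyx.symm
        rw [Set.mem_preimage, this]
        exact hy
    rw [h1, (hact.1 γ).measure_preimage
      (hX₀m.subtype_image hs).nullMeasurableSet]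
  have free₀ : ∀ (γ : Γ) (x : X₀), γ • x = x → γ = 1 := by
    intro γ x hx
    by_contra hne
    exact (hX₀ x.1 x.2).1 γ hne (congrArg Subtype.val hx)
  -- extension by zero
  have hext : ∀ u : X₀ → ℝ≥0∞, Measurable u →
      Measurable (fun x : X => if h : x ∈ X₀ then u ⟨x, h⟩ else 0) := by
    intro u hu
    exact Measurable.dite (f := u) (g := fun _ => (0 : ℝ≥0∞)) hu measurable_const hX₀m
  have hint : ∀ f : X → ℝ≥0∞, ∫⁻ x : X₀, f x.1 ∂μ₀ = ∫⁻ x, f x ∂μ := by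
    intro f
    rw [lintegral_subtype_comap hX₀m f]
    have h1 : μ.restrict X₀ = μ := Measure.restrict_eq_self_of_ae_mem (by
      rw [ae_iff]
      exact hX₀c)
    rw [h1]
  have sg₀ : SG μ₀ g (fun i => val (some i)) := by
    intro u v hu hv
    have h1 := sg _ _ (hext u hu) (hext v hv)
    have h2 : ∀ i : Fin g, ∫⁻ x : X₀, u x * v ((val (some i))⁻¹ • x) ∂μ₀ =
        ∫⁻ x, (if h : x ∈ X₀ then u ⟨x, h⟩ else 0) *
          (if h : (val (some i))⁻¹ • x ∈ X₀ then v ⟨(val (some i))⁻¹ • x, h⟩ else 0) ∂μ := by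
      intro i
      rw [← hint]
      refine lintegral_congr fun x => ?_
      have hx' : (val (some i))⁻¹ • x.1 ∈ X₀ := hX₀inv x.1 x.2 _
      rw [dif_pos x.2, dif_pos hx']
      rfl
    have h3 : ∀ w : X₀ → ℝ≥0∞, ∫⁻ x : X₀, w x ∂μ₀ =
        ∫⁻ x, (if h : x ∈ X₀ then w ⟨x, h⟩ else 0) ∂μ := by
      intro w
      rw [← hint]
      refine lintegral_congr fun x => ?_
      rw [dif_pos x.2]
    have h4 : ∀ w : X₀ → ℝ≥0∞, ∫⁻ x : X₀, w x ^ 2 ∂μ₀ =
        ∫⁻ x, (if h : x ∈ X₀ then w ⟨x, h⟩ else 0) ^ 2 ∂μ := by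
      intro w
      rw [← hint]
      refine lintegral_congr fun x => ?_
      rw [dif_pos x.2]
    rw [h3 u, h3 v, h4 u, h4 v]
    simp only [h2]
    exact h1
  -- words of the arcs
  choose wd hwd0 hwd using fun k : Fin N => exists_word val hcl ((Ψ k).1)⁻¹
  let e : Env :=
    { g := g, Γ := Γ, X := X₀, μ := μ₀, val := val, c := c, ℓ := ℓ, δ := δ, i0 := i0
      pmp := pmp₀, free := free₀, cw := cw, rel := rel, sg := sg₀, dehn := dehn
      small := by
        intro ε hε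
        obtain ⟨M, P, hP, hU, hs⟩ := small ε hε
        refine ⟨M, fun j => Subtype.val ⁻¹' P j, fun j => measurable_subtype_coe (hP j), ?_, ?_⟩
        · rw [← Set.preimage_iUnion, hU, Set.preimage_univ]
        · intro j
          rw [hμ₀]
          exact (measure_mono (Set.image_preimage_subset _ _)).trans (hs j)
      δpos := δpos, num1 := num1, num2 := num2, num3 := num3, num4 := num4 }
  refine no_good e (init_good e N wd hwd0 (fun k => Subtype.val ⁻¹' (Ψ k).2)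
    (fun k => measurable_subtype_coe (hΨ k)) ?_ ?_)
  · refine le_trans (Finset.sum_le_sum fun k _ => ?_) hΨc.le
    show μ₀ _ ≤ _
    rw [hμ₀]
    exact measure_mono (Set.image_preimage_subset _ _)
  · intro x γ
    have h1 := (hX₀ x.1 x.2).2 γ
    refine (eqvGen_restrict hX₀inv (val none) Ψ ?_ ?_ h1).2 x.2 (hX₀inv x.1 x.2 γ)
    · intro x y hxy
      refine Relation.EqvGen.symm _ _ (Relation.EqvGen.rel _ _ (Or.inl ?_))
      refine Subtype.ext ?_
      show x.1 = (val none)⁻¹ • y.1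
      rw [hxy, inv_smul_smul]
    · intro x y k hx hxy
      refine Relation.EqvGen.rel _ _ (Or.inr ⟨k, hx, ?_⟩)
      refine Subtype.ext ?_
      show y.1 = (wval val (wd k))⁻¹ • x.1
      rw [hwd k, inv_inv]
      exact hxy

/-- NUM: the numerical bound on `α`. -/
theorem num_alpha (α : ℝ) (_h0 : 0 < α)
    (h : Real.exp 96 * 96 ^ 99 * α ^ 3 / 95 ^ 95 < 1 / 2) : α ≤ 2e-17 := by
  by_contra hcon
  rw [not_le] at hcon
  have he : (2.7182818283 : ℝ) ^ 96 ≤ Real.exp 96 := by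
    have h1 : Real.exp 96 = (Real.exp 1) ^ 96 := by
      rw [← Real.exp_nat_mul]; norm_num
    rw [h1]
    exact pow_le_pow_left₀ (by norm_num) (Real.exp_one_gt_d9.le) 96
  have h3 : (2e-17 : ℝ) ^ 3 ≤ α ^ 3 := pow_le_pow_left₀ (by norm_num) hcon.le 3
  have h4 : (2.7182818283 : ℝ) ^ 96 * 96 ^ 99 * (2e-17) ^ 3 / 95 ^ 95 ≤
      Real.exp 96 * 96 ^ 99 * α ^ 3 / 95 ^ 95 := by
    gcongr
  have h5 : (1 : ℝ) / 2 ≤ (2.7182818283 : ℝ) ^ 96 * 96 ^ 99 * (2e-17) ^ 3 / 95 ^ 95 := by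
    norm_num
  linarith

/-- the prime `g` -/
theorem prime_g : Nat.Prime 40009 := by norm_num

end Crest.Agent.R191
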