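import Crest.Agent.R191.Rel
import Crest.Agent.R191.MT

/-!
# R191 piece MEAS: measurability
-/

set_option autoImplicit false

namespace Crest.Agent.R191

open MeasureTheory

/-- a field is measurable -/
def FMeas {L X S : Type} [MeasurableSpace X] (𝒢 : Fld L X S) : Prop :=
  ∀ a n m, MeasurableSet (𝒢.E a n m)

variable {L Γ X S : Type} [Group Γ] [MulAction Γ X] [MeasurableSpace X]
  [Countable S] {𝒢 : Fld L X S} {val : L → Γ}

namespace Measaux

omit [MeasurableSpace X] [Countable S] in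
theorem stp_pt {e : L × Bool} {u z : X × S} (h : Stp (𝒢.G val) e u z) :
    z.1 = (lval val e)⁻¹ • u.1 := by
  obtain ⟨a, b⟩ := e
  cases b with
  | true =>
    simp only [Stp, if_true] at h
    simp only [lval, if_true]
    exact h.1
  | false =>
    simp only [Stp, Bool.false_eq_true, if_false] at h
    simp only [lval, Bool.false_eq_true, if_false, inv_inv]
    rw [h.1, smul_inv_smul]

omit [Countable S] in
theorem meas_stp' (hm : ∀ γ : Γ, Measurable fun x : X => γ • x) (h𝒢 : FMeas 𝒢)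
    (e : L × Bool) (s n : S) :
    MeasurableSet {x | Stp (𝒢.G val) e (x, s) ((lval val e)⁻¹ • x, n)} := by
  obtain ⟨a, b⟩ := e
  cases b with
  | true =>
    have : {x : X | Stp (𝒢.G val) (a, true) (x, s) ((lval val (a, true))⁻¹ • x, n)} =
        𝒢.E a s n := by
      ext x
      simp [Stp, lval, Fld.G]
    rw [this]
    exact h𝒢 a s n
  | false =>
    have : {x : X | Stp (𝒢.G val) (a, false) (x, s) ((lval val (a, false))⁻¹ • x, n)} =
        (fun x : X => val a • x) ⁻¹' 𝒢.E a n s := by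
      ext x
      simp [Stp, lval, Fld.G]
    rw [this]
    exact hm _ (h𝒢 a n s)

theorem gen_rdW (hm : ∀ γ : Γ, Measurable fun x : X => γ • x) (h𝒢 : FMeas 𝒢)
    (w : List (L × Bool)) (W Z : S → Set X) (hW : ∀ s, MeasurableSet (W s))
    (hZ : ∀ s, MeasurableSet (Z s)) (s : S) :
    MeasurableSet {x | ∃ v, RdW (𝒢.G val) (fun u => u.1 ∈ W u.2) w (x, s) v ∧ v.1 ∈ Z v.2} := by
  induction w generalizing s with
  | nil =>
    have : {x | ∃ v, RdW (𝒢.G val) (fun u => u.1 ∈ W u.2) [] (x, s) v ∧ v.1 ∈ Z v.2} =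
        W s ∩ Z s := by
      ext x
      simp only [RdW, Set.mem_ofPred_eq, Set.mem_inter_iff]
      constructor
      · rintro ⟨v, ⟨rfl, h1⟩, h2⟩
        exact ⟨h1, h2⟩
      · rintro ⟨h1, h2⟩
        exact ⟨(x, s), ⟨rfl, h1⟩, h2⟩
    rw [this]
    exact (hW s).inter (hZ s)
  | cons e w ih =>
    have : {x | ∃ v, RdW (𝒢.G val) (fun u => u.1 ∈ W u.2) (e :: w) (x, s) v ∧ v.1 ∈ Z v.2} =
        W s ∩ ⋃ n, ({x | Stp (𝒢.G val) e (x, s) ((lval val e)⁻¹ • x, n)} ∩
          (fun x : X => (lval val e)⁻¹ • x) ⁻¹'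
            {x | ∃ v, RdW (𝒢.G val) (fun u => u.1 ∈ W u.2) w (x, n) v ∧ v.1 ∈ Z v.2}) := by
      ext x
      simp only [RdW, Set.mem_ofPred_eq, Set.mem_inter_iff, Set.mem_iUnion, Set.mem_preimage]
      constructor
      · rintro ⟨v, ⟨h1, z, h2, h3⟩, h4⟩
        obtain ⟨z1, n⟩ := z
        have h5 : z1 = (lval val e)⁻¹ • x := stp_pt h2
        subst h5
        exact ⟨h1, n, h2, v, h3, h4⟩
      · rintro ⟨h1, n, h2, v, h3, h4⟩
        exact ⟨v, ⟨h1, _, h2, h3⟩, h4⟩
    rw [this]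
    exact (hW s).inter (MeasurableSet.iUnion fun n =>
      (meas_stp' hm h𝒢 e s n).inter (hm _ (ih n)))

omit [MeasurableSpace X] [Countable S] in
theorem rdW_univ {w : List (L × Bool)} {u v : X × S} :
    RdW (𝒢.G val) (fun u => u.1 ∈ (fun _ : S => (Set.univ : Set X)) u.2) w u v ↔
      Rd (𝒢.G val) w u v := by
  induction w generalizing u with
  | nil => simp [RdW, Rd]
  | cons e w ih =>
    simp only [RdW, Rd, ih]
    simp

end Measaux

/-- reading `w` ends in a vertex with a (fibrewise measurable) property -/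
theorem meas_rd_prop (hm : ∀ γ : Γ, Measurable fun x : X => γ • x) (h𝒢 : FMeas 𝒢)
    (w : List (L × Bool)) (s : S) (W : S → Set X) (hW : ∀ s, MeasurableSet (W s)) :
    MeasurableSet {x | ∃ v, Rd (𝒢.G val) w (x, s) v ∧ v.1 ∈ W v.2} := by
  have h := Measaux.gen_rdW (val := val) hm h𝒢 w (fun _ => Set.univ) W
    (fun _ => MeasurableSet.univ) hW s
  simp only [Measaux.rdW_univ] at h
  exact h

/-- reading `w` from sheet `s` to sheet `s'` -/
theorem meas_rd (hm : ∀ γ : Γ, Measurable fun x : X => γ • x) (h𝒢 : FMeas 𝒢)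
    (w : List (L × Bool)) (s s' : S) (γ : Γ) (hγ : γ = (wval val w)⁻¹) :
    MeasurableSet {x | Rd (𝒢.G val) w (x, s) (γ • x, s')} := by
  classical
  have h := meas_rd_prop (val := val) hm h𝒢 w s (fun n => {_x : X | n = s'})
    (fun n => MeasurableSet.const _)
  have : {x | Rd (𝒢.G val) w (x, s) (γ • x, s')} =
      {x | ∃ v, Rd (𝒢.G val) w (x, s) v ∧ v.1 ∈ (fun n => {_x : X | n = s'}) v.2} := by
    ext x
    simp only [Set.mem_ofPred_eq]
    constructor
    · intro h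
      exact ⟨_, h, rfl⟩
    · rintro ⟨⟨v1, n⟩, h1, h2⟩
      have h3 := rd_point h1
      simp only at h2 h3
      subst h2
      rw [hγ, ← h3]
      exact h1
  rw [this]
  exact h

/-- `w` is readable from sheet `s` -/
theorem meas_readable (hm : ∀ γ : Γ, Measurable fun x : X => γ • x) (h𝒢 : FMeas 𝒢)
    (w : List (L × Bool)) (s : S) :
    MeasurableSet {x | ∃ v, Rd (𝒢.G val) w (x, s) v} := by
  have h := meas_rd_prop (val := val) hm h𝒢 w s (fun _ => Set.univ) (fun _ => MeasurableSet.univ)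
  simpa using h

theorem meas_rdW (hm : ∀ γ : Γ, Measurable fun x : X => γ • x) (h𝒢 : FMeas 𝒢)
    (w : List (L × Bool)) (s : S) (W : S → Set X) (hW : ∀ s, MeasurableSet (W s)) :
    MeasurableSet {x | ∃ v, RdW (𝒢.G val) (fun u => u.1 ∈ W u.2) w (x, s) v} := by
  have h := Measaux.gen_rdW (val := val) hm h𝒢 w W (fun _ => Set.univ) hW
    (fun _ => MeasurableSet.univ) s
  simpa using h

/-- trivial-word readings: closed readings (`wval val w = 1`) -/
theorem meas_closed (hm : ∀ γ : Γ, Measurable fun x : X => γ • x) (h𝒢 : FMeas 𝒢)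
    (w : List (L × Bool)) (hw : wval val w = 1) (s s' : S) :
    MeasurableSet {x | Rd (𝒢.G val) w (x, s) (x, s')} := by
  have h1 : (1 : Γ) = (wval val w)⁻¹ := by simp [hw]
  have := meas_rd (val := val) hm h𝒢 w s s' 1 h1
  simpa using this

theorem meas_stp (hm : ∀ γ : Γ, Measurable fun x : X => γ • x) (h𝒢 : FMeas 𝒢)
    (e : L × Bool) (s : S) :
    MeasurableSet {x | ∃ z, Stp (𝒢.G val) e (x, s) z} := by
  have h := meas_readable (val := val) hm h𝒢 [e] s
  simpa [Rd] using h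

theorem meas_Vs [Countable L] (hm : ∀ γ : Γ, Measurable fun x : X => γ • x) (h𝒢 : FMeas 𝒢)
    (s : S) : MeasurableSet (𝒢.Vs val s) := by
  have : 𝒢.Vs val s = ⋃ a, ({x | ∃ z, Stp (𝒢.G val) (a, true) (x, s) z} ∪
      {x | ∃ z, Stp (𝒢.G val) (a, false) (x, s) z}) := by
    ext x
    simp only [Fld.Vs, IsV, Stp, Set.mem_ofPred_eq, Set.mem_iUnion, Set.mem_union, if_true,
      Bool.false_eq_true, if_false]
    constructor
    · rintro ⟨a, v, h | h⟩
      · exact ⟨a, Or.inl ⟨v, h⟩⟩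
      · exact ⟨a, Or.inr ⟨v, h⟩⟩
    · rintro ⟨a, ⟨v, h⟩ | ⟨v, h⟩⟩
      · exact ⟨a, v, Or.inl h⟩
      · exact ⟨a, v, Or.inr h⟩
  rw [this]
  exact MeasurableSet.iUnion fun a => (meas_stp hm h𝒢 _ s).union (meas_stp hm h𝒢 _ s)

theorem meas_deg [Fintype L] (hm : ∀ γ : Γ, Measurable fun x : X => γ • x) (h𝒢 : FMeas 𝒢)
    (s : S) (d : ℕ) : MeasurableSet {x | deg (𝒢.G val) (x, s) = d} := by
  classical
  have : {x | deg (𝒢.G val) (x, s) = d} =
      ⋃ T : Finset (L × Bool), ({_x : X | T.card = d} ∩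
        ⋂ e : L × Bool, (if e ∈ T then {x | ∃ z, Stp (𝒢.G val) e (x, s) z} else
          {x | ∃ z, Stp (𝒢.G val) e (x, s) z}ᶜ)) := by
    ext x
    simp only [Set.mem_ofPred_eq, Set.mem_iUnion, Set.mem_inter_iff, Set.mem_iInter]
    constructor
    · intro h
      refine ⟨Finset.univ.filter fun e : L × Bool => ∃ z, Stp (𝒢.G val) e (x, s) z, ?_, ?_⟩
      · rw [← h]
        unfold deg
        congr
      · intro e
        split_ifs with he
        · exact (Finset.mem_filter.1 he).2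
        · intro h'
          exact he (Finset.mem_filter.2 ⟨Finset.mem_univ _, h'⟩)
    · rintro ⟨T, hT, h⟩
      rw [← hT]
      unfold deg
      congr 1
      ext e
      simp only [Finset.mem_filter, Finset.mem_univ, true_and]
      have h1 := h e
      split_ifs at h1 with h2
      · exact ⟨fun _ => h2, fun _ => h1⟩
      · exact ⟨fun h3 => absurd h3 h1, fun h3 => absurd h3 h2⟩
  rw [this]
  refine MeasurableSet.iUnion fun T => (MeasurableSet.const _).inter
    (MeasurableSet.iInter fun e => ?_)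
  split_ifs
  · exact meas_stp hm h𝒢 e s
  · exact (meas_stp hm h𝒢 e s).compl

theorem meas_frel [Countable L] (hm : ∀ γ : Γ, Measurable fun x : X => γ • x) (h𝒢 : FMeas 𝒢)
    (s s' : S) : MeasurableSet {x | frel 𝒢 val x s s'} := by
  have : {x | frel 𝒢 val x s s'} = ⋃ w : List (L × Bool), ⋃ _ : FreeGroup.mk w = 1,
      {x | Rd (𝒢.G val) w (x, s) (x, s')} := by
    ext x
    simp only [frel, Set.mem_ofPred_eq, Set.mem_iUnion, exists_prop]
  rw [this]
  refine MeasurableSet.iUnion fun w => MeasurableSet.iUnion fun hw => ?_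
  refine meas_closed hm h𝒢 w ?_ s s'
  rw [wval_mk, hw, map_one]

omit [MeasurableSpace X] [Countable S] in
theorem frel_equiv' (x : X) : Equivalence (frel 𝒢 val x) where
  refl s := ⟨[], rfl, rfl⟩
  symm := by
    rintro s s' ⟨w, hw, h⟩
    refine ⟨winv w, ?_, rd_winv h⟩
    have : FreeGroup.mk (winv w) = (FreeGroup.mk w)⁻¹ := by
      rw [FreeGroup.inv_mk]
      rfl
    rw [this, hw, inv_one]
  trans := by
    rintro s s' s'' ⟨w, hw, h⟩ ⟨w', hw', h'⟩
    refine ⟨w ++ w', ?_, rd_append.2 ⟨_, h, h'⟩⟩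
    rw [← FreeGroup.mul_mk, hw, hw', one_mul]

/-- `frel` is an equivalence relation on `S` for every `x`. -/
theorem frel_equiv (x : X) : Equivalence (frel 𝒢 val x) := frel_equiv' x

/-- Existence of measurable representatives: the representative of a class is the base sheet if
it is in the class, else the sheet of the class with the least code in `ℕ`. -/
theorem exists_rep [Countable L] (hm : ∀ γ : Γ, Measurable fun x : X => γ • x) (h𝒢 : FMeas 𝒢)
    (b : S) : ∃ q : X → S → S, Rep 𝒢 val b q := by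
  classical
  obtain ⟨c, hc⟩ := exists_injective_nat S
  set rank : S → ℕ := fun s => if s = b then 0 else c s + 1 with hrank
  have hinj : Function.Injective rank := by
    intro s s' h
    simp only [hrank] at h
    by_cases h1 : s = b <;> by_cases h2 : s' = b
    · rw [h1, h2]
    · rw [if_pos h1, if_neg h2] at h
      omega
    · rw [if_neg h1, if_pos h2] at h
      omega
    · rw [if_neg h1, if_neg h2] at h
      exact hc (by omega)
  have hex : ∀ x s, ∃ n, ∃ s', frel 𝒢 val x s s' ∧ rank s' = n := fun x s =>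
    ⟨rank s, s, (frel_equiv x).refl s, rfl⟩
  set q : X → S → S := fun x s => Classical.choose (Nat.find_spec (hex x s)) with hq
  have hq1 : ∀ x s, frel 𝒢 val x s (q x s) := fun x s =>
    (Classical.choose_spec (Nat.find_spec (hex x s))).1
  have hq2 : ∀ x s s', frel 𝒢 val x s s' → rank (q x s) ≤ rank s' := by
    intro x s s' h
    rw [(Classical.choose_spec (Nat.find_spec (hex x s))).2]
    exact Nat.find_min' _ ⟨s', h, rfl⟩
  have hq3 : ∀ x s s', frel 𝒢 val x s s' → (∀ s'', frel 𝒢 val x s s'' → rank s' ≤ rank s'') →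
      q x s = s' := by
    intro x s s' h h'
    exact hinj (le_antisymm (hq2 x s s' h) (h' _ (hq1 x s)))
  refine ⟨q, hq1, ?_, ?_, ?_⟩
  · intro x s s' h
    refine hq3 x s (q x s') ((frel_equiv x).trans h (hq1 x s')) ?_
    intro s'' h''
    exact hq2 x s' s'' ((frel_equiv x).trans ((frel_equiv x).symm h) h'')
  · intro s s'
    have : {x | q x s = s'} = {x | frel 𝒢 val x s s'} ∩
        ⋂ s'' : S, ({_x : X | rank s' ≤ rank s''} ∪ {x | frel 𝒢 val x s s''}ᶜ) := by
      ext x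
      simp only [Set.mem_ofPred_eq, Set.mem_inter_iff, Set.mem_iInter, Set.mem_union,
        Set.mem_compl_iff]
      constructor
      · rintro rfl
        refine ⟨hq1 x s, fun s'' => ?_⟩
        by_cases h : frel 𝒢 val x s s''
        · exact Or.inl (hq2 x s s'' h)
        · exact Or.inr h
      · rintro ⟨h1, h2⟩
        exact hq3 x s s' h1 fun s'' h => (h2 s'').resolve_right fun h3 => h3 h
    rw [this]
    exact (meas_frel hm h𝒢 s s').inter (MeasurableSet.iInter fun s'' =>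
      (MeasurableSet.const _).union (meas_frel hm h𝒢 s s'').compl)
  · intro x
    refine hq3 x b b ((frel_equiv x).refl b) fun s'' _ => ?_
    simp [hrank]

theorem meas_foldF (hm : ∀ γ : Γ, Measurable fun x : X => γ • x) (h𝒢 : FMeas 𝒢)
    {b : S} {q : X → S → S} (hq : Rep 𝒢 val b q) : FMeas (foldF 𝒢 val q) := by
  intro a n' m'
  have : (foldF 𝒢 val q).E a n' m' = ⋃ n, ⋃ m, (𝒢.E a n m ∩ ({x | q x n = n'} ∩
      (fun x : X => (val a)⁻¹ • x) ⁻¹' {x | q x m = m'})) := by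
    ext x
    simp only [foldF, Set.mem_ofPred_eq, Set.mem_iUnion, Set.mem_inter_iff, Set.mem_preimage]
  rw [this]
  exact MeasurableSet.iUnion fun n => MeasurableSet.iUnion fun m =>
    (h𝒢 a n m).inter ((hq.meas n n').inter (hm _ (hq.meas m m')))

theorem meas_attach {K : Type} [Countable K] (hm : ∀ γ : Γ, Measurable fun x : X => γ • x)
    (h𝒢 : FMeas 𝒢) (𝒜 : Arcs L X S K) (h𝒜 : ∀ k, MeasurableSet (𝒜.A k)) :
    FMeas (attach 𝒢 val 𝒜) := by
  intro a n m
  have : (attach 𝒢 val 𝒜).E a n m =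
      (⋃ n₀, ⋃ m₀, ({_y : X | n = Sum.inl n₀ ∧ m = Sum.inl m₀} ∩ 𝒢.E a n₀ m₀)) ∪
      ⋃ k, ⋃ j : ℕ,
        (({_y : X | ∃ h : j < (𝒜.wd k).length, (𝒜.wd k)[j] = (a, true) ∧ n = 𝒜.pos k j ∧
            m = 𝒜.pos k (j + 1)} ∩
          (fun y : X => (wval val ((𝒜.wd k).take j)) • y) ⁻¹' 𝒜.A k) ∪
        ({_y : X | ∃ h : j < (𝒜.wd k).length, (𝒜.wd k)[j] = (a, false) ∧ n = 𝒜.pos k (j + 1) ∧
            m = 𝒜.pos k j} ∩
          (fun y : X => (wval val ((𝒜.wd k).take (j + 1))) • y) ⁻¹' 𝒜.A k)) := by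
    ext y
    simp only [attach, Arcs.pt, Set.mem_ofPred_eq, Set.mem_iUnion, Set.mem_inter_iff,
      Set.mem_preimage, Set.mem_union]
    constructor
    · rintro (⟨n₀, m₀, h1, h2, h3⟩ | ⟨k, j, x, h, hx, ⟨h1, h2, h3, h4⟩ | ⟨h1, h2, h3, h4⟩⟩)
      · exact Or.inl ⟨n₀, m₀, ⟨h1, h2⟩, h3⟩
      · refine Or.inr ⟨k, j, Or.inl ⟨⟨h, h1, h3, h4⟩, ?_⟩⟩
        rw [h2, smul_inv_smul]
        exact hx
      · refine Or.inr ⟨k, j, Or.inr ⟨⟨h, h1, h3, h4⟩, ?_⟩⟩
        rw [h2, smul_inv_smul]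
        exact hx
    · rintro (⟨n₀, m₀, ⟨h1, h2⟩, h3⟩ | ⟨k, j, ⟨⟨h, h1, h3, h4⟩, hx⟩ | ⟨⟨h, h1, h3, h4⟩, hx⟩⟩)
      · exact Or.inl ⟨n₀, m₀, h1, h2, h3⟩
      · exact Or.inr ⟨k, j, _, h, hx, Or.inl ⟨h1, by rw [inv_smul_smul], h3, h4⟩⟩
      · exact Or.inr ⟨k, j, _, h, hx, Or.inr ⟨h1, by rw [inv_smul_smul], h3, h4⟩⟩
  rw [this]
  refine (MeasurableSet.iUnion fun n₀ => MeasurableSet.iUnion fun m₀ =>
    (MeasurableSet.const _).inter (h𝒢 a n₀ m₀)).union ?_
  exact MeasurableSet.iUnion fun k => MeasurableSet.iUnion fun j =>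
    ((MeasurableSet.const _).inter (hm _ (h𝒜 k))).union
      ((MeasurableSet.const _).inter (hm _ (h𝒜 k)))

section env

variable (e : Env) {S : Type} [Countable S] {𝒢 : Fld (Lab e.g) e.X S}

theorem Env.meas_smul (γ : e.Γ) : Measurable fun x : e.X => γ • x := (e.pmp γ).measurable

theorem meas_closedAt (h𝒢 : FMeas 𝒢) (k : ℕ) (p : S × Fin e.g) :
    MeasurableSet (closedAt e 𝒢 k p) :=
  meas_closed e.meas_smul h𝒢 _ (wval_seg e.val e.rel p.2 k) p.1 p.1

theorem meas_nearAt (h𝒢 : FMeas 𝒢) (k : ℕ) (p : S × Fin e.g) :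
    MeasurableSet (nearAt e 𝒢 k p) :=
  (meas_readable e.meas_smul h𝒢 _ p.1).inter (meas_closedAt e h𝒢 k p).compl

theorem meas_longAt (h𝒢 : FMeas 𝒢) (p : S × Fin e.g) :
    MeasurableSet (longAt e 𝒢 p) := by
  have hd : ∀ s : S, MeasurableSet {y : e.X | ¬ deg (𝒢.G e.val) (y, s) ≤ 2} := by
    intro s
    have : {y : e.X | ¬ deg (𝒢.G e.val) (y, s) ≤ 2} =
        (⋃ d : Fin 3, {y : e.X | deg (𝒢.G e.val) (y, s) = d})ᶜ := by
      ext y
      simp only [Set.mem_ofPred_eq, Set.mem_compl_iff, Set.mem_iUnion, not_exists]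
      constructor
      · intro h d hd
        have := d.2
        omega
      · intro h h'
        exact h ⟨deg (𝒢.G e.val) (y, s), by omega⟩ rfl
    rw [this]
    exact (MeasurableSet.iUnion fun d : Fin 3 => meas_deg e.meas_smul h𝒢 s d).compl
  have : longAt e 𝒢 p = closedAt e 𝒢 0 p ∩ ⋃ j : ℕ, ⋂ r : ℕ, ({_x : e.X | ¬ (1 ≤ r ∧ r ≤ 61)} ∪
      {x | ∃ v, Rd (𝒢.G e.val) (seg e.c e.ℓ p.2 0 (j + r)) (x, p.1) v ∧
        v.1 ∈ (fun s => {y : e.X | ¬ deg (𝒢.G e.val) (y, s) ≤ 2}) v.2}ᶜ) := by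
    ext x
    simp only [longAt, Set.mem_ofPred_eq, Set.mem_inter_iff, Set.mem_iUnion, Set.mem_iInter,
      Set.mem_union, Set.mem_compl_iff, not_exists, not_and, not_not]
    refine and_congr_right fun _ => exists_congr fun j => forall_congr' fun r => ?_
    constructor
    · intro h
      by_cases hr : 1 ≤ r ∧ r ≤ 61
      · exact Or.inr fun v hv => h hr.1 hr.2 v hv
      · refine Or.inl fun h1 => ?_
        intro h2
        exact hr ⟨h1, h2⟩
    · rintro (h | h) h1 h2 z hz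
      · exact absurd h2 (h h1)
      · exact h z hz
  rw [this]
  refine (meas_closedAt e h𝒢 0 p).inter (MeasurableSet.iUnion fun j =>
    MeasurableSet.iInter fun r => (MeasurableSet.const _).union ?_)
  exact (meas_rd_prop e.meas_smul h𝒢 _ p.1 _ hd).compl

theorem meas_shortAt (h𝒢 : FMeas 𝒢) (p : S × Fin e.g) :
    MeasurableSet (shortAt e 𝒢 p) :=
  (meas_closedAt e h𝒢 0 p).diff (meas_longAt e h𝒢 p)

end env

end Crest.Agent.R191
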