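import Crest.Agent.R191.Rot
import Crest.Agent.R191.Forest

/-!
# R191 piece PRUNE: the core
-/

set_option autoImplicit false

namespace Crest.Agent.R191

open MeasureTheory

/-- The core: edges lying on a reduced reading from a base vertex to a base vertex. -/
def coreF (e : Env) {S : Type} (𝒢 : Fld (Lab e.g) e.X S) (b : S) : Fld (Lab e.g) e.X S :=
  ⟨fun a n m => {x | x ∈ 𝒢.E a n m ∧ ∃ (w₁ w₂ : List (Lab e.g × Bool)) (y y' : e.X),
    Red (w₁ ++ (a, true) :: w₂) ∧ Rd (𝒢.G e.val) w₁ (y, b) (x, n) ∧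
      Rd (𝒢.G e.val) w₂ ((e.val a)⁻¹ • x, m) (y', b)}⟩

namespace Pruneaux

section

variable {L V : Type} {G : L → V → V → Prop} {f : L → V → V → ℝ}

theorem winv_winv' (w : List (L × Bool)) : winv (winv w) = w := by
  simp [winv, Function.comp_def]

theorem winv_append (w w' : List (L × Bool)) : winv (w ++ w') = winv w' ++ winv w := by
  simp [winv]

theorem winv_cons (e : L × Bool) (w : List (L × Bool)) :
    winv (e :: w) = winv w ++ [(e.1, !e.2)] := by
  simp [winv]

theorem red_winv {w : List (L × Bool)} (h : Red w) : Red (winv w) := by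
  unfold Red winv at *
  rw [List.isChain_reverse, List.isChain_map]
  refine h.imp ?_
  rintro ⟨a, s⟩ ⟨a', s'⟩ h1 ⟨h2, h3⟩
  apply h1
  simp only at h2 h3 ⊢
  exact ⟨h2.symm, by simpa using h3.symm⟩

theorem rs_of_steps {G' : L → V → V → Prop} {w : List (L × Bool)} {u v : V} {r : ℝ}
    (h : RS G f w u v r)
    (hs : ∀ w₁ e w₂ p q, w = w₁ ++ e :: w₂ → Rd G w₁ u p → Stp G e p q → Rd G w₂ q v →
      Stp G' e p q) : RS G' f w u v r := by
  induction w generalizing u r with
  | nil => exact h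
  | cons e w ih =>
    obtain ⟨z, r', h1, h2, rfl⟩ := h
    refine ⟨z, r', hs [] e w u z rfl rfl h1 (rd_of_rs h2), ih h2 ?_, rfl⟩
    intro w₁ e' w₂ p q hw hp hq hq2
    exact hs (e :: w₁) e' w₂ p q (by rw [hw]; rfl) ⟨z, h1, hp⟩ hq hq2

theorem rs_sub {G' : L → V → V → Prop} (hG : ∀ a u v, G' a u v → G a u v)
    {w : List (L × Bool)} {u v : V} {r : ℝ} (h : RS G' f w u v r) : RS G f w u v r := by
  refine rs_of_steps h ?_
  intro w₁ e w₂ p q _ _ hs _
  unfold Stp at hs ⊢
  split_ifs at hs ⊢ <;> exact hG _ _ _ hs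

theorem rd_sub {G' : L → V → V → Prop} (hG : ∀ a u v, G' a u v → G a u v)
    {w : List (L × Bool)} {u v : V} (h : Rd G' w u v) : Rd G w u v := by
  obtain ⟨r, hr⟩ := rs_of_rd (f := fun _ _ _ => 0) h
  exact rd_of_rs (rs_sub hG hr)

end

section

variable (e : Env) {S : Type} (𝒢 : Fld (Lab e.g) e.X S) (b : S)

theorem coreG_iff {a : Lab e.g} {u v : e.X × S} :
    (coreF e 𝒢 b).G e.val a u v ↔ 𝒢.G e.val a u v ∧
      ∃ (w₁ w₂ : List (Lab e.g × Bool)) (y y' : e.X), Red (w₁ ++ (a, true) :: w₂) ∧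
        Rd (𝒢.G e.val) w₁ (y, b) u ∧ Rd (𝒢.G e.val) w₂ v (y', b) := by
  constructor
  · rintro ⟨h1, h2, w₁, w₂, y, y', h3, h4, h5⟩
    refine ⟨⟨h1, h2⟩, w₁, w₂, y, y', h3, h4, ?_⟩
    rw [← h1] at h5
    exact h5
  · rintro ⟨⟨h1, h2⟩, w₁, w₂, y, y', h3, h4, h5⟩
    refine ⟨h1, h2, w₁, w₂, y, y', h3, h4, ?_⟩
    rw [← h1]
    exact h5

theorem core_split {w₁ w₂ : List (Lab e.g × Bool)} {E : Lab e.g × Bool} {y y' : e.X}
    {u z : e.X × S} (hr : Red (w₁ ++ E :: w₂)) (h1 : Rd (𝒢.G e.val) w₁ (y, b) u)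
    (hs : Stp (𝒢.G e.val) E u z) (h2 : Rd (𝒢.G e.val) w₂ z (y', b)) :
    Stp ((coreF e 𝒢 b).G e.val) E u z := by
  obtain ⟨a, s⟩ := E
  cases s with
  | true =>
    simp only [Stp, if_true] at hs ⊢
    rw [coreG_iff]
    exact ⟨hs, w₁, w₂, y, y', hr, h1, h2⟩
  | false =>
    simp only [Stp, Bool.false_eq_true, if_false] at hs ⊢
    rw [coreG_iff]
    refine ⟨hs, winv w₂, winv w₁, y', y, ?_, rd_winv h2, rd_winv h1⟩
    have := red_winv hr
    rw [winv_append, winv_cons] at this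
    simpa using this

/-- a reduced base-base reading stays in the core -/
theorem core_rs {f : Lab e.g → e.X × S → e.X × S → ℝ} {w : List (Lab e.g × Bool)} (hw : Red w)
    {x y : e.X} {r : ℝ} (h : RS (𝒢.G e.val) f w (x, b) (y, b) r) :
    RS ((coreF e 𝒢 b).G e.val) f w (x, b) (y, b) r := by
  refine rs_of_steps h ?_
  intro w₁ E w₂ p q hsplit h1 hs h2
  rw [hsplit] at hw
  exact core_split e 𝒢 b hw h1 hs h2

theorem core_rd {w : List (Lab e.g × Bool)} (hw : Red w)
    {x y : e.X} (h : Rd (𝒢.G e.val) w (x, b) (y, b)) :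
    Rd ((coreF e 𝒢 b).G e.val) w (x, b) (y, b) := by
  obtain ⟨r, hr⟩ := rs_of_rd (f := fun _ _ _ => 0) h
  exact rd_of_rs (core_rs e 𝒢 b hw hr)

theorem core_le {a : Lab e.g} {u v : e.X × S} (h : (coreF e 𝒢 b).G e.val a u v) :
    𝒢.G e.val a u v := ((coreG_iff e 𝒢 b).1 h).1

/-- prefix of a reduced base-base reading -/
theorem core_rd_left (hG : Folded (𝒢.G e.val)) {w₁ w₂ : List (Lab e.g × Bool)}
    (hw : Red (w₁ ++ w₂)) {y y' : e.X} {u : e.X × S} (h1 : Rd (𝒢.G e.val) w₁ (y, b) u)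
    (h2 : Rd (𝒢.G e.val) w₂ u (y', b)) :
    Rd ((coreF e 𝒢 b).G e.val) w₁ (y, b) u := by
  have h := core_rd e 𝒢 b hw (rd_append.2 ⟨u, h1, h2⟩)
  obtain ⟨z, h3, _⟩ := rd_append.1 h
  have := hG.rd_unique (rd_sub (fun a u v => core_le e 𝒢 b) h3) h1
  rw [this] at h3
  exact h3

theorem base_edge (hb : ∀ x, x ∈ 𝒢.E none b b) (x : e.X) :
    (coreF e 𝒢 b).G e.val none (x, b) ((e.val none)⁻¹ • x, b) := by
  rw [coreG_iff]
  refine ⟨⟨rfl, hb x⟩, [], [], x, (e.val none)⁻¹ • x, ?_, rfl, rfl⟩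
  simp [Red]

end

end Pruneaux

open Pruneaux

theorem coreF_meas (e : Env) {S : Type} [Countable S] (𝒢 : Fld (Lab e.g) e.X S) (b : S)
    (hm : FMeas 𝒢) : FMeas (coreF e 𝒢 b) := by
  intro a n m
  have hms := Env.meas_smul e
  have h1 : ∀ (w : List (Lab e.g × Bool)) (s : S),
      MeasurableSet {x : e.X | ∃ y, Rd (𝒢.G e.val) w (x, s) (y, b)} := by
    intro w s
    have h2 := meas_rd (val := e.val) hms hm w s b ((wval e.val w)⁻¹) rfl
    convert h2 using 1
    ext x
    constructor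
    · rintro ⟨y, hy⟩
      have := rd_point hy
      simp only at this
      rw [this] at hy
      exact hy
    · intro hy
      exact ⟨_, hy⟩
  have h3 : (coreF e 𝒢 b).E a n m = 𝒢.E a n m ∩
      ⋃ w₁ : List (Lab e.g × Bool), ⋃ w₂ : List (Lab e.g × Bool),
        ⋃ _ : Red (w₁ ++ (a, true) :: w₂),
        ({x : e.X | ∃ y, Rd (𝒢.G e.val) (winv w₁) (x, n) (y, b)} ∩
          (fun x : e.X => (e.val a)⁻¹ • x) ⁻¹'
            {x : e.X | ∃ y, Rd (𝒢.G e.val) w₂ (x, m) (y, b)}) := by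
    ext x
    simp only [coreF, Set.mem_ofPred_eq, Set.mem_inter_iff, Set.mem_iUnion, Set.mem_preimage,
      exists_prop]
    constructor
    · rintro ⟨h4, w₁, w₂, y, y', h5, h6, h7⟩
      exact ⟨h4, w₁, w₂, h5, ⟨y, rd_winv h6⟩, ⟨y', h7⟩⟩
    · rintro ⟨h4, w₁, w₂, h5, ⟨y, h6⟩, ⟨y', h7⟩⟩
      refine ⟨h4, w₁, w₂, y, y', h5, ?_, h7⟩
      have := rd_winv h6
      rwa [winv_winv'] at this
  rw [h3]
  refine (hm a n m).inter ?_
  refine MeasurableSet.iUnion fun w₁ => MeasurableSet.iUnion fun w₂ =>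
    MeasurableSet.iUnion fun _ => (h1 _ _).inter (hms _ (h1 _ _))

/-- a reduced base-base reading of `𝒢` is a reading of the core, with the same sums.
(An edge used backward, `(a,false)`, is used forward by the inverse word.) -/
theorem coreF_rs (e : Env) {S : Type} (𝒢 : Fld (Lab e.g) e.X S) (b : S)
    {f : Lab e.g → e.X × S → e.X × S → ℝ} {w : List (Lab e.g × Bool)} (hw : Red w)
    {x y : e.X} {r : ℝ} (h : RS (𝒢.G e.val) f w (x, b) (y, b) r) :
    RS ((coreF e 𝒢 b).G e.val) f w (x, b) (y, b) r :=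
  core_rs e 𝒢 b hw h

/-- the core is a subgraph -/
theorem coreF_sub (e : Env) {S : Type} (𝒢 : Fld (Lab e.g) e.X S) (b : S)
    {f : Lab e.g → e.X × S → e.X × S → ℝ} {w : List (Lab e.g × Bool)}
    {u v : e.X × S} {r : ℝ} (h : RS ((coreF e 𝒢 b).G e.val) f w u v r) :
    RS (𝒢.G e.val) f w u v r :=
  rs_sub (fun _ _ _ => core_le e 𝒢 b) h

namespace Pruneaux

section loop

variable {g : ℕ} {c : Fin g → ℕ → Fin g} {ℓ : ℕ} {V : Type} {G : Lab g → V → V → Prop}

/-- the periodic reading along a closed loop -/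
theorem loop_fun (hG : Folded G) {i : Fin g} {v : V}
    (h : Rd G (seg c ℓ i 0 (ℓ + 3)) v v) :
    ∃ u : ℕ → V, u 0 = v ∧ (∀ n, Stp G (rl c ℓ i n) (u n) (u (n + 1))) ∧
      (∀ n m, Rd G (seg c ℓ i n m) (u n) (u (n + m))) ∧
      (∀ n, u (n + (ℓ + 3)) = u n) := by
  have hex := fun j => closed_read hG h j
  choose u hu1 hu2 using hex
  have h1 : ∀ n m, Rd G (seg c ℓ i n m) (u n) (u (n + m)) := by
    intro n m
    have h2 := hu1 (n + m)
    rw [seg_add, zero_add, rd_append] at h2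
    obtain ⟨z, h3, h4⟩ := h2
    obtain rfl := hG.rd_unique h3 (hu1 n)
    exact h4
  refine ⟨u, ?_, ?_, h1, ?_⟩
  · have h2 := hu1 0
    have h3 : seg c ℓ i 0 0 = [] := rfl
    rw [h3] at h2
    exact Eq.symm h2
  · intro n
    have h2 := h1 n 1
    have h3 : seg c ℓ i n 1 = [rl c ℓ i n] := by simp [seg]
    rw [h3] at h2
    obtain ⟨z, h4, h5⟩ := h2
    have h5' : z = u (n + 1) := h5
    rw [← h5']
    exact h4
  · intro n
    exact hG.rd_unique ((closed_period hG h).1 (hu1 (n + (ℓ + 3)))) (hu1 n)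

theorem per_mul {α : Type} {u : ℕ → α} {P : ℕ} (h : ∀ n, u (n + P) = u n) (n t : ℕ) :
    u (n + t * P) = u n := by
  induction t with
  | zero => simp
  | succ t ih => rw [Nat.succ_mul, ← Nat.add_assoc, h, ih]

end loop

end Pruneaux

/-- closed relator loops of `𝒢` lie in the core.
Let `p` be a shortest reading from a base vertex to a vertex `z` of the loop (`𝒢` is connected to the
base), `z` at position `j`.  Then `p ++ seg i j (ℓ+3) ++ winv p` is a reduced base-base reading: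
`p` is reduced, `seg` is (also cyclically), and at the two junctions a cancellation would
give a shorter `p` (its last edge would be an edge of the loop), unless `p = []`. -/
theorem coreF_loop (e : Env) {S : Type} (𝒢 : Fld (Lab e.g) e.X S) (b : S)
    (h : Base e 𝒢 b) {s : S} {i : Fin e.g} {x : e.X} (hx : x ∈ closedAt e 𝒢 0 (s, i))
    {f : Lab e.g → e.X × S → e.X × S → ℝ} {r : ℝ}
    (hr : RS (𝒢.G e.val) f (seg e.c e.ℓ i 0 (e.ℓ + 3)) (x, s) (x, s) r) :
    RS ((coreF e 𝒢 b).G e.val) f (seg e.c e.ℓ i 0 (e.ℓ + 3)) (x, s) (x, s) r := by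
  classical
  have hG := h.folded
  obtain ⟨u, hu0, hstep, hseg, hper⟩ := loop_fun hG (show
    Rd (𝒢.G e.val) (seg e.c e.ℓ i 0 (e.ℓ + 3)) (x, s) (x, s) from hx)
  set P := e.ℓ + 3 with hP
  have hPpos : 0 < P := by omega
  -- shortest reduced reading from a base vertex to the loop
  let T : ℕ → Prop := fun N => ∃ (w : List (Lab e.g × Bool)) (n : ℕ) (y : e.X),
    Red w ∧ w.length = N ∧ Rd (𝒢.G e.val) w (y, b) (u n)
  have hT : ∃ N, T N := by
    have hV : IsV (𝒢.G e.val) (u 0) := by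
      have h1 := hstep 0
      unfold Stp at h1
      split_ifs at h1
      · exact ⟨_, _, Or.inl h1⟩
      · exact ⟨_, _, Or.inr h1⟩
    obtain ⟨w, y, hw⟩ := h.conn _ hV
    obtain ⟨r', hr'⟩ := rs_of_rd (f := fun _ _ _ => 0) hw
    obtain ⟨w', h1, _, _, h4⟩ := hG.rs_reduce hr'
    exact ⟨w'.length, w', 0, y, h1, rfl, rd_of_rs h4⟩
  obtain ⟨w, n, y, hwr, hwl, hwn⟩ := Nat.find_spec hT
  have hmin : ∀ (w' : List (Lab e.g × Bool)) (n' : ℕ) (y' : e.X),
      Rd (𝒢.G e.val) w' (y', b) (u n') → w.length ≤ w'.length := by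
    intro w' n' y' hw'
    obtain ⟨r', hr'⟩ := rs_of_rd (f := fun _ _ _ => 0) hw'
    obtain ⟨w'', h1, _, h3, h4⟩ := hG.rs_reduce hr'
    rw [hwl]
    exact le_trans (Nat.find_min' hT ⟨w'', n', y', h1, rfl, rd_of_rs h4⟩) h3
  -- the junctions
  have hjunc : ∀ (n' : ℕ), Rd (𝒢.G e.val) w (y, b) (u n') → ∀ w'' E, w = w'' ++ [E] →
      (¬ ((rl e.c e.ℓ i n').1 = E.1 ∧ (rl e.c e.ℓ i n').2 = !E.2)) ∧
      (∀ k, k + 1 = n' → ¬ (rl e.c e.ℓ i k = E)) := by
    intro n' hn' w'' E hw''
    rw [hw''] at hn'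
    obtain ⟨q, hq1, hq2⟩ := rd_append.1 hn'
    obtain ⟨q', hq3, hq4⟩ := hq2
    have hq4' : q' = u n' := hq4
    rw [hq4'] at hq3
    have hshort : ∀ n'', q = u n'' → False := by
      intro n'' hq
      rw [hq] at hq1
      have := hmin _ _ _ hq1
      rw [hw''] at this
      simp at this
    constructor
    · intro hc
      have h1 : rl e.c e.ℓ i n' = (E.1, !E.2) := Prod.ext hc.1 hc.2
      have h2 := hstep n'
      rw [h1, stp_inv] at h2
      exact hshort _ (hG.stp_left hq3 h2)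
    · rintro k rfl hk
      have h2 := hstep k
      rw [hk] at h2
      exact hshort _ (hG.stp_left hq3 h2)
  -- the big word is reduced
  have hbig : ∀ n', Rd (𝒢.G e.val) w (y, b) (u n') → 0 < n' →
      Red (w ++ (seg e.c e.ℓ i n' P ++ winv w)) := by
    intro n' hn' hpos
    have hsr := seg_red e.cw i n' P
    have hsne : seg e.c e.ℓ i n' P ≠ [] := by
      intro hc
      have := seg_length (c := e.c) (ℓ := e.ℓ) i n' P
      rw [hc] at this
      simp at this
    have hhead : ∀ E, E ∈ (seg e.c e.ℓ i n' P).head? → E = rl e.c e.ℓ i n' := by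
      intro E hE
      have h1 : seg e.c e.ℓ i n' P = rl e.c e.ℓ i n' :: seg e.c e.ℓ i (n' + 1) (P - 1) := by
        rw [← seg_succ]
        congr 1
      rw [h1] at hE
      simp at hE
      exact hE.symm
    have hlast : ∀ E, E ∈ (seg e.c e.ℓ i n' P).getLast? → E = rl e.c e.ℓ i (n' + (P - 1)) := by
      intro E hE
      have h1 : seg e.c e.ℓ i n' P = seg e.c e.ℓ i n' (P - 1) ++ [rl e.c e.ℓ i (n' + (P - 1))] := by
        have h2 : P = (P - 1) + 1 := by omega
        conv_lhs => rw [h2, seg_add]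
        congr 1
      rw [h1] at hE
      simp at hE
      exact hE.symm
    unfold Red
    rw [List.isChain_append]
    refine ⟨hwr, ?_, ?_⟩
    · rw [List.isChain_append]
      refine ⟨hsr, red_winv hwr, ?_⟩
      intro E hE E' hE'
      rw [hlast E hE]
      rcases List.eq_nil_or_concat w with hw0 | ⟨w'', E'', hw''⟩
      · rw [hw0] at hE'
        simp [winv] at hE'
      · rw [List.concat_eq_append] at hw''
        rw [hw'', winv_append] at hE'
        simp [winv] at hE'
        have hk : n' - 1 + 1 = n' := by omega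
        have h1 := (hjunc n' hn' w'' E'' hw'').2 (n' - 1) hk
        have h2 : rl e.c e.ℓ i (n' + (P - 1)) = rl e.c e.ℓ i (n' - 1) := by
          have h3 : n' + (P - 1) = n' - 1 + (e.ℓ + 3) := by omega
          rw [h3, rl_period]
        rw [h2]
        rintro ⟨h3, h4⟩
        apply h1
        rw [← hE'] at h3 h4
        simp only at h3 h4
        refine Prod.ext h3.symm ?_
        have h5 := congrArg not h4
        simpa using h5.symm
    · intro E hE E' hE'
      rw [List.head?_append_of_ne_nil _ hsne] at hE'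
      rw [hhead E' hE']
      rcases List.eq_nil_or_concat w with hw0 | ⟨w'', E'', hw''⟩
      · rw [hw0] at hE
        simp at hE
      · rw [List.concat_eq_append] at hw''
        have hE2 : E'' = E := by
          rw [hw''] at hE
          simpa using hE
        rw [← hE2]
        exact (hjunc n' hn' w'' E'' hw'').1
  -- edges of the loop are in the core
  have hedge1 : ∀ n', Rd (𝒢.G e.val) w (y, b) (u n') → 0 < n' → ∀ j, j < P →
      Stp ((coreF e 𝒢 b).G e.val) (rl e.c e.ℓ i (n' + j)) (u (n' + j)) (u (n' + j + 1)) := by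
    intro n' hn' hpos j hj
    have hsplit : w ++ (seg e.c e.ℓ i n' P ++ winv w) =
        (w ++ seg e.c e.ℓ i n' j) ++ rl e.c e.ℓ i (n' + j) ::
          (seg e.c e.ℓ i (n' + j + 1) (P - 1 - j) ++ winv w) := by
      have h1 : P = j + (1 + (P - 1 - j)) := by omega
      have h2 : seg e.c e.ℓ i n' P = seg e.c e.ℓ i n' j ++ (rl e.c e.ℓ i (n' + j) ::
          seg e.c e.ℓ i (n' + j + 1) (P - 1 - j)) := by
        conv_lhs => rw [h1, seg_add, seg_add]
        congr 1
      rw [h2]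
      simp
    have hred := hbig n' hn' hpos
    rw [hsplit] at hred
    refine core_split e 𝒢 b (y := y) (y' := y) hred ?_ (hstep _) ?_
    · exact rd_append.2 ⟨u n', hn', hseg n' j⟩
    · refine rd_append.2 ⟨u n', ?_, rd_winv hn'⟩
      have h1 := hseg (n' + j + 1) (P - 1 - j)
      have h2 : n' + j + 1 + (P - 1 - j) = n' + P := by omega
      rw [h2, hper] at h1
      exact h1
  have hedge : ∀ k, Stp ((coreF e 𝒢 b).G e.val) (rl e.c e.ℓ i k) (u k) (u (k + 1)) := by
    intro k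
    -- move `k` far to the right, choose `n'` with `n' ≤ m < n' + P`
    set m := k + (n + 1) * P with hm
    have hum : u m = u k := per_mul hper k (n + 1)
    have hum1 : u (m + 1) = u (k + 1) := by
      have h1 := per_mul hper (k + 1) (n + 1)
      rw [← h1]
      congr 1
      omega
    have hrm : rl e.c e.ℓ i m = rl e.c e.ℓ i k :=
      per_mul (u := fun m => rl e.c e.ℓ i m) (P := P) (fun n => rl_period i n) k (n + 1)
    have hmge : n + P ≤ m := by
      have h1 : (n + 1) * P = n * P + P := by ring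
      have h2 : n ≤ n * P := Nat.le_mul_of_pos_right n hPpos
      omega
    set t := (m - n) / P with ht
    have h1 : t * P + (m - n) % P = m - n := by
      rw [ht, mul_comm]; exact Nat.div_add_mod _ _
    have h2 : (m - n) % P < P := Nat.mod_lt _ hPpos
    have htpos : 0 < t := Nat.div_pos (by omega) hPpos
    have h3 : m = (n + t * P) + (m - n) % P := by omega
    have h4 : Rd (𝒢.G e.val) w (y, b) (u (n + t * P)) := by
      rw [per_mul hper]
      exact hwn
    have h6 : 0 < t * P := Nat.mul_pos htpos hPpos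
    have h5 := hedge1 (n + t * P) h4 (by omega) _ h2
    rw [← h3, hum, hum1, hrm] at h5
    exact h5
  refine rs_of_steps hr ?_
  intro w₁ E w₂ p q hsplit h1 hs _
  have hlen : w₁.length < P := by
    have := congrArg List.length hsplit
    rw [seg_length] at this
    simp at this
    omega
  have hw1 : w₁ = seg e.c e.ℓ i 0 w₁.length := by
    have h2 : w₁ = (seg e.c e.ℓ i 0 P).take w₁.length := by
      rw [hsplit]; simp
    rw [seg_take _ _ _ _ hlen.le] at h2
    exact h2
  have hE : E = rl e.c e.ℓ i w₁.length := by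
    have h2 : (seg e.c e.ℓ i 0 P)[w₁.length]? = some E := by
      rw [hsplit]; simp
    rw [List.getElem?_eq_getElem (by rw [seg_length]; exact hlen)] at h2
    rw [seg_getElem] at h2
    simpa using h2.symm
  have hp : p = u w₁.length := by
    have h2 := hseg 0 w₁.length
    rw [hu0, zero_add, ← hw1] at h2
    exact hG.rd_unique h1 h2
  have hq : q = u (w₁.length + 1) := by
    rw [hp, hE] at hs
    exact hG.stp_right hs (hstep _)
  rw [hp, hq, hE]
  exact hedge _

/-- all degrees of the core are `≥ 2`: an interior vertex of a reduced reading carries two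
different signed letters; a base vertex carries `(none,true)` and `(none,false)`. -/
theorem coreF_D2 (e : Env) {S : Type} (𝒢 : Fld (Lab e.g) e.X S) (b : S)
    (h : Base e 𝒢 b) : D2 e (coreF e 𝒢 b) := by
  classical
  intro u hu
  have key : ∀ E E' : Lab e.g × Bool, E ≠ E' →
      (∃ z, Stp ((coreF e 𝒢 b).G e.val) E u z) → (∃ z, Stp ((coreF e 𝒢 b).G e.val) E' u z) →
      2 ≤ deg ((coreF e 𝒢 b).G e.val) u := by
    intro E E' hne h1 h2
    unfold deg
    refine Nat.succ_le_of_lt (Finset.one_lt_card.2 ⟨E, ?_, E', ?_, hne⟩)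
    · simpa using h1
    · simpa using h2
  have kbase : ∀ y : e.X, u = (y, b) → 2 ≤ deg ((coreF e 𝒢 b).G e.val) u := by
    rintro y rfl
    refine key (none, true) (none, false) (by simp) ⟨((e.val none)⁻¹ • y, b), ?_⟩
      ⟨(e.val none • y, b), ?_⟩
    · simp only [Stp, if_true]
      exact base_edge e 𝒢 b h.base_t y
    · simp only [Stp, Bool.false_eq_true, if_false]
      have := base_edge e 𝒢 b h.base_t (e.val none • y)
      rwa [inv_smul_smul] at this
  obtain ⟨a, v, hav⟩ := hu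
  rcases hav with hav | hav
  · -- `u` is the source
    obtain ⟨hG1, w₁, w₂, y, y', hred, h1, h2⟩ := (coreG_iff e 𝒢 b).1 hav
    rcases List.eq_nil_or_concat w₁ with rfl | ⟨w', E, hw⟩
    · exact kbase y (Eq.symm h1)
    · rw [List.concat_eq_append] at hw
      subst hw
      obtain ⟨q, hq1, q', hq2, hq3⟩ := rd_append.1 h1
      have hq3' : q' = u := hq3
      rw [hq3'] at hq2
      have hc : Stp ((coreF e 𝒢 b).G e.val) E q u := by
        refine core_split e 𝒢 b (w₁ := w') (w₂ := (a, true) :: w₂) (y := y) (y' := y') ?_ hq1 hq2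
          ⟨v, ?_, h2⟩
        · simpa using hred
        · simp only [Stp, if_true]; exact hG1
      refine key (a, true) (E.1, !E.2) ?_ ⟨v, ?_⟩ ⟨q, stp_inv.2 hc⟩
      · intro heq
        have hred' : Red ((w' ++ [E]) ++ (a, true) :: w₂) := hred
        unfold Red at hred'
        rw [List.isChain_append] at hred'
        have h3 := hred'.2.2 E (by simp) (a, true) (by simp)
        apply h3
        rw [heq]
        simp
      · simp only [Stp, if_true]; exact hav
  · -- `u` is the target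
    obtain ⟨hG1, w₁, w₂, y, y', hred, h1, h2⟩ := (coreG_iff e 𝒢 b).1 hav
    cases w₂ with
    | nil =>
      exact kbase y' h2
    | cons E w₂ =>
      obtain ⟨q, hq1, hq2⟩ := h2
      have hc : Stp ((coreF e 𝒢 b).G e.val) E u q := by
        refine core_split e 𝒢 b (w₁ := w₁ ++ [(a, true)]) (w₂ := w₂) (y := y) (y' := y') ?_
          (rd_append.2 ⟨v, h1, u, ?_, rfl⟩) hq1 hq2
        · simpa using hred
        · simp only [Stp, if_true]; exact hG1
      refine key (a, false) E ?_ ⟨v, ?_⟩ ⟨q, hc⟩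
      · intro heq
        have hred' : Red (w₁ ++ ((a, true) :: E :: w₂)) := hred
        unfold Red at hred'
        rw [List.isChain_append] at hred'
        have h3 := hred'.2.1
        rw [List.isChain_cons_cons] at h3
        apply h3.1
        rw [← heq]
        simp
      · simp only [Stp, Bool.false_eq_true, if_false]; exact hav

theorem coreF_base (e : Env) {S : Type} [Countable S] (𝒢 : Fld (Lab e.g) e.X S) (b : S)
    (h : Base e 𝒢 b) : Base e (coreF e 𝒢 b) b := by
  have hG := h.folded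
  refine ⟨coreF_meas e 𝒢 b h.meas, ⟨?_, ?_⟩, ?_, ?_, ?_, ?_⟩
  · intro a u v v' h1 h2
    exact hG.1 _ _ _ _ (core_le e 𝒢 b h1) (core_le e 𝒢 b h2)
  · intro a u u' v h1 h2
    exact hG.2 _ _ _ _ (core_le e 𝒢 b h1) (core_le e 𝒢 b h2)
  · intro x
    exact (base_edge e 𝒢 b h.base_t x).2
  · rintro u ⟨a, v, hav | hav⟩
    · obtain ⟨hG1, w₁, w₂, y, y', hred, h1, h2⟩ := (coreG_iff e 𝒢 b).1 hav
      refine ⟨w₁, y, core_rd_left e 𝒢 b hG hred h1 (y' := y') ⟨v, ?_, h2⟩⟩
      simp only [Stp, if_true]; exact hG1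
    · obtain ⟨hG1, w₁, w₂, y, y', hred, h1, h2⟩ := (coreG_iff e 𝒢 b).1 hav
      refine ⟨w₁ ++ [(a, true)], y, core_rd_left e 𝒢 b hG (w₂ := w₂) ?_
        (rd_append.2 ⟨v, h1, u, ?_, rfl⟩) h2⟩
      · simpa using hred
      · simp only [Stp, if_true]; exact hG1
  · intro x γ
    obtain ⟨w, hw⟩ := h.gen x γ
    obtain ⟨r', hr'⟩ := rs_of_rd (f := fun _ _ _ => 0) hw
    obtain ⟨w', h1, _, _, h4⟩ := hG.rs_reduce hr'
    exact ⟨w', core_rd e 𝒢 b h1 (rd_of_rs h4)⟩
  · refine ne_top_of_le_ne_top h.fin (cnt_mono ?_)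
    intro p x hx
    exact hx.1

/-- PRUNE. -/
theorem prune (e : Env) {S : Type} [Countable S] (𝒢 : Fld (Lab e.g) e.X S) (b : S)
    (h : Good e 𝒢 b) :
    ∃ 𝒢' : Fld (Lab e.g) e.X S, Good e 𝒢' b ∧ D2 e 𝒢' ∧ cnt e.μ 𝒢'.Es ≤ cnt e.μ 𝒢.Es ∧
      cnt e.μ (closedAt e 𝒢 0) ≤ cnt e.μ (closedAt e 𝒢' 0) := by
  have hb := coreF_base e 𝒢 b h.toBase
  refine ⟨coreF e 𝒢 b, ⟨hb, ?_, ?_⟩, coreF_D2 e 𝒢 b h.toBase, ?_, ?_⟩
  · -- the same rows: an `F` supported on the core is killed by the loops of `𝒢` (they lie in the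
    -- core), and base-base readings of the core are readings of `𝒢`
    obtain ⟨Q, hQ, A, Φ, hA, hΦ, hcnt, hc⟩ := h.coc
    refine ⟨Q, hQ, A, Φ, hA, hΦ, hcnt, ?_⟩
    intro F h1 h2 h3 h4 w x y r hr
    refine hc F ?_ h2 h3 ?_ w x y r (coreF_sub e 𝒢 b hr)
    · intro x a n m hx
      exact h1 x a n m fun hx' => hx hx'.1
    · intro s i x r hx hr
      have := coreF_loop e 𝒢 b h.toBase hx hr
      exact h4 s i x r (rd_of_rs this) this
  · exact mono_cap e 𝒢 b h (coreF e 𝒢 b) (coreF_meas e 𝒢 b h.meas)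
      (fun a n m x hx => hx.1) hb.base_t
  · exact cnt_mono fun p x hx => hx.1
  · refine cnt_mono fun p x hx => ?_
    obtain ⟨r, hr⟩ := rs_of_rd (f := fun _ _ _ => 0) (G := 𝒢.G e.val) hx
    exact rd_of_rs (coreF_loop e 𝒢 b h.toBase hx hr)

end Crest.Agent.R191
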