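import Crest.Agent.R191.StageMain
import Crest.Agent.R191.Prune
import Crest.Agent.R191.Collapse
import Crest.Agent.R191.Blk

/-!
# R191: near-minimizers, rounds, final contradiction (helper49)
-/

set_option autoImplicit false

namespace Crest.Agent.R191

open MeasureTheory
open scoped ENNReal

/-- `Λ = E - 61 F` -/
noncomputable def Lam (e : Env) {S : Type} (𝒢 : Fld (Lab e.g) e.X S) : ℝ :=
  (cnt e.μ 𝒢.Es).toReal - 61 * (cnt e.μ (closedAt e 𝒢 0)).toReal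

/-- `Λ₀` is a lower bound of `Λ` on the class -/
def LB (e : Env) (Λ₀ : ℝ) : Prop :=
  ∀ (S : Type) (_ : Countable S) (𝒢 : Fld (Lab e.g) e.X S) (b : S), Good e 𝒢 b → Λ₀ ≤ Lam e 𝒢

/-- near-minimizers -/
structure NearMin (e : Env) (Λ₀ : ℝ) {S : Type} (𝒢 : Fld (Lab e.g) e.X S) (b : S) : Prop where
  good : Good e 𝒢 b
  d2 : D2 e 𝒢
  le : Lam e 𝒢 ≤ Λ₀ + e.δ / 10

theorem closed_le_long_add_short (e : Env) {S : Type} [Countable S]
    (𝒢 : Fld (Lab e.g) e.X S) :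
    cnt e.μ (closedAt e 𝒢 0) ≤ cnt e.μ (longAt e 𝒢) + cnt e.μ (shortAt e 𝒢) := by
  refine le_trans (cnt_mono fun p x hx => ?_) (cnt_union_le _ _)
  by_cases h : x ∈ longAt e 𝒢 p
  · exact Or.inl h
  · exact Or.inr ⟨hx, h⟩

theorem long_fin (e : Env) {S : Type} [Countable S] {𝒢 : Fld (Lab e.g) e.X S} {b : S}
    (h : Good e 𝒢 b) : cnt e.μ (longAt e 𝒢) ≠ ⊤ := by
  obtain ⟨𝒢', -, h1, -⟩ := collapse h
  intro htop
  rw [htop] at h1
  have : (62 : ℝ≥0∞) * ⊤ = ⊤ := by simp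
  rw [this, add_top] at h1
  exact h.fin (top_le_iff.1 h1)

theorem short_fin (e : Env) {S : Type} [Countable S] {𝒢 : Fld (Lab e.g) e.X S} {b : S}
    (h : Good e 𝒢 b) (h2 : D2 e 𝒢) : cnt e.μ (shortAt e 𝒢) ≠ ⊤ := by
  have h1 := short_le e 𝒢 b h h2
  intro htop
  rw [htop] at h1
  have : (2000 : ℝ≥0∞) * ⊤ = ⊤ := by simp
  rw [this, top_add] at h1
  have h3 : (368 : ℝ≥0∞) * cnt e.μ 𝒢.Es ≠ ⊤ := ENNReal.mul_ne_top (by simp) h.fin
  exact h3 (top_le_iff.1 h1)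

theorem closed_fin_D2 (e : Env) {S : Type} [Countable S] {𝒢 : Fld (Lab e.g) e.X S} {b : S}
    (h : Good e 𝒢 b) (h2 : D2 e 𝒢) : cnt e.μ (closedAt e 𝒢 0) ≠ ⊤ :=
  ne_top_of_le_ne_top (ENNReal.add_ne_top.2 ⟨long_fin e h, short_fin e h h2⟩)
    (closed_le_long_add_short e 𝒢)

/-- the number of closed loops is finite -/
theorem closed_fin (e : Env) {S : Type} [Countable S] {𝒢 : Fld (Lab e.g) e.X S} {b : S}
    (h : Good e 𝒢 b) : cnt e.μ (closedAt e 𝒢 0) ≠ ⊤ := by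
  obtain ⟨𝒢', hg, hd, -, h4⟩ := prune e 𝒢 b h
  exact ne_top_of_le_ne_top (closed_fin_D2 e hg hd) h4

/-- the numerical relations, in real numbers -/
theorem real_rel (e : Env) {S : Type} [Countable S] {𝒢 : Fld (Lab e.g) e.X S} {b : S}
    (h : Good e 𝒢 b) (h2 : D2 e 𝒢) :
    ∃ E V F L Sh : ℝ, E = (cnt e.μ 𝒢.Es).toReal ∧ F = (cnt e.μ (closedAt e 𝒢 0)).toReal ∧
      0 ≤ E ∧ 0 ≤ V ∧ 0 ≤ F ∧ 0 ≤ L ∧ 0 ≤ Sh ∧ F ≤ L + Sh ∧ 2000 * Sh + 368 * V ≤ 368 * E ∧
      E ≤ V + 2 * e.δ ∧ E ≤ V + (e.δ + F) ∧ L = (cnt e.μ (longAt e 𝒢)).toReal ∧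
      62 * L ≤ E := by
  have hδ := e.δpos
  have hE := h.fin
  have hV := Vs_fin e 𝒢 b h.toBase
  have hF := closed_fin_D2 e h h2
  have hL := long_fin e h
  have hS := short_fin e h h2
  refine ⟨_, (cnt e.μ (𝒢.Vs e.val)).toReal, _, _, (cnt e.μ (shortAt e 𝒢)).toReal, rfl, rfl,
    ENNReal.toReal_nonneg, ENNReal.toReal_nonneg, ENNReal.toReal_nonneg,
    ENNReal.toReal_nonneg (a := cnt e.μ (longAt e 𝒢)), ENNReal.toReal_nonneg, ?_, ?_, ?_, ?_,
    rfl, ?_⟩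
  · rw [← ENNReal.toReal_add hL hS]
    exact ENNReal.toReal_mono (ENNReal.add_ne_top.2 ⟨hL, hS⟩) (closed_le_long_add_short e 𝒢)
  · have h1 := ENNReal.toReal_mono (ENNReal.mul_ne_top (by simp) hE) (short_le e 𝒢 b h h2)
    rw [ENNReal.toReal_add (ENNReal.mul_ne_top (by simp) hS) (ENNReal.mul_ne_top (by simp) hV)] at h1
    simpa [ENNReal.toReal_mul] using h1
  · have h1 := ENNReal.toReal_mono (ENNReal.add_ne_top.2 ⟨hV, ENNReal.ofReal_ne_top⟩) h.cap
    rwa [ENNReal.toReal_add hV ENNReal.ofReal_ne_top, ENNReal.toReal_ofReal (by positivity)] at h1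
  · have h1 := ENNReal.toReal_mono (ENNReal.add_ne_top.2 ⟨hV, ENNReal.add_ne_top.2
      ⟨ENNReal.ofReal_ne_top, hF⟩⟩) (star_good e 𝒢 b h)
    rwa [ENNReal.toReal_add hV (ENNReal.add_ne_top.2 ⟨ENNReal.ofReal_ne_top, hF⟩),
      ENNReal.toReal_add ENNReal.ofReal_ne_top hF, ENNReal.toReal_ofReal hδ.le] at h1
  · obtain ⟨𝒢', -, h1, -⟩ := collapse h
    have h3 : 62 * cnt e.μ (longAt e 𝒢) ≤ cnt e.μ 𝒢.Es := le_trans le_add_self h1
    have h4 := ENNReal.toReal_mono hE h3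
    simpa [ENNReal.toReal_mul] using h4

theorem lam_lower_D2 (e : Env) {S : Type} [Countable S] {𝒢 : Fld (Lab e.g) e.X S} {b : S}
    (h : Good e 𝒢 b) (h2 : D2 e 𝒢) : -1 ≤ Lam e 𝒢 := by
  obtain ⟨E, V, F, L, Sh, hE, hF, h1, h2, h3, h4, h5, h6, h7, h8, h9, h10, h11⟩ := real_rel e h h2
  unfold Lam
  rw [← hE, ← hF]
  have := e.num4
  nlinarith

theorem lam_prune (e : Env) {S : Type} [Countable S] {𝒢 : Fld (Lab e.g) e.X S} {b : S}
    (h : Good e 𝒢 b) : ∃ 𝒢' : Fld (Lab e.g) e.X S, Good e 𝒢' b ∧ D2 e 𝒢' ∧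
      Lam e 𝒢' ≤ Lam e 𝒢 := by
  obtain ⟨𝒢', hg, hd, h3, h4⟩ := prune e 𝒢 b h
  refine ⟨𝒢', hg, hd, ?_⟩
  have h5 := ENNReal.toReal_mono h.fin h3
  have h6 := ENNReal.toReal_mono (closed_fin_D2 e hg hd) h4
  unfold Lam
  linarith

/-- `Λ ≥ -1` on the class, so near-minimizers exist -/
theorem exists_nearMin (e : Env) (hex : ∃ (S : Type) (_ : Countable S)
    (𝒢 : Fld (Lab e.g) e.X S) (b : S), Good e 𝒢 b) :
    ∃ Λ₀, LB e Λ₀ ∧ ∃ (S : Type) (_ : Countable S) (𝒢 : Fld (Lab e.g) e.X S) (b : S),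
      NearMin e Λ₀ 𝒢 b := by
  set A : Set ℝ := {r | ∃ (S : Type) (_ : Countable S) (𝒢 : Fld (Lab e.g) e.X S) (b : S),
    Good e 𝒢 b ∧ Lam e 𝒢 = r} with hA
  have hne : A.Nonempty := by
    obtain ⟨S, hS, 𝒢, b, h⟩ := hex
    exact ⟨_, S, hS, 𝒢, b, h, rfl⟩
  have hbdd : BddBelow A := by
    refine ⟨-1, ?_⟩
    rintro r ⟨S, hS, 𝒢, b, h, rfl⟩
    obtain ⟨𝒢', h1, h2, h3⟩ := lam_prune e h
    exact (lam_lower_D2 e h1 h2).trans h3
  have hδ := e.δpos
  refine ⟨sInf A, ?_, ?_⟩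
  · intro S hS 𝒢 b h
    exact csInf_le hbdd ⟨S, hS, 𝒢, b, h, rfl⟩
  · obtain ⟨r, ⟨S, hS, 𝒢, b, h, rfl⟩, hr⟩ :=
      exists_lt_of_csInf_lt hne (show sInf A < sInf A + e.δ / 10 by linarith)
    obtain ⟨𝒢', h1, h2, h3⟩ := lam_prune e h
    exact ⟨S, hS, 𝒢', b, h1, h2, by linarith⟩

/-- near-minimizers have few loops: `F ≤ δ/2` -/
theorem near_F (e : Env) {Λ₀ : ℝ} (hLB : LB e Λ₀) {S : Type} [Countable S]
    {𝒢 : Fld (Lab e.g) e.X S} {b : S} (h : NearMin e Λ₀ 𝒢 b) :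
    cnt e.μ (closedAt e 𝒢 0) ≤ ENNReal.ofReal (e.δ / 2) := by
  have hδ := e.δpos
  obtain ⟨E, V, F, L, Sh, hE, hF, h1, h2, h3, h4, h5, h6, h7, h8, h9, h10, h11⟩ :=
    real_rel e h.good h.d2
  have hFf := closed_fin_D2 e h.good h.d2
  rw [← ENNReal.ofReal_toReal hFf, ← hF]
  refine ENNReal.ofReal_le_ofReal ?_
  -- collapse
  obtain ⟨𝒢', hg', hc1, hc2⟩ := collapse h.good
  have hLf := long_fin e h.good
  have hF'f := closed_fin e hg'
  have hlb := hLB S inferInstance 𝒢' b hg'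
  have hc1' := ENNReal.toReal_mono h.good.fin hc1
  rw [ENNReal.toReal_add hg'.fin (ENNReal.mul_ne_top (by simp) hLf)] at hc1'
  have hc2' := ENNReal.toReal_mono (ENNReal.add_ne_top.2 ⟨hF'f, hLf⟩) hc2
  rw [ENNReal.toReal_add hF'f hLf] at hc2'
  have hle := h.le
  unfold Lam at hlb hle
  simp only [ENNReal.toReal_mul, ENNReal.toReal_ofNat] at hc1'
  rw [← hE, ← h10] at hc1'
  rw [← hF, ← h10] at hc2'
  rw [← hE, ← hF] at hle
  have hL : L ≤ e.δ / 10 := by linarith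
  nlinarith


/-- MID: subfamilies of intermediate measure (use `Env.small`) -/
theorem exists_mid (e : Env) {P : Type} [Countable P] (B : P → Set e.X)
    (hB : ∀ p, MeasurableSet (B p)) (hlt : ENNReal.ofReal (e.δ / 10) < cnt e.μ B) :
    ∃ A : P → Set e.X, (∀ p, MeasurableSet (A p)) ∧ (∀ p, A p ⊆ B p) ∧
      ENNReal.ofReal (e.δ / 10) < cnt e.μ A ∧ cnt e.μ A ≤ ENNReal.ofReal (e.δ / 4) := by
  classical
  have hδ := e.δpos
  obtain ⟨N, D, hD, hU, hsm⟩ := e.small (e.δ / 10) (by positivity)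
  -- disjointify
  let D' : Fin N → Set e.X := fun j => D j \ ⋃ i : Fin N, ⋃ _ : i < j, D i
  have hD'm : ∀ j, MeasurableSet (D' j) := fun j =>
    (hD j).diff (MeasurableSet.iUnion fun i => MeasurableSet.iUnion fun _ => hD i)
  have hD'd : Pairwise (Function.onFun Disjoint D') := by
    intro i j hij
    rw [Function.onFun, Set.disjoint_left]
    rintro x ⟨hx1, hx2⟩ ⟨hx3, hx4⟩
    rcases lt_or_gt_of_ne hij with h | h
    · exact hx4 (Set.mem_iUnion.2 ⟨i, Set.mem_iUnion.2 ⟨h, hx1⟩⟩)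
    · exact hx2 (Set.mem_iUnion.2 ⟨j, Set.mem_iUnion.2 ⟨h, hx3⟩⟩)
  have hD'U : (⋃ j, D' j) = Set.univ := by
    rw [Set.eq_univ_iff_forall]
    intro x
    have hx : x ∈ ⋃ j, D j := by rw [hU]; trivial
    obtain ⟨j, hj⟩ := Set.mem_iUnion.1 hx
    -- least j
    have hex : ∃ n : ℕ, ∃ h : n < N, x ∈ D ⟨n, h⟩ := ⟨j.1, j.2, hj⟩
    obtain ⟨hn, hxn⟩ := Nat.find_spec hex
    refine Set.mem_iUnion.2 ⟨⟨Nat.find hex, hn⟩, hxn, ?_⟩
    intro hx'
    obtain ⟨i, hi⟩ := Set.mem_iUnion.1 hx'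
    obtain ⟨hlt', hi'⟩ := Set.mem_iUnion.1 hi
    exact Nat.find_min hex (m := i.1) hlt' ⟨i.2, hi'⟩
  let a : P × Fin N → ℝ≥0∞ := fun q => e.μ (B q.1 ∩ D' q.2)
  have ha : ∀ q, a q ≤ ENNReal.ofReal (e.δ / 10) := fun q =>
    (measure_mono (Set.inter_subset_right.trans Set.sdiff_subset)).trans (hsm q.2)
  have hBsum : ∀ p, e.μ (B p) = ∑ j, a (p, j) := by
    intro p
    have h1 : B p = ⋃ j, (B p ∩ D' j) := by
      rw [← Set.inter_iUnion, hD'U, Set.inter_univ]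
    conv_lhs => rw [h1]
    rw [measure_iUnion, tsum_fintype]
    · intro i j hij
      exact Disjoint.mono Set.inter_subset_right Set.inter_subset_right (hD'd hij)
    · exact fun j => (hB p).inter (hD'm j)
  have hcB : cnt e.μ B = ∑' q, a q := by
    unfold cnt
    rw [ENNReal.tsum_prod']
    refine tsum_congr fun p => ?_
    rw [hBsum p, tsum_fintype]
  rw [hcB, ENNReal.tsum_eq_iSup_sum] at hlt
  obtain ⟨s, hs⟩ := lt_iSup_iff.1 hlt
  have key : ∀ s : Finset (P × Fin N), ENNReal.ofReal (e.δ / 10) < ∑ q ∈ s, a q →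
      ∃ s' : Finset (P × Fin N), ENNReal.ofReal (e.δ / 10) < ∑ q ∈ s', a q ∧
        ∑ q ∈ s', a q ≤ ENNReal.ofReal (e.δ / 10) + ENNReal.ofReal (e.δ / 10) := by
    intro s
    induction s using Finset.induction_on with
    | empty => intro h; simp at h
    | insert i s his ih =>
      intro h
      by_cases h' : ENNReal.ofReal (e.δ / 10) < ∑ q ∈ s, a q
      · exact ih h'
      · refine ⟨insert i s, h, ?_⟩
        rw [Finset.sum_insert his]
        exact add_le_add (ha i) (not_lt.1 h')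
  obtain ⟨s', hs1, hs2⟩ := key s hs
  let A : P → Set e.X := fun p => ⋃ j : Fin N, ⋃ _ : (p, j) ∈ s', (B p ∩ D' j)
  have hAm : ∀ p, MeasurableSet (A p) := fun p =>
    MeasurableSet.iUnion fun j => MeasurableSet.iUnion fun _ => (hB p).inter (hD'm j)
  have hAB : ∀ p, A p ⊆ B p := by
    intro p x hx
    obtain ⟨j, hj⟩ := Set.mem_iUnion.1 hx
    obtain ⟨-, hj'⟩ := Set.mem_iUnion.1 hj
    exact hj'.1
  have hAsum : ∀ p, e.μ (A p) = ∑ j, if (p, j) ∈ s' then a (p, j) else 0 := by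
    intro p
    have h1 : A p = ⋃ j ∈ (Finset.univ.filter fun j : Fin N => (p, j) ∈ s'), (B p ∩ D' j) := by
      simp [A]
    rw [h1, measure_biUnion_finset, Finset.sum_filter]
    · intro i _ j _ hij
      exact Disjoint.mono Set.inter_subset_right Set.inter_subset_right (hD'd hij)
    · exact fun j _ => (hB p).inter (hD'm j)
  have hcA : cnt e.μ A = ∑ q ∈ s', a q := by
    unfold cnt
    have h1 : ∑' p, e.μ (A p) = ∑' q : P × Fin N, if q ∈ s' then a q else 0 := by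
      rw [ENNReal.tsum_prod']
      refine tsum_congr fun p => ?_
      rw [hAsum p, tsum_fintype]
    rw [h1, tsum_eq_sum (s := s')]
    · exact Finset.sum_congr rfl fun q hq => by simp [hq]
    · intro q hq; simp [hq]
  refine ⟨A, hAm, hAB, by rw [hcA]; exact hs1, ?_⟩
  rw [hcA]
  refine hs2.trans ?_
  rw [← ENNReal.ofReal_add (by positivity) (by positivity)]
  exact ENNReal.ofReal_le_ofReal (by linarith)

/-- real form of the conclusion of `stage` -/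
theorem lam_stage (e : Env) {S S' : Type} [Countable S] [Countable S']
    {𝒢 : Fld (Lab e.g) e.X S} {b : S} {𝒢' : Fld (Lab e.g) e.X S'} {b' : S'}
    (h : Good e 𝒢 b) (h' : Good e 𝒢' b') {a : ℝ≥0∞} (ha : a ≠ ⊤)
    (hle : cnt e.μ 𝒢'.Es + 61 * cnt e.μ (closedAt e 𝒢 0) + a ≤
        cnt e.μ 𝒢.Es + 61 * cnt e.μ (closedAt e 𝒢' 0)) :
    Lam e 𝒢' + a.toReal ≤ Lam e 𝒢 := by
  have hF := closed_fin e h
  have hF' := closed_fin e h'
  have hE := h.fin
  have hE' := h'.fin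
  have h61 : (61 : ℝ≥0∞) ≠ ⊤ := by simp
  have h1 := ENNReal.toReal_mono
    (ENNReal.add_ne_top.2 ⟨hE, ENNReal.mul_ne_top h61 hF'⟩) hle
  rw [ENNReal.toReal_add (ENNReal.add_ne_top.2 ⟨hE', ENNReal.mul_ne_top h61 hF⟩) ha,
    ENNReal.toReal_add hE' (ENNReal.mul_ne_top h61 hF),
    ENNReal.toReal_add hE (ENNReal.mul_ne_top h61 hF')] at h1
  simp only [ENNReal.toReal_mul, ENNReal.toReal_ofNat] at h1
  unfold Lam
  linarith

/-- near-minimizers have few near-complete open readings -/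
theorem near_N (e : Env) {Λ₀ : ℝ} (hLB : LB e Λ₀) {S : Type} [Countable S]
    {𝒢 : Fld (Lab e.g) e.X S} {b : S} (h : NearMin e Λ₀ 𝒢 b) (k : ℕ) :
    cnt e.μ (nearAt e 𝒢 k) ≤ ENNReal.ofReal (e.δ / 10) := by
  by_contra hcon
  rw [not_le] at hcon
  have hδ := e.δpos
  obtain ⟨A, hA1, hA2, hA3, hA4⟩ := exists_mid e (nearAt e 𝒢 k)
    (fun p => meas_nearAt e h.good.meas k p) hcon
  obtain ⟨S', hS', 𝒢', b', ι, hg', -, -, -, -, hle⟩ :=
    stage e h.good h.d2 (near_F e hLB h) k A hA1 hA2 hA4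
  have hAf : cnt e.μ A ≠ ⊤ := ne_top_of_le_ne_top ENNReal.ofReal_ne_top hA4
  have h1 := lam_stage e h.good hg' hAf hle
  have h2 := hLB S' hS' 𝒢' b' hg'
  have h3 := h.le
  have h4 : e.δ / 10 < (cnt e.μ A).toReal :=
    (ENNReal.ofReal_lt_iff_lt_toReal (by positivity) hAf).1 hA3
  linarith

/-- readings are preserved by morphisms -/
theorem mor_rd {g : ℕ} {X S S' : Type} {G : Lab g → X × S → X × S → Prop}
    {G' : Lab g → X × S' → X × S' → Prop} {ι : X → S → S'}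
    (hι : ∀ a u v, G a u v → G' a (u.1, ι u.1 u.2) (v.1, ι v.1 v.2))
    {w : List (Lab g × Bool)} {u v : X × S} (h : Rd G w u v) :
    Rd G' w (u.1, ι u.1 u.2) (v.1, ι v.1 v.2) := by
  induction w generalizing u with
  | nil => rw [show u = v from h]; rfl
  | cons e w ih =>
    obtain ⟨z, h1, h2⟩ := h
    refine ⟨_, ?_, ih h2⟩
    unfold Stp at h1 ⊢
    split_ifs at h1 ⊢ with hb
    · exact hι _ _ _ h1
    · exact hι _ _ _ h1

/-- one step for a fixed rotation `k` -/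
theorem near_step (e : Env) {Λ₀ : ℝ} (hLB : LB e Λ₀) {S : Type} [Countable S]
    {𝒢 : Fld (Lab e.g) e.X S} {b : S} (h : NearMin e Λ₀ 𝒢 b) (k : ℕ) :
    ∃ (S' : Type) (_ : Countable S') (𝒢' : Fld (Lab e.g) e.X S') (b' : S')
      (ι : e.X → S → S'), NearMin e Λ₀ 𝒢' b' ∧ (∀ x, ι x b = b') ∧
      (∀ a u v, (𝒢.G e.val) a u v → (𝒢'.G e.val) a (u.1, ι u.1 u.2) (v.1, ι v.1 v.2)) ∧
      (∀ s i x, (∃ v, Rd (𝒢.G e.val) (seg e.c e.ℓ i k (e.ℓ - 57)) (x, s) v) →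
        x ∈ closedAt e 𝒢' k (ι x s, i)) := by
  have hδ := e.δpos
  have hN := near_N e hLB h k
  obtain ⟨S', hS', 𝒢', b', ι, hg', hd', hb', hι, hcl, hle⟩ :=
    stage e h.good h.d2 (near_F e hLB h) k (nearAt e 𝒢 k)
      (fun p => meas_nearAt e h.good.meas k p) (fun p => subset_rfl)
      (hN.trans (ENNReal.ofReal_le_ofReal (by linarith)))
  have h1 := lam_stage e h.good hg' (ne_top_of_le_ne_top ENNReal.ofReal_ne_top hN) hle
  have h2 : 0 ≤ (cnt e.μ (nearAt e 𝒢 k)).toReal := ENNReal.toReal_nonneg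
  refine ⟨S', hS', 𝒢', b', ι, ⟨hg', hd', by linarith [h.le]⟩, hb', hι, ?_⟩
  intro s i x hx
  by_cases hc : x ∈ closedAt e 𝒢 k (s, i)
  · exact mor_rd hι hc
  · exact hcl s i x ⟨hx, hc⟩

/-- one round: all rotations `k < ℓ + 3` -/
theorem near_round (e : Env) {Λ₀ : ℝ} (hLB : LB e Λ₀) {S : Type} [Countable S]
    {𝒢 : Fld (Lab e.g) e.X S} {b : S} (h : NearMin e Λ₀ 𝒢 b) :
    ∃ (S' : Type) (_ : Countable S') (𝒢' : Fld (Lab e.g) e.X S') (b' : S')
      (ι : e.X → S → S'), NearMin e Λ₀ 𝒢' b' ∧ (∀ x, ι x b = b') ∧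
      (∀ a u v, (𝒢.G e.val) a u v → (𝒢'.G e.val) a (u.1, ι u.1 u.2) (v.1, ι v.1 v.2)) ∧
      (∀ k s i x, (∃ v, Rd (𝒢.G e.val) (seg e.c e.ℓ i k (e.ℓ - 57)) (x, s) v) →
        x ∈ closedAt e 𝒢' k (ι x s, i)) := by
  have key : ∀ K : ℕ, ∃ (S' : Type) (_ : Countable S') (𝒢' : Fld (Lab e.g) e.X S') (b' : S')
      (ι : e.X → S → S'), NearMin e Λ₀ 𝒢' b' ∧ (∀ x, ι x b = b') ∧
      (∀ a u v, (𝒢.G e.val) a u v → (𝒢'.G e.val) a (u.1, ι u.1 u.2) (v.1, ι v.1 v.2)) ∧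
      (∀ k, k < K → ∀ s i x, (∃ v, Rd (𝒢.G e.val) (seg e.c e.ℓ i k (e.ℓ - 57)) (x, s) v) →
        x ∈ closedAt e 𝒢' k (ι x s, i)) := by
    intro K
    induction K with
    | zero =>
      exact ⟨S, inferInstance, 𝒢, b, fun _ s => s, h, fun _ => rfl, fun _ _ _ h => h,
        fun k hk => absurd hk (by omega)⟩
    | succ K ih =>
      obtain ⟨S₁, hS₁, 𝒢₁, b₁, ι₁, hn₁, hb₁, hι₁, hcl₁⟩ := ih
      obtain ⟨S₂, hS₂, 𝒢₂, b₂, ι₂, hn₂, hb₂, hι₂, hcl₂⟩ := near_step e hLB hn₁ K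
      refine ⟨S₂, hS₂, 𝒢₂, b₂, fun x s => ι₂ x (ι₁ x s), hn₂, fun x => by simp only [hb₁, hb₂],
        fun a u v huv => hι₂ _ _ _ (hι₁ _ _ _ huv), ?_⟩
      intro k hk s i x hx
      rcases Nat.lt_succ_iff_lt_or_eq.1 hk with hk' | rfl
      · have h1 := hcl₁ k hk' s i x hx
        exact mor_rd hι₂ h1
      · obtain ⟨v, hv⟩ := hx
        exact hcl₂ (ι₁ x s) i x ⟨_, mor_rd hι₁ hv⟩
  obtain ⟨S', hS', 𝒢', b', ι, h1, h2, h3, h4⟩ := key (e.ℓ + 3)
  refine ⟨S', hS', 𝒢', b', ι, h1, h2, h3, ?_⟩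
  intro k s i x hx
  have hk : k % (e.ℓ + 3) < e.ℓ + 3 := Nat.mod_lt _ (by omega)
  have h5 := h4 (k % (e.ℓ + 3)) hk s i x (by
    rw [seg_mod i (k % (e.ℓ + 3)) k _ (Nat.mod_mod _ _)]
    exact hx)
  unfold closedAt at h5 ⊢
  rw [Set.mem_setOf_eq] at h5 ⊢
  rw [seg_mod i (k % (e.ℓ + 3)) k _ (Nat.mod_mod _ _)] at h5
  exact h5

/-- points whose base vertex is joined to the base vertex of `s_{i0}`-neighbour by a reading of
length `≤ L` -/
def shortP (e : Env) {S : Type} (𝒢 : Fld (Lab e.g) e.X S) (b : S) (L : ℕ) : Set e.X :=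
  {x | ∃ w, w.length ≤ L ∧ Rd (𝒢.G e.val) w (x, b) ((e.val (some e.i0))⁻¹ • x, b)}

/-- the value of a reading between base vertices, by freeness -/
theorem wval_of_rd (e : Env) {S : Type} {𝒢 : Fld (Lab e.g) e.X S} {b : S}
    {w : List (Lab e.g × Bool)} {x : e.X} {γ : e.Γ}
    (h : Rd (𝒢.G e.val) w (x, b) (γ⁻¹ • x, b)) : wval e.val w = γ := by
  have h1 := rd_point h
  simp only at h1
  have h2 : (γ * (wval e.val w)⁻¹) • x = x := by
    rw [mul_smul, ← h1, smul_inv_smul]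
  have h3 := e.free _ _ h2
  exact (mul_inv_eq_one.1 h3).symm

/-- after a round the words get shorter (Dehn) -/
theorem round_short (e : Env) {S S' : Type} {𝒢 : Fld (Lab e.g) e.X S} {b : S}
    {𝒢' : Fld (Lab e.g) e.X S'} {b' : S'} {ι : e.X → S → S'}
    (hf : Folded (𝒢.G e.val)) (hf' : Folded (𝒢'.G e.val)) (hb : ∀ x, ι x b = b')
    (hι : ∀ a u v, (𝒢.G e.val) a u v → (𝒢'.G e.val) a (u.1, ι u.1 u.2) (v.1, ι v.1 v.2))
    (hcl : ∀ k s i x, (∃ v, Rd (𝒢.G e.val) (seg e.c e.ℓ i k (e.ℓ - 57)) (x, s) v) →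
        x ∈ closedAt e 𝒢' k (ι x s, i)) {L : ℕ} (hL : 1 ≤ L) :
    shortP e 𝒢 b (L + 1) ⊆ shortP e 𝒢' b' L := by
  rintro x ⟨w, hwL, hw⟩
  obtain ⟨r, hr⟩ := rs_of_rd (f := fun _ _ _ => 0) hw
  obtain ⟨w', hred, -, hlen, hr'⟩ := hf.rs_reduce hr
  have hw' := rd_of_rs hr'
  have hval := wval_of_rd e hw'
  have hbig := e.cw.big
  -- endpoint in the new graph
  have hend : ∀ {w : List (Lab e.g × Bool)} {u v : e.X × S}, Rd (𝒢.G e.val) w u v →
      Rd (𝒢'.G e.val) w (u.1, ι u.1 u.2) (v.1, ι v.1 v.2) := fun h => mor_rd hι h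
  rcases e.dehn w' hred hval with rfl | ⟨i, k, hcase⟩
  · refine ⟨[(some e.i0, true)], by simpa using hL, ?_⟩
    have := hend hw'
    simpa [hb] using this
  · -- splitting
    have hsplit : ∀ u : List (Lab e.g × Bool), u <:+: w' → ∃ p q, w' = p ++ u ++ q := by
      rintro u ⟨p, q, h⟩
      exact ⟨p, q, h.symm⟩
    -- common: a replacement `u'` of `u`
    have hrep : ∀ (p u q u' : List (Lab e.g × Bool)), w' = p ++ u ++ q →
        u'.length + 1 ≤ u.length →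
        (∀ y z : e.X × S, Rd (𝒢.G e.val) u y z →
          Rd (𝒢'.G e.val) u' (y.1, ι y.1 y.2) (z.1, ι z.1 z.2)) →
        x ∈ shortP e 𝒢' b' L := by
      intro p u q u' hpq hlt hu
      rw [hpq, rd_append] at hw'
      obtain ⟨z, h1, h2⟩ := hw'
      rw [rd_append] at h1
      obtain ⟨y, h3, h4⟩ := h1
      refine ⟨p ++ u' ++ q, ?_, ?_⟩
      · have : w'.length = p.length + u.length + q.length := by
          rw [hpq, List.length_append, List.length_append]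
        simp only [List.length_append]
        omega
      · rw [rd_append]
        refine ⟨(z.1, ι z.1 z.2), ?_, ?_⟩
        · rw [rd_append]
          refine ⟨(y.1, ι y.1 y.2), ?_, hu y z h4⟩
          have := hend h3
          simpa [hb] using this
        · have := hend h2
          simpa [hb] using this
    have hcomp : ∀ y z : e.X × S, Rd (𝒢.G e.val) (seg e.c e.ℓ i k (e.ℓ - 57)) y z →
        Rd (𝒢'.G e.val) (seg e.c e.ℓ i (k + (e.ℓ - 57)) 60) (z.1, ι z.1 z.2)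
          (y.1, ι y.1 y.2) := by
      intro y z hyz
      have h1 : y.1 ∈ closedAt e 𝒢' k (ι y.1 y.2, i) := hcl k y.2 i y.1 ⟨z, hyz⟩
      have h2 : e.ℓ + 3 = (e.ℓ - 57) + 60 := by omega
      unfold closedAt at h1
      change Rd (𝒢'.G e.val) (seg e.c e.ℓ i k (e.ℓ + 3)) (y.1, ι y.1 y.2)
        (y.1, ι y.1 y.2) at h1
      rw [h2, seg_add, rd_append] at h1
      obtain ⟨z', h3, h4⟩ := h1
      have h5 := hf'.rd_unique h3 (hend hyz)
      rw [h5] at h4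
      exact h4
    rcases hcase with hc | hc
    · obtain ⟨p, q, hpq⟩ := hsplit _ hc
      refine hrep p _ q (winv (seg e.c e.ℓ i (k + (e.ℓ - 57)) 60)) hpq ?_ ?_
      · rw [winv_length, seg_length, seg_length]; omega
      · intro y z hyz
        exact rd_winv (hcomp y z hyz)
    · obtain ⟨p, q, hpq⟩ := hsplit _ hc
      refine hrep p _ q (seg e.c e.ℓ i (k + (e.ℓ - 57)) 60) hpq ?_ ?_
      · rw [winv_length, seg_length, seg_length]; omega
      · intro y z hyz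
        have h1 := rd_winv hyz
        rw [winv_winv] at h1
        exact hcomp z y h1

/-- points with an `s_{i0}`-edge at the base vertex are rare -/
theorem short_one (e : Env) {Λ₀ : ℝ} {S : Type} [Countable S]
    {𝒢 : Fld (Lab e.g) e.X S} {b : S} (h : NearMin e Λ₀ 𝒢 b) :
    e.μ (shortP e 𝒢 b 1) ≤ ENNReal.ofReal (4 * e.δ) := by
  classical
  have hδ := e.δpos
  have hbig := e.cw.big
  have hsub : shortP e 𝒢 b 1 ⊆ {x | 3 ≤ deg (𝒢.G e.val) (x, b)} := by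
    rintro x ⟨w, hwL, hw⟩
    have hval := wval_of_rd e hw
    have hnoinf : ∀ w' : List (Lab e.g × Bool), w'.length ≤ 1 → ∀ i k,
        ¬ (seg e.c e.ℓ i k (e.ℓ - 57) <:+: w' ∨ winv (seg e.c e.ℓ i k (e.ℓ - 57)) <:+: w') := by
      intro w' hw' i k hcon
      rcases hcon with h1 | h1
      · have := h1.length_le
        rw [seg_length] at this
        omega
      · have := h1.length_le
        rw [winv_length, seg_length] at this
        omega
    have hred : Red w := by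
      match w, hwL with
      | [], _ => simp [Red]
      | [a], _ => simp [Red]
    rcases e.dehn w hred hval with rfl | ⟨i, k, hcase⟩
    · -- three readable letters
      obtain ⟨z, hz, -⟩ := hw
      have h1 : ∃ z, Stp (𝒢.G e.val) (none, true) (x, b) z :=
        ⟨((e.val none)⁻¹ • x, b), by
          simp only [Stp, if_true]
          exact ⟨rfl, h.good.base_t x⟩⟩
      have h2 : ∃ z, Stp (𝒢.G e.val) (none, false) (x, b) z :=
        ⟨(e.val none • x, b), by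
          simp only [Stp]
          refine ⟨?_, h.good.base_t _⟩
          simp⟩
      have h3 : ∃ z, Stp (𝒢.G e.val) (some e.i0, true) (x, b) z := ⟨z, hz⟩
      have hsub3 : ({(none, true), (none, false), (some e.i0, true)} :
          Finset (Lab e.g × Bool)) ⊆
          (Finset.univ.filter fun a : Lab e.g × Bool => ∃ z, Stp (𝒢.G e.val) a (x, b) z) := by
        intro a ha
        simp only [Finset.mem_insert, Finset.mem_singleton] at ha
        rw [Finset.mem_filter]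
        refine ⟨Finset.mem_univ _, ?_⟩
        rcases ha with rfl | rfl | rfl
        · exact h1
        · exact h2
        · exact h3
      have hcard := Finset.card_le_card hsub3
      have h3' : ({(none, true), (none, false), (some e.i0, true)} :
          Finset (Lab e.g × Bool)).card = 3 := by
        rw [Finset.card_insert_of_notMem, Finset.card_insert_of_notMem, Finset.card_singleton]
        · simp
        · simp
      rw [h3'] at hcard
      have h4 : 3 ≤ deg (𝒢.G e.val) (x, b) := by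
        unfold deg
        convert hcard
      exact h4
    · exact absurd hcase (hnoinf w hwL i k)
  calc e.μ (shortP e 𝒢 b 1) ≤ e.μ {x | 3 ≤ deg (𝒢.G e.val) (x, b)} := measure_mono hsub
    _ ≤ cnt e.μ (fun s => {x | 3 ≤ deg (𝒢.G e.val) (x, s)}) :=
        ENNReal.le_tsum (f := fun s => e.μ {x | 3 ≤ deg (𝒢.G e.val) (x, s)}) b
    _ ≤ ENNReal.ofReal (4 * e.δ) := by
        have h1 := branch_le e 𝒢 h.good.meas h.good.folded h.d2
        have h2 := h.good.cap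
        have hV := Vs_fin e 𝒢 b h.good.toBase
        have hV2 : 2 * cnt e.μ (𝒢.Vs e.val) ≠ ⊤ := ENNReal.mul_ne_top (by simp) hV
        have h3 : cnt e.μ (fun s => {x | 3 ≤ deg (𝒢.G e.val) (x, s)}) +
            2 * cnt e.μ (𝒢.Vs e.val) ≤ ENNReal.ofReal (4 * e.δ) + 2 * cnt e.μ (𝒢.Vs e.val) := by
          calc _ ≤ 2 * cnt e.μ 𝒢.Es := h1
            _ ≤ 2 * (cnt e.μ (𝒢.Vs e.val) + ENNReal.ofReal (2 * e.δ)) := by gcongr
            _ = 2 * ENNReal.ofReal (2 * e.δ) + 2 * cnt e.μ (𝒢.Vs e.val) := by ring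
            _ = _ := by
              congr 1
              rw [show (2 : ℝ≥0∞) = ENNReal.ofReal 2 by simp,
                ← ENNReal.ofReal_mul (by norm_num)]
              congr 1
              ring
        exact (ENNReal.add_le_add_iff_right hV2).1 h3

theorem meas_shortP (e : Env) {S : Type} [Countable S] {𝒢 : Fld (Lab e.g) e.X S} {b : S}
    (hm : FMeas 𝒢) (L : ℕ) : MeasurableSet (shortP e 𝒢 b L) := by
  have h : shortP e 𝒢 b L = ⋃ w : List (Lab e.g × Bool), ⋃ _ : w.length ≤ L ∧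
      wval e.val w = e.val (some e.i0),
      {x | Rd (𝒢.G e.val) w (x, b) ((e.val (some e.i0))⁻¹ • x, b)} := by
    ext x
    simp only [Set.mem_iUnion]
    constructor
    · rintro ⟨w, h1, h2⟩
      exact ⟨w, ⟨h1, wval_of_rd e h2⟩, h2⟩
    · rintro ⟨w, ⟨h1, -⟩, h2⟩
      exact ⟨w, h1, h2⟩
  rw [h]
  refine MeasurableSet.iUnion fun w => MeasurableSet.iUnion fun hw => ?_
  exact meas_rd (val := e.val) (fun γ => e.meas_smul γ) hm w b b _ (by rw [hw.2])

/-- FINAL -/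
theorem no_good (e : Env) (hex : ∃ (S : Type) (_ : Countable S)
    (𝒢 : Fld (Lab e.g) e.X S) (b : S), Good e 𝒢 b) : False := by
  obtain ⟨Λ₀, hLB, S, hS, 𝒢, b, hn⟩ := exists_nearMin e hex
  have hδ := e.δpos
  -- after `L` rounds
  have key : ∀ L : ℕ, ∀ (S : Type) (_ : Countable S) (𝒢 : Fld (Lab e.g) e.X S) (b : S),
      NearMin e Λ₀ 𝒢 b → e.μ (shortP e 𝒢 b (L + 1)) ≤ ENNReal.ofReal (4 * e.δ) := by
    intro L
    induction L with
    | zero => intro S _ 𝒢 b hn; exact short_one e hn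
    | succ L ih =>
      intro S hS 𝒢 b hn
      obtain ⟨S', hS', 𝒢', b', ι, hn', hb, hι, hcl⟩ := near_round e hLB hn
      refine le_trans (measure_mono ?_) (ih S' hS' 𝒢' b' hn')
      exact round_short e hn.good.folded hn'.good.folded hb hι hcl (by omega)
  have hmono : Monotone fun L => shortP e 𝒢 b (L + 1) := by
    intro L L' hLL x hx
    obtain ⟨w, h1, h2⟩ := hx
    exact ⟨w, by omega, h2⟩
  have hU : (⋃ L, shortP e 𝒢 b (L + 1)) = Set.univ := by
    rw [Set.eq_univ_iff_forall]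
    intro x
    obtain ⟨w, hw⟩ := hn.good.gen x (e.val (some e.i0))⁻¹
    exact Set.mem_iUnion.2 ⟨w.length, w, by omega, hw⟩
  have h1 := tendsto_measure_iUnion_atTop (μ := e.μ) hmono
  rw [hU, measure_univ] at h1
  have h2 := le_of_tendsto' h1 (fun L => key L S hS 𝒢 b hn)
  have h3 : ENNReal.ofReal (4 * e.δ) < 1 := by
    rw [← ENNReal.ofReal_one]
    exact (ENNReal.ofReal_lt_ofReal_iff (by norm_num)).2 (by linarith [e.num4])
  exact absurd h2 (not_le.2 h3)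

end Crest.Agent.R191
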