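import Crest.Agent.R191.Defs

/-!
# R191 piece ROW: closure properties of measurable finite integer rows

`IsRow Γ Φ` : there is a measurable `c : X → (Γ × P →₀ ℤ)` (the target is countable, measurability =
all fibres measurable) with `Φ F x = ∑ c(x)(γ,p) F (γ • x) p`.
-/

set_option autoImplicit false

namespace Crest.Agent.R191

open MeasureTheory

variable {Γ X P P' J : Type} [Group Γ] [Countable Γ] [MulAction Γ X] [MeasurableSpace X]

theorem row_meas_mem {C : Type} [Countable C] {c : X → C} (hc : ∀ y, MeasurableSet {x | c x = y})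
    (S : Set C) : MeasurableSet {x | c x ∈ S} := by
  have : {x | c x ∈ S} = ⋃ y ∈ S, {x | c x = y} := by
    ext x; simp
  rw [this]
  exact MeasurableSet.biUnion (Set.to_countable S) fun y _ => hc y

theorem row_meas_map {C D : Type} [Countable C] {c : X → C}
    (hc : ∀ y, MeasurableSet {x | c x = y}) (f : C → D) (y : D) :
    MeasurableSet {x | f (c x) = y} :=
  row_meas_mem hc {z | f z = y}

theorem row_meas_map₂ {C C' D : Type} [Countable C] [Countable C'] {c : X → C} {c' : X → C'}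
    (hc : ∀ y, MeasurableSet {x | c x = y}) (hc' : ∀ y, MeasurableSet {x | c' x = y})
    (f : C → C' → D) (y : D) : MeasurableSet {x | f (c x) (c' x) = y} := by
  have : {x | f (c x) (c' x) = y} = ⋃ a, ({x | c x = a} ∩ {x | f a (c' x) = y}) := by
    ext x
    simp
  rw [this]
  exact MeasurableSet.iUnion fun a => (hc a).inter (row_meas_map hc' (f a) y)

/-- evaluation. -/
theorem isRow_eval [Countable P] (p : P) :
    IsRow Γ (fun (F : X → P → ℝ) x => F x p) := by
  refine ⟨fun _ => Finsupp.single (1, p) 1, fun y => MeasurableSet.const _, fun F x => ?_⟩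
  rw [Finsupp.sum_single_index (by simp)]
  simp

theorem isRow_zero [Countable P] : IsRow Γ (fun (_ : X → P → ℝ) (_ : X) => (0 : ℝ)) := by
  refine ⟨fun _ => 0, fun y => MeasurableSet.const _, fun F x => ?_⟩
  simp

theorem isRow_add [Countable P] {Φ Ψ : (X → P → ℝ) → X → ℝ} (h : IsRow Γ Φ) (h' : IsRow Γ Ψ) :
    IsRow Γ (fun F x => Φ F x + Ψ F x) := by
  obtain ⟨c, hc, hc'⟩ := h
  obtain ⟨d, hd, hd'⟩ := h'
  refine ⟨fun x => c x + d x, fun y => row_meas_map₂ hc hd (· + ·) y, fun F x => ?_⟩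
  beta_reduce
  rw [hc', hd', Finsupp.sum_add_index' (by simp) (by intros; push_cast; ring)]

theorem isRow_neg [Countable P] {Φ : (X → P → ℝ) → X → ℝ} (h : IsRow Γ Φ) :
    IsRow Γ (fun F x => - Φ F x) := by
  obtain ⟨c, hc, hc'⟩ := h
  refine ⟨fun x => - c x, fun y => row_meas_map hc (fun z => -z) y, fun F x => ?_⟩
  beta_reduce
  rw [hc', Finsupp.sum_neg_index (by simp), Finsupp.sum, Finsupp.sum, ← Finset.sum_neg_distrib]
  exact Finset.sum_congr rfl fun _ _ => by push_cast; ring

/-- shift the point by a group element -/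
theorem isRow_shift [Countable P] (hm : ∀ γ : Γ, Measurable fun x : X => γ • x)
    {Φ : (X → P → ℝ) → X → ℝ} (h : IsRow Γ Φ) (γ : Γ) :
    IsRow Γ (fun F x => Φ F (γ • x)) := by
  obtain ⟨c, hc, hc'⟩ := h
  refine ⟨fun x => (c (γ • x)).mapDomain (fun gp : Γ × P => (gp.1 * γ, gp.2)), fun y =>
    (hm γ) (row_meas_map hc (fun z => z.mapDomain (fun gp : Γ × P => (gp.1 * γ, gp.2))) y),
    fun F x => ?_⟩
  beta_reduce
  rw [hc', Finsupp.sum_mapDomain_index (by simp) (by intros; push_cast; ring)]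
  simp only [mul_smul]

/-- countable piecewise definition -/
theorem isRow_piecewise [Countable P] [Countable J] (j : X → J)
    (hj : ∀ i, MeasurableSet {x | j x = i}) {Φ : J → (X → P → ℝ) → X → ℝ}
    (h : ∀ i, IsRow Γ (Φ i)) : IsRow Γ (fun F x => Φ (j x) F x) := by
  choose c hc hc' using h
  refine ⟨fun x => c (j x) x, fun y => ?_, fun F x => hc' (j x) F x⟩
  have : {x | c (j x) x = y} = ⋃ i, ({x | j x = i} ∩ {x | c i x = y}) := by
    ext x
    simp
  rw [this]
  exact MeasurableSet.iUnion fun i => (hj i).inter (hc i y)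

/-- if-then-else on a measurable set -/
theorem isRow_ite [Countable P] (s : Set X) (hs : MeasurableSet s) [DecidablePred (· ∈ s)]
    {Φ Ψ : (X → P → ℝ) → X → ℝ} (h : IsRow Γ Φ) (h' : IsRow Γ Ψ) :
    IsRow Γ (fun F x => if x ∈ s then Φ F x else Ψ F x) := by
  obtain ⟨c, hc, hc'⟩ := h
  obtain ⟨d, hd, hd'⟩ := h'
  refine ⟨fun x => if x ∈ s then c x else d x, fun y => ?_, fun F x => ?_⟩
  · have : {x | (if x ∈ s then c x else d x) = y} =
        (s ∩ {x | c x = y}) ∪ (sᶜ ∩ {x | d x = y}) := by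
      ext x
      by_cases hx : x ∈ s <;> simp [hx]
    rw [this]
    exact (hs.inter (hc y)).union (hs.compl.inter (hd y))
  · by_cases hx : x ∈ s
    · simp only [hx, if_true]
      exact hc' F x
    · simp only [hx, if_false]
      exact hd' F x

/-- relabelling: `IsRow` only depends on values -/
theorem isRow_congr [Countable P] {Φ Ψ : (X → P → ℝ) → X → ℝ} (h : IsRow Γ Φ)
    (hΨ : ∀ F x, Ψ F x = Φ F x) : IsRow Γ Ψ := by
  obtain ⟨c, hc, hc'⟩ := h
  exact ⟨c, hc, fun F x => by rw [hΨ, hc']⟩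

/-- integer multiples -/
theorem isRow_zmul [Countable P] {Φ : (X → P → ℝ) → X → ℝ} (h : IsRow Γ Φ) (z : ℤ) :
    IsRow Γ (fun F x => (z : ℝ) * Φ F x) := by
  obtain ⟨c, hc, hc'⟩ := h
  refine ⟨fun x => z • c x, fun y => row_meas_map hc (fun w => z • w) y, fun F x => ?_⟩
  beta_reduce
  rw [hc', Finsupp.sum_smul_index (by simp), Finsupp.sum, Finsupp.sum, Finset.mul_sum]
  exact Finset.sum_congr rfl fun _ _ => by push_cast; ring

/-- finite sums -/
theorem isRow_sum [Countable P] {ι : Type} (s : Finset ι) (Φ : ι → (X → P → ℝ) → X → ℝ)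
    (h : ∀ i ∈ s, IsRow Γ (Φ i)) : IsRow Γ (fun F x => ∑ i ∈ s, Φ i F x) := by
  classical
  induction s using Finset.induction_on with
  | empty => simpa using isRow_zero
  | insert a s ha ih =>
    refine isRow_congr (isRow_add (h a (Finset.mem_insert_self a s))
      (ih fun i hi => h i (Finset.mem_insert_of_mem hi))) fun F x => ?_
    rw [Finset.sum_insert ha]

/-- composition with a map `F' ↦ F` all of whose coordinates are rows -/
theorem isRow_comp [Countable P] [Countable P'] (hm : ∀ γ : Γ, Measurable fun x : X => γ • x)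
    {Φ : (X → P → ℝ) → X → ℝ} (h : IsRow Γ Φ) (ρ : P → (X → P' → ℝ) → X → ℝ)
    (hρ : ∀ p, IsRow Γ (ρ p)) :
    IsRow Γ (fun (F' : X → P' → ℝ) x => Φ (fun y p => ρ p F' y) x) := by
  obtain ⟨c, hc, hc'⟩ := h
  have key : ∀ a : Γ × P →₀ ℤ, IsRow Γ (fun (F' : X → P' → ℝ) x =>
      ∑ gp ∈ a.support, (a gp : ℝ) * ρ gp.2 F' (gp.1 • x)) := fun a =>
    isRow_sum _ _ fun gp _ => isRow_zmul (isRow_shift hm (hρ gp.2) gp.1) (a gp)
  exact isRow_congr (isRow_piecewise c hc key) fun F' x => hc' _ x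

end Crest.Agent.R191
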