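import Crest.Agent.R191.CL

/-!
# R191 piece SHORT: short loops live near the branch vertices
-/

set_option autoImplicit false

namespace Crest.Agent.R191

open MeasureTheory
open scoped ENNReal

/-- vertices reached from a branch vertex (degree `≥ 3`) by a reduced word of length `≤ 61` all of
whose intermediate vertices have degree `≤ 2` -/
def nearBr (e : Env) {S : Type} (𝒢 : Fld (Lab e.g) e.X S) : S → Set e.X :=
  fun s => {x | ∃ (w : List (Lab e.g × Bool)) (u : e.X × S), w.length ≤ 61 ∧ Red w ∧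
    3 ≤ deg (𝒢.G e.val) u ∧ Rd (𝒢.G e.val) w u (x, s) ∧
    ∀ j, 0 < j → j < w.length → ∀ z, Rd (𝒢.G e.val) (w.take j) u z → deg (𝒢.G e.val) z ≤ 2}

namespace NBaux

theorem word_unique {L V : Type} [Fintype L] {G : L → V → V → Prop} (hG : Folded G)
    (w : List (L × Bool)) : ∀ (a : L × Bool) (w' : List (L × Bool)) (u v v' : V),
    w.length = w'.length → Red (a :: w) → Red (a :: w') → Rd G (a :: w) u v →
    Rd G (a :: w') u v' →
    (∀ j, 0 < j → j < (a :: w).length → ∀ z, Rd G ((a :: w).take j) u z → deg G z ≤ 2) →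
    w = w' := by
  classical
  induction w with
  | nil =>
    intro a w' u v v' hl _ _ _ _ _
    simp only [List.length_nil] at hl
    exact (List.length_eq_zero_iff.mp hl.symm).symm
  | cons b w ih =>
    intro a w' u v v' hl hr hr' h h' hd
    cases w' with
    | nil => simp at hl
    | cons b' w' =>
      obtain ⟨z, h1, h2⟩ := h
      obtain ⟨z', h1', h2'⟩ := h'
      obtain rfl := hG.stp_right h1 h1'
      have hdz : deg G z ≤ 2 := hd 1 (by omega) (by simp) z ⟨z, h1, rfl⟩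
      have hba : b ≠ (a.1, !a.2) := by
        rintro rfl
        unfold Red at hr
        rw [List.isChain_cons_cons] at hr
        exact hr.1 ⟨rfl, rfl⟩
      have hba' : b' ≠ (a.1, !a.2) := by
        rintro rfl
        unfold Red at hr'
        rw [List.isChain_cons_cons] at hr'
        exact hr'.1 ⟨rfl, rfl⟩
      have hbb : b = b' := by
        by_contra hne
        have hsub : ({(a.1, !a.2), b, b'} : Finset (L × Bool)) ⊆
            Finset.univ.filter fun e : L × Bool => ∃ z', Stp G e z z' := by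
          intro e he
          rw [Finset.mem_filter]
          refine ⟨Finset.mem_univ _, ?_⟩
          rw [Finset.mem_insert, Finset.mem_insert, Finset.mem_singleton] at he
          rcases he with rfl | rfl | rfl
          · exact ⟨u, stp_inv.mpr h1⟩
          · obtain ⟨y, hy, -⟩ := h2
            exact ⟨y, hy⟩
          · obtain ⟨y, hy, -⟩ := h2'
            exact ⟨y, hy⟩
        have hc := Finset.card_le_card hsub
        rw [Finset.card_insert_of_notMem, Finset.card_insert_of_notMem, Finset.card_singleton] at hc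
        · have : 3 ≤ deg G z := by
            unfold deg
            convert hc
          omega
        · rw [Finset.mem_singleton]; exact hne
        · rw [Finset.mem_insert, Finset.mem_singleton]
          rintro (h | h)
          · exact hba h.symm
          · exact hba' h.symm
      subst hbb
      have hr1 : Red (b :: w) := by
        unfold Red at hr ⊢
        rw [List.isChain_cons_cons] at hr
        exact hr.2
      have hr1' : Red (b :: w') := by
        unfold Red at hr' ⊢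
        rw [List.isChain_cons_cons] at hr'
        exact hr'.2
      have := ih b w' z v v' (by simpa using hl) hr1 hr1' h2 h2' (by
        intro j hj hj' y hy
        refine hd (j + 1) (by omega) (by simpa using hj') y ?_
        rw [List.take_succ_cons]
        exact ⟨z, h1, hy⟩)
      rw [this]

/-- first letter and length -/
def code {A : Type} : List A → Option (A × ℕ)
  | [] => none
  | a :: w => some (a, w.length)

/-- transport family -/
def KN (e : Env) {S : Type} (𝒢 : Fld (Lab e.g) e.X S) (s : S) (γ : e.Γ)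
    (q : S × Option ((Lab e.g × Bool) × Fin 61)) : Set e.X :=
  {x | ∃ w : List (Lab e.g × Bool), (w.length ≤ 61 ∧ Red w ∧ γ = wval e.val w ∧
    q.2.map (fun p => (p.1, p.2.val)) = code w) ∧ 3 ≤ deg (𝒢.G e.val) (γ • x, q.1) ∧
    Rd (𝒢.G e.val) w (γ • x, q.1) (x, s) ∧
    ∀ j, 0 < j → j < w.length → ∀ z, Rd (𝒢.G e.val) (w.take j) (γ • x, q.1) z →
      deg (𝒢.G e.val) z ≤ 2}

theorem meas_deg_ge (e : Env) {S : Type} [Countable S] (𝒢 : Fld (Lab e.g) e.X S)
    (hm : FMeas 𝒢) (k : ℕ) (s : S) : MeasurableSet {y : e.X | k ≤ deg (𝒢.G e.val) (y, s)} := by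
  have : {y : e.X | k ≤ deg (𝒢.G e.val) (y, s)} =
      (⋃ d : Fin k, {y : e.X | deg (𝒢.G e.val) (y, s) = d})ᶜ := by
    ext y
    simp only [Set.mem_ofPred_eq, Set.mem_compl_iff, Set.mem_iUnion, not_exists]
    constructor
    · intro h d hd
      have := d.2
      omega
    · intro h
      by_contra h'
      exact h ⟨deg (𝒢.G e.val) (y, s), by omega⟩ rfl
  rw [this]
  exact (MeasurableSet.iUnion fun d : Fin k => meas_deg e.meas_smul hm s d).compl

theorem KN_meas (e : Env) {S : Type} [Countable S] (𝒢 : Fld (Lab e.g) e.X S)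
    (hm : FMeas 𝒢) (s : S) (γ : e.Γ) (q : S × Option ((Lab e.g × Bool) × Fin 61)) :
    MeasurableSet (KN e 𝒢 s γ q) := by
  have : KN e 𝒢 s γ q = ⋃ w : List (Lab e.g × Bool), {x | (w.length ≤ 61 ∧ Red w ∧
      γ = wval e.val w ∧
      q.2.map (fun p => (p.1, p.2.val)) = code w) ∧ 3 ≤ deg (𝒢.G e.val) (γ • x, q.1) ∧
      Rd (𝒢.G e.val) w (γ • x, q.1) (x, s) ∧
      ∀ j, 0 < j → j < w.length → ∀ z, Rd (𝒢.G e.val) (w.take j) (γ • x, q.1) z →
        deg (𝒢.G e.val) z ≤ 2} := by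
    ext x
    simp only [KN, Set.mem_iUnion, Set.mem_ofPred_eq]
  rw [this]
  refine MeasurableSet.iUnion fun w => ?_
  by_cases h : w.length ≤ 61 ∧ Red w ∧ γ = wval e.val w ∧
      q.2.map (fun p => (p.1, p.2.val)) = code w
  · have h1 := (e.meas_smul γ) (meas_deg_ge e 𝒢 hm 3 q.1)
    have h2 := (e.meas_smul γ) (meas_rd (val := e.val) (𝒢 := 𝒢) e.meas_smul hm w q.1 s
      γ⁻¹ (by rw [h.2.2.1]))
    have h3 : MeasurableSet (⋂ j : ℕ, ({_x : e.X | ¬ (0 < j ∧ j < w.length)} ∪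
        (fun x : e.X => γ • x) ⁻¹' {y | ∃ v, Rd (𝒢.G e.val) (w.take j) (y, q.1) v ∧
          v.1 ∈ (fun s => {y : e.X | 3 ≤ deg (𝒢.G e.val) (y, s)}) v.2}ᶜ)) :=
      MeasurableSet.iInter fun j => (MeasurableSet.const _).union
        ((e.meas_smul γ) (meas_rd_prop e.meas_smul hm _ q.1 _
          (fun s => meas_deg_ge e 𝒢 hm 3 s)).compl)
    convert (h1.inter h2).inter h3 using 1
    ext x
    simp only [Set.mem_ofPred_eq, Set.mem_inter_iff, Set.mem_preimage, Set.mem_iInter,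
      Set.mem_union, Set.mem_compl_iff, inv_smul_smul, not_exists, not_and]
    constructor
    · rintro ⟨-, h4, h5, h6⟩
      refine ⟨⟨h4, h5⟩, fun j => ?_⟩
      by_cases hj : 0 < j ∧ j < w.length
      · right
        intro z hz hz'
        have hz'' : 3 ≤ deg (𝒢.G e.val) z := hz'
        have := h6 j hj.1 hj.2 z hz
        omega
      · left
        intro h7 h8
        exact hj ⟨h7, h8⟩
    · rintro ⟨⟨h4, h5⟩, h6⟩
      refine ⟨h, h4, h5, fun j hj hj' z hz => ?_⟩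
      rcases h6 j with h7 | h7
      · exact absurd hj' (h7 hj)
      · have hz'' : ¬ 3 ≤ deg (𝒢.G e.val) z := h7 z hz
        omega
  · convert MeasurableSet.empty using 1
    ext x
    simp only [Set.mem_ofPred_eq, Set.mem_empty_iff_false, iff_false]
    intro hx
    exact h hx.1

theorem nearBr_KN (e : Env) {S : Type} (𝒢 : Fld (Lab e.g) e.X S) (s : S) (x : e.X)
    (hx : x ∈ nearBr e 𝒢 s) : ∃ γ q, x ∈ KN e 𝒢 s γ q := by
  obtain ⟨w, u, h1, h2, h3, h4, h5⟩ := hx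
  have h6 : x = (wval e.val w)⁻¹ • u.1 := rd_point h4
  have h7 : wval e.val w • x = u.1 := by rw [h6, smul_inv_smul]
  have h8 : ((wval e.val w • x, u.2) : e.X × S) = u := by rw [h7]
  have hq : ∃ o : Option ((Lab e.g × Bool) × Fin 61),
      o.map (fun p => (p.1, p.2.val)) = code w := by
    cases w with
    | nil => exact ⟨none, rfl⟩
    | cons a w =>
      refine ⟨some (a, ⟨w.length, ?_⟩), rfl⟩
      simp only [List.length_cons] at h1
      omega
  obtain ⟨o, ho⟩ := hq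
  refine ⟨wval e.val w, (u.2, o), w, ⟨h1, h2, rfl, ho⟩, ?_, ?_, ?_⟩
  · show 3 ≤ deg (𝒢.G e.val) (wval e.val w • x, u.2)
    rw [h8]; exact h3
  · show Rd (𝒢.G e.val) w (wval e.val w • x, u.2) (x, s)
    rw [h8]; exact h4
  · intro j hj hj' z hz
    have hz' : Rd (𝒢.G e.val) (w.take j) (wval e.val w • x, u.2) z := hz
    rw [h8] at hz'
    exact h5 j hj hj' z hz'

theorem KN_nearBr (e : Env) {S : Type} (𝒢 : Fld (Lab e.g) e.X S) (s : S) (x : e.X) (γ : e.Γ)
    (q : S × Option ((Lab e.g × Bool) × Fin 61)) (hx : x ∈ KN e 𝒢 s γ q) :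
    x ∈ nearBr e 𝒢 s := by
  obtain ⟨w, ⟨h1, h2, -, -⟩, h3, h4, h5⟩ := hx
  exact ⟨w, _, h1, h2, h3, h4, h5⟩

/-- targets -/
def BN (e : Env) {S : Type} (𝒢 : Fld (Lab e.g) e.X S)
    (q : S × Option ((Lab e.g × Bool) × Fin 61)) : Set e.X :=
  {y | 3 ≤ deg (𝒢.G e.val) (y, q.1)} ∩
    ⋂ a : Lab e.g × Bool, ⋂ j : Fin 61, ({_y : e.X | q.2 ≠ some (a, j)} ∪
      {y | ∃ z, Stp (𝒢.G e.val) a (y, q.1) z})

theorem mem_BN_none (e : Env) {S : Type} (𝒢 : Fld (Lab e.g) e.X S) (s : S) (y : e.X) :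
    y ∈ BN e 𝒢 (s, none) ↔ 3 ≤ deg (𝒢.G e.val) (y, s) := by
  simp [BN]

theorem mem_BN_some (e : Env) {S : Type} (𝒢 : Fld (Lab e.g) e.X S) (s : S) (y : e.X)
    (a : Lab e.g × Bool) (j : Fin 61) :
    y ∈ BN e 𝒢 (s, some (a, j)) ↔ 3 ≤ deg (𝒢.G e.val) (y, s) ∧
      ∃ z, Stp (𝒢.G e.val) a (y, s) z := by
  simp only [BN, Set.mem_inter_iff, Set.mem_ofPred_eq, Set.mem_iInter, Set.mem_union]
  refine and_congr_right fun _ => ?_
  constructor
  · intro h
    rcases h a j with h1 | h1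
    · exact absurd rfl h1
    · exact h1
  · intro h a' j'
    by_cases heq : some (a, j) = some (a', j')
    · right
      rw [Option.some.injEq, Prod.mk.injEq] at heq
      rw [← heq.1]
      exact h
    · left
      exact heq

theorem BN_meas (e : Env) {S : Type} [Countable S] (𝒢 : Fld (Lab e.g) e.X S)
    (hm : FMeas 𝒢) (q : S × Option ((Lab e.g × Bool) × Fin 61)) :
    MeasurableSet (BN e 𝒢 q) :=
  (meas_deg_ge e 𝒢 hm 3 q.1).inter (MeasurableSet.iInter fun a => MeasurableSet.iInter fun _ =>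
    (MeasurableSet.const _).union (meas_stp e.meas_smul hm a q.1))

theorem BN_pt (e : Env) {S : Type} [Countable S] (𝒢 : Fld (Lab e.g) e.X S) (s : S) (x : e.X) :
    ((({o | x ∈ BN e 𝒢 (s, o)} : Set (Option ((Lab e.g × Bool) × Fin 61))).encard : ℕ∞) : ℝ≥0∞) ≤
      (𝒢.Vs e.val s).indicator (fun x => 184 * ((deg (𝒢.G e.val) (x, s) - 2 : ℕ) : ℝ≥0∞)) x := by
  classical
  by_cases h : 3 ≤ deg (𝒢.G e.val) (x, s)
  · have hV : x ∈ 𝒢.Vs e.val s := by
      have : 0 < deg (𝒢.G e.val) (x, s) := by omega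
      unfold deg at this
      obtain ⟨a, ha⟩ := Finset.card_pos.mp this
      obtain ⟨z, hz⟩ := (Finset.mem_filter.mp ha).2
      show IsV (𝒢.G e.val) (x, s)
      unfold Stp at hz
      split_ifs at hz
      · exact ⟨a.1, z, Or.inl hz⟩
      · exact ⟨a.1, z, Or.inr hz⟩
    rw [Set.indicator_of_mem hV]
    have hsub : ({o | x ∈ BN e 𝒢 (s, o)} : Set (Option ((Lab e.g × Bool) × Fin 61))) ⊆
        ((insert none (((Finset.univ.filter fun a : Lab e.g × Bool =>
          ∃ z, Stp (𝒢.G e.val) a (x, s) z) ×ˢ (Finset.univ : Finset (Fin 61))).image some) :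
            Finset (Option ((Lab e.g × Bool) × Fin 61))) : Set _) := by
      intro o ho
      cases o with
      | none => simp
      | some p =>
        obtain ⟨a, j⟩ := p
        have ho' : x ∈ BN e 𝒢 (s, some (a, j)) := ho
        rw [mem_BN_some] at ho'
        rw [Finset.mem_coe, Finset.mem_insert, Finset.mem_image]
        right
        exact ⟨(a, j), Finset.mem_product.mpr ⟨Finset.mem_filter.mpr ⟨Finset.mem_univ _, ho'.2⟩,
          Finset.mem_univ _⟩, rfl⟩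
    have h1 := Set.encard_le_encard hsub
    rw [Set.encard_coe_eq_coe_finsetCard] at h1
    have h2 : (insert none (((Finset.univ.filter fun a : Lab e.g × Bool =>
          ∃ z, Stp (𝒢.G e.val) a (x, s) z) ×ˢ (Finset.univ : Finset (Fin 61))).image some) :
            Finset (Option ((Lab e.g × Bool) × Fin 61))).card ≤
        184 * (deg (𝒢.G e.val) (x, s) - 2) := by
      refine (Finset.card_insert_le _ _).trans ?_
      have h3 : (((Finset.univ.filter fun a : Lab e.g × Bool =>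
          ∃ z, Stp (𝒢.G e.val) a (x, s) z) ×ˢ (Finset.univ : Finset (Fin 61))).image some).card ≤
          deg (𝒢.G e.val) (x, s) * 61 := by
        refine Finset.card_image_le.trans ?_
        rw [Finset.card_product, Finset.card_univ, Fintype.card_fin]
        refine Nat.mul_le_mul_right _ (le_of_eq ?_)
        unfold deg
        congr
      omega
    have h3 : (({o | x ∈ BN e 𝒢 (s, o)} : Set (Option ((Lab e.g × Bool) × Fin 61))).encard : ℕ∞) ≤
        ((184 * (deg (𝒢.G e.val) (x, s) - 2) : ℕ) : ℕ∞) := h1.trans (by exact_mod_cast h2)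
    have h4 := ENat.toENNReal_le.2 h3
    simpa using h4
  · have : ({o | x ∈ BN e 𝒢 (s, o)} : Set (Option ((Lab e.g × Bool) × Fin 61))) = ∅ := by
      rw [Set.eq_empty_iff_forall_notMem]
      intro o ho
      exact h ho.1
    rw [this]
    simp

end NBaux

open NBaux in
theorem meas_nearBr (e : Env) {S : Type} [Countable S] (𝒢 : Fld (Lab e.g) e.X S)
    (hm : FMeas 𝒢) (s : S) : MeasurableSet (nearBr e 𝒢 s) := by
  have : nearBr e 𝒢 s = ⋃ γ : e.Γ, ⋃ q : S × Option ((Lab e.g × Bool) × Fin 61),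
      KN e 𝒢 s γ q := by
    ext x
    simp only [Set.mem_iUnion]
    exact ⟨nearBr_KN e 𝒢 s x, fun ⟨γ, q, h⟩ => KN_nearBr e 𝒢 s x γ q h⟩
  rw [this]
  exact MeasurableSet.iUnion fun γ => MeasurableSet.iUnion fun q => KN_meas e 𝒢 hm s γ q

namespace Deg_aux

/-- points where a letter is readable -/
def rdb (e : Env) {S : Type} (𝒢 : Fld (Lab e.g) e.X S) (l : Lab e.g × Bool) (s : S) : Set e.X :=
  {x | ∃ z, Stp (𝒢.G e.val) l (x, s) z}

theorem deg_eq (e : Env) {S : Type} (𝒢 : Fld (Lab e.g) e.X S) (s : S) (x : e.X) :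
    ((deg (𝒢.G e.val) (x, s) : ℕ) : ℝ≥0∞) =
      ∑ l : Lab e.g × Bool, (rdb e 𝒢 l s).indicator (fun _ => (1 : ℝ≥0∞)) x := by
  classical
  unfold deg
  rw [Finset.card_filter]
  push_cast
  refine Finset.sum_congr rfl fun l _ => ?_
  unfold rdb
  rw [Set.indicator_apply]
  simp only [Set.mem_ofPred_eq]

theorem rdb_sub (e : Env) {S : Type} (𝒢 : Fld (Lab e.g) e.X S) (l : Lab e.g × Bool) (s : S) :
    rdb e 𝒢 l s ⊆ 𝒢.Vs e.val s := by
  rintro x ⟨z, hz⟩
  obtain ⟨a, b⟩ := l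
  cases b
  · exact ⟨a, z, Or.inr hz⟩
  · exact ⟨a, z, Or.inl hz⟩

theorem meas_rdb (e : Env) {S : Type} [Countable S] (𝒢 : Fld (Lab e.g) e.X S)
    (hm : FMeas 𝒢) (l : Lab e.g × Bool) (s : S) : MeasurableSet (rdb e 𝒢 l s) :=
  meas_stp (Env.meas_smul e) hm l s

theorem rdb_true (e : Env) {S : Type} [Countable S] (𝒢 : Fld (Lab e.g) e.X S)
    (hm : FMeas 𝒢) (hf : Folded (𝒢.G e.val)) (a : Lab e.g) :
    ∑' s, e.μ (rdb e 𝒢 (a, true) s) = ∑' nm : S × S, e.μ (𝒢.E a nm.1 nm.2) := by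
  rw [ENNReal.tsum_prod (f := fun n m => e.μ (𝒢.E a n m))]
  refine tsum_congr fun s => ?_
  have h1 : rdb e 𝒢 (a, true) s = ⋃ m, 𝒢.E a s m := by
    ext x
    simp only [rdb, Stp, if_true, Set.mem_ofPred_eq, Set.mem_iUnion]
    constructor
    · rintro ⟨z, h⟩
      exact ⟨z.2, h.2⟩
    · rintro ⟨m, h⟩
      exact ⟨((e.val a)⁻¹ • x, m), rfl, h⟩
  rw [h1, measure_iUnion _ fun m => hm a s m]
  intro m m' hne
  rw [Function.onFun, Set.disjoint_left]
  intro x h h'
  have := hf.1 a (x, s) ((e.val a)⁻¹ • x, m) ((e.val a)⁻¹ • x, m') ⟨rfl, h⟩ ⟨rfl, h'⟩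
  exact hne (Prod.mk.inj this).2

theorem rdb_false (e : Env) {S : Type} [Countable S] (𝒢 : Fld (Lab e.g) e.X S)
    (hm : FMeas 𝒢) (hf : Folded (𝒢.G e.val)) (a : Lab e.g) :
    ∑' s, e.μ (rdb e 𝒢 (a, false) s) = ∑' nm : S × S, e.μ (𝒢.E a nm.1 nm.2) := by
  rw [ENNReal.tsum_prod (f := fun n m => e.μ (𝒢.E a n m)), ENNReal.tsum_comm]
  refine tsum_congr fun s => ?_
  have h1 : rdb e 𝒢 (a, false) s = ⋃ n, (fun x => e.val a • x) ⁻¹' 𝒢.E a n s := by
    ext x
    simp only [rdb, Stp, Bool.false_eq_true, if_false, Set.mem_ofPred_eq, Set.mem_iUnion,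
      Set.mem_preimage]
    constructor
    · rintro ⟨z, h⟩
      refine ⟨z.2, ?_⟩
      have h2 : x = (e.val a)⁻¹ • z.1 := h.1
      rw [h2, smul_inv_smul]
      exact h.2
    · rintro ⟨n, h⟩
      refine ⟨(e.val a • x, n), ?_, h⟩
      simp
  rw [h1, measure_iUnion _ fun n => (Env.meas_smul e _) (hm a n s)]
  · refine tsum_congr fun n => ?_
    exact (e.pmp (e.val a)).measure_preimage (hm a n s).nullMeasurableSet
  intro m m' hne
  rw [Function.onFun, Set.disjoint_left]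
  intro x h h'
  have := hf.2 a (e.val a • x, m) (e.val a • x, m') (x, s) ⟨by simp, h⟩ ⟨by simp, h'⟩
  exact hne (Prod.mk.inj this).2

theorem sum_deg (e : Env) {S : Type} [Countable S] (𝒢 : Fld (Lab e.g) e.X S)
    (hm : FMeas 𝒢) (hf : Folded (𝒢.G e.val)) :
    ∑' s, ∫⁻ x in 𝒢.Vs e.val s, ((deg (𝒢.G e.val) (x, s) : ℕ) : ℝ≥0∞) ∂e.μ =
      2 * cnt e.μ 𝒢.Es := by
  have h1 : ∀ s, ∫⁻ x in 𝒢.Vs e.val s, ((deg (𝒢.G e.val) (x, s) : ℕ) : ℝ≥0∞) ∂e.μ =
      ∑ l : Lab e.g × Bool, e.μ (rdb e 𝒢 l s) := by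
    intro s
    simp_rw [deg_eq]
    rw [lintegral_finsetSum _ fun l _ => measurable_const.indicator (meas_rdb e 𝒢 hm l s)]
    refine Finset.sum_congr rfl fun l _ => ?_
    rw [lintegral_indicator_const (meas_rdb e 𝒢 hm l s), one_mul,
      Measure.restrict_apply (meas_rdb e 𝒢 hm l s), Set.inter_eq_left.2 (rdb_sub e 𝒢 l s)]
  simp_rw [h1]
  rw [Summable.tsum_finsetSum fun l _ => ENNReal.summable, Fintype.sum_prod_type]
  simp only [Fintype.sum_bool]
  simp_rw [rdb_true e 𝒢 hm hf, rdb_false e 𝒢 hm hf]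
  unfold cnt
  rw [ENNReal.tsum_prod', tsum_fintype, Finset.mul_sum]
  refine Finset.sum_congr rfl fun a _ => ?_
  rw [two_mul]
  rfl

end Deg_aux

open Deg_aux

/-- DEG1: `∑ deg = 2 E`, in the form: `2 V + ∑_{vertices} (deg - 2) = 2 E` when all degrees are
`≥ 2`; here `∑ (deg - 2)` is written as `∑' s, ∫⁻ x in Vs s, (deg - 2)`. -/
theorem deg_sum (e : Env) {S : Type} [Countable S] (𝒢 : Fld (Lab e.g) e.X S)
    (hm : FMeas 𝒢) (hf : Folded (𝒢.G e.val)) (h2 : D2 e 𝒢) :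
    2 * cnt e.μ (𝒢.Vs e.val) +
      ∑' s, ∫⁻ x in 𝒢.Vs e.val s, ((deg (𝒢.G e.val) (x, s) - 2 : ℕ) : ℝ≥0∞) ∂e.μ =
    2 * cnt e.μ 𝒢.Es := by
  rw [← sum_deg e 𝒢 hm hf]
  unfold cnt
  rw [← ENNReal.tsum_mul_left, ← ENNReal.tsum_add]
  refine tsum_congr fun s => ?_
  have hV := meas_Vs (val := e.val) (Env.meas_smul e) hm s
  have h1 : (2 : ℝ≥0∞) * e.μ (𝒢.Vs e.val s) = ∫⁻ _ in 𝒢.Vs e.val s, 2 ∂e.μ := by
    rw [setLIntegral_const]
  rw [h1, ← lintegral_add_left measurable_const]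
  refine setLIntegral_congr_fun hV fun x hx => ?_
  have h3 : 2 ≤ deg (𝒢.G e.val) (x, s) := h2 (x, s) hx
  obtain ⟨d, hd⟩ := Nat.exists_eq_add_of_le h3
  simp only [hd, Nat.add_sub_cancel_left]
  push_cast
  rfl

/-- DEG2: the number of vertices of degree `≥ 3` is at most `2 (E - V)` -/
theorem branch_le (e : Env) {S : Type} [Countable S] (𝒢 : Fld (Lab e.g) e.X S)
    (hm : FMeas 𝒢) (hf : Folded (𝒢.G e.val)) (h2 : D2 e 𝒢) :
    cnt e.μ (fun s => {x | 3 ≤ deg (𝒢.G e.val) (x, s)}) + 2 * cnt e.μ (𝒢.Vs e.val) ≤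
      2 * cnt e.μ 𝒢.Es := by
  rw [← deg_sum e 𝒢 hm hf h2, add_comm]
  gcongr
  unfold cnt
  refine ENNReal.tsum_le_tsum fun s => ?_
  have hB : MeasurableSet {x | 3 ≤ deg (𝒢.G e.val) (x, s)} := by
    have h3 : {x | 3 ≤ deg (𝒢.G e.val) (x, s)} = ⋃ d, {x | deg (𝒢.G e.val) (x, s) = d + 3} := by
      ext x
      simp only [Set.mem_ofPred_eq, Set.mem_iUnion]
      constructor
      · intro h
        exact ⟨deg (𝒢.G e.val) (x, s) - 3, by omega⟩
      · rintro ⟨d, h⟩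
        omega
    rw [h3]
    exact MeasurableSet.iUnion fun d => meas_deg (Env.meas_smul e) hm s _
  have hsub : {x | 3 ≤ deg (𝒢.G e.val) (x, s)} ⊆ 𝒢.Vs e.val s := by
    classical
    intro x hx
    have hx' : 3 ≤ deg (𝒢.G e.val) (x, s) := hx
    unfold deg at hx'
    have hx2 := lt_of_lt_of_le (by norm_num : 0 < 3) hx'
    rw [Finset.card_pos] at hx2
    obtain ⟨l, hl⟩ := hx2
    rw [Finset.mem_filter] at hl
    exact rdb_sub e 𝒢 l s hl.2
  calc e.μ {x | 3 ≤ deg (𝒢.G e.val) (x, s)}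
      = ∫⁻ _ in {x | 3 ≤ deg (𝒢.G e.val) (x, s)}, 1 ∂e.μ := by rw [setLIntegral_one]
    _ ≤ ∫⁻ x in {x | 3 ≤ deg (𝒢.G e.val) (x, s)},
          ((deg (𝒢.G e.val) (x, s) - 2 : ℕ) : ℝ≥0∞) ∂e.μ := by
        refine setLIntegral_mono' hB fun x hx => ?_
        have hx' : 3 ≤ deg (𝒢.G e.val) (x, s) := hx
        have : 1 ≤ deg (𝒢.G e.val) (x, s) - 2 := by omega
        exact_mod_cast this
    _ ≤ _ := lintegral_mono_set hsub

open NBaux in
/-- DEG3: `cnt (nearBr) ≤ 368 (E - V)`.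

Every vertex of `nearBr` is a branch vertex or is reached from a branch vertex `u` by a first
letter `a` readable at `u` and a length `1 ≤ j ≤ 61`, and is determined by `(u, a, j)`, because at an
intermediate vertex of degree `≤ 2` the reduced continuation is unique.  So
`cnt nearBr ≤ #Br + 61 ∑_{Br} deg ≤ ∑_{Br} (1 + 61 * 3) (deg - 2) ≤ 184 * 2 (E - V)`
(`deg ≤ 3 (deg - 2)` for `deg ≥ 3`). -/
theorem nearBr_le (e : Env) {S : Type} [Countable S] (𝒢 : Fld (Lab e.g) e.X S)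
    (hm : FMeas 𝒢) (hf : Folded (𝒢.G e.val)) (h2 : D2 e 𝒢) :
    cnt e.μ (nearBr e 𝒢) + 368 * cnt e.μ (𝒢.Vs e.val) ≤ 368 * cnt e.μ 𝒢.Es := by
  classical
  have h1 : cnt e.μ (nearBr e 𝒢) ≤ cnt e.μ (BN e 𝒢) := by
    refine mt_inj e.pmp (BN_meas e 𝒢 hm) (fun s γ q => KN e 𝒢 s γ q)
      (fun s γ q => KN_meas e 𝒢 hm s γ q) (fun s x hx => nearBr_KN e 𝒢 s x hx) ?_ ?_
    · rintro s γ ⟨s', o⟩ x ⟨w, ⟨h1, h2, h3, h4⟩, h5, h6, h7⟩
      cases o with
      | none => exact (mem_BN_none e 𝒢 s' _).mpr h5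
      | some p =>
        obtain ⟨a, j⟩ := p
        refine (mem_BN_some e 𝒢 s' _ a j).mpr ⟨h5, ?_⟩
        cases w with
        | nil => simp [code] at h4
        | cons b w =>
          simp only [code, Option.map_some, Option.some.injEq, Prod.mk.injEq] at h4
          obtain ⟨z, hz, -⟩ := h6
          rw [h4.1]
          exact ⟨z, hz⟩
    · rintro ⟨s', o⟩ y γ γ' s s₂ ⟨w, ⟨h1, h2, h3, h4⟩, h5, h6, h7⟩
        ⟨w', ⟨h1', h2', h3', h4'⟩, h5', h6', h7'⟩
      simp only [smul_inv_smul] at h5 h6 h7 h5' h6' h7'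
      have hw : w = w' := by
        have hc : code w = code w' := h4.symm.trans h4'
        cases w with
        | nil =>
          cases w' with
          | nil => rfl
          | cons b w' => simp [code] at hc
        | cons a w =>
          cases w' with
          | nil => simp [code] at hc
          | cons b w' =>
            simp only [code, Option.some.injEq, Prod.mk.injEq] at hc
            obtain ⟨rfl, hl⟩ := hc
            rw [word_unique hf w a w' _ _ _ hl h2 h2' h6 h6' h7]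
      subst hw
      have hγ : γ = γ' := by rw [h3, h3']
      subst hγ
      have := hf.rd_unique h6 h6'
      rw [Prod.mk.injEq] at this
      exact ⟨rfl, this.2⟩
  have h2' : cnt e.μ (BN e 𝒢) ≤ 184 *
      ∑' s, ∫⁻ x in 𝒢.Vs e.val s, ((deg (𝒢.G e.val) (x, s) - 2 : ℕ) : ℝ≥0∞) ∂e.μ := by
    unfold cnt
    rw [ENNReal.tsum_prod', ← ENNReal.tsum_mul_left]
    refine ENNReal.tsum_le_tsum fun s => ?_
    calc ∑' o, e.μ (BN e 𝒢 (s, o))
        = ∫⁻ x, ((({o | x ∈ BN e 𝒢 (s, o)} :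
            Set (Option ((Lab e.g × Bool) × Fin 61))).encard : ℕ∞) : ℝ≥0∞) ∂e.μ :=
          mt_cnt_eq (μ := e.μ) (A := fun o => BN e 𝒢 (s, o)) fun o => BN_meas e 𝒢 hm (s, o)
      _ ≤ ∫⁻ x, (𝒢.Vs e.val s).indicator
            (fun x => 184 * ((deg (𝒢.G e.val) (x, s) - 2 : ℕ) : ℝ≥0∞)) x ∂e.μ :=
          lintegral_mono fun x => BN_pt e 𝒢 s x
      _ = ∫⁻ x in 𝒢.Vs e.val s, 184 * ((deg (𝒢.G e.val) (x, s) - 2 : ℕ) : ℝ≥0∞) ∂e.μ := by
          rw [lintegral_indicator (meas_Vs e.meas_smul hm s)]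
      _ = 184 * ∫⁻ x in 𝒢.Vs e.val s, ((deg (𝒢.G e.val) (x, s) - 2 : ℕ) : ℝ≥0∞) ∂e.μ := by
          rw [lintegral_const_mul' _ _ (by simp)]
  have h3 := deg_sum e 𝒢 hm hf h2
  calc cnt e.μ (nearBr e 𝒢) + 368 * cnt e.μ (𝒢.Vs e.val)
      ≤ 184 * (∑' s, ∫⁻ x in 𝒢.Vs e.val s,
          ((deg (𝒢.G e.val) (x, s) - 2 : ℕ) : ℝ≥0∞) ∂e.μ) + 368 * cnt e.μ (𝒢.Vs e.val) := by
        gcongr
        exact h1.trans h2'
    _ = 184 * (2 * cnt e.μ (𝒢.Vs e.val) + ∑' s, ∫⁻ x in 𝒢.Vs e.val s,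
          ((deg (𝒢.G e.val) (x, s) - 2 : ℕ) : ℝ≥0∞) ∂e.μ) := by ring
    _ = 368 * cnt e.μ 𝒢.Es := by rw [h3]; ring

/-- all vertices of a short loop are in `nearBr`.
Let `x ∈ shortAt (s,i)` and `z` the vertex at position `t ≤ ℓ + 3` of the loop.  The positions
`t + (ℓ+3) - 61 + r`, `1 ≤ r ≤ 61`, end at position `t + (ℓ+3) ≡ t`; since the loop is not long one of
them carries a vertex of degree `≥ 3`; take the last one; the loop leads from it to `z` in at most
`60` steps through vertices of degree `≤ 2` (`closed_read`, `closed_period`, `seg_red`). -/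
theorem short_sub (e : Env) {S : Type} [Countable S] (𝒢 : Fld (Lab e.g) e.X S)
    (hf : Folded (𝒢.G e.val)) {s : S} {i : Fin e.g} {x : e.X} (hx : x ∈ shortAt e 𝒢 (s, i)) :
    ∃ v, RdW (𝒢.G e.val) (fun u => u.1 ∈ nearBr e 𝒢 u.2)
      (seg e.c e.ℓ i 0 (e.ℓ - 57)) (x, s) v := by
  classical
  obtain ⟨hc, hnl⟩ := hx
  have hc' : Rd (𝒢.G e.val) (seg e.c e.ℓ i 0 (e.ℓ + 3)) (x, s) (x, s) := hc
  have hℓ : 1000 ≤ e.ℓ := e.cw.big
  have hnl' : ∀ j : ℕ, ∃ r, 1 ≤ r ∧ r ≤ 61 ∧ ∃ z,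
      Rd (𝒢.G e.val) (seg e.c e.ℓ i 0 (j + r)) (x, s) z ∧ 3 ≤ deg (𝒢.G e.val) z := by
    intro j
    by_contra hcon
    push Not at hcon
    exact hnl ⟨hc, j, fun r h1 h2 z hz => Nat.le_of_lt_succ (hcon r h1 h2 z hz)⟩
  obtain ⟨v, hv, -⟩ := closed_read hf hc' (e.ℓ - 57)
  refine ⟨v, (rdW_iff hf).2 ⟨hv, ?_⟩⟩
  intro t ht z hz
  rw [seg_length] at ht
  rw [seg_take _ _ _ _ ht] at hz
  have hz' : Rd (𝒢.G e.val) (seg e.c e.ℓ i 0 (t + (e.ℓ + 3))) (x, s) z :=
    (closed_period hf hc').2 hz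
  -- the last branch position
  set j := t + (e.ℓ + 3) - 61 with hj
  have hj' : j + 61 = t + (e.ℓ + 3) := by omega
  obtain ⟨r, h1, h2, y, hy⟩ := hnl' j
  set P : ℕ → Prop := fun r => ∃ z,
      Rd (𝒢.G e.val) (seg e.c e.ℓ i 0 (j + r)) (x, s) z ∧ 3 ≤ deg (𝒢.G e.val) z with hP
  have hPr : P r := ⟨y, hy⟩
  set r0 := Nat.findGreatest P 61 with hr0
  have hP0 : P r0 := Nat.findGreatest_spec h2 hPr
  have hr1 : r ≤ r0 := Nat.le_findGreatest h2 hPr
  have hr2 : r0 ≤ 61 := Nat.findGreatest_le 61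
  obtain ⟨u, hu, hdu⟩ := hP0
  -- split the reading
  have hsplit : Rd (𝒢.G e.val) (seg e.c e.ℓ i (j + r0) (61 - r0)) u z := by
    have h3 : t + (e.ℓ + 3) = (j + r0) + (61 - r0) := by omega
    rw [h3, seg_add, rd_append] at hz'
    obtain ⟨u', h4, h5⟩ := hz'
    rw [zero_add] at h5
    rwa [hf.rd_unique hu h4]
  refine ⟨seg e.c e.ℓ i (j + r0) (61 - r0), u, ?_, seg_red e.cw _ _ _, hdu, hsplit, ?_⟩
  · rw [seg_length]; omega
  · intro m hm0 hm z' hz2
    rw [seg_length] at hm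
    rw [seg_take _ _ _ _ hm.le] at hz2
    have h6 : ¬ P (r0 + m) :=
      Nat.findGreatest_is_greatest (P := P) (n := 61) (k := r0 + m) (by omega) (by omega)
    by_contra h7
    refine h6 ⟨z', ?_, by omega⟩
    have h8 : j + (r0 + m) = (j + r0) + m := by omega
    rw [h8, seg_add, rd_append]
    exact ⟨u, hu, by rwa [zero_add]⟩

/-- SHORT. `2000 #short ≤ cnt nearBr ≤ 368 (E - V)`, since `g cnt nearBr ≤ g 368 · 2δ ≤ 1`. -/
theorem short_le (e : Env) {S : Type} [Countable S] (𝒢 : Fld (Lab e.g) e.X S) (b : S)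
    (h : Good e 𝒢 b) (h2 : D2 e 𝒢) :
    2000 * cnt e.μ (shortAt e 𝒢) + 368 * cnt e.μ (𝒢.Vs e.val) ≤ 368 * cnt e.μ 𝒢.Es := by
  have hnb := nearBr_le e 𝒢 h.meas h.folded h2
  refine le_trans (add_le_add ?_ le_rfl) hnb
  refine CLT e 𝒢 h.meas h.folded 0 (nearBr e 𝒢) (meas_nearBr e 𝒢 h.meas) ?_ (shortAt e 𝒢)
    (meas_shortAt e h.meas) (fun s i x hx => short_sub e 𝒢 h.folded hx)
  have hfin : 368 * cnt e.μ (𝒢.Vs e.val) ≠ ⊤ := by
    refine ne_top_of_le_ne_top (ENNReal.mul_ne_top (a := 368) (by norm_num) h.fin) ?_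
    exact le_trans (le_add_self) hnb
  have h3 : cnt e.μ (nearBr e 𝒢) ≤ 368 * ENNReal.ofReal (2 * e.δ) := by
    have h4 : cnt e.μ (nearBr e 𝒢) + 368 * cnt e.μ (𝒢.Vs e.val) ≤
        368 * ENNReal.ofReal (2 * e.δ) + 368 * cnt e.μ (𝒢.Vs e.val) := by
      refine hnb.trans ?_
      calc 368 * cnt e.μ 𝒢.Es ≤ 368 * (cnt e.μ (𝒢.Vs e.val) + ENNReal.ofReal (2 * e.δ)) := by
            gcongr
            exact h.cap
        _ = _ := by rw [mul_add, add_comm]
    exact (ENNReal.add_le_add_iff_right hfin).1 h4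
  have hδ := e.δpos
  calc cnt e.μ (nearBr e 𝒢) * e.g ≤ 368 * ENNReal.ofReal (2 * e.δ) * e.g := by gcongr
    _ = ENNReal.ofReal (368 * (2 * e.δ) * e.g) := by
        have h5 : (0 : ℝ) ≤ 2 * e.δ := by linarith
        rw [ENNReal.ofReal_mul (p := 368 * (2 * e.δ)) (by linarith),
          ENNReal.ofReal_mul (p := 368) (by norm_num), ENNReal.ofReal_natCast]
        norm_num
    _ ≤ ENNReal.ofReal 1 := by
        refine ENNReal.ofReal_le_ofReal ?_
        have := e.num3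
        have hg : (0 : ℝ) ≤ e.g := Nat.cast_nonneg _
        nlinarith [mul_nonneg hδ.le hg]
    _ = 1 := ENNReal.ofReal_one

end Crest.Agent.R191
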