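import Crest.Agent.R191.Fold
import Crest.Agent.R191.Short
import Crest.Agent.R191.Star
import Crest.Agent.R191.Rot

/-!
# R191 piece STAGE: attaching the relator loops of a set of near-complete readings

Context: `𝒢` a field, `A p ⊆ nearAt 𝒢 k p`, `𝒴 = attach 𝒢 (loopArcs k A)` (for every `x ∈ A (s,i)` a
loop reading `seg i k (ℓ+3)` is attached at `(x,s)`), `q` representatives for folding `𝒴`,
`𝒢' = foldF 𝒴 q`.
-/

set_option autoImplicit false

namespace Crest.Agent.R191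

open MeasureTheory
open scoped ENNReal

variable (e : Env) {S : Type} (𝒢 : Fld (Lab e.g) e.X S) (b : S) (k : ℕ)
  (A : S × Fin e.g → Set e.X)

/-- sheets of the attached field -/
abbrev SS (e : Env) (S : Type) := S ⊕ ((S × Fin e.g) × ℕ)

/-- the attached field -/
def stY : Fld (Lab e.g) e.X (SS e S) := attach 𝒢 e.val (loopArcs e k A)

/-- the new field -/
def stG (q : e.X → SS e S → SS e S) : Fld (Lab e.g) e.X (SS e S) :=
  foldF (stY e 𝒢 k A) e.val q

/-- images of the old edges -/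
def oldE (q : e.X → SS e S → SS e S) : EI (Lab e.g) (SS e S) → Set e.X :=
  fun ed => {x | ∃ n m, x ∈ 𝒢.E ed.1 n m ∧ q x (Sum.inl n) = ed.2.1 ∧
    q ((e.val ed.1)⁻¹ • x) (Sum.inl m) = ed.2.2}

/-- old edges with non-unique image -/
def dupE (q : e.X → SS e S → SS e S) : EI (Lab e.g) S → Set e.X :=
  fun ed => {x | x ∈ 𝒢.Es ed ∧ ∃ n' m', (n', m') ≠ ed.2 ∧ x ∈ 𝒢.E ed.1 n' m' ∧
    q x (Sum.inl n') = q x (Sum.inl ed.2.1) ∧
    q ((e.val ed.1)⁻¹ • x) (Sum.inl m') = q ((e.val ed.1)⁻¹ • x) (Sum.inl ed.2.2)}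

/-- old closed loops and seeds -/
def allL : S × Fin e.g → Set e.X := fun p => closedAt e 𝒢 k p ∪ A p

/-- loops/seeds with non-unique image -/
def dupL (q : e.X → SS e S → SS e S) : S × Fin e.g → Set e.X :=
  fun p => {x | x ∈ allL e 𝒢 k A p ∧ ∃ s', s' ≠ p.1 ∧ x ∈ allL e 𝒢 k A (s', p.2) ∧
    q x (Sum.inl s') = q x (Sum.inl p.1)}

/-- images of the loops and seeds -/
def imgL (q : e.X → SS e S → SS e S) : SS e S × Fin e.g → Set e.X :=
  fun p => {x | ∃ s, x ∈ allL e 𝒢 k A (s, p.2) ∧ q x (Sum.inl s) = p.1}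

variable {e 𝒢 b k A}

section STCaux

/-- map of readings -/
theorem rd_map {L V V' : Type} {G : L → V → V → Prop} {G' : L → V' → V' → Prop} (f : V → V')
    (h : ∀ a u v, G a u v → G' a (f u) (f v)) {w : List (L × Bool)} {u v : V}
    (hr : Rd G w u v) : Rd G' w (f u) (f v) := by
  induction w generalizing u with
  | nil => exact congrArg f hr
  | cons e' w ih =>
    obtain ⟨z, h1, h2⟩ := hr
    refine ⟨f z, ?_, ih h2⟩
    unfold Stp at h1 ⊢
    split_ifs at h1 ⊢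
    · exact h _ _ _ h1
    · exact h _ _ _ h1

/-- map of old vertices to vertices of the new field -/
theorem st_rd_old {q : e.X → SS e S → SS e S} {w : List (Lab e.g × Bool)} {u v : e.X × S}
    (h : Rd (𝒢.G e.val) w u v) :
    Rd ((stG e 𝒢 k A q).G e.val) w (u.1, q u.1 (Sum.inl u.2)) (v.1, q v.1 (Sum.inl v.2)) :=
  rd_map (fun u => (u.1, q u.1 (Sum.inl u.2)))
    (fun _ _ _ h' => foldF_edge (q := q) (attach_old (𝒜 := loopArcs e k A) h')) h

theorem st_rd_arc {q : e.X → SS e S → SS e S} {p : S × Fin e.g} {x : e.X} (hx : x ∈ A p)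
    {j : ℕ} (hj : j ≤ e.ℓ + 3) :
    Rd ((stG e 𝒢 k A q).G e.val) (seg e.c e.ℓ p.2 k j) (x, q x (Sum.inl p.1))
      ((loopArcs e k A).pt e.val p x j,
        q ((loopArcs e k A).pt e.val p x j) ((loopArcs e k A).pos p j)) := by
  have h0 : (loopArcs e k A).wd p ≠ [] := by
    intro h
    have := congrArg List.length h
    simp [loopArcs, seg_length] at this
  have h1 := attach_arc_prefix (𝒢 := 𝒢) (val := e.val) (𝒜 := loopArcs e k A) (k := p) (x := x) hx h0
    (j := j) (by simpa [loopArcs, seg_length] using hj)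
  have h2 : ((loopArcs e k A).wd p).take j = seg e.c e.ℓ p.2 k j := seg_take _ _ _ _ hj
  rw [h2] at h1
  exact rd_map (fun u : e.X × SS e S => (u.1, q u.1 u.2))
    (fun _ _ _ h' => foldF_edge (q := q) h') h1

/-- the first `ℓ - 57` edges of an attached loop have old images -/
theorem st_edge_old {q : e.X → SS e S → SS e S}
    (hA : ∀ p, A p ⊆ nearAt e 𝒢 k p)
    (hq : Rep (stY e 𝒢 k A) e.val (Sum.inl b) q) {p : S × Fin e.g} {x : e.X} (hx : x ∈ A p)
    {j : ℕ} (hj : j < e.ℓ - 57) :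
    ∃ u u' : e.X × S, Stp (𝒢.G e.val) (rl e.c e.ℓ p.2 (k + j)) u u' ∧
      (u.1, q u.1 (Sum.inl u.2)) = ((loopArcs e k A).pt e.val p x j,
        q ((loopArcs e k A).pt e.val p x j) ((loopArcs e k A).pos p j)) ∧
      (u'.1, q u'.1 (Sum.inl u'.2)) = ((loopArcs e k A).pt e.val p x (j + 1),
        q ((loopArcs e k A).pt e.val p x (j + 1)) ((loopArcs e k A).pos p (j + 1))) := by
  obtain ⟨⟨v, hv⟩, -⟩ := hA p hx
  obtain ⟨m, hm⟩ : ∃ m, e.ℓ - 57 = j + (m + 1) := ⟨e.ℓ - 57 - j - 1, by omega⟩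
  rw [hm, seg_add, rd_append] at hv
  obtain ⟨u, hu1, hu2⟩ := hv
  rw [seg_succ] at hu2
  obtain ⟨u', hs, -⟩ := hu2
  have hfold : Folded ((stG e 𝒢 k A q).G e.val) := foldF_folded hq
  have h1 := st_rd_old (k := k) (A := A) (q := q) hu1
  have h1' : Rd (𝒢.G e.val) (seg e.c e.ℓ p.2 k (j + 1)) (x, p.1) u' := by
    rw [seg_add, rd_append]
    refine ⟨u, hu1, ?_⟩
    rw [seg_succ]
    exact ⟨u', hs, rfl⟩
  have h2 := st_rd_old (k := k) (A := A) (q := q) h1'
  have h3 := st_rd_arc (𝒢 := 𝒢) (k := k) (q := q) hx (j := j) (by omega)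
  have h4 := st_rd_arc (𝒢 := 𝒢) (k := k) (q := q) hx (j := j + 1) (by omega)
  exact ⟨u, u', hs, hfold.rd_unique h1 h3, hfold.rd_unique h2 h4⟩

/-- the loops are closed -/
theorem st_pt_end (p : S × Fin e.g) (x : e.X) :
    (loopArcs e k A).pt e.val p x (e.ℓ + 3) = x := by
  have h1 : ((loopArcs e k A).wd p).take (e.ℓ + 3) = seg e.c e.ℓ p.2 k (e.ℓ + 3) :=
    seg_take _ _ _ _ le_rfl
  rw [Arcs.pt, h1, wval_seg e.val e.rel, inv_one, one_smul]

theorem st_pos_end (p : S × Fin e.g) :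
    (loopArcs e k A).pos p (e.ℓ + 3) = Sum.inl p.1 := by
  simp [Arcs.pos, loopArcs, seg_length]

theorem st_pt_zero (p : S × Fin e.g) (x : e.X) :
    (loopArcs e k A).pt e.val p x 0 = x := by
  simp [Arcs.pt, wval]

theorem st_pos_zero (p : S × Fin e.g) :
    (loopArcs e k A).pos p 0 = Sum.inl p.1 := by
  simp [Arcs.pos, loopArcs]

/-- one step along an attached loop -/
theorem st_arc_stp {p : S × Fin e.g} {x : e.X} (hx : x ∈ A p) {j : ℕ} (hj : j < e.ℓ + 3) :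
    Stp ((stY e 𝒢 k A).G e.val) (rl e.c e.ℓ p.2 (k + j))
      ((loopArcs e k A).pt e.val p x j, (loopArcs e k A).pos p j)
      ((loopArcs e k A).pt e.val p x (j + 1), (loopArcs e k A).pos p (j + 1)) := by
  have hlen : ((loopArcs e k A).wd p).length = e.ℓ + 3 := seg_length _ _ _
  have hj' : j < ((loopArcs e k A).wd p).length := by rw [hlen]; exact hj
  have hlt : ((loopArcs e k A).wd p)[j] = rl e.c e.ℓ p.2 (k + j) := seg_getElem _ _ _ _ _
  have hpt : (loopArcs e k A).pt e.val p x (j + 1) =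
      (lval e.val (rl e.c e.ℓ p.2 (k + j)))⁻¹ • (loopArcs e k A).pt e.val p x j := by
    have h1 : ((loopArcs e k A).wd p).take (j + 1) =
        ((loopArcs e k A).wd p).take j ++ [rl e.c e.ℓ p.2 (k + j)] := by
      rw [← hlt]; exact List.take_succ_eq_append_getElem hj'
    rw [Arcs.pt, h1, wval_append, mul_inv_rev, mul_smul, ← Arcs.pt]
    simp [wval]
  rcases hr : rl e.c e.ℓ p.2 (k + j) with ⟨a, s⟩
  rw [hr] at hlt hpt
  cases s
  · have hpt' : (loopArcs e k A).pt e.val p x j =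
        (e.val a)⁻¹ • (loopArcs e k A).pt e.val p x (j + 1) := by
      rw [hpt]; simp [lval]
    simp only [Stp, Bool.false_eq_true, if_false]
    exact ⟨hpt', Or.inr ⟨p, j, x, hj', hx, Or.inr ⟨hlt, rfl, rfl, rfl⟩⟩⟩
  · have hpt' : (loopArcs e k A).pt e.val p x (j + 1) =
        (e.val a)⁻¹ • (loopArcs e k A).pt e.val p x j := by
      rw [hpt]; simp [lval]
    simp only [Stp, if_true]
    exact ⟨hpt', Or.inr ⟨p, j, x, hj', hx, Or.inl ⟨hlt, rfl, rfl, rfl⟩⟩⟩

/-- the start of a seed is an old vertex -/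
theorem st_seed_isV (hA : ∀ p, A p ⊆ nearAt e 𝒢 k p) {p : S × Fin e.g} {x : e.X} (hx : x ∈ A p) :
    IsV (𝒢.G e.val) (x, p.1) := by
  have hℓ := e.cw.big
  obtain ⟨⟨v, hv⟩, -⟩ := hA p hx
  obtain ⟨m, hm⟩ : ∃ m, e.ℓ - 57 = m + 1 := ⟨e.ℓ - 57 - 1, by omega⟩
  rw [hm, seg_succ] at hv
  obtain ⟨z, hz, -⟩ := hv
  rcases hr : rl e.c e.ℓ p.2 k with ⟨a, s⟩
  rw [hr] at hz
  cases s
  · exact ⟨a, z, Or.inr (by simpa [Stp] using hz)⟩
  · exact ⟨a, z, Or.inl (by simpa [Stp] using hz)⟩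

/-- `oldE` is a fibrewise image -/
theorem oldE_eq {q : e.X → SS e S → SS e S} :
    oldE e 𝒢 q = fun ed => {x | ∃ p : EI (Lab e.g) S, x ∈ 𝒢.Es p ∧
      (fun (x : e.X) (p : EI (Lab e.g) S) => ((p.1, q x (Sum.inl p.2.1),
        q ((e.val p.1)⁻¹ • x) (Sum.inl p.2.2)) : EI (Lab e.g) (SS e S))) x p = ed} := by
  funext ed
  obtain ⟨a, n', m'⟩ := ed
  ext x
  simp only [oldE, Set.mem_setOf_eq, Prod.mk.injEq, Prod.exists, Fld.Es]
  constructor
  · rintro ⟨n, m, h1, h2, h3⟩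
    exact ⟨a, n, m, h1, rfl, h2, h3⟩
  · rintro ⟨a', n, m, h1, rfl, h2, h3⟩
    exact ⟨n, m, h1, h2, h3⟩

theorem oldE_meas_aux {q : e.X → SS e S → SS e S}
    (hq : Rep (stY e 𝒢 k A) e.val (Sum.inl b) q) (p : EI (Lab e.g) S) (ed : EI (Lab e.g) (SS e S)) :
    MeasurableSet {x | (fun (x : e.X) (p : EI (Lab e.g) S) => ((p.1, q x (Sum.inl p.2.1),
        q ((e.val p.1)⁻¹ • x) (Sum.inl p.2.2)) : EI (Lab e.g) (SS e S))) x p = ed} := by
  obtain ⟨a, n', m'⟩ := ed
  have : {x | (fun (x : e.X) (p : EI (Lab e.g) S) => ((p.1, q x (Sum.inl p.2.1),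
        q ((e.val p.1)⁻¹ • x) (Sum.inl p.2.2)) : EI (Lab e.g) (SS e S))) x p = (a, n', m')} =
      {_x | p.1 = a} ∩ ({x | q x (Sum.inl p.2.1) = n'} ∩
        ((fun x => (e.val p.1)⁻¹ • x) ⁻¹' {x | q x (Sum.inl p.2.2) = m'})) := by
    ext x
    simp only [Set.mem_setOf_eq, Prod.mk.injEq, Set.mem_inter_iff, Set.mem_preimage]
  rw [this]
  exact (MeasurableSet.const _).inter ((hq.meas _ _).inter ((e.pmp _).measurable (hq.meas _ _)))

end STCaux

/-- S4: EDGES.  The edges of `𝒢'` are images of old edges or of the last `60` edges of the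
attached loops (the first `ℓ - 57` edges of the loop have the same images as the edges of the
old reading, as both readings start at the same vertex of the folded graph).  `mt_le`/`mt_inj`. -/
theorem st_edges [Countable S] (hm : FMeas 𝒢) (hf : Folded (𝒢.G e.val))
    (hAm : ∀ p, MeasurableSet (A p)) (hA : ∀ p, A p ⊆ nearAt e 𝒢 k p)
    {q : e.X → SS e S → SS e S} (hq : Rep (stY e 𝒢 k A) e.val (Sum.inl b) q) :
    cnt e.μ (stG e 𝒢 k A q).Es ≤ cnt e.μ (oldE e 𝒢 q) + 60 * cnt e.μ A := by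
  classical
  have hℓ := e.cw.big
  let wd : S × Fin e.g → List (Lab e.g × Bool) := fun p => seg e.c e.ℓ p.2 k (e.ℓ + 3)
  let lt : (S × Fin e.g) → ℕ → Lab e.g × Bool := fun p j => rl e.c e.ℓ p.2 (k + j)
  let sr : (S × Fin e.g) → ℕ → ℕ := fun p j => if (lt p j).2 = true then j else j + 1
  let tr : (S × Fin e.g) → ℕ → ℕ := fun p j => if (lt p j).2 = true then j + 1 else j
  let gm : (S × Fin e.g) → ℕ → e.Γ := fun p j => wval e.val ((wd p).take (sr p j))
  let K : EI (Lab e.g) (SS e S) → e.Γ → (S × Fin e.g) → Set e.X := fun ed δ p =>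
    {y | ∃ j, (e.ℓ - 57 ≤ j ∧ j < e.ℓ + 3 ∧ δ = gm p j ∧ ed.1 = (lt p j).1) ∧ δ • y ∈ A p ∧
       q y ((loopArcs e k A).pos p (sr p j)) = ed.2.1 ∧
       q ((e.val ed.1)⁻¹ • y) ((loopArcs e k A).pos p (tr p j)) = ed.2.2}
  have hsm : ∀ γ : e.Γ, Measurable fun x : e.X => γ • x := fun γ => (e.pmp γ).measurable
  have hKm : ∀ ed δ p, MeasurableSet (K ed δ p) := by
    intro ed δ p
    have : K ed δ p = ⋃ j : ℕ, ({_y | e.ℓ - 57 ≤ j ∧ j < e.ℓ + 3 ∧ δ = gm p j ∧
        ed.1 = (lt p j).1} ∩ (((fun y => δ • y) ⁻¹' A p) ∩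
        ({y | q y ((loopArcs e k A).pos p (sr p j)) = ed.2.1} ∩
        ((fun y => (e.val ed.1)⁻¹ • y) ⁻¹'
          {y | q y ((loopArcs e k A).pos p (tr p j)) = ed.2.2})))) := by
      ext y
      simp only [K, Set.mem_setOf_eq, Set.mem_iUnion, Set.mem_inter_iff, Set.mem_preimage]
    rw [this]
    refine MeasurableSet.iUnion fun j => (MeasurableSet.const _).inter
      ((hsm δ (hAm p)).inter ((hq.meas _ _).inter (hsm _ (hq.meas _ _))))
  have h1 : cnt e.μ (fun ed => (stG e 𝒢 k A q).Es ed \ oldE e 𝒢 q ed) ≤ 60 * cnt e.μ A := by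
    have h2 := mt_le e.pmp (A := fun ed => (stG e 𝒢 k A q).Es ed \ oldE e 𝒢 q ed) (B := A) hAm K
      hKm 1 60 ?_ ?_ ?_
    · simpa using h2
    · -- every new edge is sent somewhere
      rintro ⟨a, n', m'⟩ y ⟨hy, hyo⟩
      have hne : ({gq : e.Γ × (S × Fin e.g) | y ∈ K (a, n', m') gq.1 gq.2}).Nonempty := by
        obtain ⟨n, m, hnm, hn, hm'⟩ := hy
        rcases hnm with ⟨n₀, m₀, rfl, rfl, h0⟩ | ⟨p, j, x, hj, hx, hc⟩
        · exact absurd ⟨n₀, m₀, h0, hn, hm'⟩ hyo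
        · have hj' : j < e.ℓ + 3 := by simpa [loopArcs, seg_length] using hj
          have hlt : ((loopArcs e k A).wd p)[j] = lt p j := seg_getElem _ _ _ _ _
          rw [hlt] at hc
          by_cases hjl : j < e.ℓ - 57
          · exfalso
            apply hyo
            obtain ⟨u, u', hs, e1, e2⟩ := st_edge_old (b := b) hA hq hx hjl
            rw [Prod.mk.injEq] at e1 e2
            obtain ⟨e1a, e1b⟩ := e1
            obtain ⟨e2a, e2b⟩ := e2
            rcases hc with ⟨h3, h4, h5, h6⟩ | ⟨h3, h4, h5, h6⟩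
            · have hs' : (𝒢.G e.val) a u u' := by
                have h3' : rl e.c e.ℓ p.2 (k + j) = (a, true) := h3
                rw [h3'] at hs
                simpa [Stp] using hs
              obtain ⟨h7, h8⟩ := hs'
              refine ⟨u.2, u'.2, ?_, ?_, ?_⟩
              · rw [h4, ← e1a]; exact h8
              · rw [← hn, h5, h4, ← e1b, ← e1a]
              · rw [← hm', h6, h4, ← e1a, ← h7, e2a, ← e2b, e2a]
            · have hs' : (𝒢.G e.val) a u' u := by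
                have h3' : rl e.c e.ℓ p.2 (k + j) = (a, false) := h3
                rw [h3'] at hs
                simpa [Stp] using hs
              obtain ⟨h7, h8⟩ := hs'
              refine ⟨u'.2, u.2, ?_, ?_, ?_⟩
              · rw [h4, ← e2a]; exact h8
              · rw [← hn, h5, h4, ← e2b, ← e2a]
              · rw [← hm', h6, h4, ← e2a, ← h7, e1a, ← e1b, e1a]
          · refine ⟨(gm p j, p), j, ⟨by omega, hj', rfl, ?_⟩, ?_, ?_, ?_⟩
            · rcases hc with ⟨h3, -⟩ | ⟨h3, -⟩ <;> simp [h3]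
            · rcases hc with ⟨h3, h4, h5, h6⟩ | ⟨h3, h4, h5, h6⟩
              · have : sr p j = j := by simp [sr, h3]
                simp only [gm, this, h4, Arcs.pt]
                have h9 : (wd p).take j = ((loopArcs e k A).wd p).take j := rfl
                rw [h9, smul_inv_smul]
                exact hx
              · have : sr p j = j + 1 := by simp [sr, h3]
                simp only [gm, this, h4, Arcs.pt]
                have h9 : (wd p).take (j + 1) = ((loopArcs e k A).wd p).take (j + 1) := rfl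
                rw [h9, smul_inv_smul]
                exact hx
            · rcases hc with ⟨h3, h4, h5, h6⟩ | ⟨h3, h4, h5, h6⟩
              · have : sr p j = j := by simp [sr, h3]
                rw [this, ← h5]; exact hn
              · have : sr p j = j + 1 := by simp [sr, h3]
                rw [this, ← h5]; exact hn
            · rcases hc with ⟨h3, h4, h5, h6⟩ | ⟨h3, h4, h5, h6⟩
              · have : tr p j = j + 1 := by simp [tr, h3]
                rw [this, ← h6]; exact hm'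
              · have : tr p j = j := by simp [tr, h3]
                rw [this, ← h6]; exact hm'
      simpa using Set.one_le_encard_iff_nonempty.2 hne
    · rintro ed δ p y ⟨j, -, h, -⟩
      exact h
    · -- at most 60 edges are sent to a seed
      intro p y
      let f : ℕ → e.Γ × EI (Lab e.g) (SS e S) := fun j =>
        (gm p j, (lt p j).1, q ((gm p j)⁻¹ • y) ((loopArcs e k A).pos p (sr p j)),
          q ((e.val (lt p j).1)⁻¹ • (gm p j)⁻¹ • y) ((loopArcs e k A).pos p (tr p j)))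
      have hsub : {gp : e.Γ × EI (Lab e.g) (SS e S) | gp.1⁻¹ • y ∈ K gp.2 gp.1 p} ⊆
          (((Finset.Ico (e.ℓ - 57) (e.ℓ + 3)).image f : Finset _) : Set _) := by
        rintro ⟨δ, a, n', m'⟩ ⟨j, ⟨h3, h4, h5, h6⟩, h7, h8, h9⟩
        simp only at h5 h6 h7 h8 h9
        rw [Finset.coe_image, Set.mem_image]
        refine ⟨j, by simp [h3, h4], ?_⟩
        simp only [f, Prod.mk.injEq]
        refine ⟨h5.symm, h6.symm, ?_, ?_⟩
        · rw [← h5]; exact h8
        · rw [← h5, ← h6]; exact h9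
      refine (Set.encard_le_encard hsub).trans ?_
      rw [Set.encard_coe_eq_coe_finsetCard]
      have hc : ((Finset.Ico (e.ℓ - 57) (e.ℓ + 3)).image f).card ≤ 60 := by
        refine Finset.card_image_le.trans ?_
        rw [Nat.card_Ico]; omega
      exact_mod_cast hc
  calc cnt e.μ (stG e 𝒢 k A q).Es
      ≤ cnt e.μ (fun ed => oldE e 𝒢 q ed ∪ ((stG e 𝒢 k A q).Es ed \ oldE e 𝒢 q ed)) :=
        cnt_mono fun ed => by
          intro y hy
          by_cases h : y ∈ oldE e 𝒢 q ed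
          · exact Or.inl h
          · exact Or.inr ⟨hy, h⟩
    _ ≤ cnt e.μ (oldE e 𝒢 q) + cnt e.μ (fun ed => (stG e 𝒢 k A q).Es ed \ oldE e 𝒢 q ed) :=
        cnt_union_le _ _
    _ ≤ cnt e.μ (oldE e 𝒢 q) + 60 * cnt e.μ A := by gcongr

/-- Every element of `allL` has a reading of length `ℓ - 57` in `𝒢`. -/
theorem allL_read (hf : Folded (𝒢.G e.val)) (hA : ∀ p, A p ⊆ nearAt e 𝒢 k p) {s : S}
    {i : Fin e.g} {x : e.X}
    (hx : x ∈ allL e 𝒢 k A (s, i)) :
    ∃ v, Rd (𝒢.G e.val) (seg e.c e.ℓ i k (e.ℓ - 57)) (x, s) v := by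
  have hℓ := e.cw.big
  rcases hx with hx | hx
  · have h1 : Rd (𝒢.G e.val) (seg e.c e.ℓ i k (e.ℓ + 3)) (x, s) (x, s) := hx
    have h2 : e.ℓ + 3 = (e.ℓ - 57) + 60 := by omega
    rw [h2, seg_add, rd_append] at h1
    obtain ⟨z, hz, -⟩ := h1
    exact ⟨z, hz⟩
  · exact (hA _ hx).1

/-- the images close up: `imgL ⊆ closedAt 𝒢' k` (`foldF_rs`, `attach_arc`) -/
theorem imgL_closed {q : e.X → SS e S → SS e S}
    (hq : Rep (stY e 𝒢 k A) e.val (Sum.inl b) q) (p : SS e S × Fin e.g) :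
    imgL e 𝒢 k A q p ⊆ closedAt e (stG e 𝒢 k A q) k p := by
  rintro x ⟨s, hx, hs⟩
  obtain ⟨n', i⟩ := p
  simp only at hs hx
  subst hs
  rcases hx with hx | hx
  · have h1 : Rd (𝒢.G e.val) (seg e.c e.ℓ i k (e.ℓ + 3)) (x, s) (x, s) := hx
    exact st_rd_old (k := k) (A := A) (q := q) h1
  · have h1 := st_rd_arc (𝒢 := 𝒢) (k := k) (q := q) hx (j := e.ℓ + 3) le_rfl
    rw [st_pt_end, st_pos_end] at h1
    exact h1

/-- S1: the new field is a `Base` field.
`fin`: by `st_edges` below `cnt Es' ≤ cnt oldE + 60 cnt A`. -/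
theorem st_base [Countable S] (h : Base e 𝒢 b) (hAm : ∀ p, MeasurableSet (A p))
    (hA : ∀ p, A p ⊆ nearAt e 𝒢 k p) (hAc : cnt e.μ A ≠ ⊤)
    {q : e.X → SS e S → SS e S} (hq : Rep (stY e 𝒢 k A) e.val (Sum.inl b) q) :
    Base e (stG e 𝒢 k A q) (Sum.inl b) := by
  have hsm : ∀ γ : e.Γ, Measurable fun x : e.X => γ • x := fun γ => (e.pmp γ).measurable
  have hm : FMeas 𝒢 := h.meas
  refine ⟨?_, foldF_folded hq, ?_, ?_, ?_, ?_⟩
  · exact meas_foldF hsm (meas_attach hsm hm _ hAm) hq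
  · intro x
    exact ⟨Sum.inl b, Sum.inl b, Or.inl ⟨b, b, rfl, rfl, h.base_t x⟩, hq.base _, hq.base _⟩
  · intro u hu
    have hold : ∀ s : S, IsV (𝒢.G e.val) (u.1, s) → q u.1 (Sum.inl s) = u.2 →
        ∃ w x, Rd ((stG e 𝒢 k A q).G e.val) w (x, Sum.inl b) u := by
      intro s hs hqs
      obtain ⟨w, x, hw⟩ := h.conn _ hs
      refine ⟨w, x, ?_⟩
      have h1 := st_rd_old (k := k) (A := A) (q := q) hw
      simp only [hq.base, hqs] at h1
      exact h1
    obtain ⟨s, hs1, hs2⟩ := foldF_isV hu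
    rcases attach_isV hs1 with ⟨s0, h1, h2⟩ | ⟨p, j, x, hx, hj, hu'⟩
    · simp only at h1
      subst h1
      exact hold s0 h2 hs2
    · have hlen : ((loopArcs e k A).wd p).length = e.ℓ + 3 := seg_length _ _ _
      rw [hlen] at hj
      replace hx : x ∈ A p := hx
      obtain ⟨w, y, hw⟩ := h.conn _ (st_seed_isV hA hx)
      have h1 := st_rd_old (k := k) (A := A) (q := q) hw
      simp only [hq.base] at h1
      have h2 := st_rd_arc (𝒢 := 𝒢) (k := k) (q := q) hx hj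
      rw [Prod.mk.injEq] at hu'
      rw [← hu'.1, ← hu'.2, hs2] at h2
      exact ⟨w ++ seg e.c e.ℓ p.2 k j, y, rd_append.2 ⟨_, h1, h2⟩⟩
  · intro x γ
    obtain ⟨w, hw⟩ := h.gen x γ
    refine ⟨w, ?_⟩
    have h1 := st_rd_old (k := k) (A := A) (q := q) hw
    simp only [hq.base] at h1
    exact h1
  · have h1 := st_edges hm h.folded hAm hA hq
    have h2 : cnt e.μ (oldE e 𝒢 q) ≤ cnt e.μ 𝒢.Es := by
      rw [oldE_eq]
      exact fib_image_le (A := 𝒢.Es) (fun p => hm _ _ _) _ (fun p ed => oldE_meas_aux hq p ed)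
    refine ne_top_of_le_ne_top ?_ h1
    exact ENNReal.add_ne_top.2 ⟨ne_top_of_le_ne_top h.fin h2,
      ENNReal.mul_ne_top (by norm_num) hAc⟩

/-- S2: COCYCLE CONDITION for the new field, with the images of the old closed loops and of
the seeds as loops.

Given `F'` on the edges of `𝒢'`, let `F x (a,n,m) = F' x (a, q x (inl n), q (σ_a x) (inl m))` if
`x ∈ 𝒢.E a n m`, `0` else (a row map: `isRow_piecewise`, `isRow_eval`, `isRow_ite`; the rows of `𝒢` are composed with it by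
`isRow_comp`).  `F` satisfies the hypotheses of `Coc 𝒢 … k (closedAt 𝒢 k)` (by `foldF_rs`; use `coc_rot` to pass from position `0` to
position `k`), so base-base readings of `𝒢` have `F`-sum `0`.  A base-base reading of `𝒢'` lifts
(`foldF_lift`) to a base-base reading of `𝒴` with the same sum; by `attach_decomp` with
`Z u v r := ∃ w, RS 𝒢 F w u v r` (a full arc is a loop with sum `0` because its image is in `imgL`;
its start and end coincide since the relator is trivial in `Γ`, `wval_seg`) it has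
the same sum as a base-base reading of `𝒢`. -/
theorem st_coc [Countable S] (h : Good e 𝒢 b) (hAm : ∀ p, MeasurableSet (A p))
    (hA : ∀ p, A p ⊆ nearAt e 𝒢 k p)
    {q : e.X → SS e S → SS e S} (hq : Rep (stY e 𝒢 k A) e.val (Sum.inl b) q) :
    ∃ (Q : Type) (_ : Countable Q) (A' : Q → Set e.X)
      (Φ : Q → (e.X → EI (Lab e.g) (SS e S) → ℝ) → e.X → ℝ), (∀ q, MeasurableSet (A' q)) ∧
      (∀ q, IsRow e.Γ (Φ q)) ∧ cnt e.μ A' ≤ ENNReal.ofReal e.δ ∧
      Coc e (stG e 𝒢 k A q) (Sum.inl b) A' Φ k (imgL e 𝒢 k A q) := by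
  classical
  have hsm : ∀ γ : e.Γ, Measurable fun x : e.X => γ • x := fun γ => (e.pmp γ).measurable
  obtain ⟨Q, hQ, A', Φ, hA'm, hΦ, hcnt, hcoc⟩ := h.coc
  have hcoc' := coc_rot e 𝒢 b h.folded A' Φ 0 k hcoc
  let ρ : EI (Lab e.g) S → (e.X → EI (Lab e.g) (SS e S) → ℝ) → e.X → ℝ := fun p F' y =>
    if y ∈ 𝒢.Es p then F' y (p.1, q y (Sum.inl p.2.1), q ((e.val p.1)⁻¹ • y) (Sum.inl p.2.2))
    else 0
  have hρ : ∀ p, IsRow e.Γ (ρ p) := by
    intro p
    refine isRow_ite (𝒢.Es p) (h.meas _ _ _) ?_ isRow_zero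
    exact isRow_piecewise (fun y => ((p.1, q y (Sum.inl p.2.1),
      q ((e.val p.1)⁻¹ • y) (Sum.inl p.2.2)) : EI (Lab e.g) (SS e S)))
      (fun ed => oldE_meas_aux hq p ed) (Φ := fun ed F x => F x ed) (fun ed => isRow_eval ed)
  refine ⟨Q, hQ, A', fun q' F' x => Φ q' (fun y p => ρ p F' y) x, hA'm,
    fun q' => isRow_comp hsm (hΦ q') ρ hρ, hcnt, ?_⟩
  intro F' h1 h2 h3 h4 w x y r hr
  set F : e.X → EI (Lab e.g) S → ℝ := fun y p => ρ p F' y with hF
  have hFE : ∀ (a : Lab e.g) (u v : e.X × S), (𝒢.G e.val) a u v →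
      efun F a u v = efun F' a (u.1, q u.1 (Sum.inl u.2)) (v.1, q v.1 (Sum.inl v.2)) := by
    rintro a u v ⟨hv, hu⟩
    have hu' : u.1 ∈ 𝒢.Es (a, u.2, v.2) := hu
    simp only [efun, hF, ρ, if_pos hu', hv]
  have hmap : ∀ {w : List (Lab e.g × Bool)} {u v : e.X × S} {r : ℝ},
      RS (𝒢.G e.val) (efun F) w u v r → RS ((stG e 𝒢 k A q).G e.val) (efun F') w
        (u.1, q u.1 (Sum.inl u.2)) (v.1, q v.1 (Sum.inl v.2)) r := by
    intro w
    induction w with
    | nil =>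
      rintro u v r ⟨rfl, rfl⟩
      exact ⟨rfl, rfl⟩
    | cons l w ih =>
      rintro u v r ⟨z, r', hs, hr', rfl⟩
      refine ⟨(z.1, q z.1 (Sum.inl z.2)), r', ?_, ih hr', ?_⟩
      · unfold Stp at hs ⊢
        split_ifs at hs ⊢
        · exact foldF_edge (q := q) (attach_old (𝒜 := loopArcs e k A) hs)
        · exact foldF_edge (q := q) (attach_old (𝒜 := loopArcs e k A) hs)
      · unfold Stp at hs
        unfold sgn
        split_ifs at hs ⊢
        · rw [hFE _ _ _ hs]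
        · rw [hFE _ _ _ hs]
  have hbase : ∀ w x y r, RS (𝒢.G e.val) (efun F) w (x, b) (y, b) r → r = 0 := by
    refine hcoc' F ?_ ?_ ?_ ?_
    · intro x a n m hx
      have hx' : x ∉ 𝒢.Es (a, n, m) := hx
      simp only [hF, ρ, if_neg hx']
    · intro x
      have hx' : x ∈ 𝒢.Es (none, b, b) := h.base_t x
      simp only [hF, ρ, if_pos hx', hq.base]
      exact h2 x
    · intro q' x hx
      exact h3 q' x hx
    · intro s i x r hx hr
      exact h4 (q x (Sum.inl s)) i x r ⟨s, Or.inl hx, rfl⟩ (hmap hr)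
  have hlift := foldF_lift (u := (x, Sum.inl b)) (v := (y, Sum.inl b)) hq (F := F') (w := w) (r := r)
    (by simp only [hq.base]; exact hr)
  obtain ⟨w', -, hw'⟩ := hlift
  have h0 : ∀ p, (loopArcs e k A).wd p ≠ [] := by
    intro p h
    have := congrArg List.length h
    simp [loopArcs, seg_length] at this
  have hZ := attach_decomp h0 (pull e.val q F')
    (fun u v r => ∃ w, RS (𝒢.G e.val) (efun F) w u v r) (fun u => ⟨[], rfl, rfl⟩)
    (fun u v r ⟨w, hw⟩ => ⟨winv w, rs_winv hw⟩)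
    (fun u v z r r' ⟨w, hw⟩ ⟨w₁, hw₁⟩ => ⟨w ++ w₁, rs_append.2 ⟨v, r, r', hw, hw₁, rfl⟩⟩)
    ?_ ?_ (u := (x, b)) (v := (y, b)) hw'
  · obtain ⟨w₁, hw₁⟩ := hZ
    exact hbase _ _ _ _ hw₁
  · intro a u v huv
    refine ⟨[(a, true)], v, 0, huv, ⟨rfl, rfl⟩, ?_⟩
    have hu' : u.1 ∈ 𝒢.Es (a, u.2, v.2) := huv.2
    simp only [sgn, efun, hF, ρ, if_pos hu', pull, if_true, add_zero]
  · intro p x hx
    have hx' : x ∈ A p := hx
    have e1 : (wval e.val ((loopArcs e k A).wd p))⁻¹ • x = x := by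
      have : wval e.val ((loopArcs e k A).wd p) = 1 := wval_seg e.val e.rel _ _
      rw [this, inv_one, one_smul]
    have h5 := attach_arc (𝒢 := 𝒢) (val := e.val) h0 (pull e.val q F') (k := p) hx
    rw [e1] at h5
    have h6 := foldF_rs (𝒴 := attach 𝒢 e.val (loopArcs e k A)) h5
    have h7 := h4 (q x (Sum.inl p.1)) p.2 x _ ⟨p.1, Or.inr hx', rfl⟩ h6
    rw [e1]
    exact ⟨[], rfl, h7⟩

/-- S3: degrees (`foldF_isV`, `attach_isV`, `foldF_deg`; an interior vertex of a loop has the two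
letters `rl (j)` and the inverse of `rl (j-1)`, different by `rl_red`; an old vertex has its old
letters; a start vertex of a loop is an old vertex since the reading of length `ℓ - 57 > 0`
starts there). -/
theorem st_D2 (h2 : D2 e 𝒢) (hf : Folded (𝒢.G e.val)) (hA : ∀ p, A p ⊆ nearAt e 𝒢 k p)
    {q : e.X → SS e S → SS e S} (hq : Rep (stY e 𝒢 k A) e.val (Sum.inl b) q) :
    D2 e (stG e 𝒢 k A q) := by
  classical
  have hℓ := e.cw.big
  have hmono : ∀ (y : e.X) (s : S), deg (𝒢.G e.val) (y, s) ≤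
      deg ((stY e 𝒢 k A).G e.val) (y, Sum.inl s) := by
    intro y s
    unfold deg
    refine Finset.card_le_card fun l hl => ?_
    simp only [Finset.mem_filter, Finset.mem_univ, true_and] at hl ⊢
    obtain ⟨z, hz⟩ := hl
    refine ⟨(z.1, Sum.inl z.2), ?_⟩
    unfold Stp at hz ⊢
    split_ifs at hz ⊢
    · exact attach_old (𝒜 := loopArcs e k A) hz
    · exact attach_old (𝒜 := loopArcs e k A) hz
  intro u hu
  obtain ⟨s, hs1, hs2⟩ := foldF_isV hu
  have h3 := foldF_deg (𝒴 := stY e 𝒢 k A) (val := e.val) (q := q) (u.1, s)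
  simp only [hs2] at h3
  refine le_trans ?_ h3
  have hold : ∀ s0 : S, IsV (𝒢.G e.val) (u.1, s0) → s = Sum.inl s0 →
      2 ≤ deg ((stY e 𝒢 k A).G e.val) (u.1, s) := by
    intro s0 h4 h5
    rw [h5]
    exact (h2 _ h4).trans (hmono _ _)
  rcases attach_isV hs1 with ⟨s0, h1, h4⟩ | ⟨p, j, x, hx, hj, hu'⟩
  · exact hold s0 h4 h1
  · have hlen : ((loopArcs e k A).wd p).length = e.ℓ + 3 := seg_length _ _ _
    rw [hlen] at hj
    rw [Prod.mk.injEq] at hu'
    obtain ⟨hu1, hu2⟩ := hu'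
    replace hx : x ∈ A p := hx
    have hsv := st_seed_isV hA hx
    rcases Nat.eq_zero_or_pos j with rfl | hj0
    · rw [st_pt_zero] at hu1
      rw [st_pos_zero] at hu2
      exact hold p.1 (by rw [hu1]; exact hsv) hu2
    · rcases eq_or_lt_of_le hj with rfl | hj1
      · rw [st_pt_end] at hu1
        rw [st_pos_end] at hu2
        exact hold p.1 (by rw [hu1]; exact hsv) hu2
      · obtain ⟨j, rfl⟩ : ∃ j', j = j' + 1 := ⟨j - 1, by omega⟩
        have a1 := st_arc_stp (𝒢 := 𝒢) (k := k) hx hj1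
        have a2 := st_arc_stp (𝒢 := 𝒢) (k := k) (j := j) hx (by omega)
        rw [← hu1, ← hu2] at a1 a2
        have a3 := stp_inv.2 a2
        have hne : rl e.c e.ℓ p.2 (k + (j + 1)) ≠
            ((rl e.c e.ℓ p.2 (k + j)).1, !(rl e.c e.ℓ p.2 (k + j)).2) := by
          intro h
          apply rl_red e.cw p.2 (k + j)
          rw [show k + j + 1 = k + (j + 1) by ring, h]
          exact ⟨rfl, rfl⟩
        have hsub : ({rl e.c e.ℓ p.2 (k + (j + 1)),
            ((rl e.c e.ℓ p.2 (k + j)).1, !(rl e.c e.ℓ p.2 (k + j)).2)} : Finset _) ⊆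
            Finset.univ.filter fun l : Lab e.g × Bool =>
              ∃ z, Stp ((stY e 𝒢 k A).G e.val) l (u.1, s) z := by
          intro l hl
          simp only [Finset.mem_insert, Finset.mem_singleton] at hl
          simp only [Finset.mem_filter, Finset.mem_univ, true_and]
          rcases hl with rfl | rfl
          · exact ⟨_, a1⟩
          · exact ⟨_, a3⟩
        have := Finset.card_le_card hsub
        rw [Finset.card_pair hne] at this
        unfold deg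
        convert this

namespace STDaux

theorem meas_r {q : e.X → SS e S → SS e S}
    (hq : Rep (stY e 𝒢 k A) e.val (Sum.inl b) q) (p : S × Fin e.g) (p' : SS e S × Fin e.g) :
    MeasurableSet {x | ((q x (Sum.inl p.1), p.2) : SS e S × Fin e.g) = p'} := by
  have : {x : e.X | ((q x (Sum.inl p.1), p.2) : SS e S × Fin e.g) = p'} =
      {_x : e.X | p.2 = p'.2} ∩ {x | q x (Sum.inl p.1) = p'.1} := by
    ext x
    simp only [Set.mem_ofPred_eq, Set.mem_inter_iff]
    constructor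
    · rintro rfl
      exact ⟨rfl, rfl⟩
    · rintro ⟨h1, h2⟩
      exact Prod.ext h2 h1
  rw [this]
  exact (MeasurableSet.const _).inter (hq.meas _ _)

theorem img_eq (q : e.X → SS e S → SS e S) :
    (fun p' : SS e S × Fin e.g => {x | ∃ p : S × Fin e.g, x ∈ allL e 𝒢 k A p ∧
      ((q x (Sum.inl p.1), p.2) : SS e S × Fin e.g) = p'}) = imgL e 𝒢 k A q := by
  funext p'
  ext x
  simp only [imgL, Set.mem_ofPred_eq]
  constructor
  · rintro ⟨⟨s, i⟩, h1, rfl⟩
    exact ⟨s, h1, rfl⟩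
  · rintro ⟨s, h1, h2⟩
    exact ⟨(s, p'.2), h1, Prod.ext h2 rfl⟩

end STDaux

/-- S5: `2 * #(images of old edges) + #dupE ≤ 2 * #Es` (`fib_two`) -/
theorem st_dupE [Countable S] (hm : FMeas 𝒢)
    {q : e.X → SS e S → SS e S} (hq : Rep (stY e 𝒢 k A) e.val (Sum.inl b) q) :
    2 * cnt e.μ (oldE e 𝒢 q) + cnt e.μ (dupE e 𝒢 q) ≤ 2 * cnt e.μ 𝒢.Es := by
  have hms : ∀ γ : e.Γ, Measurable fun x : e.X => γ • x := fun γ => (e.pmp γ).measurable
  have h := fib_two (μ := e.μ) (A := 𝒢.Es) (fun ed => hm ed.1 ed.2.1 ed.2.2)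
    (fun x (ed : EI (Lab e.g) S) => ((ed.1, q x (Sum.inl ed.2.1),
      q ((e.val ed.1)⁻¹ • x) (Sum.inl ed.2.2)) : EI (Lab e.g) (SS e S)))
    (by
      rintro ⟨a, n, m⟩ ⟨a', n', m'⟩
      have : {x : e.X | ((a, q x (Sum.inl n), q ((e.val a)⁻¹ • x) (Sum.inl m)) :
          EI (Lab e.g) (SS e S)) = (a', n', m')} =
          {_x : e.X | a = a'} ∩ ({x | q x (Sum.inl n) = n'} ∩
            (fun x : e.X => (e.val a)⁻¹ • x) ⁻¹' {x | q x (Sum.inl m) = m'}) := by
        ext x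
        simp only [Set.mem_ofPred_eq, Set.mem_inter_iff, Set.mem_preimage, Prod.mk.injEq]
      rw [this]
      exact (MeasurableSet.const _).inter ((hq.meas _ _).inter (hms _ (hq.meas _ _))))
  have e1 : (fun q_1 : EI (Lab e.g) (SS e S) => {x | ∃ p : EI (Lab e.g) S, x ∈ 𝒢.Es p ∧
      ((p.1, q x (Sum.inl p.2.1), q ((e.val p.1)⁻¹ • x) (Sum.inl p.2.2)) :
      EI (Lab e.g) (SS e S)) = q_1}) = oldE e 𝒢 q := by
    funext ed
    ext x
    simp only [oldE, Fld.Es, Set.mem_ofPred_eq]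
    constructor
    · rintro ⟨⟨a, n, m⟩, h1, rfl⟩
      exact ⟨n, m, h1, rfl, rfl⟩
    · rintro ⟨n, m, h1, h2, h3⟩
      exact ⟨(ed.1, n, m), h1, Prod.ext rfl (Prod.ext h2 h3)⟩
  have e2 : (fun p : EI (Lab e.g) S => {x | x ∈ 𝒢.Es p ∧ ∃ p' : EI (Lab e.g) S, p' ≠ p ∧
      x ∈ 𝒢.Es p' ∧ ((p'.1, q x (Sum.inl p'.2.1), q ((e.val p'.1)⁻¹ • x) (Sum.inl p'.2.2)) :
      EI (Lab e.g) (SS e S)) = (p.1, q x (Sum.inl p.2.1),
        q ((e.val p.1)⁻¹ • x) (Sum.inl p.2.2))}) = dupE e 𝒢 q := by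
    funext ed
    ext x
    simp only [dupE, Fld.Es, Set.mem_ofPred_eq]
    refine and_congr_right fun _ => ?_
    constructor
    · rintro ⟨⟨a, n, m⟩, h1, h2, h3⟩
      simp only [Prod.mk.injEq] at h3
      obtain ⟨h3, h4, h5⟩ := h3
      simp only at h2
      subst h3
      exact ⟨n, m, fun hh => h1 (Prod.ext rfl hh), h2, h4, h5⟩
    · rintro ⟨n, m, h1, h2, h3, h4⟩
      exact ⟨(ed.1, n, m), fun hh => h1 (congrArg Prod.snd hh), h2,
        Prod.ext rfl (Prod.ext h3 h4)⟩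
  rw [e1, e2] at h
  exact h

/-- S6: `#(closed loops) + #A ≤ #(closed loops of 𝒢') + #dupL` (`fib_le`, `imgL_closed`; `closedAt`
and `A ⊆ nearAt` are disjoint) -/
theorem st_loops [Countable S] (hm : FMeas 𝒢)
    (hAm : ∀ p, MeasurableSet (A p)) (hA : ∀ p, A p ⊆ nearAt e 𝒢 k p)
    {q : e.X → SS e S → SS e S} (hq : Rep (stY e 𝒢 k A) e.val (Sum.inl b) q) :
    cnt e.μ (closedAt e 𝒢 k) + cnt e.μ A ≤
      cnt e.μ (closedAt e (stG e 𝒢 k A q) k) + cnt e.μ (dupL e 𝒢 k A q) := by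
  have hallm : ∀ p, MeasurableSet (allL e 𝒢 k A p) := fun p =>
    (meas_closedAt e hm k p).union (hAm p)
  have h := fib_le (μ := e.μ) (A := allL e 𝒢 k A) hallm
    (fun x (p : S × Fin e.g) => ((q x (Sum.inl p.1), p.2) : SS e S × Fin e.g))
    (STDaux.meas_r hq)
  rw [STDaux.img_eq] at h
  have e2 : (fun p : S × Fin e.g => {x | x ∈ allL e 𝒢 k A p ∧ ∃ p' : S × Fin e.g, p' ≠ p ∧
      x ∈ allL e 𝒢 k A p' ∧ ((q x (Sum.inl p'.1), p'.2) : SS e S × Fin e.g) =
        (q x (Sum.inl p.1), p.2)}) = dupL e 𝒢 k A q := by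
    funext p
    ext x
    simp only [dupL, Set.mem_ofPred_eq]
    refine and_congr_right fun _ => ?_
    constructor
    · rintro ⟨⟨s', i'⟩, h1, h2, h3⟩
      simp only [Prod.mk.injEq] at h3
      obtain ⟨h3, h4⟩ := h3
      subst h4
      exact ⟨s', fun hh => h1 (Prod.ext hh rfl), h2, h3⟩
    · rintro ⟨s', h1, h2, h3⟩
      exact ⟨(s', p.2), fun hh => h1 (congrArg Prod.fst hh), h2, Prod.ext h3 rfl⟩
  rw [e2] at h
  have e3 : cnt e.μ (allL e 𝒢 k A) = cnt e.μ (closedAt e 𝒢 k) + cnt e.μ A := by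
    unfold cnt
    rw [← ENNReal.tsum_add]
    refine tsum_congr fun p => ?_
    refine measure_union ?_ (hAm p)
    rw [Set.disjoint_left]
    intro x hx hx'
    exact (hA p hx').2 hx
  rw [← e3]
  refine h.trans (add_le_add ?_ le_rfl)
  exact cnt_mono fun p => imgL_closed hq p

/-- S6': `#imgL ≤ #(closed loops) + #A` -/
theorem st_imgL [Countable S] (hm : FMeas 𝒢)
    (hAm : ∀ p, MeasurableSet (A p))
    {q : e.X → SS e S → SS e S} (hq : Rep (stY e 𝒢 k A) e.val (Sum.inl b) q) :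
    cnt e.μ (imgL e 𝒢 k A q) ≤ cnt e.μ (closedAt e 𝒢 k) + cnt e.μ A := by
  have hallm : ∀ p, MeasurableSet (allL e 𝒢 k A p) := fun p =>
    (meas_closedAt e hm k p).union (hAm p)
  have h := fib_image_le (μ := e.μ) (A := allL e 𝒢 k A) hallm
    (fun x (p : S × Fin e.g) => ((q x (Sum.inl p.1), p.2) : SS e S × Fin e.g))
    (STDaux.meas_r hq)
  rw [STDaux.img_eq] at h
  exact h.trans (cnt_union_le _ _)

theorem meas_imgL [Countable S] (hm : FMeas 𝒢)
    (hAm : ∀ p, MeasurableSet (A p))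
    {q : e.X → SS e S → SS e S} (hq : Rep (stY e 𝒢 k A) e.val (Sum.inl b) q)
    (p : SS e S × Fin e.g) : MeasurableSet (imgL e 𝒢 k A q p) := by
  have hallm : ∀ p, MeasurableSet (allL e 𝒢 k A p) := fun p =>
    (meas_closedAt e hm k p).union (hAm p)
  have h := mt_img_meas hallm
    (fun x (p : S × Fin e.g) => ((q x (Sum.inl p.1), p.2) : SS e S × Fin e.g))
    (STDaux.meas_r hq) p
  have h2 := congrFun (STDaux.img_eq (e := e) (𝒢 := 𝒢) (k := k) (A := A) q) p
  rw [← h2]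
  exact h

namespace STEaux

/-- projection of the old graph to the new one -/
def pj {e : Env} {S : Type} (q : e.X → SS e S → SS e S) (u : e.X × S) : e.X × SS e S :=
  (u.1, q u.1 (Sum.inl u.2))

theorem stp_pj {q : e.X → SS e S → SS e S} {ε : Lab e.g × Bool} {u v : e.X × S}
    (h : Stp (𝒢.G e.val) ε u v) : Stp ((stG e 𝒢 k A q).G e.val) ε (pj q u) (pj q v) := by
  unfold Stp at h ⊢
  split_ifs at h ⊢
  · exact foldF_edge (attach_old h)
  · exact foldF_edge (attach_old h)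

theorem rd_pj {q : e.X → SS e S → SS e S} {w : List (Lab e.g × Bool)} {u v : e.X × S}
    (h : Rd (𝒢.G e.val) w u v) : Rd ((stG e 𝒢 k A q).G e.val) w (pj q u) (pj q v) := by
  induction w generalizing u with
  | nil => exact congrArg _ h
  | cons ε w ih =>
    obtain ⟨z, h1, h2⟩ := h
    exact ⟨pj q z, stp_pj h1, ih h2⟩

/-- the vertex `(y,s)` is an end point of an edge in `dupE` -/
def EndP (e : Env) {S : Type} (𝒢 : Fld (Lab e.g) e.X S) (q : e.X → SS e S → SS e S)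
    (y : e.X) (s : S) : Prop :=
  ∃ ed : EI (Lab e.g) S, (s = ed.2.1 ∧ y ∈ dupE e 𝒢 q ed) ∨
    (s = ed.2.2 ∧ e.val ed.1 • y ∈ dupE e 𝒢 q ed)

theorem edge_dup {q : e.X → SS e S → SS e S} {a : Lab e.g} {u v u' v' : e.X × S}
    (h : (𝒢.G e.val) a u v) (h' : (𝒢.G e.val) a u' v') (hu : pj q u = pj q u')
    (hv : pj q v = pj q v') (hne : (u'.2, v'.2) ≠ (u.2, v.2)) :
    u.1 ∈ dupE e 𝒢 q (a, u.2, v.2) := by
  obtain ⟨h1, h2⟩ := h
  obtain ⟨h1', h2'⟩ := h'
  have e1 : u.1 = u'.1 := (Prod.ext_iff.1 hu).1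
  have e2 : q u.1 (Sum.inl u.2) = q u'.1 (Sum.inl u'.2) := (Prod.ext_iff.1 hu).2
  have e3 : q v.1 (Sum.inl v.2) = q v'.1 (Sum.inl v'.2) := (Prod.ext_iff.1 hv).2
  refine ⟨h2, u'.2, v'.2, hne, by rw [e1]; exact h2', ?_, ?_⟩
  · show q u.1 (Sum.inl u'.2) = q u.1 (Sum.inl u.2)
    rw [e2, e1]
  · show q ((e.val a)⁻¹ • u.1) (Sum.inl v'.2) = q ((e.val a)⁻¹ • u.1) (Sum.inl v.2)
    rw [← h1, e3, h1', ← e1, h1]

theorem step_dup {q : e.X → SS e S → SS e S} {ε : Lab e.g × Bool} {u v u' v' : e.X × S}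
    (h : Stp (𝒢.G e.val) ε u v) (h' : Stp (𝒢.G e.val) ε u' v') (hu : pj q u = pj q u')
    (hv : pj q v = pj q v') (hne : u.2 ≠ u'.2) (hne' : v.2 ≠ v'.2) :
    EndP e 𝒢 q u.1 u.2 ∧ EndP e 𝒢 q v.1 v.2 := by
  unfold Stp at h h'
  split_ifs at h h' with hε
  · have := edge_dup h h' hu hv (fun hh => hne (congrArg Prod.fst hh).symm)
    refine ⟨⟨_, Or.inl ⟨rfl, this⟩⟩, ⟨(ε.1, u.2, v.2), Or.inr ⟨rfl, ?_⟩⟩⟩
    show e.val ε.1 • v.1 ∈ _
    rw [h.1, smul_inv_smul]; exact this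
  · have := edge_dup h h' hv hu (fun hh => hne' (congrArg Prod.fst hh).symm)
    refine ⟨⟨(ε.1, v.2, u.2), Or.inr ⟨rfl, ?_⟩⟩, ⟨_, Or.inl ⟨rfl, this⟩⟩⟩
    show e.val ε.1 • u.1 ∈ _
    rw [h.1, smul_inv_smul]; exact this

/-- splitting a reading of a segment -/
theorem seg_split {V : Type} {G : Lab e.g → V → V → Prop} {i : Fin e.g} {n j : ℕ} {u v : V}
    (h : Rd G (seg e.c e.ℓ i k n) u v) (hj : j ≤ n) : ∃ z, Rd G (seg e.c e.ℓ i k j) u z ∧
      Rd G (seg e.c e.ℓ i (k + j) (n - j)) z v := by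
  obtain ⟨m, rfl⟩ := Nat.exists_eq_add_of_le hj
  rw [seg_add, rd_append] at h
  obtain ⟨z, h1, h2⟩ := h
  refine ⟨z, h1, ?_⟩
  rwa [Nat.add_sub_cancel_left]

/-- all vertices visited by the reading from a point of `dupL` are end points of edges in `dupE` -/
theorem visit_endP (hf : Folded (𝒢.G e.val)) (hA : ∀ p, A p ⊆ nearAt e 𝒢 k p)
    {q : e.X → SS e S → SS e S} (hq : Rep (stY e 𝒢 k A) e.val (Sum.inl b) q)
    {s : S} {i : Fin e.g} {x : e.X} (hx : x ∈ dupL e 𝒢 k A q (s, i)) {j : ℕ}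
    (hj : j ≤ e.ℓ - 57) {z : e.X × S} (hz : Rd (𝒢.G e.val) (seg e.c e.ℓ i k j) (x, s) z) :
    EndP e 𝒢 q z.1 z.2 := by
  obtain ⟨hx1, s', hs', hx2, hqq⟩ := hx
  obtain ⟨v, hv⟩ := allL_read hf hA hx1
  obtain ⟨v', hv'⟩ := allL_read hf hA hx2
  have hF : Folded ((stG e 𝒢 k A q).G e.val) := foldF_folded hq
  have hp0 : pj q (x, s) = pj q (x, s') := by
    show (x, q x (Sum.inl s)) = (x, q x (Sum.inl s'))
    rw [hqq]
  -- key: positions
  have key : ∀ j ≤ e.ℓ - 57, ∀ z z', Rd (𝒢.G e.val) (seg e.c e.ℓ i k j) (x, s) z →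
      Rd (𝒢.G e.val) (seg e.c e.ℓ i k j) (x, s') z' → pj q z = pj q z' ∧ z.2 ≠ z'.2 := by
    intro j hj z z' h h'
    have h1 : pj q z = pj q z' := by
      have a1 := rd_pj (k := k) (A := A) (q := q) h
      have a2 := rd_pj (k := k) (A := A) (q := q) h'
      rw [hp0] at a1
      exact hF.rd_unique a1 a2
    refine ⟨h1, fun hh => ?_⟩
    have h2 : z = z' := Prod.ext (Prod.ext_iff.1 h1).1 hh
    subst h2
    exact hs' (congrArg Prod.snd (hf.rd_left h' h))
  have hℓ : 1000 ≤ e.ℓ := e.cw.big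
  rcases Nat.lt_or_ge j (e.ℓ - 57) with hj' | hj'
  · -- next edge
    obtain ⟨z1, h1, h2⟩ := seg_split hv (show j ≤ e.ℓ - 57 by omega)
    obtain ⟨z1', h1', h2'⟩ := seg_split hv' (show j ≤ e.ℓ - 57 by omega)
    obtain rfl := hf.rd_unique hz h1
    obtain ⟨m, hm⟩ : ∃ m, e.ℓ - 57 - j = m + 1 := ⟨e.ℓ - 57 - j - 1, by omega⟩
    rw [hm, seg_succ] at h2 h2'
    obtain ⟨z2, g1, g2⟩ := h2
    obtain ⟨z2', g1', g2'⟩ := h2'
    have r2 : Rd (𝒢.G e.val) (seg e.c e.ℓ i k (j + 1)) (x, s) z2 := by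
      rw [seg_add, rd_append]
      refine ⟨z, h1, ?_⟩
      rw [seg_succ]
      exact ⟨z2, g1, rfl⟩
    have r2' : Rd (𝒢.G e.val) (seg e.c e.ℓ i k (j + 1)) (x, s') z2' := by
      rw [seg_add, rd_append]
      refine ⟨z1', h1', ?_⟩
      rw [seg_succ]
      exact ⟨z2', g1', rfl⟩
    obtain ⟨k1, k2⟩ := key j hj _ _ h1 h1'
    obtain ⟨k3, k4⟩ := key (j + 1) hj' _ _ r2 r2'
    exact (step_dup g1 g1' k1 k3 k2 k4).1
  · have hje : j = e.ℓ - 57 := le_antisymm hj hj'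
    obtain ⟨m, hm⟩ : ∃ m, e.ℓ - 57 = m + 1 := ⟨e.ℓ - 57 - 1, by omega⟩
    rw [hje, hm] at hz
    rw [hm] at hv'
    obtain ⟨z1, h1, h2⟩ := seg_split hz (Nat.le_succ m)
    obtain ⟨z1', h1', h2'⟩ := seg_split hv' (Nat.le_succ m)
    have hm1 : m + 1 - m = 0 + 1 := by omega
    rw [hm1, seg_succ] at h2 h2'
    obtain ⟨z2, g1, g2⟩ := h2
    obtain ⟨z2', g1', g2'⟩ := h2'
    have g3 : z2 = z := g2
    have g3' : z2' = v' := g2'
    subst g3
    subst g3'
    obtain ⟨k1, k2⟩ := key m (by omega) _ _ h1 h1'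
    obtain ⟨k3, k4⟩ := key (m + 1) (by omega) _ _ hz hv'
    exact (step_dup g1 g1' k1 k3 k2 k4).2

end STEaux

/-- S7: `1000 * #dupL ≤ #dupE`, provided `g (ℓ+4) #allL ≤ 1`.

Let `W` be the family of all vertices visited by the readings of `seg i k (ℓ-57)` from the points of
`dupL` (`allL_read`).  If `x ∈ dupL (s,i)` with partner `s'`, the readings from `(x,s)` and `(x,s')`
have the same images in the folded field but different vertices at each position (`rd_left`), so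
all edges of the reading are in `dupE`; hence `cnt W ≤ 2 * cnt dupE` (`mt_le`: every vertex of `W` is
an end point of an edge in `dupE`; an edge has two end points).  Also `cnt W ≤ (ℓ-56) * cnt dupL ≤
(ℓ+4) * cnt allL`, so `g * cnt W ≤ 1` and `CLT` gives `2000 * cnt dupL ≤ cnt W`. -/
theorem st_dupL [Countable S] (hm : FMeas 𝒢) (hf : Folded (𝒢.G e.val))
    (hAm : ∀ p, MeasurableSet (A p)) (hA : ∀ p, A p ⊆ nearAt e 𝒢 k p)
    {q : e.X → SS e S → SS e S} (hq : Rep (stY e 𝒢 k A) e.val (Sum.inl b) q)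
    (hsm : ((e.ℓ : ℝ≥0∞) + 4) * cnt e.μ (allL e 𝒢 k A) * e.g ≤ 1) :
    1000 * cnt e.μ (dupL e 𝒢 k A q) ≤ cnt e.μ (dupE e 𝒢 q) := by
  classical
  have hms : ∀ γ : e.Γ, Measurable fun x : e.X => γ • x := fun γ => (e.pmp γ).measurable
  -- measurability of the coincidence sets
  have hqm : ∀ s s' : SS e S, MeasurableSet {x | q x s = q x s'} := by
    intro s s'
    have : {x | q x s = q x s'} = ⋃ c, ({x | q x s = c} ∩ {x | q x s' = c}) := by
      ext x
      simp only [Set.mem_setOf_eq, Set.mem_iUnion, Set.mem_inter_iff]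
      constructor
      · intro h; exact ⟨_, rfl, h.symm⟩
      · rintro ⟨c, h1, h2⟩; rw [h1, h2]
    rw [this]
    exact MeasurableSet.iUnion fun c => (hq.meas s c).inter (hq.meas s' c)
  have hallm : ∀ p, MeasurableSet (allL e 𝒢 k A p) := fun p =>
    (meas_closedAt e hm k p).union (hAm p)
  have hdupL : ∀ p, MeasurableSet (dupL e 𝒢 k A q p) := by
    intro p
    have : dupL e 𝒢 k A q p = allL e 𝒢 k A p ∩ ⋃ s', ⋃ (_ : s' ≠ p.1),
        (allL e 𝒢 k A (s', p.2) ∩ {x | q x (Sum.inl s') = q x (Sum.inl p.1)}) := by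
      ext x
      simp only [dupL, Set.mem_setOf_eq, Set.mem_inter_iff, Set.mem_iUnion, exists_prop]
    rw [this]
    exact (hallm p).inter (MeasurableSet.iUnion fun s' => MeasurableSet.iUnion fun _ =>
      (hallm _).inter (hqm _ _))
  have hdupE : ∀ ed, MeasurableSet (dupE e 𝒢 q ed) := by
    rintro ⟨a, n, m⟩
    have : dupE e 𝒢 q (a, n, m) = 𝒢.E a n m ∩ ⋃ n', ⋃ m', ⋃ (_ : (n', m') ≠ (n, m)),
        (𝒢.E a n' m' ∩ ({x | q x (Sum.inl n') = q x (Sum.inl n)} ∩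
          (fun x : e.X => (e.val a)⁻¹ • x) ⁻¹' {x | q x (Sum.inl m') = q x (Sum.inl m)})) := by
      ext x
      simp only [dupE, Fld.Es, Set.mem_setOf_eq, Set.mem_inter_iff, Set.mem_iUnion, exists_prop,
        Set.mem_preimage]
    rw [this]
    exact (hm a n m).inter (MeasurableSet.iUnion fun n' => MeasurableSet.iUnion fun m' =>
      MeasurableSet.iUnion fun _ => (hm _ _ _).inter ((hqm _ _).inter (hms _ (hqm _ _))))
  -- the family of visited vertices
  set VV : Fin e.g → ℕ → S → S → Set e.X := fun i j s₀ s => {y |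
    wval e.val (seg e.c e.ℓ i k j) • y ∈ dupL e 𝒢 k A q (s₀, i) ∧
    Rd (𝒢.G e.val) (seg e.c e.ℓ i k j) (wval e.val (seg e.c e.ℓ i k j) • y, s₀) (y, s)} with hVV
  have hVVm : ∀ i j s₀ s, MeasurableSet (VV i j s₀ s) := by
    intro i j s₀ s
    have h1 := meas_rd (val := e.val) hms hm (seg e.c e.ℓ i k j) s₀ s _ rfl
    have h2 := hms (wval e.val (seg e.c e.ℓ i k j)) h1
    have h3 := hms (wval e.val (seg e.c e.ℓ i k j)) (hdupL (s₀, i))
    have : VV i j s₀ s = (fun x : e.X => wval e.val (seg e.c e.ℓ i k j) • x) ⁻¹'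
        (dupL e 𝒢 k A q (s₀, i)) ∩ (fun x : e.X => wval e.val (seg e.c e.ℓ i k j) • x) ⁻¹'
        {x | Rd (𝒢.G e.val) (seg e.c e.ℓ i k j) (x, s₀)
          ((wval e.val (seg e.c e.ℓ i k j))⁻¹ • x, s)} := by
      ext y
      simp only [hVV, Set.mem_setOf_eq, Set.mem_inter_iff, Set.mem_preimage, inv_smul_smul]
    rw [this]
    exact h3.inter h2
  set W : S → Set e.X := fun s => {y | ∃ i j s₀, j ≤ e.ℓ - 57 ∧ y ∈ VV i j s₀ s} with hW
  have hWm : ∀ s, MeasurableSet (W s) := by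
    intro s
    have : W s = ⋃ i, ⋃ j, ⋃ s₀, ⋃ (_ : j ≤ e.ℓ - 57), VV i j s₀ s := by
      ext y
      simp only [hW, Set.mem_setOf_eq, Set.mem_iUnion, exists_prop]
    rw [this]
    exact MeasurableSet.iUnion fun i => MeasurableSet.iUnion fun j => MeasurableSet.iUnion
      fun s₀ => MeasurableSet.iUnion fun _ => hVVm i j s₀ s
  -- reading from a point of `dupL` stays in `W`
  have hWin : ∀ s i x j z, x ∈ dupL e 𝒢 k A q (s, i) → j ≤ e.ℓ - 57 →
      Rd (𝒢.G e.val) (seg e.c e.ℓ i k j) (x, s) z → z.1 ∈ W z.2 := by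
    intro s i x j z hx hj hz
    have hp : z.1 = (wval e.val (seg e.c e.ℓ i k j))⁻¹ • x := rd_point hz
    refine ⟨i, j, s, hj, ?_, ?_⟩
    · rw [hp, smul_inv_smul]; exact hx
    · rw [hp, smul_inv_smul, ← hp]; exact hz
  -- `cnt W ≤ (ℓ - 56) cnt dupL`
  have hW1 : cnt e.μ W ≤ ((e.ℓ : ℝ≥0∞) + 4) * cnt e.μ (dupL e 𝒢 k A q) := by
    have hh := mt_le (Γ := e.Γ) (P := S) (Q := S × Fin e.g) e.pmp (A := W)
      (B := dupL e 𝒢 k A q) hdupL
      (fun s γ p => {y | ∃ j, j ≤ e.ℓ - 57 ∧ γ = wval e.val (seg e.c e.ℓ p.2 k j) ∧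
        y ∈ VV p.2 j p.1 s})
      (by
        intro s γ p
        have : {y | ∃ j, j ≤ e.ℓ - 57 ∧ γ = wval e.val (seg e.c e.ℓ p.2 k j) ∧
            y ∈ VV p.2 j p.1 s} = ⋃ j, ⋃ (_ : j ≤ e.ℓ - 57),
            ⋃ (_ : γ = wval e.val (seg e.c e.ℓ p.2 k j)), VV p.2 j p.1 s := by
          ext y
          simp only [Set.mem_setOf_eq, Set.mem_iUnion, exists_prop]
        rw [this]
        exact MeasurableSet.iUnion fun j => MeasurableSet.iUnion fun _ =>
          MeasurableSet.iUnion fun _ => hVVm _ _ _ _)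
      1 (e.ℓ - 57 + 1)
      (by
        rintro s y ⟨i, j, s₀, hj, hy⟩
        rw [Nat.cast_one, Set.one_le_encard_iff_nonempty]
        exact ⟨(wval e.val (seg e.c e.ℓ i k j), (s₀, i)), j, hj, rfl, hy⟩)
      (by
        rintro s γ p y ⟨j, hj, rfl, hy⟩
        exact hy.1)
      (by
        rintro ⟨s₀, i⟩ y
        have hsub : {gp : e.Γ × S | gp.1⁻¹ • y ∈ {y | ∃ j, j ≤ e.ℓ - 57 ∧
            gp.1 = wval e.val (seg e.c e.ℓ i k j) ∧ y ∈ VV i j s₀ gp.2}} ⊆
            ⋃ j ∈ Finset.range (e.ℓ - 57 + 1), {gp : e.Γ × S |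
              gp.1 = wval e.val (seg e.c e.ℓ i k j) ∧ gp.1⁻¹ • y ∈ VV i j s₀ gp.2} := by
          rintro ⟨γ, s⟩ ⟨j, hj, h1, h2⟩
          simp only [Set.mem_iUnion, Finset.mem_range, exists_prop]
          exact ⟨j, by omega, h1, h2⟩
        refine (Set.encard_le_encard hsub).trans ?_
        refine (Finset.set_encard_biUnion_le _ _).trans ?_
        refine (Finset.sum_le_sum (g := fun _ => (1 : ℕ∞)) ?_).trans ?_
        · intro j _
          rw [Set.encard_le_one_iff]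
          rintro ⟨γ, s⟩ ⟨γ', s'⟩ ⟨h1, h2⟩ ⟨h1', h2'⟩
          simp only at h1 h1' h2 h2'
          subst h1
          subst h1'
          have g1 := h2.2
          have g2 := h2'.2
          exact Prod.ext rfl (Prod.ext_iff.1 (hf.rd_unique g1 g2)).2
        · simp)
    rw [Nat.cast_one, one_mul] at hh
    refine hh.trans ?_
    gcongr
    have : e.ℓ - 57 + 1 ≤ e.ℓ + 4 := by omega
    calc ((e.ℓ - 57 + 1 : ℕ) : ℝ≥0∞) ≤ ((e.ℓ + 4 : ℕ) : ℝ≥0∞) := by exact_mod_cast this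
      _ = (e.ℓ : ℝ≥0∞) + 4 := by push_cast; rfl
  have hWc : cnt e.μ W * e.g ≤ 1 := by
    refine le_trans ?_ hsm
    gcongr
    refine hW1.trans ?_
    gcongr
    exact cnt_mono fun p x hx => hx.1
  -- CLT
  have hCLT := CLT e 𝒢 hm hf k W hWm hWc (dupL e 𝒢 k A q) hdupL (by
    intro s i x hx
    obtain ⟨v, hv⟩ := allL_read hf hA hx.1
    refine ⟨v, (rdW_iff hf).2 ⟨hv, ?_⟩⟩
    intro j hj z hz
    rw [seg_length] at hj
    rw [seg_take _ _ _ _ hj] at hz
    exact hWin s i x j z hx hj hz)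
  -- every vertex of `W` is an end point of an edge in `dupE`
  have hW2 : cnt e.μ W ≤ 2 * cnt e.μ (dupE e 𝒢 q) := by
    have hh := mt_le (Γ := e.Γ) (P := S) (Q := EI (Lab e.g) S) e.pmp (A := W)
      (B := dupE e 𝒢 q) hdupE
      (fun s γ ed => {y | (γ = 1 ∧ s = ed.2.1 ∧ y ∈ dupE e 𝒢 q ed) ∨
        (γ = e.val ed.1 ∧ s = ed.2.2 ∧ e.val ed.1 • y ∈ dupE e 𝒢 q ed)})
      (by
        intro s γ ed
        have : {y : e.X | (γ = 1 ∧ s = ed.2.1 ∧ y ∈ dupE e 𝒢 q ed) ∨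
            (γ = e.val ed.1 ∧ s = ed.2.2 ∧ e.val ed.1 • y ∈ dupE e 𝒢 q ed)} =
            (⋃ (_ : γ = 1), ⋃ (_ : s = ed.2.1), dupE e 𝒢 q ed) ∪
            (⋃ (_ : γ = e.val ed.1), ⋃ (_ : s = ed.2.2),
              (fun x : e.X => e.val ed.1 • x) ⁻¹' dupE e 𝒢 q ed) := by
          ext y
          simp only [Set.mem_setOf_eq, Set.mem_union, Set.mem_iUnion, exists_prop,
            Set.mem_preimage]
        rw [this]
        exact (MeasurableSet.iUnion fun _ => MeasurableSet.iUnion fun _ => hdupE ed).union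
          (MeasurableSet.iUnion fun _ => MeasurableSet.iUnion fun _ => hms _ (hdupE ed)))
      1 2
      (by
        rintro s y ⟨i, j, s₀, hj, hy⟩
        rw [Nat.cast_one, Set.one_le_encard_iff_nonempty]
        obtain ⟨ed, hed⟩ := STEaux.visit_endP hf hA hq hy.1 hj hy.2
        rcases hed with ⟨h1, h2⟩ | ⟨h1, h2⟩
        · exact ⟨(1, ed), Or.inl ⟨rfl, h1, h2⟩⟩
        · exact ⟨(e.val ed.1, ed), Or.inr ⟨rfl, h1, h2⟩⟩)
      (by
        rintro s γ ed y (⟨rfl, h1, h2⟩ | ⟨rfl, h1, h2⟩)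
        · rwa [one_smul]
        · exact h2)
      (by
        intro ed y
        have hsub : {gp : e.Γ × S | gp.1⁻¹ • y ∈ {y | (gp.1 = 1 ∧ gp.2 = ed.2.1 ∧
            y ∈ dupE e 𝒢 q ed) ∨ (gp.1 = e.val ed.1 ∧ gp.2 = ed.2.2 ∧
            e.val ed.1 • y ∈ dupE e 𝒢 q ed)}} ⊆
            {((1 : e.Γ), ed.2.1), (e.val ed.1, ed.2.2)} := by
          rintro ⟨γ, s⟩ (⟨h1, h2, -⟩ | ⟨h1, h2, -⟩)
          · left; exact Prod.ext h1 h2
          · right; exact Prod.ext h1 h2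
        refine (Set.encard_le_encard hsub).trans ?_
        refine (Set.encard_insert_le _ _).trans ?_
        rw [Set.encard_singleton]
        norm_num)
    rw [Nat.cast_one, one_mul] at hh
    exact_mod_cast hh
  have h3 : 2 * (1000 * cnt e.μ (dupL e 𝒢 k A q)) ≤ 2 * cnt e.μ (dupE e 𝒢 q) := by
    calc 2 * (1000 * cnt e.μ (dupL e 𝒢 k A q)) = 2000 * cnt e.μ (dupL e 𝒢 k A q) := by
          rw [← mul_assoc]; norm_num
      _ ≤ _ := hCLT.trans hW2
  exact (ENNReal.mul_le_mul_iff_right (by norm_num) (by norm_num)).1 h3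

end Crest.Agent.R191
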