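import Crest.Agent.R191.Stage

/-!
# R191: assembly of one stage (helper49)
-/

set_option autoImplicit false

namespace Crest.Agent.R191

open MeasureTheory
open scoped ENNReal

theorem stage (e : Env) {S : Type} [Countable S] {𝒢 : Fld (Lab e.g) e.X S} {b : S}
    (h : Good e 𝒢 b) (h2 : D2 e 𝒢)
    (hF : cnt e.μ (closedAt e 𝒢 0) ≤ ENNReal.ofReal (e.δ / 2)) (k : ℕ)
    (A : S × Fin e.g → Set e.X) (hAm : ∀ p, MeasurableSet (A p))
    (hA : ∀ p, A p ⊆ nearAt e 𝒢 k p) (hAc : cnt e.μ A ≤ ENNReal.ofReal (e.δ / 4)) :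
    ∃ (S' : Type) (_ : Countable S') (𝒢' : Fld (Lab e.g) e.X S') (b' : S')
      (ι : e.X → S → S'), Good e 𝒢' b' ∧ D2 e 𝒢' ∧ (∀ x, ι x b = b') ∧
      (∀ a u v, (𝒢.G e.val) a u v → (𝒢'.G e.val) a (u.1, ι u.1 u.2) (v.1, ι v.1 v.2)) ∧
      (∀ s i x, x ∈ A (s, i) → x ∈ closedAt e 𝒢' k (ι x s, i)) ∧
      cnt e.μ 𝒢'.Es + 61 * cnt e.μ (closedAt e 𝒢 0) + cnt e.μ A ≤
        cnt e.μ 𝒢.Es + 61 * cnt e.μ (closedAt e 𝒢' 0) := by
  have hδ := e.δpos
  have hYm : FMeas (stY e 𝒢 k A) :=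
    meas_attach (fun γ => e.meas_smul γ) h.meas (loopArcs e k A) hAm
  obtain ⟨q, hq⟩ := exists_rep (val := e.val) (fun γ => e.meas_smul γ) hYm (Sum.inl b)
  have hAfin : cnt e.μ A ≠ ⊤ := ne_top_of_le_ne_top ENNReal.ofReal_ne_top hAc
  have hbase := st_base h.toBase hAm hA hAfin hq
  obtain ⟨Q, hQ, A', Φ, hA', hΦ, hcA', hcoc⟩ := st_coc h hAm hA hq
  have hrot : cnt e.μ (closedAt e 𝒢 k) = cnt e.μ (closedAt e 𝒢 0) :=
    cnt_closedAt e 𝒢 h.meas h.folded k
  have himg : cnt e.μ (imgL e 𝒢 k A q) ≤ ENNReal.ofReal (3 * e.δ / 4) := by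
    refine (st_imgL h.meas hAm hq).trans ?_
    rw [hrot]
    refine (add_le_add hF hAc).trans ?_
    rw [← ENNReal.ofReal_add (by positivity) (by positivity)]
    exact ENNReal.ofReal_le_ofReal (by linarith)
  have hstar := star e (stG e 𝒢 k A q) (Sum.inl b) hbase A' Φ hA' hΦ k
    (imgL e 𝒢 k A q) (fun p => meas_imgL h.meas hAm hq p)
    (fun p => imgL_closed hq p) hcoc
  refine ⟨SS e S, inferInstance, stG e 𝒢 k A q, Sum.inl b, fun x s => q x (Sum.inl s),
    ⟨hbase, ?_, ?_⟩, st_D2 h2 h.folded hA hq, ?_, ?_, ?_, ?_⟩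
  · refine ⟨Q, hQ, A', Φ, hA', hΦ, hcA', ?_⟩
    exact coc_rot e _ _ hbase.folded A' Φ k 0
      (coc_mono e _ _ A' Φ k (fun p => imgL_closed hq p) hcoc)
  · refine hstar.trans ?_
    gcongr
    refine (add_le_add hcA' himg).trans ?_
    rw [← ENNReal.ofReal_add (by positivity) (by positivity)]
    exact ENNReal.ofReal_le_ofReal (by linarith)
  · intro x
    exact hq.base x
  · intro a u v huv
    exact foldF_edge (attach_old huv)
  · intro s i x hx
    exact imgL_closed hq (q x (Sum.inl s), i) ⟨s, Or.inr hx, rfl⟩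
  · -- arithmetic
    have hall : cnt e.μ (allL e 𝒢 k A) ≤ ENNReal.ofReal e.δ := by
      refine (cnt_union_le _ _).trans ?_
      rw [hrot]
      refine (add_le_add hF hAc).trans ?_
      rw [← ENNReal.ofReal_add (by positivity) (by positivity)]
      exact ENNReal.ofReal_le_ofReal (by linarith)
    have hsm : ((e.ℓ : ℝ≥0∞) + 4) * cnt e.μ (allL e 𝒢 k A) * e.g ≤ 1 := by
      calc ((e.ℓ : ℝ≥0∞) + 4) * cnt e.μ (allL e 𝒢 k A) * e.g
          ≤ ((e.ℓ : ℝ≥0∞) + 4) * ENNReal.ofReal e.δ * e.g := by gcongr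
        _ = ENNReal.ofReal (((e.ℓ : ℝ) + 4) * e.δ * e.g) := by
            rw [ENNReal.ofReal_mul (by positivity), ENNReal.ofReal_mul (by positivity),
              ENNReal.ofReal_add (by positivity) (by positivity)]
            simp
        _ ≤ 1 := by
            rw [← ENNReal.ofReal_one]
            exact ENNReal.ofReal_le_ofReal e.num2
    have h4 := st_edges h.meas h.folded hAm hA hq
    have h5 := st_dupE h.meas (A := A) (k := k) hq
    have h6 := st_loops h.meas hAm hA hq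
    have h7 := st_dupL h.meas h.folded hAm hA hq hsm
    have hrot' : cnt e.μ (closedAt e (stG e 𝒢 k A q) k) =
        cnt e.μ (closedAt e (stG e 𝒢 k A q) 0) :=
      cnt_closedAt e _ hbase.meas hbase.folded k
    rw [hrot, hrot'] at h6
    set E' := cnt e.μ (stG e 𝒢 k A q).Es
    set E₀ := cnt e.μ (oldE e 𝒢 q)
    set dE := cnt e.μ (dupE e 𝒢 q)
    set dL := cnt e.μ (dupL e 𝒢 k A q)
    set F' := cnt e.μ (closedAt e (stG e 𝒢 k A q) 0)
    set F := cnt e.μ (closedAt e 𝒢 0)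
    set a := cnt e.μ A
    set E := cnt e.μ 𝒢.Es
    have key : 2 * (E' + 61 * F + a) ≤ 2 * (E + 61 * F') := by
      calc 2 * (E' + 61 * F + a) ≤ 2 * ((E₀ + 60 * a) + 61 * F + a) := by gcongr
        _ = 2 * E₀ + 122 * (F + a) := by ring
        _ ≤ 2 * E₀ + 122 * (F' + dL) := by gcongr
        _ = 2 * E₀ + 122 * F' + 122 * dL := by ring
        _ ≤ 2 * E₀ + 122 * F' + 1000 * dL := by gcongr; norm_num
        _ ≤ 2 * E₀ + 122 * F' + dE := by gcongr
        _ = (2 * E₀ + dE) + 122 * F' := by ring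
        _ ≤ 2 * E + 122 * F' := by gcongr
        _ = 2 * (E + 61 * F') := by ring
    exact (ENNReal.mul_le_mul_iff_right (by simp) (by simp)).1 key

end Crest.Agent.R191
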